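import Crest.Prelude.Def_MilnorK

/-!
# From a multiplicative collineation to a field isomorphism (module for S0010)

`K`, `L` fields of characteristic `p`, `K0 = K^p`, `L0 = L^p`.  An additive isomorphism
`Φ : KOne K p ≃+ KOne L p` which maps every "line through `[1]`" into a line through `[1]`
(in both directions) is induced by a field isomorphism `K ≃+* L`
(`collin_exists_ringEquiv`).  This is a hand-rolled fundamental theorem of projective
geometry, shortened by the multiplicativity of `Φ`.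
-/

set_option autoImplicit false
set_option linter.unusedSectionVars false

namespace Crest.Agent.S0010
open Crest.NumberTheoryR.MilnorK

/-- The subfield of `p`-th powers. -/
def collinK0 (K : Type*) (p : ℕ) [Field K] [Fact p.Prime] [CharP K p] : Subfield K :=
  (frobenius K p).fieldRange

open Classical in
/-- The total class map `K → KOne K p` (`0 ↦ 0`). -/
noncomputable def collinKc (p : ℕ) {K : Type*} [Field K] (x : K) : KOne K p :=
  if h : x = 0 then 0 else cls K p (Units.mk0 x h)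

variable {p : ℕ} [Fact p.Prime] {K L : Type*} [Field K] [Field L] [CharP K p] [CharP L p]

lemma collin_mem_K0 {x : K} : x ∈ collinK0 K p ↔ ∃ y : K, y ^ p = x := by
  simp [collinK0, RingHom.mem_fieldRange, frobenius_def]

lemma collin_cls_eq_zero {u : Kˣ} : cls K p u = 0 ↔ (u : K) ∈ collinK0 K p := by
  rw [collin_mem_K0]
  unfold cls
  rw [QuotientAddGroup.eq_zero_iff]
  unfold pMultiples
  constructor
  · rintro ⟨w, hw⟩
    refine ⟨((Additive.toMul w : Kˣ) : K), ?_⟩
    have : (Additive.toMul w) ^ p = u := by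
      have := congrArg Additive.toMul hw
      simpa using this
    rw [← this]; simp
  · rintro ⟨y, hy⟩
    have hy0 : y ≠ 0 := by
      rintro rfl
      have hp : p ≠ 0 := (Fact.out : p.Prime).ne_zero
      rw [zero_pow hp] at hy
      exact u.ne_zero hy.symm
    refine ⟨Additive.ofMul (Units.mk0 y hy0), ?_⟩
    apply Additive.toMul.injective
    ext
    simp [hy]

lemma collinKc_of_ne {x : K} (h : x ≠ 0) : collinKc p x = cls K p (Units.mk0 x h) := dif_neg h

lemma collinKc_zero : collinKc p (0 : K) = 0 := dif_pos rfl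

lemma collinKc_unit (u : Kˣ) : collinKc p (u : K) = cls K p u := by
  rw [collinKc_of_ne u.ne_zero]
  congr 1
  ext; rfl

lemma collinKc_mul {x y : K} (hx : x ≠ 0) (hy : y ≠ 0) :
    collinKc p (x * y) = collinKc p x + collinKc p y := by
  rw [collinKc_of_ne (mul_ne_zero hx hy), collinKc_of_ne hx, collinKc_of_ne hy]
  unfold cls
  rw [← QuotientAddGroup.mk_add]
  exact congrArg _ (congrArg Additive.ofMul (Units.ext rfl))

lemma collinKc_eq_zero {x : K} : collinKc p x = 0 ↔ x ∈ collinK0 K p := by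
  by_cases h : x = 0
  · subst h; simp [collinKc_zero, zero_mem]
  · rw [collinKc_of_ne h, collin_cls_eq_zero]; rfl

lemma collinKc_coe (c : collinK0 K p) : collinKc p (c : K) = 0 := collinKc_eq_zero.2 c.2

lemma collinKc_one : collinKc p (1 : K) = 0 := collinKc_eq_zero.2 (one_mem _)

lemma collinKc_inv {x : K} (hx : x ≠ 0) : collinKc p x⁻¹ = - collinKc p x := by
  have h := collinKc_mul (p := p) hx (inv_ne_zero hx)
  rw [mul_inv_cancel₀ hx, collinKc_one] at h
  exact (neg_eq_of_add_eq_zero_right h.symm).symm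

lemma collinKc_div {x y : K} (hx : x ≠ 0) (hy : y ≠ 0) :
    collinKc p (x / y) = collinKc p x - collinKc p y := by
  rw [div_eq_mul_inv, collinKc_mul hx (inv_ne_zero hy), collinKc_inv hy, sub_eq_add_neg]

lemma collin_coe_ne_zero {c : collinK0 K p} (h : c ≠ 0) : (c : K) ≠ 0 := by
  simpa using h

lemma collinKc_smul {c : collinK0 K p} (hc : c ≠ 0) (x : K) :
    collinKc p ((c : K) * x) = collinKc p x := by
  by_cases hx : x = 0
  · subst hx; simp
  · rw [collinKc_mul (collin_coe_ne_zero hc) hx, collinKc_coe]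
    exact zero_add (collinKc p x)

lemma collinKc_eq_exists {x y : K} (hx : x ≠ 0) (hy : y ≠ 0)
    (h : collinKc p x = collinKc p y) : ∃ c : collinK0 K p, c ≠ 0 ∧ x = c * y := by
  have h1 : collinKc p (x / y) = 0 := by rw [collinKc_div hx hy, h, sub_self]
  rw [collinKc_eq_zero] at h1
  refine ⟨⟨x / y, h1⟩, ?_, ?_⟩
  · intro h0
    have : x / y = 0 := congrArg Subtype.val h0
    exact div_ne_zero hx hy this
  · simp [div_mul_cancel₀ _ hy]

lemma collinKc_surj (t : KOne K p) : ∃ x : K, x ≠ 0 ∧ collinKc p x = t := by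
  induction t using QuotientAddGroup.induction_on with
  | H z =>
    refine ⟨((Additive.toMul z : Kˣ) : K), Units.ne_zero _, ?_⟩
    rw [collinKc_unit]; rfl


/-! ### Linear algebra over `K0` by hand -/

/-- `1, x, y` are linearly independent over `K0 = K^p`. -/
def CollinInd3 (p : ℕ) [Fact p.Prime] {K : Type*} [Field K] [CharP K p] (x y : K) : Prop :=
  ∀ a b c : collinK0 K p, (a : K) + b * x + c * y = 0 → a = 0 ∧ b = 0 ∧ c = 0

lemma collin_ind2 {x : K} (hx : x ∉ collinK0 K p) {a b : collinK0 K p}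
    (h : (a : K) + b * x = 0) : a = 0 ∧ b = 0 := by
  have hb : b = 0 := by
    by_contra hb
    apply hx
    have hb' := collin_coe_ne_zero hb
    have : x = ((-a / b : collinK0 K p) : K) := by
      push_cast
      field_simp
      linear_combination h
    rw [this]; exact Subtype.coe_prop _
  subst hb
  refine ⟨?_, rfl⟩
  have : (a : K) = 0 := by simpa using h
  exact_mod_cast this

lemma collin_ne_zero {x : K} (hx : x ∉ collinK0 K p) : x ≠ 0 := fun h => hx (h ▸ zero_mem _)

lemma collin_add_not_mem {x : K} (hx : x ∉ collinK0 K p) (c : collinK0 K p) :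
    x + c ∉ collinK0 K p := by
  intro h
  apply hx
  have := sub_mem h c.2
  simpa using this

lemma collin_one_add_not_mem {x : K} (hx : x ∉ collinK0 K p) : 1 + x ∉ collinK0 K p := by
  intro h
  apply hx
  have := sub_mem h (one_mem (collinK0 K p))
  simpa using this

lemma collin_smul_not_mem {f : collinK0 K p} (hf : f ≠ 0) {x : K} (hx : x ∉ collinK0 K p) :
    (f : K) * x ∉ collinK0 K p := by
  intro h
  apply hx
  have := mul_mem (inv_mem f.2) h
  rwa [inv_mul_cancel_left₀ (collin_coe_ne_zero hf)] at this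

lemma collin_inv_not_mem {x : K} (hx : x ∉ collinK0 K p) : x⁻¹ ∉ collinK0 K p := by
  intro h
  apply hx
  simpa using inv_mem h

lemma CollinInd3.not_mem_left {x y : K} (h : CollinInd3 p x y) : x ∉ collinK0 K p := by
  intro hx
  have := h (-⟨x, hx⟩) 1 0 (by push_cast; ring)
  exact one_ne_zero this.2.1

lemma CollinInd3.symm {x y : K} (h : CollinInd3 p x y) : CollinInd3 p y x := by
  intro a b c habc
  have := h a c b (by linear_combination habc)
  exact ⟨this.1, this.2.2, this.2.1⟩

lemma CollinInd3.not_mem_right {x y : K} (h : CollinInd3 p x y) : y ∉ collinK0 K p :=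
  h.symm.not_mem_left

lemma CollinInd3.ne {x y : K} (h : CollinInd3 p x y) {a b c : collinK0 K p}
    (hne : a ≠ 0 ∨ b ≠ 0 ∨ c ≠ 0) : (a : K) + b * x + c * y ≠ 0 := by
  intro h0
  obtain ⟨ha, hb, hc⟩ := h a b c h0
  rcases hne with h | h | h
  · exact h ha
  · exact h hb
  · exact h hc

lemma CollinInd3.add_not_mem {x y : K} (h : CollinInd3 p x y) : x + y ∉ collinK0 K p := by
  intro hmem
  obtain ⟨_, hb, _⟩ := h (-⟨_, hmem⟩) 1 1 (by push_cast; ring)
  exact one_ne_zero hb

lemma CollinInd3.div_not_mem {x y : K} (h : CollinInd3 p x y) : x / y ∉ collinK0 K p := by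
  intro hm
  have hy : y ≠ 0 := collin_ne_zero h.not_mem_right
  obtain ⟨_, hb, _⟩ := h 0 1 (-⟨x / y, hm⟩) (by push_cast; field_simp; ring)
  exact one_ne_zero hb

lemma CollinInd3.one_add_div_not_mem {x y : K} (h : CollinInd3 p x y) :
    (1 + x) / y ∉ collinK0 K p := by
  intro hm
  have hy : y ≠ 0 := collin_ne_zero h.not_mem_right
  obtain ⟨ha, _, _⟩ := h 1 1 (-⟨(1 + x) / y, hm⟩) (by push_cast; field_simp; ring)
  exact one_ne_zero ha

lemma CollinInd3.add_left {x y : K} (h : CollinInd3 p x y) (c : collinK0 K p) :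
    CollinInd3 p (x + c) y := by
  intro a b d habc
  obtain ⟨k1, k2, k3⟩ := h (a + b * c) b d (by push_cast; linear_combination habc)
  subst k2
  exact ⟨by simpa using k1, rfl, k3⟩

lemma CollinInd3.add_right {x y : K} (h : CollinInd3 p x y) (c : collinK0 K p) :
    CollinInd3 p x (y + c) := (h.symm.add_left c).symm

/-- Proportional points of the plane spanned by `1, x, y` have proportional coordinates. -/
lemma CollinInd3.prop {x y : K} (h : CollinInd3 p x y) {a b c a' b' c' : collinK0 K p}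
    (hne : a ≠ 0 ∨ b ≠ 0 ∨ c ≠ 0) (hne' : a' ≠ 0 ∨ b' ≠ 0 ∨ c' ≠ 0)
    (heq : collinKc p ((a : K) + b * x + c * y) = collinKc p ((a' : K) + b' * x + c' * y)) :
    ∃ t : collinK0 K p, t ≠ 0 ∧ a = t * a' ∧ b = t * b' ∧ c = t * c' := by
  obtain ⟨t, ht, e⟩ := collinKc_eq_exists (h.ne hne) (h.ne hne') heq
  obtain ⟨k1, k2, k3⟩ := h (a - t * a') (b - t * b') (c - t * c')
    (by push_cast; linear_combination e)
  exact ⟨t, ht, sub_eq_zero.1 k1, sub_eq_zero.1 k2, sub_eq_zero.1 k3⟩

lemma collin_dep {x y : K} (hx : x ∉ collinK0 K p) (h : ¬ CollinInd3 p x y) :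
    ∃ e f : collinK0 K p, y = e + f * x := by
  unfold CollinInd3 at h
  push Not at h
  obtain ⟨a, b, c, h0, hne⟩ := h
  have hc : c ≠ 0 := by
    rintro rfl
    have h0' : (a : K) + b * x = 0 := by simpa using h0
    obtain ⟨ha, hb⟩ := collin_ind2 hx h0'
    exact hne ha hb rfl
  refine ⟨-a / c, -b / c, ?_⟩
  have hc' := collin_coe_ne_zero hc
  push_cast
  field_simp
  linear_combination h0

lemma collin_chain {x₁ y₁ x : K} (h0 : CollinInd3 p x₁ y₁) (hx : x ∉ collinK0 K p) :
    CollinInd3 p x x₁ ∨ CollinInd3 p x y₁ := by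
  by_contra hcon
  push Not at hcon
  obtain ⟨e, f, k1⟩ := collin_dep hx hcon.1
  obtain ⟨e', f', k2⟩ := collin_dep hx hcon.2
  have hf : f ≠ 0 := by
    rintro rfl
    apply h0.not_mem_left
    rw [k1]; simp
  have hf' := collin_coe_ne_zero hf
  have := h0 (e' - f' * e / f) (f' / f) (-1) (by
    push_cast
    rw [k2, k1]
    field_simp
    ring)
  exact one_ne_zero (neg_eq_zero.1 this.2.2)

lemma collin_dep_pair {x₁ y₁ : K} (h0 : CollinInd3 p x₁ y₁) {x y : K}
    (h : ¬ CollinInd3 p x y) :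
    ∃ z : K, z ∉ collinK0 K p ∧ ∃ e f e' f' : collinK0 K p,
      x = e + f * z ∧ y = e' + f' * z := by
  by_cases hx : x ∈ collinK0 K p
  · by_cases hy : y ∈ collinK0 K p
    · exact ⟨x₁, h0.not_mem_left, ⟨x, hx⟩, 0, ⟨y, hy⟩, 0, by simp, by simp⟩
    · exact ⟨y, hy, ⟨x, hx⟩, 0, 0, 1, by simp, by simp⟩
  · obtain ⟨e, f, hy⟩ := collin_dep hx h
    exact ⟨x, hx, 0, 1, e, f, by simp, hy⟩

lemma collin_ind3_of_pIndep {x y : K} (hx : x ∉ collinK0 K p)
    (hy : y ∉ Subfield.closure ((collinK0 K p : Set K) ∪ {x})) : CollinInd3 p x y := by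
  intro a b c h
  have hsub : ∀ z : collinK0 K p, (z : K) ∈ Subfield.closure ((collinK0 K p : Set K) ∪ {x}) :=
    fun z => Subfield.subset_closure (Or.inl z.2)
  have hxm : x ∈ Subfield.closure ((collinK0 K p : Set K) ∪ {x}) :=
    Subfield.subset_closure (Or.inr rfl)
  have hc : c = 0 := by
    by_contra hc
    apply hy
    have hc' := collin_coe_ne_zero hc
    have : y = ((-a / c : collinK0 K p) : K) + ((-b / c : collinK0 K p) : K) * x := by
      push_cast
      field_simp
      linear_combination h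
    rw [this]
    exact add_mem (hsub _) (mul_mem (hsub _) hxm)
  subst hc
  have h' : (a : K) + b * x = 0 := by simpa using h
  obtain ⟨ha, hb⟩ := collin_ind2 hx h'
  exact ⟨ha, hb, rfl⟩


/-! ### The collineation -/

/-- `Φ` maps every line through `[1]` into a line through `[1]`. -/
def CollinLinesTo (Φ : KOne K p → KOne L p) : Prop :=
  ∀ x : K, x ∉ collinK0 K p → ∀ c : collinK0 K p, ∃ x' : L, ∃ c' : collinK0 L p,
    Φ (collinKc p x) = collinKc p x' ∧ Φ (collinKc p (x + c)) = collinKc p (x' + c')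

section main

variable (Φ : KOne K p ≃+ KOne L p)

lemma collin_not_mem_of_rep {x : K} (hx : x ∉ collinK0 K p) {w : L}
    (hw : Φ (collinKc p x) = collinKc p w) : w ∉ collinK0 L p := by
  intro hmem
  rw [collinKc_eq_zero.2 hmem] at hw
  have : collinKc p x = 0 := by simpa using hw
  exact hx (collinKc_eq_zero.1 this)

lemma collin_line1 (h1 : CollinLinesTo (p := p) Φ) {x : K} (hx : x ∉ collinK0 K p) {w : L}
    (hw : Φ (collinKc p x) = collinKc p w) (c : collinK0 K p) :
    ∃ c' : collinK0 L p, Φ (collinKc p (x + c)) = collinKc p (w + c') := by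
  obtain ⟨x', c', e1, e2⟩ := h1 x hx c
  have hw' := collin_not_mem_of_rep Φ hx hw
  have hx' := collin_not_mem_of_rep Φ hx e1
  obtain ⟨t, ht, e⟩ := collinKc_eq_exists (collin_ne_zero hw') (collin_ne_zero hx')
    (hw.symm.trans e1)
  refine ⟨t * c', ?_⟩
  rw [e2, ← collinKc_smul ht (x' + c')]
  congr 1
  rw [e]; push_cast; ring

open Classical in
/-- The normalised representative of `Φ [x]`: the `w` with `Φ [x] = [w]`, `Φ [1+x] = [1+w]`. -/
noncomputable def collinA (x : K) : L :=
  if h : ∃ w : L, Φ (collinKc p x) = collinKc p w ∧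
      Φ (collinKc p (1 + x)) = collinKc p (1 + w) then Classical.choose h else 0

lemma collin_rep_unique {x : K} (hx : x ∉ collinK0 K p) {w w' : L}
    (hw : Φ (collinKc p x) = collinKc p w) (hw1 : Φ (collinKc p (1 + x)) = collinKc p (1 + w))
    (hw' : Φ (collinKc p x) = collinKc p w')
    (hw1' : Φ (collinKc p (1 + x)) = collinKc p (1 + w')) : w = w' := by
  have hwn := collin_not_mem_of_rep Φ hx hw
  have hwn' := collin_not_mem_of_rep Φ hx hw'
  obtain ⟨t, ht, e⟩ := collinKc_eq_exists (collin_ne_zero hwn) (collin_ne_zero hwn')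
    (hw.symm.trans hw')
  have h1n := collin_not_mem_of_rep Φ (collin_one_add_not_mem hx) hw1
  have h1n' := collin_not_mem_of_rep Φ (collin_one_add_not_mem hx) hw1'
  obtain ⟨s, hs, e'⟩ := collinKc_eq_exists (collin_ne_zero h1n) (collin_ne_zero h1n')
    (hw1.symm.trans hw1')
  rw [e] at e'
  obtain ⟨k1, k2⟩ := collin_ind2 hwn' (a := 1 - s) (b := t - s)
    (by push_cast; linear_combination e')
  have hs1 : s = 1 := (sub_eq_zero.1 k1).symm
  have ht1 : t = 1 := by rw [sub_eq_zero.1 k2, hs1]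
  rw [e, ht1]; simp

lemma collinA_spec (h1 : CollinLinesTo (p := p) Φ) {x : K} (hx : x ∉ collinK0 K p) :
    Φ (collinKc p x) = collinKc p (collinA Φ x) ∧
      Φ (collinKc p (1 + x)) = collinKc p (1 + collinA Φ x) := by
  have hex : ∃ w : L, Φ (collinKc p x) = collinKc p w ∧
      Φ (collinKc p (1 + x)) = collinKc p (1 + w) := by
    obtain ⟨x', c', e1, e2⟩ := h1 x hx 1
    have hx' := collin_not_mem_of_rep Φ hx e1
    have hc' : c' ≠ 0 := by
      rintro rfl
      have e3 : Φ (collinKc p (x + ((1 : collinK0 K p) : K))) = Φ (collinKc p x) := by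
        rw [e2, e1]; simp
      have e4 := Φ.injective e3
      obtain ⟨t, ht, e⟩ := collinKc_eq_exists
        (collin_ne_zero (collin_add_not_mem hx 1)) (collin_ne_zero hx) e4
      obtain ⟨k1, k2⟩ := collin_ind2 hx (a := 1) (b := 1 - t)
        (by push_cast at e ⊢; linear_combination e)
      exact one_ne_zero k1
    have hc'' := collin_coe_ne_zero hc'
    refine ⟨x' / c', ?_, ?_⟩
    · rw [e1, ← collinKc_smul (inv_ne_zero hc') x']
      congr 1
      push_cast
      field_simp
    · have e5 : (1 : K) + x = x + ((1 : collinK0 K p) : K) := by push_cast; ring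
      rw [e5, e2, ← collinKc_smul (inv_ne_zero hc') (x' + c')]
      congr 1
      push_cast
      field_simp
      ring
  unfold collinA
  rw [dif_pos hex]
  exact Classical.choose_spec hex

lemma collinA_eq {x : K} (hx : x ∉ collinK0 K p) {w : L}
    (hw : Φ (collinKc p x) = collinKc p w)
    (hw1 : Φ (collinKc p (1 + x)) = collinKc p (1 + w)) : collinA Φ x = w := by
  have hex : ∃ w : L, Φ (collinKc p x) = collinKc p w ∧
      Φ (collinKc p (1 + x)) = collinKc p (1 + w) := ⟨w, hw, hw1⟩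
  have hs : Φ (collinKc p x) = collinKc p (collinA Φ x) ∧
      Φ (collinKc p (1 + x)) = collinKc p (1 + collinA Φ x) := by
    unfold collinA
    rw [dif_pos hex]
    exact Classical.choose_spec hex
  exact collin_rep_unique Φ hx hs.1 hs.2 hw hw1

lemma collinA_not_mem (h1 : CollinLinesTo (p := p) Φ) {x : K} (hx : x ∉ collinK0 K p) :
    collinA Φ x ∉ collinK0 L p :=
  collin_not_mem_of_rep Φ hx (collinA_spec Φ h1 hx).1

lemma collinA_symm (h1 : CollinLinesTo (p := p) Φ) {x : K} (hx : x ∉ collinK0 K p) :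
    collinA Φ.symm (collinA Φ x) = x := by
  obtain ⟨e1, e2⟩ := collinA_spec Φ h1 hx
  apply collinA_eq Φ.symm (collinA_not_mem Φ h1 hx)
  · rw [← e1]; simp
  · rw [← e2]; simp

lemma collinA_inv (h1 : CollinLinesTo (p := p) Φ) {x : K} (hx : x ∉ collinK0 K p) :
    collinA Φ x⁻¹ = (collinA Φ x)⁻¹ := by
  obtain ⟨e1, e2⟩ := collinA_spec Φ h1 hx
  have hx0 := collin_ne_zero hx
  have hxi := collin_inv_not_mem hx
  have ha := collinA_not_mem Φ h1 hx
  have ha0 := collin_ne_zero ha
  have h1x : (1 + x) ≠ 0 := collin_ne_zero (collin_one_add_not_mem hx)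
  have h1a : (1 + collinA Φ x) ≠ 0 := collin_ne_zero (collin_one_add_not_mem ha)
  apply collinA_eq Φ hxi
  · rw [collinKc_inv hx0, collinKc_inv ha0, map_neg, e1]
  · have k1 : (1 : K) + x⁻¹ = (1 + x) / x := by field_simp; ring
    have k2 : (1 : L) + (collinA Φ x)⁻¹ = (1 + collinA Φ x) / collinA Φ x := by
      field_simp; ring
    rw [k1, k2, collinKc_div h1x hx0, map_sub, e1, e2, ← collinKc_div h1a ha0]

lemma collin_line2 (h1 : CollinLinesTo (p := p) Φ) {u v : K} (hu : u ∉ collinK0 K p)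
    (hv : v ∉ collinK0 K p) (huv : u / v ∉ collinK0 K p) {u' v' : L}
    (hu' : Φ (collinKc p u) = collinKc p u') (hv' : Φ (collinKc p v) = collinKc p v')
    (c : collinK0 K p) :
    ∃ c' : collinK0 L p, Φ (collinKc p (u + c * v)) = collinKc p (u' + c' * v') := by
  have hu0 := collin_ne_zero hu
  have hv0 := collin_ne_zero hv
  have hun := collin_not_mem_of_rep Φ hu hu'
  have hvn := collin_not_mem_of_rep Φ hv hv'
  have hu0' := collin_ne_zero hun
  have hv0' := collin_ne_zero hvn
  have e : Φ (collinKc p (u / v)) = collinKc p (u' / v') := by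
    rw [collinKc_div hu0 hv0, map_sub, hu', hv', collinKc_div hu0' hv0']
  obtain ⟨c', e2⟩ := collin_line1 Φ h1 huv e c
  refine ⟨c', ?_⟩
  have huvn := collin_not_mem_of_rep Φ huv e
  have e3 : u + c * v = v * (u / v + c) := by field_simp
  have e4 : u' + c' * v' = v' * (u' / v' + c') := by field_simp
  rw [e3, e4, collinKc_mul hv0 (collin_ne_zero (collin_add_not_mem huv c)),
    collinKc_mul hv0' (collin_ne_zero (collin_add_not_mem huvn c')), map_add, hv', e2]


lemma collin_ind3_map (h1 : CollinLinesTo (p := p) Φ) (h2 : CollinLinesTo (p := p) Φ.symm)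
    {x y : K} (hxy : CollinInd3 p x y) : CollinInd3 p (collinA Φ x) (collinA Φ y) := by
  have hx := hxy.not_mem_left
  have hy := hxy.not_mem_right
  have hX := collinA_not_mem Φ h1 hx
  have hY := collinA_not_mem Φ h1 hy
  by_contra hcon
  obtain ⟨e, f, hY'⟩ := collin_dep hX hcon
  have hf : f ≠ 0 := by
    rintro rfl
    apply hY; rw [hY']; simp
  have hf' := collin_coe_ne_zero hf
  have ex : Φ.symm (collinKc p (collinA Φ x)) = collinKc p x := by
    rw [← (collinA_spec Φ h1 hx).1]; simp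
  have ey : Φ.symm (collinKc p (collinA Φ y)) = collinKc p y := by
    rw [← (collinA_spec Φ h1 hy).1]; simp
  obtain ⟨c', e1⟩ := collin_line1 Φ.symm h2 hX ex (e / f)
  have e2 : collinKc p (collinA Φ y)
      = collinKc p (collinA Φ x + ((e / f : collinK0 L p) : L)) := by
    rw [← collinKc_smul hf (collinA Φ x + ((e / f : collinK0 L p) : L))]
    congr 1
    rw [hY']; push_cast; field_simp; ring
  rw [← e2, ey] at e1
  obtain ⟨t, ht, e3⟩ := collinKc_eq_exists (collin_ne_zero hy)
    (collin_ne_zero (collin_add_not_mem hx c')) e1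
  obtain ⟨_, _, k3⟩ := hxy (t * c') t (-1) (by push_cast; linear_combination -e3)
  exact one_ne_zero (neg_eq_zero.1 k3)

lemma collinA_add (h1 : CollinLinesTo (p := p) Φ) (h2 : CollinLinesTo (p := p) Φ.symm)
    {x y : K} (hxy : CollinInd3 p x y) :
    collinA Φ (x + y) = collinA Φ x + collinA Φ y := by
  have hx := hxy.not_mem_left
  have hy := hxy.not_mem_right
  obtain ⟨ex, ex1⟩ := collinA_spec Φ h1 hx
  obtain ⟨ey, ey1⟩ := collinA_spec Φ h1 hy
  have hXY := collin_ind3_map Φ h1 h2 hxy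
  have hxy' := hxy.add_not_mem
  generalize collinA Φ x = X at *
  generalize collinA Φ y = Y at *
  -- the two lines through `[1 + x + y]`
  obtain ⟨c₁, e1⟩ := collin_line2 Φ h1 (collin_one_add_not_mem hx) hy
    hxy.one_add_div_not_mem ex1 ey 1
  obtain ⟨c₂, e2⟩ := collin_line2 Φ h1 (collin_one_add_not_mem hy) hx
    hxy.symm.one_add_div_not_mem ey1 ex 1
  have e12 : collinKc p (((1 : collinK0 L p) : L) + (1 : collinK0 L p) * X + c₁ * Y)
      = collinKc p (((1 : collinK0 L p) : L) + c₂ * X + (1 : collinK0 L p) * Y) := by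
    have k : (1 + x + ((1 : collinK0 K p) : K) * y) = 1 + y + ((1 : collinK0 K p) : K) * x := by
      push_cast; ring
    rw [k, e2] at e1
    rw [show ((1 : collinK0 L p) : L) + (1 : collinK0 L p) * X + c₁ * Y = 1 + X + c₁ * Y by
        push_cast; ring,
      show ((1 : collinK0 L p) : L) + c₂ * X + (1 : collinK0 L p) * Y = 1 + Y + c₂ * X by
        push_cast; ring]
    exact e1.symm
  obtain ⟨t, ht, t1, t2, t3⟩ := hXY.prop (Or.inl one_ne_zero) (Or.inl one_ne_zero) e12
  have hc₁ : c₁ = 1 := by rw [t3, mul_one]; rw [mul_one] at t1; exact t1.symm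
  subst hc₁
  have E1 : Φ (collinKc p (1 + (x + y))) = collinKc p (1 + (X + Y)) := by
    have k : (1 + x + ((1 : collinK0 K p) : K) * y) = 1 + (x + y) := by push_cast; ring
    rw [k] at e1
    rw [e1]; congr 1; push_cast; ring
  -- the line through `[x]` and `[y]`
  obtain ⟨c₃, e3⟩ := collin_line2 Φ h1 hx hy hxy.div_not_mem ex ey 1
  have e3' : Φ (collinKc p (x + y)) = collinKc p (X + c₃ * Y) := by
    have k : x + ((1 : collinK0 K p) : K) * y = x + y := by push_cast; ring
    rw [k] at e3; exact e3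
  obtain ⟨c₄, e4⟩ := collin_line1 Φ h1 hxy' e3' 1
  have e34 : collinKc p (((1 : collinK0 L p) : L) + (1 : collinK0 L p) * X
        + (1 : collinK0 L p) * Y)
      = collinKc p ((c₄ : L) + (1 : collinK0 L p) * X + c₃ * Y) := by
    have k : x + y + ((1 : collinK0 K p) : K) = 1 + (x + y) := by push_cast; ring
    rw [k, E1] at e4
    rw [show ((1 : collinK0 L p) : L) + (1 : collinK0 L p) * X + (1 : collinK0 L p) * Y
          = 1 + (X + Y) by push_cast; ring,
      show (c₄ : L) + (1 : collinK0 L p) * X + c₃ * Y = X + c₃ * Y + c₄ by push_cast; ring]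
    exact e4
  obtain ⟨s, hs, s1, s2, s3⟩ := hXY.prop (Or.inl one_ne_zero) (Or.inr (Or.inl one_ne_zero)) e34
  have hs1 : s = 1 := by rw [mul_one] at s2; exact s2.symm
  have hc₃ : c₃ = 1 := by rw [hs1, one_mul] at s3; exact s3.symm
  subst hc₃
  apply collinA_eq Φ hxy'
  · rw [e3']; congr 1; push_cast; ring
  · exact E1

lemma collinA_div (h1 : CollinLinesTo (p := p) Φ) (h2 : CollinLinesTo (p := p) Φ.symm)
    {x y : K} (hxy : CollinInd3 p x y) :
    collinA Φ (y / x) = collinA Φ y / collinA Φ x := by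
  have hx := hxy.not_mem_left
  have hy := hxy.not_mem_right
  obtain ⟨ex, ex1⟩ := collinA_spec Φ h1 hx
  obtain ⟨ey, ey1⟩ := collinA_spec Φ h1 hy
  have hxy' := hxy.add_not_mem
  obtain ⟨es, es1⟩ := collinA_spec Φ h1 hxy'
  rw [collinA_add Φ h1 h2 hxy] at es
  have hX := collinA_not_mem Φ h1 hx
  have hY := collinA_not_mem Φ h1 hy
  have hXY := collin_ind3_map Φ h1 h2 hxy
  have hx0 := collin_ne_zero hx
  have hX0 := collin_ne_zero hX
  apply collinA_eq Φ hxy.symm.div_not_mem
  · rw [collinKc_div (collin_ne_zero hy) hx0, map_sub, ex, ey,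
      collinKc_div (collin_ne_zero hY) hX0]
  · have k1 : (1 : K) + y / x = (x + y) / x := by field_simp
    have k2 : (1 : L) + collinA Φ y / collinA Φ x
        = (collinA Φ x + collinA Φ y) / collinA Φ x := by field_simp
    rw [k1, k2, collinKc_div (collin_ne_zero hxy') hx0, map_sub, es, ex,
      collinKc_div (collin_ne_zero hXY.add_not_mem) hX0]

lemma collinA_add_const_pair (h1 : CollinLinesTo (p := p) Φ)
    (h2 : CollinLinesTo (p := p) Φ.symm) {x y : K} (hxy : CollinInd3 p x y)
    (c : collinK0 K p) :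
    ∃ c' : collinK0 L p, collinA Φ (x + c) = collinA Φ x + c' ∧
      collinA Φ (y + c) = collinA Φ y + c' := by
  have hx := hxy.not_mem_left
  have hy := hxy.not_mem_right
  have hX := collinA_not_mem Φ h1 hx
  have hY := collinA_not_mem Φ h1 hy
  have hXY := collin_ind3_map Φ h1 h2 hxy
  obtain ⟨c₁, e1⟩ := collin_line1 Φ h1 hx (collinA_spec Φ h1 hx).1 c
  obtain ⟨c₂, e2⟩ := collin_line1 Φ h1 hy (collinA_spec Φ h1 hy).1 c
  have hxc := collin_add_not_mem hx c
  have hyc := collin_add_not_mem hy c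
  rw [(collinA_spec Φ h1 hxc).1] at e1
  rw [(collinA_spec Φ h1 hyc).1] at e2
  obtain ⟨t, ht, e1'⟩ := collinKc_eq_exists (collin_ne_zero (collinA_not_mem Φ h1 hxc))
    (collin_ne_zero (collin_add_not_mem hX c₁)) e1
  obtain ⟨s, hs, e2'⟩ := collinKc_eq_exists (collin_ne_zero (collinA_not_mem Φ h1 hyc))
    (collin_ne_zero (collin_add_not_mem hY c₂)) e2
  have ea := collinA_add Φ h1 h2 (hxy.add_left c)
  have eb := collinA_add Φ h1 h2 (hxy.add_right c)
  have k : x + c + y = x + (y + c) := by ring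
  rw [k, eb, e1', e2'] at ea
  obtain ⟨k1, k2, k3⟩ := hXY (s * c₂ - t * c₁) (1 - t) (s - 1)
    (by push_cast; linear_combination ea)
  have ht1 : t = 1 := (sub_eq_zero.1 k2).symm
  have hs1 : s = 1 := sub_eq_zero.1 k3
  subst ht1 hs1
  have hc : c₂ = c₁ := by simpa [sub_eq_zero] using k1
  refine ⟨c₁, ?_, ?_⟩
  · rw [e1']; push_cast; ring
  · rw [e2', hc]; push_cast; ring

/-- The induced map on `K0` (as a function on `K`). -/
noncomputable def collinSig (x₁ : K) (c : K) : L := collinA Φ (x₁ + c) - collinA Φ x₁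

section sigma

variable (h1 : CollinLinesTo (p := p) Φ) (h2 : CollinLinesTo (p := p) Φ.symm)
  {x₁ y₁ : K} (h0 : CollinInd3 p x₁ y₁)

include h1 h2 h0

lemma collinSig_exists (c : collinK0 K p) :
    ∃ c₀ : collinK0 L p, collinSig Φ x₁ c = c₀ := by
  obtain ⟨c₀, e1, e2⟩ := collinA_add_const_pair Φ h1 h2 h0 c
  exact ⟨c₀, by unfold collinSig; rw [e1]; ring⟩

lemma collinSig_mem (c : collinK0 K p) : collinSig Φ x₁ c ∈ collinK0 L p := by
  obtain ⟨c₀, e⟩ := collinSig_exists Φ h1 h2 h0 c
  rw [e]; exact c₀.2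

lemma collinA_add_const {x : K} (hx : x ∉ collinK0 K p) (c : collinK0 K p) :
    collinA Φ (x + c) = collinA Φ x + collinSig Φ x₁ c := by
  obtain ⟨c₀, e1, e2⟩ := collinA_add_const_pair Φ h1 h2 h0 c
  have hs : collinSig Φ x₁ c = c₀ := by unfold collinSig; rw [e1]; ring
  rw [hs]
  rcases collin_chain h0 hx with h | h
  · obtain ⟨c', e3, e4⟩ := collinA_add_const_pair Φ h1 h2 h c
    rw [e3]; congr 1
    rw [e1] at e4; exact (add_left_cancel e4).symm
  · obtain ⟨c', e3, e4⟩ := collinA_add_const_pair Φ h1 h2 h c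
    rw [e3]; congr 1
    rw [e2] at e4; exact (add_left_cancel e4).symm

omit h1 h2 h0 in
lemma collinSig_zero : collinSig Φ x₁ 0 = 0 := by unfold collinSig; simp

lemma collinSig_add (c d : collinK0 K p) :
    collinSig Φ x₁ ((c : K) + d) = collinSig Φ x₁ c + collinSig Φ x₁ d := by
  have hx₁ := h0.not_mem_left
  have e1 := collinA_add_const Φ h1 h2 h0 hx₁ (c + d)
  have e2 := collinA_add_const Φ h1 h2 h0 hx₁ c
  have e3 := collinA_add_const Φ h1 h2 h0 (collin_add_not_mem hx₁ c) d
  push_cast at e1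
  rw [← add_assoc, e3, e2] at e1
  linear_combination -e1

lemma collinSig_one : collinSig Φ x₁ 1 = 1 := by
  have hx₁ := h0.not_mem_left
  have hX := collinA_not_mem Φ h1 hx₁
  have e1 := collinA_add_const Φ h1 h2 h0 hx₁ 1
  obtain ⟨c₀, hc₀⟩ := collinSig_exists Φ h1 h2 h0 1
  rw [hc₀] at e1
  have e2 := (collinA_spec Φ h1 (collin_add_not_mem hx₁ 1)).1
  rw [e1] at e2
  have e3 := (collinA_spec Φ h1 hx₁).2
  have k : x₁ + ((1 : collinK0 K p) : K) = 1 + x₁ := by push_cast; ring
  rw [k, e3] at e2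
  obtain ⟨t, ht, e⟩ := collinKc_eq_exists (collin_ne_zero (collin_one_add_not_mem hX))
    (collin_ne_zero (collin_add_not_mem hX c₀)) e2
  obtain ⟨k1, k2⟩ := collin_ind2 hX (a := 1 - t * c₀) (b := 1 - t)
    (by push_cast; linear_combination e)
  have ht1 : t = 1 := (sub_eq_zero.1 k2).symm
  rw [ht1, one_mul] at k1
  have hc1 : c₀ = 1 := (sub_eq_zero.1 k1).symm
  push_cast at hc₀
  rw [hc₀, hc1]; rfl

lemma collinA_smul {x : K} (hx : x ∉ collinK0 K p) {f : collinK0 K p} (hf : f ≠ 0) :
    collinA Φ (f * x) = collinSig Φ x₁ f * collinA Φ x := by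
  have key : ∀ z : K, z ∉ collinK0 K p →
      ∃ t : collinK0 L p, collinA Φ (f * z) = t * collinA Φ z := by
    intro z hz
    have hfz := collin_smul_not_mem hf hz
    have e1 := (collinA_spec Φ h1 hfz).1
    rw [collinKc_smul hf, (collinA_spec Φ h1 hz).1] at e1
    obtain ⟨t, ht, e⟩ := collinKc_eq_exists (collin_ne_zero (collinA_not_mem Φ h1 hz))
      (collin_ne_zero (collinA_not_mem Φ h1 hfz)) e1
    have ht' := collin_coe_ne_zero ht
    refine ⟨t⁻¹, ?_⟩
    rw [e]; push_cast; field_simp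
  obtain ⟨t, et⟩ := key x hx
  obtain ⟨s, es⟩ := key (x + ((1 : collinK0 K p) : K)) (collin_add_not_mem hx 1)
  have e1 := collinA_add_const Φ h1 h2 h0 hx 1
  have e1' := collinSig_one Φ h1 h2 h0
  push_cast at e1
  rw [e1'] at e1
  have hfx := collin_smul_not_mem hf hx
  have e2 := collinA_add_const Φ h1 h2 h0 hfx f
  have k : (f : K) * (x + 1) = f * x + f := by ring
  push_cast at es
  rw [k, e2, et, e1] at es
  obtain ⟨c₀, hc₀⟩ := collinSig_exists Φ h1 h2 h0 f
  rw [hc₀] at es ⊢
  obtain ⟨k1, k2⟩ := collin_ind2 (collinA_not_mem Φ h1 hx) (a := c₀ - s) (b := t - s)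
    (by push_cast; linear_combination es)
  rw [et, sub_eq_zero.1 k2, sub_eq_zero.1 k1]

lemma collinSig_mul (f g : collinK0 K p) :
    collinSig Φ x₁ ((f : K) * g) = collinSig Φ x₁ f * collinSig Φ x₁ g := by
  by_cases hf : f = 0
  · subst hf; simp [collinSig_zero]
  by_cases hg : g = 0
  · subst hg; simp [collinSig_zero]
  have hx₁ := h0.not_mem_left
  have hgx := collin_smul_not_mem hg hx₁
  have e1 := collinA_smul Φ h1 h2 h0 hx₁ (mul_ne_zero hf hg)
  have e2 := collinA_smul Φ h1 h2 h0 hgx hf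
  have e3 := collinA_smul Φ h1 h2 h0 hx₁ hg
  push_cast at e1
  rw [mul_assoc, e2, e3] at e1
  have hX := collin_ne_zero (collinA_not_mem Φ h1 hx₁)
  apply mul_right_cancel₀ hX
  rw [← e1]; ring

end sigma


open Classical in
/-- The field isomorphism, as a function: `collinSig` on `K0`, `collinA` off `K0`. -/
noncomputable def collinAl (x₁ : K) (x : K) : L :=
  if x ∈ collinK0 K p then collinSig Φ x₁ x else collinA Φ x

lemma collinAl_of_mem {x₁ x : K} (hx : x ∈ collinK0 K p) :
    collinAl Φ x₁ x = collinSig Φ x₁ x := if_pos hx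

lemma collinAl_of_not_mem {x₁ x : K} (hx : x ∉ collinK0 K p) :
    collinAl Φ x₁ x = collinA Φ x := if_neg hx

section alpha

variable (h1 : CollinLinesTo (p := p) Φ) (h2 : CollinLinesTo (p := p) Φ.symm)
  {x₁ y₁ : K} (h0 : CollinInd3 p x₁ y₁)

include h1 h2 h0

/-- Semilinearity on the span of `1, z`. -/
lemma collinAl_lin {z : K} (hz : z ∉ collinK0 K p) (e f : collinK0 K p) :
    collinAl Φ x₁ ((e : K) + f * z) = collinSig Φ x₁ e + collinSig Φ x₁ f * collinA Φ z := by
  by_cases hf : f = 0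
  · subst hf
    simp only [ZeroMemClass.coe_zero, zero_mul, add_zero]
    rw [collinAl_of_mem Φ e.2, collinSig_zero, zero_mul, add_zero]
  · have hfz := collin_smul_not_mem hf hz
    have k : (e : K) + f * z = f * z + e := add_comm _ _
    rw [k, collinAl_of_not_mem Φ (collin_add_not_mem hfz e),
      collinA_add_const Φ h1 h2 h0 hfz e, collinA_smul Φ h1 h2 h0 hz hf]
    ring

lemma collinAl_add (x y : K) :
    collinAl Φ x₁ (x + y) = collinAl Φ x₁ x + collinAl Φ x₁ y := by
  by_cases h : CollinInd3 p x y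
  · rw [collinAl_of_not_mem Φ h.add_not_mem, collinAl_of_not_mem Φ h.not_mem_left,
      collinAl_of_not_mem Φ h.not_mem_right]
    exact collinA_add Φ h1 h2 h
  · obtain ⟨z, hz, e, f, e', f', rfl, rfl⟩ := collin_dep_pair h0 h
    have k : (e : K) + f * z + (e' + f' * z)
        = ((e + e' : collinK0 K p) : K) + ((f + f' : collinK0 K p) : K) * z := by
      push_cast; ring
    rw [k, collinAl_lin Φ h1 h2 h0 hz, collinAl_lin Φ h1 h2 h0 hz, collinAl_lin Φ h1 h2 h0 hz]
    push_cast
    rw [collinSig_add Φ h1 h2 h0, collinSig_add Φ h1 h2 h0]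
    ring

lemma collinAl_mul (u v : K) :
    collinAl Φ x₁ (u * v) = collinAl Φ x₁ u * collinAl Φ x₁ v := by
  have key : ∀ (f : collinK0 K p) (v : K),
      collinAl Φ x₁ (f * v) = collinAl Φ x₁ f * collinAl Φ x₁ v := by
    intro f v
    obtain ⟨z, hz, e', f', hv⟩ : ∃ z : K, z ∉ collinK0 K p ∧
        ∃ e' f' : collinK0 K p, v = e' + f' * z := by
      by_cases hv : v ∈ collinK0 K p
      · exact ⟨x₁, h0.not_mem_left, ⟨v, hv⟩, 0, by simp⟩
      · exact ⟨v, hv, 0, 1, by simp⟩
    have k : (f : K) * v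
        = ((f * e' : collinK0 K p) : K) + ((f * f' : collinK0 K p) : K) * z := by
      rw [hv]; push_cast; ring
    rw [k, hv, collinAl_lin Φ h1 h2 h0 hz, collinAl_lin Φ h1 h2 h0 hz, collinAl_of_mem Φ f.2]
    push_cast
    rw [collinSig_mul Φ h1 h2 h0, collinSig_mul Φ h1 h2 h0]
    ring
  by_cases hu : u ∈ collinK0 K p
  · exact key ⟨u, hu⟩ v
  by_cases hv : v ∈ collinK0 K p
  · rw [mul_comm u v, mul_comm (collinAl Φ x₁ u)]; exact key ⟨v, hv⟩ u
  have hu0 := collin_ne_zero hu
  have hU0 := collin_ne_zero (collinA_not_mem Φ h1 hu)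
  by_cases h : CollinInd3 p u (u * v)
  · have e := collinA_div Φ h1 h2 h
    rw [mul_div_cancel_left₀ v hu0] at e
    rw [collinAl_of_not_mem Φ h.not_mem_right, collinAl_of_not_mem Φ hu,
      collinAl_of_not_mem Φ hv, e]
    field_simp
  · obtain ⟨e, f, huv⟩ := collin_dep hu h
    have hui := collin_inv_not_mem hu
    have hv' : v = f + e * u⁻¹ := by
      field_simp
      linear_combination huv
    rw [huv, collinAl_lin Φ h1 h2 h0 hu, collinAl_of_not_mem Φ hu]
    rw [hv', collinAl_lin Φ h1 h2 h0 hui, collinA_inv Φ h1 hu]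
    field_simp
    ring

end alpha

end main

/-- **Multiplicative collineations come from field isomorphisms.**  An additive isomorphism
`Φ : Kˣ/(K^p)ˣ → Lˣ/(L^p)ˣ` such that `Φ` and `Φ⁻¹` map lines through `[1]` into lines
through `[1]` is induced by a field isomorphism, provided `[K : K^p] ≥ 3`. -/
theorem collin_exists_ringEquiv (Φ : KOne K p ≃+ KOne L p)
    (h1 : CollinLinesTo (p := p) Φ) (h2 : CollinLinesTo (p := p) Φ.symm)
    (h3 : ∃ x y : K, CollinInd3 p x y) :
    ∃ α : K ≃+* L, ∀ u : Kˣ,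
      Φ (cls K p u) = cls L p (Units.map α.toRingHom.toMonoidHom u) := by
  obtain ⟨x₁, y₁, h0⟩ := h3
  have hx₁ := h0.not_mem_left
  let α₀ : K →+* L :=
    { toFun := collinAl Φ x₁
      map_one' := by
        rw [collinAl_of_mem Φ (one_mem _)]
        exact_mod_cast collinSig_one Φ h1 h2 h0
      map_mul' := collinAl_mul Φ h1 h2 h0
      map_zero' := by
        rw [collinAl_of_mem Φ (zero_mem _)]
        exact collinSig_zero Φ
      map_add' := collinAl_add Φ h1 h2 h0 }
  have hα₀ : ∀ x : K, α₀ x = collinAl Φ x₁ x := fun _ => rfl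
  have hoff : ∀ l : L, l ∉ collinK0 L p → ∃ x : K, α₀ x = l := by
    intro l hl
    have hb := collinA_not_mem Φ.symm h2 hl
    refine ⟨collinA Φ.symm l, ?_⟩
    rw [hα₀, collinAl_of_not_mem Φ hb]
    have := collinA_symm Φ.symm h2 hl
    simpa using this
  have hsurj : Function.Surjective α₀ := by
    intro l
    by_cases hl : l ∈ collinK0 L p
    · have hX := collinA_not_mem Φ h1 hx₁
      obtain ⟨a, ha⟩ := hoff _ (collin_add_not_mem hX ⟨l, hl⟩)
      obtain ⟨b, hb⟩ := hoff _ hX
      refine ⟨a - b, ?_⟩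
      rw [map_sub, ha, hb]; simp
    · exact hoff l hl
  refine ⟨RingEquiv.ofBijective α₀ ⟨α₀.injective, hsurj⟩, ?_⟩
  intro u
  rw [← collinKc_unit, ← collinKc_unit]
  have hval : ((Units.map (RingEquiv.ofBijective α₀
      ⟨α₀.injective, hsurj⟩).toRingHom.toMonoidHom u : Lˣ) : L) = collinAl Φ x₁ u := rfl
  rw [hval]
  by_cases hu : (u : K) ∈ collinK0 K p
  · rw [collinKc_eq_zero.2 hu, map_zero]
    symm
    rw [collinKc_eq_zero, collinAl_of_mem Φ hu]
    exact collinSig_mem Φ h1 h2 h0 ⟨u, hu⟩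
  · rw [(collinA_spec Φ h1 hu).1, collinAl_of_not_mem Φ hu]

end Crest.Agent.S0010
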