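/-
S0010 (row 9): shared definitions.  Driver: helper8.  See `PLAN.md` in this folder.
Only definitions live here (no sorry).  `K0 K p` is the subfield `K^p`, `adj p f` is `K^p(f)`,
`cl p x` is the class of `x` in `KOne K p` (junk value `0` at `x = 0`).
-/
import Mathlib
import Crest.Prelude.Def_MilnorK

set_option autoImplicit false
open Crest.NumberTheoryR.MilnorK
open scoped TensorProduct

namespace Crest.Agent.S0010lib

section
variable (K : Type*) [Field K] (p : ℕ) [Fact p.Prime] [CharP K p]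

/-- `K^p`, the subfield of `p`-th powers of a field of characteristic `p`. -/
def K0 : Subfield K := (frobenius K p).fieldRange

end

section
variable {K : Type*} [Field K] (p : ℕ) [Fact p.Prime] [CharP K p]

/-- `K^p(f)`: the subfield of `K` generated by `K^p` and `f`. -/
def adj (f : K) : Subfield K := Subfield.closure ((K0 K p : Set K) ∪ {f})

open Classical in
/-- The class of `x` in `Kˣ/(Kˣ)^p` (and `0` for `x = 0`). -/
noncomputable def cl (x : K) : KOne K p :=
  if h : x = 0 then 0 else cls K p (Units.mk0 x h)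

/-- `N(a)`: the classes `b` with `a ⊗ b` in the Steinberg span. -/
def Nrel (a : KOne K p) : Set (KOne K p) := {b | a ⊗ₜ[ZMod p] b ∈ steinberg K p}

/-- `G(a) = K^p(f)ˣ / (K^p)ˣ` for `a = [f]`. -/
def G (a : KOne K p) : Set (KOne K p) :=
  {b | ∃ f g : K, f ≠ 0 ∧ g ≠ 0 ∧ cl p f = a ∧ cl p g = b ∧ g ∈ adj p f}

end

section
variable {K : Type*} [Field K] (p : ℕ) [Fact p.Prime] [CharP K p]

/-- `ℓ°(a)`: the points `[x - c]`, `c ∈ (K^p)ˣ`, of the projective line through `[1]` and
`a = [x]` (`x ∉ K^p`); it is the line minus the two points `[1]` and `a`. Empty for `a = 0`. -/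
def lineO (a : KOne K p) : Set (KOne K p) :=
  {b | ∃ x c : K, x ∉ K0 K p ∧ c ∈ K0 K p ∧ c ≠ 0 ∧ cl p x = a ∧ cl p (x - c) = b}

/-- The `n`-twisted line: `u` with `n • u ∈ ℓ°(n • a)`. -/
def tw (n : ZMod p) (a : KOne K p) : Set (KOne K p) := {u | n • u ∈ lineO p (n • a)}

/-- The rigid configuration: `u ∈ G(a) ∖ ⟨a⟩`, `v ∈ G(b) ∖ ⟨b⟩` and the two blocks
`b + G(a - b)`, `v + G(u - v)` meet. -/
def Rconf (a b : KOne K p) : Set (KOne K p × KOne K p) :=
  {q | q.1 ∈ G p a ∧ q.1 ∉ Submodule.span (ZMod p) {a} ∧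
       q.2 ∈ G p b ∧ q.2 ∉ Submodule.span (ZMod p) {b} ∧
       ∃ I : KOne K p, I - b ∈ G p (a - b) ∧ I - q.2 ∈ G p (q.1 - q.2)}

end

section
variable (K : Type*) [Field K] (p : ℕ) [Fact p.Prime] [CharP K p]

/-- `K` is finitely generated over `K^p`. -/
def FG : Prop := ∃ S : Finset K, Subfield.closure ((K0 K p : Set K) ∪ (S : Set K)) = ⊤

/-- `K` contains a `p`-independent pair: `x ∉ K^p`, `y ∉ K^p(x)`. -/
def TwoIndep : Prop := ∃ x y : K, x ∉ K0 K p ∧ y ∉ adj p x

end

section
variable {K : Type*} [Field K] (p : ℕ) [Fact p.Prime] [CharP K p]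

/-- `1, x, y` are linearly independent over `K^p`. -/
def Indep3 (x y : K) : Prop :=
  ∀ a b c : K, a ∈ K0 K p → b ∈ K0 K p → c ∈ K0 K p → a + b * x + c * y = 0 →
    a = 0 ∧ b = 0 ∧ c = 0

end

section
variable {K : Type*} [Field K] {L : Type*} [Field L] (p : ℕ) [Fact p.Prime] [CharP K p] [CharP L p]

/-- `Φ` maps the affine part `{[x + c] : c ∈ K^p}` of each projective line through `[1]`
into the corresponding line of `L`. -/
def LineMap (Φ : KOne K p → KOne L p) : Prop :=
  ∀ x : K, x ∉ K0 K p → ∀ x' : L, Φ (cl p x) = cl p x' →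
    ∀ c ∈ K0 K p, ∃ c' ∈ K0 L p, Φ (cl p (x + c)) = cl p (x' + c')

end

end Crest.Agent.S0010lib
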