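/-
S0010 (row 9): adapter from `Collin.lean` (helper11) to the skeleton statement of PLAN step 6
(`exists_ringEquiv_of_lineMap` of FTPG.lean), with the skeleton's definitions from `Defs.lean`.
`collin_exists_ringEquiv_of_lineMap` has exactly the statement of `exists_ringEquiv_of_lineMap`;
it replaces the whole chain FTPG0 → FTPG1 → FTPG.  No sorry.
-/
import Crest.Agent.S0010.Defs
import Crest.Agent.S0010.Collin

set_option autoImplicit false
set_option linter.unusedSectionVars false
open Crest.NumberTheoryR.MilnorK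

namespace Crest.Agent.S0010lib
open Crest.Agent.S0010

variable {K : Type*} [Field K] {L : Type*} [Field L] {p : ℕ} [Fact p.Prime] [CharP K p] [CharP L p]

theorem collin_K0_eq : K0 K p = collinK0 K p := rfl

theorem collin_cl_eq (x : K) : cl p x = collinKc p x := rfl

theorem collin_linesTo_of_lineMap {Φ : KOne K p → KOne L p} (h : LineMap p Φ) :
    CollinLinesTo (p := p) Φ := by
  intro x hx c
  obtain ⟨x', -, hx'⟩ := collinKc_surj (p := p) (Φ (collinKc p x))
  obtain ⟨c', hc', e⟩ := h x hx x' hx'.symm c c.2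
  exact ⟨x', ⟨c', hc'⟩, hx'.symm, e⟩

theorem collin_indep3_of_twoIndep (h2 : TwoIndep K p) : ∃ x y : K, CollinInd3 p x y := by
  obtain ⟨x, y, hx, hy⟩ := h2
  exact ⟨x, y, collin_ind3_of_pIndep hx hy⟩

/-- PLAN step 6 (exact statement of `exists_ringEquiv_of_lineMap`). -/
theorem collin_exists_ringEquiv_of_lineMap (h2 : TwoIndep K p) (Φ : KOne K p ≃+ KOne L p)
    (hΦ : LineMap p Φ) (hΦ' : LineMap p Φ.symm) :
    ∃ α : K ≃+* L, ∀ x : K, x ≠ 0 → Φ (cl p x) = cl p (α x) := by
  obtain ⟨α, hα⟩ := collin_exists_ringEquiv Φ (collin_linesTo_of_lineMap hΦ)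
    (collin_linesTo_of_lineMap hΦ') (collin_indep3_of_twoIndep h2)
  refine ⟨α, fun x hx => ?_⟩
  have h := hα (Units.mk0 x hx)
  rw [← collinKc_unit, ← collinKc_unit] at h
  exact h

end Crest.Agent.S0010lib
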