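/-
S0010 (row 9), module FTPG (PLAN step 6): a bijective homomorphism `Φ : Kˣ/K0ˣ → Lˣ/L0ˣ`
(`K0 = K^p`, `L0 = L^p`) which, together with its inverse, preserves the projective lines through
`[1]`, is induced by a field isomorphism.  (Fundamental theorem of projective geometry, done by
hand using multiplicativity.)  Only these facts about the setting are used: `K0` is a subfield,
`cl x = cl y ↔ x / y ∈ K0`, `cl` is multiplicative (module BASIC).
The whole argument (steps 0-6) is split over FTPG0 (0-2), FTPG1 (3-4), FTPG (5-6).
"Independent" = linearly independent over `K0` (resp. `L0`); `Indep3 p x y` = `1, x, y` independent.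

THIS FILE: steps 5-6, starting from `exists_additive_lift` (steps 0-4).
5. Multiplicativity: `A (u v) = lam u v * A u * A v` with `lam u v ∈ L0` (as `Φ` is additive on
   classes).  For fixed `u`, `v ↦ A (u v)` and `v ↦ A u * A v` are additive, so `lam u v = lam u w`
   whenever `A v, A w` are independent, hence always (link through a third vector); `v = 1` gives
   `lam u v = 1`.
6. Surjectivity: `σ` is onto `L0` (LINE for `Φ.symm`), `Φ` is onto, so `A` is onto.
Details for 5: for `u v ≠ 0`, `cl (A (u v)) = Φ (cl u + cl v) = cl (A u * A v)`, so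
`A (u v) = lam * (A u * A v)` with `lam ∈ L0`.  Show `lam u v = lam u 1 = 1`: if `A v ∉ L0` then
`A v, A 1 = 1` are independent; if `A v ∈ L0` pick `w` with `A w ∉ L0` (any `w ∉ K0`).
Surjectivity: `w ≠ 0` in `L`: `cl w = Φ (cl u) = cl (A u)`, so `w = c' * A u = A (c u)`.
-/
import Crest.Agent.S0010.Basic
import Crest.Agent.S0010.CollinFTPG

set_option autoImplicit false
open Crest.NumberTheoryR.MilnorK

namespace Crest.Agent.S0010lib

variable {K : Type*} [Field K] {L : Type*} [Field L] {p : ℕ} [Fact p.Prime] [CharP K p] [CharP L p]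

theorem exists_ringEquiv_of_lineMap (h2 : TwoIndep K p) (Φ : KOne K p ≃+ KOne L p)
    (hΦ : LineMap p Φ) (hΦ' : LineMap p Φ.symm) :
    ∃ α : K ≃+* L, ∀ x : K, x ≠ 0 → Φ (cl p x) = cl p (α x) :=
  -- PROOF: helper11's hand-made fundamental theorem of projective geometry
  -- (`Collin.lean` + adapter `CollinFTPG.lean`, which replace the chain FTPG0 → FTPG1).
  collin_exists_ringEquiv_of_lineMap h2 Φ hΦ hΦ'

end Crest.Agent.S0010lib
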