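/-
S0010 (row 9), module STEINBERG (PLAN step 1): the classes of the points of the projective line
through `[1]` and `[f]` pair to zero with `[f]`.
-/
import Crest.Agent.S0010.Basic

set_option autoImplicit false
open Crest.NumberTheoryR.MilnorK
open scoped TensorProduct

namespace Crest.Agent.S0010lib

variable {K : Type*} [Field K] {p : ℕ} [Fact p.Prime] [CharP K p]

/-- The Steinberg generators, written with `cl`. -/
private theorem steinberg_gen_mem (f : K) (hf : f ≠ 0) (hf1 : 1 - f ≠ 0) :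
    cl p f ⊗ₜ[ZMod p] cl p (1 - f) ∈ steinberg K p := by
  refine Submodule.subset_span ⟨f, hf, hf1, ?_⟩
  have h1 : cl p f = cls K p (Units.mk0 f hf) := by
    have := cl_unit (p := p) (Units.mk0 f hf)
    simpa using this
  have h2 : cl p (1 - f) = cls K p (Units.mk0 (1 - f) hf1) := by
    have := cl_unit (p := p) (Units.mk0 (1 - f) hf1)
    simpa using this
  rw [h1, h2]

/-- `[f] ⊗ [f] ∈ St`. -/
private theorem steinberg_self_mem (f : K) :
    cl p f ⊗ₜ[ZMod p] cl p f ∈ steinberg K p := by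
  by_cases hf : f = 0
  · subst hf
    rw [cl_zero, TensorProduct.zero_tmul]
    exact Submodule.zero_mem _
  by_cases hf1 : f = 1
  · subst hf1
    rw [cl_one, TensorProduct.zero_tmul]
    exact Submodule.zero_mem _
  have h1f : 1 - f ≠ 0 := sub_ne_zero.mpr (Ne.symm hf1)
  have h1fi : 1 - f⁻¹ ≠ 0 := by
    intro h
    apply hf1
    have h' : f⁻¹ = 1 := (sub_eq_zero.mp h).symm
    exact inv_eq_one.mp h'
  have hneg : cl p (-f) = cl p f := by
    have hm1 : (-1 : K) ∈ K0 K p := (K0 K p).neg_mem (K0 K p).one_mem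
    have := cl_K0_mul (p := p) hm1 (by norm_num) f
    simpa using this
  have hdiv : -f = (1 - f) / (1 - f⁻¹) := by
    rw [eq_div_iff h1fi, mul_sub, mul_one, neg_mul, mul_inv_cancel₀ hf]
    ring
  have hcl : cl p (-f) = cl p (1 - f) - cl p (1 - f⁻¹) := by
    rw [hdiv]
    exact cl_div h1f h1fi
  have key : cl p f ⊗ₜ[ZMod p] cl p f =
      cl p f ⊗ₜ[ZMod p] cl p (1 - f) + cl p f⁻¹ ⊗ₜ[ZMod p] cl p (1 - f⁻¹) := by
    calc cl p f ⊗ₜ[ZMod p] cl p f = cl p f ⊗ₜ[ZMod p] cl p (-f) := by rw [hneg]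
      _ = cl p f ⊗ₜ[ZMod p] (cl p (1 - f) - cl p (1 - f⁻¹)) := by rw [hcl]
      _ = cl p f ⊗ₜ[ZMod p] cl p (1 - f) + cl p f⁻¹ ⊗ₜ[ZMod p] cl p (1 - f⁻¹) := by
          rw [TensorProduct.tmul_sub, cl_inv, TensorProduct.neg_tmul, sub_eq_add_neg]
  rw [key]
  exact Submodule.add_mem _ (steinberg_gen_mem f hf h1f)
    (steinberg_gen_mem f⁻¹ (inv_ne_zero hf) h1fi)

/-- `[f] ⊗ [c + e f] ∈ St` for `c, e ∈ K^p`.
Proof: if `c + e f = 0` or `e = 0` the right factor is `0`.  If `c = 0` this is `[f] ⊗ [f]`: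
`[f] ⊗ [-f] = [f] ⊗ [1 - f] + [f⁻¹] ⊗ [1 - f⁻¹]` (for `f ≠ 1`) and `[-f] = [f]` as `-1 ∈ K^p`.
If `c, e ≠ 0` put `g = -e f / c`: then `[g] = [f]`, `[1 - g] = [c + e f]`, a Steinberg generator. -/
theorem tmul_line_mem_steinberg (f : K) {c e : K} (hc : c ∈ K0 K p) (he : e ∈ K0 K p) :
    cl p f ⊗ₜ[ZMod p] cl p (c + e * f) ∈ steinberg K p := by
  by_cases hf : f = 0
  · subst hf
    rw [cl_zero, TensorProduct.zero_tmul]
    exact Submodule.zero_mem _
  by_cases h0 : c + e * f = 0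
  · rw [h0, cl_zero, TensorProduct.tmul_zero]
    exact Submodule.zero_mem _
  by_cases he0 : e = 0
  · subst he0
    have hc0 : c ≠ 0 := by
      intro h
      apply h0
      simp [h]
    have h1 : cl p (c + 0 * f) = 0 := by
      rw [zero_mul, add_zero]
      exact (cl_eq_zero_iff hc0).mpr hc
    rw [h1, TensorProduct.tmul_zero]
    exact Submodule.zero_mem _
  by_cases hc0 : c = 0
  · subst hc0
    rw [zero_add, cl_K0_mul he he0 f]
    exact steinberg_self_mem f
  have hec : -e / c ∈ K0 K p := (K0 K p).div_mem ((K0 K p).neg_mem he) hc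
  have hec0 : -e / c ≠ 0 := div_ne_zero (neg_ne_zero.mpr he0) hc0
  have hg0 : (-e / c) * f ≠ 0 := mul_ne_zero hec0 hf
  have h1g : 1 - (-e / c) * f = c⁻¹ * (c + e * f) := by
    field_simp
    ring
  have h1g0 : 1 - (-e / c) * f ≠ 0 := by
    rw [h1g]
    exact mul_ne_zero (inv_ne_zero hc0) h0
  have hclg : cl p ((-e / c) * f) = cl p f := cl_K0_mul hec hec0 f
  have hcl1g : cl p (1 - (-e / c) * f) = cl p (c + e * f) := by
    rw [h1g]
    exact cl_K0_mul ((K0 K p).inv_mem hc) (inv_ne_zero hc0) _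
  rw [← hclg, ← hcl1g]
  exact steinberg_gen_mem _ hg0 h1g0

end Crest.Agent.S0010lib
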