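/-
S0010 (row 9), module DER (PLAN step 2a): existence of derivations of `K` dual to a
`p`-independent pair.

Suggested proof.  Call `D : K → K` a partial derivation on a subfield `E ⊇ K^p` if `D` vanishes
on `K^p` and is additive and Leibniz on `E`.  EXTENSION: if `h ∉ E` then `h^p ∈ K^p ⊆ E`,
`X^p - h^p` is the minimal polynomial of `h` over `E`, every element of `E(h)` is uniquely
`∑_{i<p} e_i h^i`, and `D'(∑ e_i h^i) := ∑ D(e_i) h^i + (∑ i e_i h^(i-1)) w` is a partial
derivation on `E(h)` extending `D` with `D' h = w`, for ANY `w : K` (well defined because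
`P ↦ ∑ D(P_i) h^i + P'(h) w` kills `X^p - h^p`: `D(h^p) = 0` and `p h^(p-1) = 0`).
Start from `E = K^p`, `D = 0`; adjoin `x` (value `1` resp. `0`), then `y` (value `0` resp. `1`),
then the elements of `S` one by one (skip those already in `E`, value `0`).  At the end `E = ⊤`.
-/
import Crest.Agent.S0010.Basic

set_option autoImplicit false
open Crest.NumberTheoryR.MilnorK
open Polynomial

namespace Crest.Agent.S0010lib

variable {K : Type*} [Field K] {p : ℕ} [Fact p.Prime] [CharP K p]

/-- `D` is a partial derivation on the subfield `E`: additive and Leibniz on `E`, zero on `K^p`. -/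
private def DerPD (p : ℕ) [Fact p.Prime] [CharP K p] (E : Subfield K) (D : K → K) : Prop :=
  (∀ a ∈ E, ∀ b ∈ E, D (a + b) = D a + D b) ∧
  (∀ a ∈ E, ∀ b ∈ E, D (a * b) = a * D b + b * D a) ∧
  (∀ a ∈ K0 K p, D a = 0)

private theorem der_pow_mem_K0 (h : K) : h ^ p ∈ K0 K p :=
  (RingHom.mem_fieldRange).2 ⟨h, rfl⟩

private theorem der_zero (E : Subfield K) (D : K → K) (hD : DerPD p E D) : D 0 = 0 :=
  hD.2.2 0 (zero_mem _)

private theorem der_one (E : Subfield K) (D : K → K) (hD : DerPD p E D) : D 1 = 0 :=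
  hD.2.2 1 (one_mem _)

/-- Coefficientwise application of `D`, evaluated at `h`. -/
private noncomputable def der_psi (E : Subfield K) (D : K → K) (h : K) (P : E[X]) : K :=
  P.sum (fun i a => D (a : K) * h ^ i)

/-- The candidate derivation on polynomials. -/
private noncomputable def der_phi (E : Subfield K) (D : K → K) (h w : K) (P : E[X]) : K :=
  der_psi E D h P + eval₂ E.subtype h (derivative P) * w

private theorem der_psi_add (E : Subfield K) (D : K → K) (hD : DerPD p E D) (h : K)
    (P Q : E[X]) : der_psi E D h (P + Q) = der_psi E D h P + der_psi E D h Q := by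
  unfold der_psi
  apply Polynomial.sum_add_index
  · intro i
    rw [Subfield.coe_zero, der_zero E D hD, zero_mul]
  · intro i a b
    rw [Subfield.coe_add, hD.1 a a.2 b b.2, add_mul]

private theorem der_psi_monomial (E : Subfield K) (D : K → K) (hD : DerPD p E D) (h : K)
    (n : ℕ) (a : E) : der_psi E D h (monomial n a) = D (a : K) * h ^ n := by
  unfold der_psi
  apply Polynomial.sum_monomial_index
  rw [Subfield.coe_zero, der_zero E D hD, zero_mul]

private theorem der_psi_mul (E : Subfield K) (D : K → K) (hD : DerPD p E D) (h : K)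
    (P Q : E[X]) : der_psi E D h (P * Q)
      = eval₂ E.subtype h P * der_psi E D h Q + eval₂ E.subtype h Q * der_psi E D h P := by
  induction P using Polynomial.induction_on' with
  | add P1 P2 h1 h2 =>
    rw [add_mul, der_psi_add E D hD, h1, h2, eval₂_add, der_psi_add E D hD]; ring
  | monomial i a =>
    induction Q using Polynomial.induction_on' with
    | add Q1 Q2 h1 h2 =>
      rw [mul_add, der_psi_add E D hD, h1, h2, eval₂_add, der_psi_add E D hD]; ring
    | monomial j b =>
      rw [monomial_mul_monomial, der_psi_monomial E D hD, der_psi_monomial E D hD,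
        der_psi_monomial E D hD, eval₂_monomial, eval₂_monomial]
      simp only [Subfield.coe_subtype, Subfield.coe_mul]
      rw [hD.2.1 a a.2 b b.2]; ring

private theorem der_phi_add (E : Subfield K) (D : K → K) (hD : DerPD p E D) (h w : K)
    (P Q : E[X]) : der_phi E D h w (P + Q) = der_phi E D h w P + der_phi E D h w Q := by
  unfold der_phi
  rw [der_psi_add E D hD, derivative_add, eval₂_add]; ring

private theorem der_phi_mul (E : Subfield K) (D : K → K) (hD : DerPD p E D) (h w : K)
    (P Q : E[X]) : der_phi E D h w (P * Q)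
      = eval₂ E.subtype h P * der_phi E D h w Q + eval₂ E.subtype h Q * der_phi E D h w P := by
  unfold der_phi
  rw [der_psi_mul E D hD, derivative_mul, eval₂_add, eval₂_mul, eval₂_mul]; ring

private theorem der_phi_C (E : Subfield K) (D : K → K) (hD : DerPD p E D) (h w : K) (a : E) :
    der_phi E D h w (C a) = D (a : K) := by
  unfold der_phi
  rw [← monomial_zero_left, der_psi_monomial E D hD, monomial_zero_left, derivative_C, eval₂_zero]
  ring

private theorem der_phi_X (E : Subfield K) (D : K → K) (hD : DerPD p E D) (h w : K) :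
    der_phi E D h w X = w := by
  unfold der_phi
  rw [← monomial_one_one_eq_X, der_psi_monomial E D hD, monomial_one_one_eq_X, derivative_X,
    eval₂_one, Subfield.coe_one, der_one E D hD]
  ring

/-- The minimal polynomial `X^p - h^p` of `h ∉ E` divides every polynomial vanishing at `h`. -/
private theorem der_dvd (E : Subfield K) (hK0 : K0 K p ≤ E) (h : K) (hh : h ∉ E) (P : E[X])
    (hP : eval₂ E.subtype h P = 0) :
    (X ^ p - C (⟨h ^ p, hK0 (der_pow_mem_K0 h)⟩ : E)) ∣ P := by
  have hp : p.Prime := Fact.out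
  set c : E := ⟨h ^ p, hK0 (der_pow_mem_K0 h)⟩ with hc
  have hirr : Irreducible (X ^ p - C c : E[X]) := by
    apply X_pow_sub_C_irreducible_of_prime hp
    intro b hb
    apply hh
    have h1 : (b : K) ^ p = h ^ p := by
      have := congrArg (fun z : E => (z : K)) hb
      simpa [hc] using this
    have h2 : (b : K) = h := by
      have h3 : ((b : K) - h) ^ p = 0 := by rw [sub_pow_char, h1, sub_self]
      exact sub_eq_zero.1 (pow_eq_zero_iff hp.ne_zero |>.1 h3)
    rw [← h2]; exact b.2
  have hroot : aeval h (X ^ p - C c : E[X]) = 0 := by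
    rw [aeval_def, eval₂_sub, eval₂_pow, eval₂_X, eval₂_C]
    show h ^ p - (c : K) = 0
    rw [hc]; simp
  have hmonic : (X ^ p - C c : E[X]).Monic := monic_X_pow_sub_C c hp.ne_zero
  have hmin := minpoly.eq_of_irreducible_of_monic hirr hroot hmonic
  rw [hmin]
  apply minpoly.dvd
  rw [aeval_def]
  exact hP

private theorem der_phi_min (E : Subfield K) (hK0 : K0 K p ≤ E) (D : K → K) (hD : DerPD p E D)
    (h w : K) :
    der_phi E D h w (X ^ p - C (⟨h ^ p, hK0 (der_pow_mem_K0 h)⟩ : E)) = 0 := by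
  set c : E := ⟨h ^ p, hK0 (der_pow_mem_K0 h)⟩ with hc
  have h1 : der_phi E D h w (X ^ p - C c) + der_phi E D h w (C c) = der_phi E D h w (X ^ p) := by
    rw [← der_phi_add E D hD]; congr 1; ring
  have h2 : der_phi E D h w (C c) = 0 := by
    rw [der_phi_C E D hD]; exact hD.2.2 _ (der_pow_mem_K0 h)
  have h3 : der_phi E D h w (X ^ p) = 0 := by
    unfold der_phi
    rw [← monomial_one_right_eq_X_pow, der_psi_monomial E D hD, monomial_one_right_eq_X_pow,
      derivative_X_pow, eval₂_mul, eval₂_C, Subfield.coe_one, der_one E D hD]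
    have : E.subtype ((p : ℕ) : E) = 0 := by
      rw [map_natCast]; exact CharP.cast_eq_zero K p
    rw [this]; ring
  rw [h2, add_zero] at h1
  rw [h1, h3]

/-- `der_phi` only depends on the value of the polynomial at `h`. -/
private theorem der_phi_wd (E : Subfield K) (hK0 : K0 K p ≤ E) (D : K → K) (hD : DerPD p E D)
    (h w : K) (hh : h ∉ E) (P : E[X]) (hP : eval₂ E.subtype h P = 0) :
    der_phi E D h w P = 0 := by
  obtain ⟨Q, rfl⟩ := der_dvd E hK0 h hh P hP
  rw [der_phi_mul E D hD, der_phi_min E hK0 D hD]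
  have hroot : eval₂ E.subtype h (X ^ p - C (⟨h ^ p, hK0 (der_pow_mem_K0 h)⟩ : E)) = 0 := by
    rw [eval₂_sub, eval₂_pow, eval₂_X, eval₂_C]; simp
  rw [hroot]; ring

/-- The subfield `E(h)`, as the range of evaluation at `h`. -/
private noncomputable def der_ext (p : ℕ) [Fact p.Prime] [CharP K p] (E : Subfield K)
    (hK0 : K0 K p ≤ E) (h : K) : Subfield K :=
  { toSubring := (eval₂RingHom E.subtype h).range
    inv_mem' := by
      intro a ha
      have ha' : a ∈ (eval₂RingHom E.subtype h).range := ha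
      show a⁻¹ ∈ (eval₂RingHom E.subtype h).range
      by_cases ha0 : a = 0
      · rw [ha0, inv_zero]; exact zero_mem _
      · have hp : p.Prime := Fact.out
        have hp1 : p - 1 + 1 = p := Nat.sub_add_cancel hp.one_le
        have hinv : a⁻¹ = a ^ (p - 1) * (a⁻¹) ^ p := by
          calc a⁻¹ = (a * a⁻¹) ^ (p - 1) * a⁻¹ := by
                rw [mul_inv_cancel₀ ha0, one_pow, one_mul]
            _ = a ^ (p - 1) * (a⁻¹) ^ (p - 1 + 1) := by rw [mul_pow, pow_succ]; ring
            _ = a ^ (p - 1) * (a⁻¹) ^ p := by rw [hp1]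
        rw [hinv]
        refine mul_mem (pow_mem ha' _) ?_
        exact ⟨C ⟨(a⁻¹) ^ p, hK0 (der_pow_mem_K0 _)⟩, by simp⟩ }

private theorem der_mem_ext (E : Subfield K) (hK0 : K0 K p ≤ E) (h z : K) :
    z ∈ der_ext p E hK0 h ↔ ∃ P : E[X], eval₂ E.subtype h P = z := Iff.rfl

open Classical in
/-- The extended derivation. -/
private noncomputable def der_D' (E : Subfield K) (D : K → K) (h w : K) (z : K) : K :=
  if hz : ∃ P : E[X], eval₂ E.subtype h P = z then der_phi E D h w hz.choose else 0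

private theorem der_D'_eval (E : Subfield K) (hK0 : K0 K p ≤ E) (D : K → K) (hD : DerPD p E D)
    (h w : K) (hh : h ∉ E) (P : E[X]) :
    der_D' E D h w (eval₂ E.subtype h P) = der_phi E D h w P := by
  have hz : ∃ Q : E[X], eval₂ E.subtype h Q = eval₂ E.subtype h P := ⟨P, rfl⟩
  unfold der_D'
  rw [dif_pos hz]
  have hspec := hz.choose_spec
  have h0 : der_phi E D h w (hz.choose - P) = 0 := by
    apply der_phi_wd E hK0 D hD h w hh
    rw [eval₂_sub, hspec, sub_self]
  have h1 : der_phi E D h w hz.choose = der_phi E D h w (hz.choose - P) + der_phi E D h w P := by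
    rw [← der_phi_add E D hD]; congr 1; ring
  rw [h1, h0, zero_add]

/-- Extension step: adjoin `h ∉ E` and prescribe the value `w` at `h`. -/
private theorem der_step (E : Subfield K) (hK0 : K0 K p ≤ E) (D : K → K) (hD : DerPD p E D)
    (h : K) (hh : h ∉ E) (w : K) :
    ∃ (E' : Subfield K) (D' : K → K), E ≤ E' ∧ h ∈ E' ∧
      (∀ F : Subfield K, E ≤ F → h ∈ F → E' ≤ F) ∧ DerPD p E' D' ∧
      (∀ a ∈ E, D' a = D a) ∧ D' h = w := by
  have hagree : ∀ a ∈ E, der_D' E D h w a = D a := by
    intro a ha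
    have h1 := der_D'_eval E hK0 D hD h w hh (C ⟨a, ha⟩)
    rw [eval₂_C, der_phi_C E D hD] at h1
    exact h1
  refine ⟨der_ext p E hK0 h, der_D' E D h w, ?_, ?_, ?_, ⟨?_, ?_, ?_⟩, hagree, ?_⟩
  · intro a ha
    exact (der_mem_ext E hK0 h a).2 ⟨C ⟨a, ha⟩, by simp⟩
  · exact (der_mem_ext E hK0 h h).2 ⟨X, by simp⟩
  · intro F hEF hhF z hz
    obtain ⟨P, rfl⟩ := (der_mem_ext E hK0 h z).1 hz
    rw [eval₂_eq_sum, Polynomial.sum_def]
    refine sum_mem fun n _ => mul_mem (hEF (P.coeff n).2) (pow_mem hhF n)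
  · intro a ha b hb
    obtain ⟨P, rfl⟩ := (der_mem_ext E hK0 h a).1 ha
    obtain ⟨Q, rfl⟩ := (der_mem_ext E hK0 h b).1 hb
    rw [← eval₂_add, der_D'_eval E hK0 D hD h w hh, der_D'_eval E hK0 D hD h w hh,
      der_D'_eval E hK0 D hD h w hh, der_phi_add E D hD]
  · intro a ha b hb
    obtain ⟨P, rfl⟩ := (der_mem_ext E hK0 h a).1 ha
    obtain ⟨Q, rfl⟩ := (der_mem_ext E hK0 h b).1 hb
    rw [← eval₂_mul, der_D'_eval E hK0 D hD h w hh, der_D'_eval E hK0 D hD h w hh,
      der_D'_eval E hK0 D hD h w hh, der_phi_mul E D hD]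
  · intro a ha
    rw [hagree a (hK0 ha)]; exact hD.2.2 a ha
  · have h1 := der_D'_eval E hK0 D hD h w hh X
    rw [eval₂_X, der_phi_X E D hD] at h1
    exact h1

/-- Adjoin finitely many elements (values irrelevant). -/
private theorem der_finset (S : Finset K) : ∀ (E : Subfield K) (D : K → K), K0 K p ≤ E →
    DerPD p E D → ∃ (E' : Subfield K) (D' : K → K), E ≤ E' ∧ (∀ s ∈ S, s ∈ E') ∧
      DerPD p E' D' ∧ ∀ a ∈ E, D' a = D a := by
  classical
  induction S using Finset.induction_on with
  | empty =>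
    intro E D _ hD
    exact ⟨E, D, le_refl _, by simp, hD, fun a _ => rfl⟩
  | insert s S hs ih =>
    intro E D hK0 hD
    obtain ⟨E1, D1, hle, hS, hD1, hag⟩ := ih E D hK0 hD
    by_cases hsE : s ∈ E1
    · refine ⟨E1, D1, hle, ?_, hD1, hag⟩
      intro t ht
      rcases Finset.mem_insert.1 ht with rfl | ht
      · exact hsE
      · exact hS t ht
    · obtain ⟨E2, D2, hle2, hs2, -, hD2, hag2, -⟩ :=
        der_step E1 (hK0.trans hle) D1 hD1 s hsE 0
      refine ⟨E2, D2, hle.trans hle2, ?_, hD2, fun a ha => by rw [hag2 a (hle ha), hag a ha]⟩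
      intro t ht
      rcases Finset.mem_insert.1 ht with rfl | ht
      · exact hs2
      · exact hle2 (hS t ht)

/-- A partial derivation on a subfield containing `K^p` extends to a derivation of `K`. -/
private theorem der_extend_all (hfg : FG K p) (E : Subfield K) (D : K → K) (hK0 : K0 K p ≤ E)
    (hD : DerPD p E D) : ∃ Der : Derivation ℤ K K, ∀ a ∈ E, Der a = D a := by
  obtain ⟨S, hS⟩ := hfg
  obtain ⟨E3, D3, hle3, hS3, hD3, hag3⟩ := der_finset S E D hK0 hD
  have htop : ∀ z : K, z ∈ E3 := by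
    intro z
    have hcl : Subfield.closure ((K0 K p : Set K) ∪ (S : Set K)) ≤ E3 := by
      rw [Subfield.closure_le]
      rintro a (ha | ha)
      · exact hle3 (hK0 ha)
      · exact hS3 a (Finset.mem_coe.1 ha)
    rw [hS] at hcl
    exact hcl (Subfield.mem_top z)
  refine ⟨Derivation.mk' (AddMonoidHom.toIntLinearMap
      (AddMonoidHom.mk' D3 (fun a b => hD3.1 a (htop a) b (htop b)))) ?_, fun a ha => ?_⟩
  · intro a b
    show D3 (a * b) = a • D3 b + b • D3 a
    rw [smul_eq_mul, smul_eq_mul]; exact hD3.2.1 a (htop a) b (htop b)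
  · show D3 a = D a
    exact hag3 a ha

private theorem der_zero_PD : DerPD p (K0 K p) (fun _ : K => (0 : K)) :=
  ⟨fun _ _ _ _ => by simp, fun _ _ _ _ => by simp, fun _ _ => rfl⟩

theorem exists_dual_derivations (hfg : FG K p) {x y : K} (hx : x ∉ K0 K p) (hy : y ∉ adj p x) :
    ∃ D₁ D₂ : Derivation ℤ K K, D₁ x = 1 ∧ D₁ y = 0 ∧ D₂ x = 0 ∧ D₂ y = 1 := by
  have key : ∀ u v : K, ∃ D : Derivation ℤ K K, D x = u ∧ D y = v := by
    intro u v
    obtain ⟨E1, D1, hle1, hx1, hmin1, hD1, -, hDx⟩ :=
      der_step (K0 K p) le_rfl _ der_zero_PD x hx u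
    have hy1 : y ∉ E1 := fun h =>
      hy (hmin1 (adj p x) (fun a ha => Subfield.subset_closure (Or.inl ha))
        (Subfield.subset_closure (Or.inr rfl)) h)
    obtain ⟨E2, D2, hle2, hy2, -, hD2, hag2, hDy⟩ := der_step E1 hle1 D1 hD1 y hy1 v
    obtain ⟨Der, hDer⟩ := der_extend_all hfg E2 D2 (hle1.trans hle2) hD2
    refine ⟨Der, ?_, ?_⟩
    · rw [hDer x (hle2 hx1), hag2 x hx1, hDx]
    · rw [hDer y hy2, hDy]
  obtain ⟨D₁, h1, h2⟩ := key 1 0
  obtain ⟨D₂, h3, h4⟩ := key 0 1
  exact ⟨D₁, D₂, h1, h2, h3, h4⟩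

theorem exists_derivation (hfg : FG K p) {x : K} (hx : x ∉ K0 K p) :
    ∃ D : Derivation ℤ K K, D x = 1 := by
  obtain ⟨E1, D1, hle1, hx1, -, hD1, -, hDx⟩ :=
    der_step (K0 K p) le_rfl _ der_zero_PD x hx 1
  obtain ⟨Der, hDer⟩ := der_extend_all hfg E1 D1 hle1 hD1
  exact ⟨Der, by rw [hDer x hx1, hDx]⟩

end Crest.Agent.S0010lib
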