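/-
S0010 (row 9), module SYMBOL (PLAN step 2c): the differential symbol.  If `f, g` are
`p`-independent then `[f] ⊗ [g]` is NOT in the Steinberg span.

Proof.  Suppose `g ∉ K^p(f)`.  Take `D₁ D₂` from `exists_dual_derivations` (for the pair `f, g`).
For a derivation `D`, `u ↦ D u / u` is a homomorphism `Kˣ → (K, +)` killing `p`-th powers, hence
induces an additive (so `ZMod p`-linear, `K` being a `ZMod p`-module) map `φ_D : KOne K p → K`
with `φ_D (cl p u) = D u / u` for `u ≠ 0`.  Let `β : KOne ⊗ KOne → K` be the linear map with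
`β (a ⊗ b) = φ₁ a * φ₂ b - φ₂ a * φ₁ b`.  It kills every generator `[h] ⊗ [1 - h]`
(`D (1 - h) = - D h`), hence `steinberg K p`; but `β ([f] ⊗ [g]) = 1 / (f g) ≠ 0`.
-/
import Crest.Agent.S0010.Basic
import Crest.Agent.S0010.Der

set_option autoImplicit false
open Crest.NumberTheoryR.MilnorK
open scoped TensorProduct

namespace Crest.Agent.S0010lib

variable {K : Type*} [Field K] {p : ℕ} [Fact p.Prime] [CharP K p]

/-- The logarithmic derivative `u ↦ D u / u` on `Additive Kˣ`. -/
private noncomputable def symbolDlogAux (D : Derivation ℤ K K) : Additive Kˣ →+ K where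
  toFun u := D ((Additive.toMul u : Kˣ) : K) / ((Additive.toMul u : Kˣ) : K)
  map_zero' := by simp
  map_add' u v := by
    have hu : ((Additive.toMul u : Kˣ) : K) ≠ 0 := Units.ne_zero _
    have hv : ((Additive.toMul v : Kˣ) : K) ≠ 0 := Units.ne_zero _
    simp only [toMul_add, Units.val_mul, Derivation.leibniz, smul_eq_mul]
    field_simp
    ring

/-- The logarithmic derivative as an additive map on `KOne K p`. -/
private noncomputable def symbolDlog (p : ℕ) [Fact p.Prime] [CharP K p] (D : Derivation ℤ K K) :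
    KOne K p →+ K :=
  QuotientAddGroup.lift (pMultiples K p) (symbolDlogAux D) (by
    intro a ha
    obtain ⟨b, rfl⟩ := ha
    rw [AddMonoidHom.mem_ker]
    show symbolDlogAux D (p • b) = 0
    rw [map_nsmul, nsmul_eq_mul, CharP.cast_eq_zero K p, zero_mul])

private theorem symbolDlog_cl (D : Derivation ℤ K K) {u : K} (hu : u ≠ 0) :
    symbolDlog p D (cl p u) = D u / u := by
  unfold cl
  rw [dif_neg hu]
  rfl

private theorem symbol_zmod_smul {M : Type*} [AddCommGroup M] [Module (ZMod p) M] (r : ZMod p)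
    (x : M) : r • x = r.val • x := by
  have : NeZero p := ⟨(Fact.out : p.Prime).ne_zero⟩
  conv_lhs => rw [← ZMod.natCast_zmod_val r]
  exact Nat.cast_smul_eq_nsmul (ZMod p) _ _

/-- The differential symbol `β (a ⊗ b) = φ₁ a * φ₂ b - φ₂ a * φ₁ b`. -/
private noncomputable def symbolBeta (p : ℕ) [Fact p.Prime] [CharP K p]
    (D₁ D₂ : Derivation ℤ K K) : KOne K p ⊗[ZMod p] KOne K p →+ K :=
  TensorProduct.liftAddHom
    (AddMonoidHom.mk' (fun a => AddMonoidHom.mk'
        (fun b => symbolDlog p D₁ a * symbolDlog p D₂ b - symbolDlog p D₂ a * symbolDlog p D₁ b)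
        (by intro b c; simp only [map_add]; ring))
      (by
        intro a a'
        refine AddMonoidHom.ext fun b => ?_
        simp only [AddMonoidHom.mk'_apply, AddMonoidHom.add_apply, map_add]
        ring))
    (by
      intro r a b
      simp only [AddMonoidHom.mk'_apply]
      rw [symbol_zmod_smul r a, symbol_zmod_smul r b]
      simp only [map_nsmul, nsmul_eq_mul]
      ring)

private theorem symbolBeta_tmul (D₁ D₂ : Derivation ℤ K K) (a b : KOne K p) :
    symbolBeta p D₁ D₂ (a ⊗ₜ[ZMod p] b) =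
      symbolDlog p D₁ a * symbolDlog p D₂ b - symbolDlog p D₂ a * symbolDlog p D₁ b :=
  rfl

private theorem symbolBeta_steinberg (D₁ D₂ : Derivation ℤ K K)
    {t : KOne K p ⊗[ZMod p] KOne K p} (ht : t ∈ steinberg K p) : symbolBeta p D₁ D₂ t = 0 := by
  unfold steinberg at ht
  induction ht using Submodule.span_induction with
  | mem x hx =>
    obtain ⟨f, hf, hf1, rfl⟩ := hx
    have e1 : cls K p (Units.mk0 f hf) = cl p f := by
      unfold cl
      rw [dif_neg hf]
    have e2 : cls K p (Units.mk0 (1 - f) hf1) = cl p (1 - f) := by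
      unfold cl
      rw [dif_neg hf1]
    rw [symbolBeta_tmul, e1, e2, symbolDlog_cl D₁ hf, symbolDlog_cl D₂ hf, symbolDlog_cl D₁ hf1,
      symbolDlog_cl D₂ hf1]
    simp only [map_sub, Derivation.map_one_eq_zero, zero_sub]
    ring
  | zero => exact map_zero _
  | add x y _ _ hx hy => rw [map_add, hx, hy, add_zero]
  | smul r x _ hx => rw [symbol_zmod_smul r x, map_nsmul, hx, smul_zero]

theorem mem_adj_of_tmul_mem_steinberg (hfg : FG K p) {f g : K} (hf : f ∉ K0 K p) (hg : g ≠ 0)
    (h : cl p f ⊗ₜ[ZMod p] cl p g ∈ steinberg K p) : g ∈ adj p f := by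
  by_contra hgn
  obtain ⟨D₁, D₂, h1f, h1g, h2f, h2g⟩ := exists_dual_derivations hfg hf hgn
  have hf0 : f ≠ 0 := by
    rintro rfl
    exact hf (zero_mem _)
  have h0 := symbolBeta_steinberg D₁ D₂ h
  rw [symbolBeta_tmul, symbolDlog_cl D₁ hf0, symbolDlog_cl D₂ hg, symbolDlog_cl D₂ hf0,
    symbolDlog_cl D₁ hg, h1f, h1g, h2f, h2g] at h0
  have h1 : (1 : K) / f * (1 / g) ≠ 0 :=
    mul_ne_zero (one_div_ne_zero hf0) (one_div_ne_zero hg)
  apply h1
  simpa using h0

/-- Reformulation: `N(a) ⊆ G(a)` for `a ≠ 0`. -/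
theorem Nrel_subset_G (hfg : FG K p) {a : KOne K p} (ha : a ≠ 0) : Nrel p a ⊆ G p a := by
  intro b hb
  obtain ⟨f, hf0, rfl⟩ := exists_cl (p := p) a
  obtain ⟨g, hg0, rfl⟩ := exists_cl (p := p) b
  have hfK : f ∉ K0 K p := fun hfK => ha ((cl_eq_zero_iff hf0).2 hfK)
  exact ⟨f, g, hf0, hg0, rfl, rfl, mem_adj_of_tmul_mem_steinberg hfg hfK hg0 hb⟩

end Crest.Agent.S0010lib
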