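/-
S0010 (row 9), module GINTR (PLAN step 3): the blocks `G(a)` are determined by the Steinberg
span, hence preserved by a compatible `Θ`.

Proof.  (i) For `a ≠ 0`, `G(a)` is the smallest additive subgroup `H` of `KOne K p` with `a ∈ H`
and `Nrel p b ⊆ H` for every `b ∈ H`, `b ≠ 0`.
  `G(a)` is such an `H`: `Nrel b ⊆ G b = G a` for `0 ≠ b ∈ G a` (`Nrel_subset_G`, `G_eq_of_mem`).
  Minimality: given `H`, let `Hc = {0} ∪ {h ≠ 0 | cl p h ∈ H}`.  It contains `K^p` and a
  representative `f` of `a`, is closed under products and inverses, and under `h ↦ 1 + h`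
  (`cl (1 + h) ∈ Nrel (cl h)` by `tmul_line_mem_steinberg` when `cl h ≠ 0`; trivial when
  `h ∈ K^p`).  So it is closed under sums (`h + h' = h (1 + h'/h)`) and is a subfield containing
  `K^p` and `f`, hence `adj p f ≤ Hc`.
(ii) `a ⊗ b ∈ St_K ↔ Θ a ⊗ Θ b ∈ St_L` (`IsCompatible` and injectivity of `Θ ⊗ Θ`), i.e.
  `Θ '' Nrel a = Nrel (Θ a)`.  Transport (i).
-/
import Crest.Agent.S0010.Basic
import Crest.Agent.S0010.Steinberg
import Crest.Agent.S0010.Symbol

set_option autoImplicit false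
open Crest.NumberTheoryR.MilnorK
open scoped TensorProduct

namespace Crest.Agent.S0010lib

variable {K : Type*} [Field K] {L : Type*} [Field L] {p : ℕ} [Fact p.Prime] [CharP K p] [CharP L p]

/-- `Θ ⊗ Θ` is injective. -/
private theorem GIntr_map_injective (Θ : KOne K p ≃ₗ[ZMod p] KOne L p) :
    Function.Injective (TensorProduct.map Θ.toLinearMap Θ.toLinearMap) := by
  have hcomp : (TensorProduct.map Θ.symm.toLinearMap Θ.symm.toLinearMap) ∘ₗ
      (TensorProduct.map Θ.toLinearMap Θ.toLinearMap) = LinearMap.id := by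
    rw [← TensorProduct.map_comp]
    simp
  intro x y hxy
  have h := congrArg (TensorProduct.map Θ.symm.toLinearMap Θ.symm.toLinearMap) hxy
  rw [← LinearMap.comp_apply, ← LinearMap.comp_apply, hcomp] at h
  exact h

theorem tmul_mem_steinberg_iff (Θ : KOne K p ≃ₗ[ZMod p] KOne L p) (hΘ : IsCompatible Θ)
    (a b : KOne K p) :
    Θ a ⊗ₜ[ZMod p] Θ b ∈ steinberg L p ↔ a ⊗ₜ[ZMod p] b ∈ steinberg K p := by
  have hΘ' : (steinberg K p).map (TensorProduct.map Θ.toLinearMap Θ.toLinearMap) =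
      steinberg L p := hΘ
  rw [← hΘ']
  constructor
  · rintro ⟨t, ht, hte⟩
    have e : TensorProduct.map Θ.toLinearMap Θ.toLinearMap (a ⊗ₜ[ZMod p] b) =
        Θ a ⊗ₜ[ZMod p] Θ b := by
      rw [TensorProduct.map_tmul]; rfl
    have : t = a ⊗ₜ[ZMod p] b := GIntr_map_injective Θ (hte.trans e.symm)
    rw [← this]
    exact ht
  · intro h
    refine ⟨a ⊗ₜ[ZMod p] b, h, ?_⟩
    rw [TensorProduct.map_tmul]; rfl

theorem isCompatible_symm (Θ : KOne K p ≃ₗ[ZMod p] KOne L p) (hΘ : IsCompatible Θ) :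
    IsCompatible Θ.symm := by
  have hΘ' : (steinberg K p).map (TensorProduct.map Θ.toLinearMap Θ.toLinearMap) =
      steinberg L p := hΘ
  show (steinberg L p).map (TensorProduct.map Θ.symm.toLinearMap Θ.symm.toLinearMap) =
      steinberg K p
  have hcomp : (TensorProduct.map Θ.symm.toLinearMap Θ.symm.toLinearMap) ∘ₗ
      (TensorProduct.map Θ.toLinearMap Θ.toLinearMap) = LinearMap.id := by
    rw [← TensorProduct.map_comp]
    simp
  rw [← hΘ', ← Submodule.map_comp, hcomp, Submodule.map_id]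

/-- The set `{0} ∪ {h ≠ 0 | [h] ∈ H}` is a subfield of `K` when `H` is an `N`-closed subgroup. -/
private def GIntr_Hc (H : AddSubgroup (KOne K p))
    (hN : ∀ b ∈ H, b ≠ 0 → Nrel p b ⊆ (H : Set (KOne K p))) : Subfield K where
  carrier := {h | h = 0 ∨ cl p h ∈ H}
  mul_mem' := by
    intro x y hx hy
    by_cases hx0 : x = 0
    · left; rw [hx0, zero_mul]
    by_cases hy0 : y = 0
    · left; rw [hy0, mul_zero]
    right
    have hcx : cl p x ∈ H := hx.resolve_left hx0
    have hcy : cl p y ∈ H := hy.resolve_left hy0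
    rw [cl_mul hx0 hy0]
    exact H.add_mem hcx hcy
  one_mem' := Or.inr (by rw [cl_one]; exact H.zero_mem)
  add_mem' := by
    intro x y hx hy
    by_cases hx0 : x = 0
    · rw [hx0, zero_add]; exact hy
    by_cases hy0 : y = 0
    · rw [hy0, add_zero]; exact hx
    by_cases hxy : x + y = 0
    · left; exact hxy
    right
    have hcx : cl p x ∈ H := hx.resolve_left hx0
    have hcy : cl p y ∈ H := hy.resolve_left hy0
    have hh0 : y / x ≠ 0 := div_ne_zero hy0 hx0
    have hch : cl p (y / x) ∈ H := by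
      rw [cl_div hy0 hx0]; exact H.sub_mem hcy hcx
    have hsum : x + y = x * (1 + y / x) := by field_simp
    have h1 : 1 + y / x ≠ 0 := by
      intro h
      apply hxy
      rw [hsum, h, mul_zero]
    have hc1 : cl p (1 + y / x) ∈ H := by
      by_cases hh : cl p (y / x) = 0
      · have hK : y / x ∈ K0 K p := (cl_eq_zero_iff hh0).1 hh
        have hK1 : 1 + y / x ∈ K0 K p := (K0 K p).add_mem (K0 K p).one_mem hK
        rw [(cl_eq_zero_iff h1).2 hK1]
        exact H.zero_mem
      · have hst := tmul_line_mem_steinberg (p := p) (y / x) (c := 1) (e := 1)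
          (K0 K p).one_mem (K0 K p).one_mem
        rw [one_mul] at hst
        exact hN _ hch hh hst
    rw [hsum, cl_mul hx0 h1]
    exact H.add_mem hcx hc1
  zero_mem' := Or.inl rfl
  neg_mem' := by
    intro x hx
    by_cases hx0 : x = 0
    · left; rw [hx0, neg_zero]
    right
    have hcx : cl p x ∈ H := hx.resolve_left hx0
    have hm1 : (-1 : K) ∈ K0 K p := (K0 K p).neg_mem (K0 K p).one_mem
    have hm10 : (-1 : K) ≠ 0 := neg_ne_zero.mpr one_ne_zero
    have e : -x = (-1) * x := by ring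
    rw [e, cl_K0_mul hm1 hm10 x]
    exact hcx
  inv_mem' := by
    intro x hx
    by_cases hx0 : x = 0
    · left; rw [hx0, inv_zero]
    right
    have hcx : cl p x ∈ H := hx.resolve_left hx0
    rw [cl_inv]
    exact H.neg_mem hcx

/-- Minimality: an `N`-closed subgroup containing `a` contains the block `G(a)`. -/
private theorem GIntr_G_subset (H : AddSubgroup (KOne K p))
    (hN : ∀ b ∈ H, b ≠ 0 → Nrel p b ⊆ (H : Set (KOne K p))) {a : KOne K p} (ha : a ∈ H) :
    G p a ⊆ (H : Set (KOne K p)) := by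
  rintro b ⟨f, g, hf, hg, hfa, hgb, hgadj⟩
  have hfHc : f ∈ GIntr_Hc H hN := Or.inr (by rw [hfa]; exact ha)
  have hK0 : K0 K p ≤ GIntr_Hc H hN := by
    intro c hc
    by_cases hc0 : c = 0
    · exact Or.inl hc0
    · exact Or.inr (by rw [(cl_eq_zero_iff hc0).2 hc]; exact H.zero_mem)
  have hgHc : g ∈ GIntr_Hc H hN := adj_le hK0 hfHc hgadj
  rcases hgHc with h | h
  · exact absurd h hg
  · show b ∈ H
    rw [← hgb]; exact h

/-- One inclusion of `map_G`. -/
private theorem GIntr_image_subset (hL : FG L p) (Θ : KOne K p ≃ₗ[ZMod p] KOne L p)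
    (hΘ : IsCompatible Θ) (a : KOne K p) : Θ '' G p a ⊆ G p (Θ a) := by
  -- the subgroup `H = Θ⁻¹ (G (Θ a))`
  let H : AddSubgroup (KOne K p) :=
    { carrier := {b | Θ b ∈ G p (Θ a)}
      add_mem' := by
        intro x y hx hy
        show Θ (x + y) ∈ G p (Θ a)
        rw [map_add]; exact G_add hx hy
      zero_mem' := by
        show Θ 0 ∈ G p (Θ a)
        rw [map_zero]; exact zero_mem_G _
      neg_mem' := by
        intro x hx
        show Θ (-x) ∈ G p (Θ a)
        rw [map_neg]; exact G_neg hx }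
  have hN : ∀ b ∈ H, b ≠ 0 → Nrel p b ⊆ (H : Set (KOne K p)) := by
    intro b hb hb0 c hc
    have hΘb0 : Θ b ≠ 0 := fun h => hb0 (by simpa using h)
    have h1 : Θ c ∈ Nrel p (Θ b) := (tmul_mem_steinberg_iff Θ hΘ b c).2 hc
    have h2 : Θ c ∈ G p (Θ b) := Nrel_subset_G hL hΘb0 h1
    have h3 : G p (Θ b) = G p (Θ a) := G_eq_of_mem hb hΘb0
    show Θ c ∈ G p (Θ a)
    rw [← h3]; exact h2
  have haH : a ∈ H := self_mem_G (Θ a)
  have hsub := GIntr_G_subset H hN haH
  rintro _ ⟨b, hb, rfl⟩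
  exact hsub hb

theorem map_G (hK : FG K p) (hL : FG L p) (Θ : KOne K p ≃ₗ[ZMod p] KOne L p)
    (hΘ : IsCompatible Θ) (a : KOne K p) : Θ '' G p a = G p (Θ a) := by
  apply Set.Subset.antisymm (GIntr_image_subset hL Θ hΘ a)
  intro c hc
  have h := GIntr_image_subset hK Θ.symm (isCompatible_symm Θ hΘ) (Θ a)
  rw [LinearEquiv.symm_apply_apply] at h
  have h2 : Θ.symm c ∈ G p a := h ⟨c, hc, rfl⟩
  exact ⟨Θ.symm c, h2, LinearEquiv.apply_symm_apply Θ c⟩

theorem mem_G_map_iff (hK : FG K p) (hL : FG L p) (Θ : KOne K p ≃ₗ[ZMod p] KOne L p)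
    (hΘ : IsCompatible Θ) (a b : KOne K p) : Θ b ∈ G p (Θ a) ↔ b ∈ G p a := by
  rw [← map_G hK hL Θ hΘ a]
  constructor
  · rintro ⟨b', hb', hbb⟩
    have : b' = b := Θ.injective hbb
    rw [← this]; exact hb'
  · intro h
    exact ⟨b, h, rfl⟩

end Crest.Agent.S0010lib
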