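/-
S0010 (row 9), module TWISTC (PLAN step 5): the twist is global; after rescaling, `Θ` preserves
the lines through `[1]`.

Proof.  `Rconf` is defined from `G`, spans and the group structure, all preserved by `Θ`
(`map_G`), so `(u, v) ∈ Rconf a b ↔ (Θ u, Θ v) ∈ Rconf (Θ a) (Θ b)`.
A. If `a ≠ 0`, `b ∉ G a`, `u ∈ ℓ°(a)`, `v ∈ ℓ°(b)` then (`mem_Rconf_iff` in `K` with `n = 1`,
   then in `L`) there is `n ≠ 0` with `Θ u ∈ tw n (Θ a)` and `Θ v ∈ tw n (Θ b)`.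
B. Fix a `p`-independent pair `a₀, b₀` (`TwoIndep K p`), `u₀ ∈ ℓ°(a₀)`, `v₀ ∈ ℓ°(b₀)`
   (`lineO_nonempty`) and `n₀` from A.  For every `a ≠ 0` and `u ∈ ℓ°(a)`:
   `Θ u ∈ tw n₀ (Θ a)`.  [If `a ∉ G b₀` apply A to `(a, b₀, u, v₀)` and `tw_disjoint`;
   otherwise `a ∉ G a₀` (blocks partition, `G_eq_of_mem`): apply A to `(a, a₀, u, u₀)`.]
   So `Φ := n₀ • Θ` maps `ℓ°(a)` into `ℓ°(Φ a)`.
C. Same for `Θ.symm` (`isCompatible_symm`) with some `n₁`; composing, `ℓ°(a) ⊆ tw (n₁ n₀) a`,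
   so `n₁ n₀ = 1` (`tw_disjoint`, `tw_one`), i.e. `Φ.symm = n₁ • Θ.symm` also maps `ℓ°` into `ℓ°`.
D. `ℓ°`-preservation gives `LineMap`: if `Φ (cl x) = cl x'` and `c ∈ K^p`, `c ≠ 0`, then
   `cl (x + c) ∈ ℓ°(cl x)`, so `Φ (cl (x + c)) = cl (x'' - c'')` with `cl x'' = cl x'`, i.e.
   `x'' = λ x'`, `λ ∈ K^p`, and `cl (λ x' - c'') = cl (x' - c''/λ)`.  (`c = 0`: take `c' = 0`.)
-/
import Crest.Agent.S0010.Basic
import Crest.Agent.S0010.GIntr
import Crest.Agent.S0010.TwistA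

set_option autoImplicit false
open Crest.NumberTheoryR.MilnorK

namespace Crest.Agent.S0010lib

variable {K : Type*} [Field K] {L : Type*} [Field L] {p : ℕ} [Fact p.Prime] [CharP K p] [CharP L p]

/-- `Rconf` is transported by a compatible `Θ`. -/
private theorem twistC_Rconf_map (hK : FG K p) (hL : FG L p)
    (Θ : KOne K p ≃ₗ[ZMod p] KOne L p) (hΘ : IsCompatible Θ) {a b u v : KOne K p}
    (h : (u, v) ∈ Rconf p a b) : (Θ u, Θ v) ∈ Rconf p (Θ a) (Θ b) := by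
  obtain ⟨h1, h2, h3, h4, I, h5, h6⟩ := h
  refine ⟨(mem_G_map_iff hK hL Θ hΘ a u).2 h1, ?_, (mem_G_map_iff hK hL Θ hΘ b v).2 h3, ?_,
    Θ I, ?_, ?_⟩
  · intro hmem
    apply h2
    rw [Submodule.mem_span_singleton] at hmem ⊢
    obtain ⟨c, hc⟩ := hmem
    exact ⟨c, Θ.injective (by rw [map_smul]; exact hc)⟩
  · intro hmem
    apply h4
    rw [Submodule.mem_span_singleton] at hmem ⊢
    obtain ⟨c, hc⟩ := hmem
    exact ⟨c, Θ.injective (by rw [map_smul]; exact hc)⟩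
  · have h := (mem_G_map_iff hK hL Θ hΘ (a - b) (I - b)).2 h5
    rw [map_sub, map_sub] at h
    exact h
  · have h := (mem_G_map_iff hK hL Θ hΘ (u - v) (I - v)).2 h6
    rw [map_sub, map_sub] at h
    exact h

/-- Step A: one twist for a pair of points on lines through independent classes. -/
private theorem twistC_stepA (hK : FG K p) (hL : FG L p)
    (Θ : KOne K p ≃ₗ[ZMod p] KOne L p) (hΘ : IsCompatible Θ) {a b u v : KOne K p}
    (ha : a ≠ 0) (hab : b ∉ G p a) (hu : u ∈ lineO p a) (hv : v ∈ lineO p b) :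
    ∃ n : ZMod p, n ≠ 0 ∧ Θ u ∈ tw p n (Θ a) ∧ Θ v ∈ tw p n (Θ b) := by
  have h1 : (u, v) ∈ Rconf p a b :=
    (mem_Rconf_iff hK ha hab u v).2
      ⟨1, one_ne_zero, by rw [tw_one]; exact hu, by rw [tw_one]; exact hv⟩
  have h2 := twistC_Rconf_map hK hL Θ hΘ h1
  have ha' : Θ a ≠ 0 := fun h0 => ha (Θ.injective (by rw [h0, map_zero]))
  have hab' : Θ b ∉ G p (Θ a) := fun h => hab ((mem_G_map_iff hK hL Θ hΘ a b).1 h)
  exact (mem_Rconf_iff hL ha' hab' (Θ u) (Θ v)).1 h2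

/-- Step B: the twist is the same for all lines. -/
private theorem twistC_stepB (hK : FG K p) (hL : FG L p) (hK2 : TwoIndep K p)
    (Θ : KOne K p ≃ₗ[ZMod p] KOne L p) (hΘ : IsCompatible Θ) :
    ∃ n : ZMod p, n ≠ 0 ∧ ∀ a : KOne K p, a ≠ 0 → ∀ u ∈ lineO p a, Θ u ∈ tw p n (Θ a) := by
  obtain ⟨x, y, hx, hy⟩ := hK2
  have hx0 : x ≠ 0 := by rintro rfl; exact hx (zero_mem _)
  have hy0 : y ≠ 0 := by rintro rfl; exact hy (zero_mem _)
  have ha₀0 : cl p x ≠ 0 := fun h => hx ((cl_eq_zero_iff hx0).1 h)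
  have hb₀ : cl p y ∉ G p (cl p x) := fun h => hy ((mem_G_iff hx0 hy0).1 h)
  have hb₀0 : cl p y ≠ 0 := by
    intro h
    apply hb₀
    rw [h]
    exact zero_mem_G _
  obtain ⟨u₀, hu₀⟩ := lineO_nonempty ha₀0
  obtain ⟨v₀, hv₀⟩ := lineO_nonempty hb₀0
  obtain ⟨n₀, hn₀, h1, h2⟩ := twistC_stepA hK hL Θ hΘ ha₀0 hb₀ hu₀ hv₀
  refine ⟨n₀, hn₀, fun a ha u hu => ?_⟩
  by_cases hab : a ∈ G p (cl p y)
  · have haa : a ∉ G p (cl p x) := by
      intro h
      have e1 : G p a = G p (cl p x) := G_eq_of_mem h ha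
      have e2 : G p a = G p (cl p y) := G_eq_of_mem hab ha
      apply hb₀
      rw [← e1, e2]
      exact self_mem_G _
    obtain ⟨n, hn, h3, h4⟩ := twistC_stepA hK hL Θ hΘ ha₀0 haa hu₀ hu
    have hnn : n = n₀ := tw_disjoint hL hn hn₀ h3 h1
    rw [← hnn]
    exact h4
  · obtain ⟨n, hn, h3, h4⟩ := twistC_stepA hK hL Θ hΘ hb₀0 hab hv₀ hu
    have hnn : n = n₀ := tw_disjoint hL hn hn₀ h3 h2
    rw [← hnn]
    exact h4

/-- Step D: preservation of the punctured lines gives `LineMap`. -/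
private theorem twistC_lineMap (Φ : KOne K p ≃+ KOne L p)
    (h : ∀ a : KOne K p, a ≠ 0 → ∀ u ∈ lineO p a, Φ u ∈ lineO p (Φ a)) : LineMap p Φ := by
  intro x hx x' hx' c hc
  have hx0 : x ≠ 0 := by rintro rfl; exact hx (zero_mem _)
  have ha : cl p x ≠ 0 := fun h0 => hx ((cl_eq_zero_iff hx0).1 h0)
  by_cases hc0 : c = 0
  · refine ⟨0, zero_mem _, ?_⟩
    rw [hc0, add_zero, add_zero]
    exact hx'
  · have hmem : cl p (x + c) ∈ lineO p (cl p x) :=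
      ⟨x, -c, hx, neg_mem hc, neg_ne_zero.2 hc0, rfl, by rw [sub_neg_eq_add]⟩
    obtain ⟨x'', c'', hx'', hc'', hc''0, e1, e2⟩ := h _ ha _ hmem
    have hx''0 : x'' ≠ 0 := by rintro rfl; exact hx'' (zero_mem _)
    have hx'0 : x' ≠ 0 := by
      rintro rfl
      rw [cl_zero] at hx'
      exact ha (Φ.injective (by rw [hx', map_zero]))
    have e3 : cl p x'' = cl p x' := e1.trans hx'
    have hlam : x'' / x' ∈ K0 L p := (cl_eq_cl_iff hx''0 hx'0).1 e3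
    have hlam0 : x'' / x' ≠ 0 := div_ne_zero hx''0 hx'0
    refine ⟨-(c'' / (x'' / x')), neg_mem (div_mem hc'' hlam), ?_⟩
    rw [← e2]
    have hfac : x'' - c'' = (x'' / x') * (x' + -(c'' / (x'' / x'))) := by
      field_simp
      ring
    rw [hfac, cl_K0_mul hlam hlam0]


theorem exists_twist (hK : FG K p) (hL : FG L p) (hK2 : TwoIndep K p) (hL2 : TwoIndep L p)
    (Θ : KOne K p ≃ₗ[ZMod p] KOne L p) (hΘ : IsCompatible Θ) :
    ∃ n : ZMod p, n ≠ 0 ∧ ∃ Φ : KOne K p ≃+ KOne L p,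
      (∀ a, Φ a = n • Θ a) ∧ LineMap p Φ ∧ LineMap p Φ.symm := by
  obtain ⟨n₀, hn₀, hB⟩ := twistC_stepB hK hL hK2 Θ hΘ
  obtain ⟨n₁, hn₁, hB'⟩ := twistC_stepB hL hK hL2 Θ.symm (isCompatible_symm Θ hΘ)
  have h10 : n₁ * n₀ = 1 := by
    obtain ⟨x, y, hx, hy⟩ := hK2
    have hx0 : x ≠ 0 := by rintro rfl; exact hx (zero_mem _)
    have ha : cl p x ≠ 0 := fun h => hx ((cl_eq_zero_iff hx0).1 h)
    obtain ⟨u, hu⟩ := lineO_nonempty ha
    have h1 : n₀ • Θ u ∈ lineO p (n₀ • Θ (cl p x)) := hB _ ha u hu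
    have hΘa : Θ (cl p x) ≠ 0 := fun h0 => ha (Θ.injective (by rw [h0, map_zero]))
    have ha' : n₀ • Θ (cl p x) ≠ 0 := smul_ne_zero hn₀ hΘa
    have h2 : n₁ • Θ.symm (n₀ • Θ u) ∈ lineO p (n₁ • Θ.symm (n₀ • Θ (cl p x))) :=
      hB' _ ha' _ h1
    have h3 : u ∈ tw p (n₁ * n₀) (cl p x) := by
      show (n₁ * n₀) • u ∈ lineO p ((n₁ * n₀) • cl p x)
      rw [map_smul, map_smul, LinearEquiv.symm_apply_apply, LinearEquiv.symm_apply_apply,
        smul_smul, smul_smul] at h2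
      exact h2
    have h4 : u ∈ tw p 1 (cl p x) := by rw [tw_one]; exact hu
    exact tw_disjoint hK (mul_ne_zero hn₁ hn₀) one_ne_zero h3 h4
  have h01 : n₀ * n₁ = 1 := by rw [mul_comm]; exact h10
  let Φ : KOne K p ≃+ KOne L p :=
    { toFun := fun a => n₀ • Θ a
      invFun := fun b => n₁ • Θ.symm b
      left_inv := fun a => by
        show n₁ • Θ.symm (n₀ • Θ a) = a
        rw [map_smul, LinearEquiv.symm_apply_apply, smul_smul, h10, one_smul]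
      right_inv := fun b => by
        show n₀ • Θ (n₁ • Θ.symm b) = b
        rw [map_smul, LinearEquiv.apply_symm_apply, smul_smul, h01, one_smul]
      map_add' := fun a b => by
        show n₀ • Θ (a + b) = n₀ • Θ a + n₀ • Θ b
        rw [map_add]
        exact (LinearMap.lsmul (ZMod p) (KOne L p) n₀).map_add (Θ a) (Θ b) }
  refine ⟨n₀, hn₀, Φ, fun a => rfl, ?_, ?_⟩
  · exact twistC_lineMap Φ (fun a ha u hu => hB a ha u hu)
  · exact twistC_lineMap Φ.symm (fun a ha u hu => hB' a ha u hu)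

end Crest.Agent.S0010lib
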