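/-
S0010 (row 9), module CORE: existence of the field isomorphism (assembly of TWISTC and FTPG).
-/
import Crest.Agent.S0010.Basic
import Crest.Agent.S0010.TwistC
import Crest.Agent.S0010.FTPG

set_option autoImplicit false
open Crest.NumberTheoryR.MilnorK

namespace Crest.Agent.S0010lib

variable {K : Type*} [Field K] {L : Type*} [Field L] {p : ℕ} [Fact p.Prime] [CharP K p] [CharP L p]

theorem core (hK : FG K p) (hL : FG L p) (hK2 : TwoIndep K p) (hL2 : TwoIndep L p)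
    (Θ : KOne K p ≃ₗ[ZMod p] KOne L p) (hΘ : IsCompatible Θ) :
    ∃ α : K ≃+* L, ∃ c : ZMod p, c ≠ 0 ∧ ∀ x : K, x ≠ 0 → Θ (cl p x) = c • cl p (α x) := by
  obtain ⟨n, hn, Φ, hΦ, h1, h2⟩ := exists_twist hK hL hK2 hL2 Θ hΘ
  obtain ⟨α, hα⟩ := exists_ringEquiv_of_lineMap hK2 Φ h1 h2
  refine ⟨α, n⁻¹, inv_ne_zero hn, fun x hx => ?_⟩
  rw [← hα x hx, hΦ, smul_smul, inv_mul_cancel₀ hn, one_smul]

end Crest.Agent.S0010lib
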