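/-
S0010 (row 9), module FIELDA (PLAN step 7b): `K` finitely generated over an algebraically closed
subfield `k`.  (1) `k ⊆ K^p`, (2) `K` is finitely generated over `K^p`, (3) `k` is the perfect
core of `K`.

Proof of (3).  Let `t` have `p^n`-th roots in `K` for all `n` and suppose `t ∉ k`.  Then `t` is
transcendental over `k` (`k` algebraically closed).  Extend `{t}` to a transcendence basis `T` of
`K/k`, put `M = k(T \ {t})`, `B = M(t)`; `t` is transcendental over `M`, and `K/B` is algebraic
and finitely generated, hence finite, of degree `N`.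
(RF) For `s` transcendental over a field `M`: `s` is not a `p`-th power in `M(s)`
[`IntermediateField.mem_adjoin_simple_iff`: if `s = (P(s)/Q(s))^p` then `X Q^p = P^p` in `M[X]`,
and degrees give `1 + p deg Q = p deg P`].
Let `s_j` be the `p^j`-th root of `t` in `K` (`j ≤ N`): `s_j` is transcendental over `M`,
`M(s_j) ⊆ M(s_{j+1})` and the inclusion is strict by (RF), so `B = M(s_0) ⊊ … ⊊ M(s_N)` is a
strict chain of `N + 1` intermediate fields of `K/B`, contradicting `[K : B] = N`.
(Alternatively use `IsPurelyInseparable.minpoly_eq_X_pow_sub_C`.)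
-/
import Crest.Agent.S0010.Basic

set_option autoImplicit false
open Crest.NumberTheoryR.MilnorK

namespace Crest.Agent.S0010lib

variable {K : Type*} [Field K] {p : ℕ} [Fact p.Prime] [CharP K p]

theorem subfield_le_K0 (k : Subfield K) [IsAlgClosed k] : k ≤ K0 K p := by
  intro x hx
  have hp : 0 < p := (Fact.out : p.Prime).pos
  obtain ⟨z, hz⟩ := IsAlgClosed.exists_pow_nat_eq (⟨x, hx⟩ : k) hp
  refine ⟨(z : K), ?_⟩
  have h1 : ((z ^ p : k) : K) = x := by rw [hz]
  simpa [frobenius_def] using h1

theorem fg_of_closure (k : Subfield K) [IsAlgClosed k]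
    (hK : ∃ s : Finset K, Subfield.closure ((k : Set K) ∪ (s : Set K)) = ⊤) : FG K p := by
  obtain ⟨s, hs⟩ := hK
  refine ⟨s, ?_⟩
  rw [eq_top_iff, ← hs]
  exact Subfield.closure_mono
    (Set.union_subset_union_left _ (subfield_le_K0 (p := p) k))

/-- Elements of `k` have all `p^n`-th roots (in `k`, hence in `K`). -/
theorem exists_root_of_mem (k : Subfield K) [IsAlgClosed k] {t : K} (ht : t ∈ k) (n : ℕ) :
    ∃ s : K, s ^ (p ^ n) = t := by
  have hp : 0 < p ^ n := pow_pos (Fact.out : p.Prime).pos n
  obtain ⟨z, hz⟩ := IsAlgClosed.exists_pow_nat_eq (⟨t, ht⟩ : k) hp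
  refine ⟨(z : K), ?_⟩
  have h1 : ((z ^ (p ^ n) : k) : K) = t := by rw [hz]
  simpa using h1

/-- (RF) A transcendental element `s` is not in `M(s^q)` for `q ≥ 2`. -/
private theorem fieldA_rf {M L : Type*} [Field M] [Field L] [Algebra M L] (q : ℕ) (hq : 2 ≤ q)
    {s : L} (hs : Transcendental M s) : s ∉ IntermediateField.adjoin M {s ^ q} := by
  intro hmem
  rw [IntermediateField.mem_adjoin_simple_iff] at hmem
  obtain ⟨r, g, h⟩ := hmem
  have hs0 : s ≠ 0 := fun h0 => hs (h0 ▸ isAlgebraic_zero)
  by_cases hg : Polynomial.aeval (s ^ q) g = 0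
  · rw [hg, div_zero] at h
    exact hs0 h
  · have h2 : s * Polynomial.aeval (s ^ q) g = Polynomial.aeval (s ^ q) r :=
      (eq_div_iff hg).1 h
    rw [← Polynomial.expand_aeval, ← Polynomial.expand_aeval] at h2
    have h3 : Polynomial.aeval s
        (Polynomial.X * Polynomial.expand M q g - Polynomial.expand M q r) = 0 := by
      rw [map_sub, map_mul, Polynomial.aeval_X, h2, sub_self]
    have h4 : Polynomial.X * Polynomial.expand M q g - Polynomial.expand M q r = 0 := by
      by_contra hne
      exact hs ⟨_, hne, h3⟩
    have hq0 : 0 < q := by omega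
    have hg0 : g ≠ 0 := by
      rintro rfl
      simp at hg
    have hg1 : Polynomial.expand M q g ≠ 0 := by
      rwa [Ne, Polynomial.expand_eq_zero hq0]
    have h5 : (Polynomial.X * Polynomial.expand M q g).natDegree
        = (Polynomial.expand M q r).natDegree := by
      rw [sub_eq_zero.1 h4]
    rw [Polynomial.natDegree_X_mul hg1, Polynomial.natDegree_expand,
      Polynomial.natDegree_expand] at h5
    have h6 : (g.natDegree * q + 1) % q = (r.natDegree * q) % q := by rw [h5]
    rw [Nat.mul_mod_left, Nat.add_mod, Nat.mul_mod_left, zero_add, Nat.mod_mod,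
      Nat.mod_eq_of_lt (by omega : 1 < q)] at h6
    exact one_ne_zero h6

/-- `k` is the perfect core of `K`. -/
theorem mem_of_forall_root (k : Subfield K) [IsAlgClosed k]
    (hK : ∃ s : Finset K, Subfield.closure ((k : Set K) ∪ (s : Set K)) = ⊤) {t : K}
    (ht : ∀ n : ℕ, ∃ s : K, s ^ (p ^ n) = t) : t ∈ k := by
  classical
  by_contra htk
  obtain ⟨s, hs⟩ := hK
  have hp : p.Prime := Fact.out
  -- (a) `t` is transcendental over `k`
  have htr : Transcendental k t := by
    intro halg
    have hint : IsIntegral k t := halg.isIntegral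
    have hdeg := IsAlgClosed.degree_eq_one_of_irreducible k (minpoly.irreducible hint)
    obtain ⟨y, hy⟩ := minpoly.mem_range_of_degree_eq_one k t hdeg
    exact htk (hy ▸ y.2)
  -- (b) a transcendence basis `u` with `{t} ⊆ u ⊆ insert t s`
  have hrange : Set.range (algebraMap k K) = (k : Set K) := by
    ext x
    constructor
    · rintro ⟨y, rfl⟩
      exact y.2
    · intro hx
      exact ⟨⟨x, hx⟩, rfl⟩
  have htop : IntermediateField.adjoin k (insert t (s : Set K)) = ⊤ := by
    rw [← IntermediateField.toSubfield_inj, IntermediateField.adjoin_toSubfield, hrange]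
    rw [IntermediateField.top_toSubfield, eq_top_iff, ← hs]
    exact Subfield.closure_mono (Set.union_subset_union_right _ (Set.subset_insert _ _))
  have halgT0 : Algebra.IsAlgebraic (Algebra.adjoin k (insert t (s : Set K))) K := by
    constructor
    intro x
    have hx : x ∈ IntermediateField.adjoin k (insert t (s : Set K)) := by
      rw [htop]
      exact IntermediateField.mem_top
    obtain ⟨r, hr, q, hq, rfl⟩ := IntermediateField.mem_adjoin_iff_div.1 hx
    have h1 : IsAlgebraic (Algebra.adjoin k (insert t (s : Set K))) r :=
      isAlgebraic_algebraMap (⟨r, hr⟩ : Algebra.adjoin k (insert t (s : Set K)))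
    have h2 : IsAlgebraic (Algebra.adjoin k (insert t (s : Set K))) q :=
      isAlgebraic_algebraMap (⟨q, hq⟩ : Algebra.adjoin k (insert t (s : Set K)))
    rw [div_eq_mul_inv]
    exact h1.mul h2.inv
  have hindep : AlgebraicIndepOn k id ({t} : Set K) := by
    have : AlgebraicIndependent k (fun i : ({t} : Set K) => id (i : K)) :=
      (algebraicIndependent_singleton_iff (⟨t, rfl⟩ : ({t} : Set K))).2 htr
    exact this
  obtain ⟨u, htu, huT0, hu⟩ := exists_isTranscendenceBasis_between ({t} : Set K)
    (insert t (s : Set K)) (by simp) hindep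
  have htu' : t ∈ u := htu (Set.mem_singleton t)
  have hB : Algebra.IsAlgebraic (IntermediateField.adjoin k u) K := by
    have h := hu.isAlgebraic_field
    rwa [Subtype.range_coe] at h
  -- (e) `K` is finite over `B' = k(u)`
  have hfin : FiniteDimensional (IntermediateField.adjoin k u) K := by
    have h1 : IntermediateField.adjoin (IntermediateField.adjoin k u) (s : Set K) = ⊤ := by
      rw [← IntermediateField.restrictScalars_eq_top_iff (K := k),
        IntermediateField.adjoin_adjoin_left, eq_top_iff, ← htop]
      apply IntermediateField.adjoin.mono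
      intro x hx
      rcases hx with rfl | hx
      · exact Or.inl htu'
      · exact Or.inr hx
    have : Finite ((s : Set K)) := s.finite_toSet
    have h2 : FiniteDimensional (IntermediateField.adjoin k u)
        (IntermediateField.adjoin (IntermediateField.adjoin k u) (s : Set K)) :=
      IntermediateField.finiteDimensional_adjoin (fun x _ => (hB.isAlgebraic x).isIntegral)
    rw [h1] at h2
    exact Module.Finite.equiv
      (IntermediateField.topEquiv (F := IntermediateField.adjoin k u) (E := K)).toLinearEquiv
  -- (c) `t` is transcendental over `M = k(u \ {t})`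
  have htM0 : Transcendental (Algebra.adjoin k (u \ {t})) t := by
    have h := hu.1.transcendental_adjoin (s := {j : u | j ≠ ⟨t, htu'⟩}) (i := ⟨t, htu'⟩)
      (by simp)
    have himg : ((↑) : u → K) '' {j : u | j ≠ ⟨t, htu'⟩} = u \ {t} := by
      ext x
      constructor
      · rintro ⟨j, hj, rfl⟩
        refine ⟨j.2, ?_⟩
        intro hjt
        exact hj (Subtype.ext hjt)
      · rintro ⟨hxu, hxt⟩
        refine ⟨⟨x, hxu⟩, ?_, rfl⟩
        intro hj
        exact hxt (congrArg Subtype.val hj)
    rwa [himg] at h
  have htM : Transcendental (IntermediateField.adjoin k (u \ {t})) t := by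
    open scoped IntermediateField.algebraAdjoinAdjoin in
    exact fun h => htM0 ((IsFractionRing.isAlgebraic_iff (Algebra.adjoin k (u \ {t}))
      (IntermediateField.adjoin k (u \ {t})) K).2 h)
  -- (d) compatible roots, all transcendental over `M`
  choose r hr using ht
  have hrM : ∀ j, Transcendental (IntermediateField.adjoin k (u \ {t})) (r j) :=
    fun j h => htM (hr j ▸ h.pow _)
  have hrp : ∀ j, r (j + 1) ^ p = r j := by
    intro j
    have h1 : (r (j + 1) ^ p) ^ (p ^ j) = r j ^ (p ^ j) := by
      rw [← pow_mul, ← pow_succ', hr, hr]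
    apply iterateFrobenius_inj K p j
    rw [iterateFrobenius_def, iterateFrobenius_def, h1]
  -- (g) the chain `F j = M(r j)`
  have hmono : ∀ j, IntermediateField.adjoin (IntermediateField.adjoin k (u \ {t})) {r j}
      ≤ IntermediateField.adjoin (IntermediateField.adjoin k (u \ {t})) {r (j + 1)} := by
    intro j
    rw [IntermediateField.adjoin_le_iff]
    intro x hx
    rw [Set.mem_singleton_iff] at hx
    rw [hx, ← hrp j]
    exact pow_mem (IntermediateField.mem_adjoin_simple_self _ _) p
  have hstrict : ∀ j, r (j + 1)
      ∉ IntermediateField.adjoin (IntermediateField.adjoin k (u \ {t})) {r j} := by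
    intro j
    rw [← hrp j]
    exact fieldA_rf p hp.two_le (hrM (j + 1))
  have hBF : ∀ j, ∀ b : IntermediateField.adjoin k u,
      (b : K) ∈ IntermediateField.adjoin (IntermediateField.adjoin k (u \ {t})) {r j} := by
    intro j b
    have hle : IntermediateField.adjoin k u
        ≤ (IntermediateField.adjoin (IntermediateField.adjoin k (u \ {t})) {r j}).restrictScalars
          k := by
      rw [IntermediateField.adjoin_le_iff]
      intro x hxu
      by_cases hxt : x = t
      · have h3 : r j ^ (p ^ j)
            ∈ IntermediateField.adjoin (IntermediateField.adjoin k (u \ {t})) {r j} :=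
          pow_mem (IntermediateField.mem_adjoin_simple_self _ _) _
        rw [hr j] at h3
        rw [hxt]
        exact h3
      · have hxM : x ∈ IntermediateField.adjoin k (u \ {t}) :=
          IntermediateField.subset_adjoin k _ ⟨hxu, hxt⟩
        exact (IntermediateField.adjoin (IntermediateField.adjoin k (u \ {t})) {r j}).algebraMap_mem
          ⟨x, hxM⟩
    exact hle b.2
  -- (h) the chain as `B'`-subspaces of `K`
  let W : ℕ → Submodule (IntermediateField.adjoin k u) K := fun j =>
    { carrier := (IntermediateField.adjoin (IntermediateField.adjoin k (u \ {t})) {r j} : Set K)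
      add_mem' := fun ha hb => add_mem ha hb
      zero_mem' := zero_mem _
      smul_mem' := fun b x hx => by
        rw [Algebra.smul_def]
        exact mul_mem (hBF j b) hx }
  have hW : ∀ j, W j < W (j + 1) := by
    intro j
    refine lt_of_le_of_ne (fun x hx => hmono j hx) ?_
    intro heq
    apply hstrict j
    have h1 : r (j + 1) ∈ W (j + 1) := IntermediateField.mem_adjoin_simple_self _ _
    rw [← heq] at h1
    exact h1
  have hrank : ∀ j, j ≤ Module.finrank (IntermediateField.adjoin k u) (W j) := by
    intro j
    induction j with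
    | zero => exact Nat.zero_le _
    | succ j ih => exact lt_of_le_of_lt ih (Submodule.finrank_lt_finrank_of_lt (hW j))
  have h1 := hrank (Module.finrank (IntermediateField.adjoin k u) K + 1)
  have h2 := Submodule.finrank_le (W (Module.finrank (IntermediateField.adjoin k u) K + 1))
  omega

end Crest.Agent.S0010lib
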