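import Mathlib

/-!
# p-independent pairs from transcendence degree ≥ 2 (Kähler-differential route)

`K` a field of characteristic `p`, `k` a subfield over which `K` is finitely generated.
If `K = K^p(w)` for a single element `w`, then every derivation of `K` over `k(w)` vanishes,
so `K / k(w)` is formally unramified, hence separable algebraic, hence `trdeg_k K ≤ 1`.
Consequently `2 ≤ trdeg_k K` gives `x ∉ K^p` and `y ∉ K^p(x)`.
-/

namespace Crest.Agent.S0010.PIndepK

open IntermediateField

variable {p : ℕ} [Fact p.Prime] {K : Type*} [Field K] [CharP K p]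

theorem essFiniteType_of_closure (k : Subfield K)
    (hK : ∃ s : Finset K, Subfield.closure ((k : Set K) ∪ (s : Set K)) = ⊤) :
    Algebra.EssFiniteType k K := by
  obtain ⟨s, hs⟩ := hK
  rw [← IntermediateField.fg_top_iff]
  refine ⟨s, ?_⟩
  apply IntermediateField.toSubfield_injective
  rw [IntermediateField.adjoin_toSubfield]
  have : Set.range (algebraMap k K) = (k : Set K) := by
    ext x
    constructor
    · rintro ⟨y, rfl⟩; exact y.2
    · intro hx; exact ⟨⟨x, hx⟩, rfl⟩
  rw [this, hs]
  rfl

theorem trdeg_le_one_of_closure_eq_top (k : Subfield K)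
    (hK : ∃ s : Finset K, Subfield.closure ((k : Set K) ∪ (s : Set K)) = ⊤)
    (w : K) (hw : Subfield.closure (((frobenius K p).fieldRange : Set K) ∪ {w}) = ⊤) :
    Algebra.trdeg k K ≤ 1 := by
  have hess : Algebra.EssFiniteType k K := essFiniteType_of_closure k hK
  let F : IntermediateField k K := IntermediateField.adjoin k {w}
  have hessF : Algebra.EssFiniteType F K := Algebra.EssFiniteType.of_comp k F K
  have hunr : Algebra.FormallyUnramified F K := by
    constructor
    -- every `D x` vanishes
    let D := KaehlerDifferential.D F K
    let S : Subfield K :=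
      { carrier := {x | D x = 0}
        mul_mem' := by
          intro a b ha hb
          simp only [Set.mem_ofPred_eq] at ha hb ⊢
          rw [Derivation.leibniz, ha, hb, smul_zero, smul_zero, add_zero]
        one_mem' := by simp
        add_mem' := by
          intro a b ha hb
          simp only [Set.mem_ofPred_eq] at ha hb ⊢
          rw [map_add, ha, hb, add_zero]
        zero_mem' := by simp
        neg_mem' := by
          intro a ha
          simp only [Set.mem_ofPred_eq] at ha ⊢
          rw [map_neg, ha, neg_zero]
        inv_mem' := by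
          intro a ha
          simp only [Set.mem_ofPred_eq] at ha ⊢
          rw [Derivation.leibniz_inv, ha, smul_zero] }
    have hS : (⊤ : Subfield K) ≤ S := by
      rw [← hw, Subfield.closure_le]
      rintro x (hx | hx)
      · obtain ⟨a, rfl⟩ := hx
        show D (frobenius K p a) = 0
        rw [frobenius_def, Derivation.leibniz_pow]
        rw [← Nat.cast_smul_eq_nsmul K, CharP.cast_eq_zero, zero_smul]
      · rw [Set.mem_singleton_iff] at hx
        subst hx
        have hxF : x ∈ F := IntermediateField.subset_adjoin k {x} (Set.mem_singleton x)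
        show D x = 0
        have := Derivation.map_algebraMap D (⟨x, hxF⟩ : F)
        simpa using this
    have hD : ∀ x : K, D x = 0 := fun x => hS (Subfield.mem_top x)
    have hspan := KaehlerDifferential.span_range_derivation F K
    have hbot : (⊤ : Submodule K (Ω[K⁄F])) = ⊥ := by
      rw [← hspan, Submodule.span_eq_bot]
      rintro _ ⟨x, rfl⟩
      exact hD x
    refine ⟨fun a b => ?_⟩
    have ha : a ∈ (⊥ : Submodule K (Ω[K⁄F])) := hbot ▸ Submodule.mem_top
    have hb : b ∈ (⊥ : Submodule K (Ω[K⁄F])) := hbot ▸ Submodule.mem_top
    rw [Submodule.mem_bot] at ha hb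
    rw [ha, hb]
  have hsep : Algebra.IsSeparable F K := Algebra.FormallyUnramified.isSeparable F K
  have halg : Algebra.IsAlgebraic F K := inferInstance
  have halg' : Algebra.IsAlgebraic (Algebra.adjoin k ({w} : Set K)) K :=
    IntermediateField.isAlgebraic_adjoin_iff_top.mp halg
  have h := Algebra.IsAlgebraic.trdeg_le_cardinalMk (R := k) (A := K) ({w} : Set K)
  simpa using h

/-- **p-independent pair**: if `K` is finitely generated over the subfield `k` and has
transcendence degree at least `2` over it, there are `x ∉ K^p` and `y ∉ K^p(x)`. -/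
theorem exists_pIndep_pair (k : Subfield K)
    (hK : ∃ s : Finset K, Subfield.closure ((k : Set K) ∪ (s : Set K)) = ⊤)
    (hK2 : 2 ≤ Algebra.trdeg k K) :
    ∃ x y : K, x ∉ (frobenius K p).fieldRange ∧
      y ∉ Subfield.closure (((frobenius K p).fieldRange : Set K) ∪ {x}) := by
  by_contra hcon
  push Not at hcon
  have key : ∃ w : K, Subfield.closure (((frobenius K p).fieldRange : Set K) ∪ {w}) = ⊤ := by
    by_cases h : ∃ x : K, x ∉ (frobenius K p).fieldRange
    · obtain ⟨x, hx⟩ := h
      exact ⟨x, top_unique fun y _ => hcon x y hx⟩
    · push Not at h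
      exact ⟨0, top_unique fun y _ => Subfield.subset_closure (Or.inl (h y))⟩
  obtain ⟨w, hw⟩ := key
  have h1 := trdeg_le_one_of_closure_eq_top (p := p) k hK w hw
  have h2 : (2 : Cardinal) ≤ 1 := hK2.trans h1
  exact absurd h2 (by norm_num)

end Crest.Agent.S0010.PIndepK
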