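/-
S0010 (row 9), module FIELDB (PLAN step 7c): transcendence degree `≥ 2` gives a `p`-independent
pair, i.e. `[K : K^p] > p`.

Proof.  Suppose not: there is `x` with `K = K^p(x)` (if `K = K^p` take `x = 1`), so
`K = ∑_{j<p} K^p x^j`.  Take a transcendence basis `T` of `K/k` (at least two elements `t₁ ≠ t₂`
since `trdeg ≥ 2`), `B = k(T)`; `K/B` is algebraic and finitely generated, hence finite; let
`e_1 … e_N` be a `B`-basis of `K`.  Let `B^p = {b^p : b ∈ B}` (a subfield of `B`).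
Upper bound: `K` is spanned over `B^p` by the `N p` elements `e_i^p x^j`
(`K^p = ∑ B^p e_i^p`).  So `dim_{B^p} K ≤ N p`.
Lower bound: `dim_{B^p} K = N * dim_{B^p} B` and `dim_{B^p} B > p`:
`B^p(t₁) ⊊ B` because `t₂ ∉ B^p(t₁)`, and `dim_{B^p} B^p(t₁) = p` because `t₁ ∉ B^p`.
Both non-memberships come from one lemma on rational functions in one variable:
(RF') if `s` is transcendental over a field `M` (char `p`) then `s ∉ M(s^p)`
   [`s = P(s^p)/Q(s^p)` gives `X * expand p Q = expand p P`, degrees `1 + p deg Q = p deg P`],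
   and `z^p ∈ M(s^p)` for every `z ∈ M(s)`.
With `M₂ = k(T \ {t₂})`: `B = M₂(t₂)`, `B^p ⊆ M₂(t₂^p)`, `t₁ ∈ M₂`, so `B^p(t₁) ⊆ M₂(t₂^p) ∌ t₂`.
With `M₁ = k(T \ {t₁})`: `B^p ⊆ M₁(t₁^p) ∌ t₁`.
-/
import Crest.Agent.S0010.Basic
import Crest.Agent.S0010.PIndepKaehler

set_option autoImplicit false
open Crest.NumberTheoryR.MilnorK

namespace Crest.Agent.S0010lib

variable {K : Type*} [Field K] {p : ℕ} [Fact p.Prime] [CharP K p]

theorem twoIndep_of_trdeg (k : Subfield K) [IsAlgClosed k]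
    (hK : ∃ s : Finset K, Subfield.closure ((k : Set K) ∪ (s : Set K)) = ⊤)
    (hK2 : 2 ≤ Algebra.trdeg k K) : TwoIndep K p :=
  Crest.Agent.S0010.PIndepK.exists_pIndep_pair k hK hK2

end Crest.Agent.S0010lib
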