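/-
S0010 (row 9), module UNIQUE (PLAN step 7a): a field isomorphism is determined by the map it
induces on `KOne` up to a scalar.

Proof.  Let `τ = α'.symm ∘ α`, an automorphism of `K` with `e • cl (τ x) = cl x`... precisely
`cl (τ x) = d • cl x` for all `x ≠ 0`, `d = c'⁻¹ c`... (choose the direction you like); write
`d = (e : ZMod p)` with `1 ≤ e < p`: `τ x = κ_x x^e` with `κ_x ∈ K^p`.  For `x ∉ K^p`:
`1 + κ_x x^e = τ (1 + x) = κ (1 + x)^e`.  Expanding in the `K^p`-basis `1, x, …, x^(p-1)`
(`adj_indep`): constant terms give `κ = 1`; if `e ≥ 2` the coefficient of `x` gives `e κ = 0`,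
impossible; so `e = 1`, `κ_x = 1`, `τ x = x`.  For `c ∈ K^p`: `τ c = τ (c + x) - τ x = c`.
-/
import Crest.Agent.S0010.Basic

set_option autoImplicit false
open Crest.NumberTheoryR.MilnorK

namespace Crest.Agent.S0010lib

variable {K : Type*} [Field K] {L : Type*} [Field L] {p : ℕ} [Fact p.Prime] [CharP K p] [CharP L p]

/-- A ring isomorphism maps non-`p`-th powers to non-`p`-th powers. -/
private theorem unique_not_mem_K0_map (α : K ≃+* L) {x : K} (hx : x ∉ K0 K p) :
    α x ∉ K0 L p := by
  intro h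
  obtain ⟨b, hb⟩ := mem_K0.mp h
  apply hx
  refine mem_K0.mpr ⟨α.symm b, ?_⟩
  apply α.injective
  rw [map_pow, RingEquiv.apply_symm_apply, hb]

/-- Comparison of coefficients in the `K^p`-basis `1, y, …, y^(p-1)`. -/
private theorem unique_coeff {y κ κ' : L} {e : ℕ} (hy : y ∉ K0 L p) (hκ : κ ∈ K0 L p)
    (hκ' : κ' ∈ K0 L p) (he0 : e ≠ 0) (hep : e < p)
    (h : 1 + κ * y ^ e = κ' * (1 + y) ^ e) : e = 1 ∧ κ = 1 := by
  have hp : p.Prime := Fact.out
  let c : ℕ → L := fun i =>
    (if i = 0 then (1 : L) else 0) + (if i = e then κ else 0) - κ' * (e.choose i : L)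
  have hcK : ∀ i, c i ∈ K0 L p := by
    intro i
    refine sub_mem (add_mem ?_ ?_) (mul_mem hκ' (natCast_mem _ _))
    · split_ifs
      · exact one_mem _
      · exact zero_mem _
    · split_ifs
      · exact hκ
      · exact zero_mem _
  have hsum : ∑ i ∈ Finset.range p, c i * y ^ i = 0 := by
    have h1 : ∑ i ∈ Finset.range p, (if i = 0 then (1 : L) else 0) * y ^ i = 1 := by
      rw [Finset.sum_eq_single 0]
      · simp
      · intro b _ hb
        simp [hb]
      · intro h0
        exact absurd (Finset.mem_range.mpr hp.pos) h0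
    have h2 : ∑ i ∈ Finset.range p, (if i = e then κ else 0) * y ^ i = κ * y ^ e := by
      rw [Finset.sum_eq_single e]
      · simp
      · intro b _ hb
        simp [hb]
      · intro h0
        exact absurd (Finset.mem_range.mpr hep) h0
    have h3 : ∑ i ∈ Finset.range p, κ' * (e.choose i : L) * y ^ i = κ' * (1 + y) ^ e := by
      rw [add_comm 1 y, add_pow, Finset.mul_sum]
      have hsub : Finset.range (e + 1) ⊆ Finset.range p :=
        Finset.range_subset_range.mpr (by omega)
      rw [← Finset.sum_subset hsub]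
      · apply Finset.sum_congr rfl
        intro i _
        ring
      · intro i _ hi
        have hlt : e < i := by
          rw [Finset.mem_range, not_lt] at hi
          omega
        rw [Nat.choose_eq_zero_of_lt hlt]
        simp
    have hexp : ∀ i, c i * y ^ i = (if i = 0 then (1 : L) else 0) * y ^ i
        + (if i = e then κ else 0) * y ^ i - κ' * (e.choose i : L) * y ^ i := by
      intro i
      simp only [c]
      ring
    simp only [hexp, Finset.sum_sub_distrib, Finset.sum_add_distrib]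
    rw [h1, h2, h3, h]
    ring
  have hall := adj_indep hy hcK hsum
  have h0 : c 0 = 0 := hall 0 hp.pos
  have h1 : c 1 = 0 := hall 1 hp.one_lt
  have hc0 : c 0 = 1 - κ' := by
    have hne : ¬ (0 = e) := fun h => he0 h.symm
    simp [c, hne]
  have hκ'1 : κ' = 1 := by
    rw [hc0] at h0
    linear_combination -h0
  by_cases he1 : e = 1
  · refine ⟨he1, ?_⟩
    subst he1
    have hc1 : c 1 = κ - κ' := by
      simp [c]
    rw [hc1, hκ'1] at h1
    linear_combination h1
  · exfalso
    have hc1 : c 1 = -(κ' * (e : L)) := by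
      have hne : ¬ (1 = e) := fun h => he1 h.symm
      simp [c, hne]
    rw [hc1, hκ'1] at h1
    have he : (e : L) = 0 := by linear_combination -h1
    have hdvd := (CharP.cast_eq_zero_iff L p e).mp he
    have := Nat.le_of_dvd (Nat.pos_of_ne_zero he0) hdvd
    omega

theorem ringEquiv_eq_of_cl (hK : ∃ x : K, x ∉ K0 K p) (α α' : K ≃+* L) {c c' : ZMod p}
    (hc : c ≠ 0) (hc' : c' ≠ 0)
    (h : ∀ x : K, x ≠ 0 → c • cl p (α x) = c' • cl p (α' x)) : α = α' := by
  have hp : p.Prime := Fact.out
  have : NeZero p := ⟨hp.ne_zero⟩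
  have hd0 : c⁻¹ * c' ≠ 0 := mul_ne_zero (inv_ne_zero hc) hc'
  obtain ⟨e, he0, hep, hed⟩ : ∃ e : ℕ, e ≠ 0 ∧ e < p ∧ (e : ZMod p) = c⁻¹ * c' := by
    refine ⟨(c⁻¹ * c').val, ?_, ZMod.val_lt _, ZMod.natCast_zmod_val _⟩
    intro h0
    exact hd0 ((ZMod.val_eq_zero _).mp h0)
  -- for `x ≠ 0`: `α x = κ (α' x)^e` with `κ` a `p`-th power
  have key : ∀ x : K, x ≠ 0 → ∃ κ ∈ K0 L p, α x = κ * (α' x) ^ e := by
    intro x hx
    have hαx : α x ≠ 0 := fun h0 => hx (by simpa using h0)
    have hα'x : α' x ≠ 0 := fun h0 => hx (by simpa using h0)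
    have h1 : cl p (α x) = cl p ((α' x) ^ e) := by
      rw [cl_pow, hed, mul_smul, ← h x hx, smul_smul, inv_mul_cancel₀ hc, one_smul]
    have h2 := (cl_eq_cl_iff hαx (pow_ne_zero e hα'x)).mp h1
    refine ⟨_, h2, ?_⟩
    rw [div_mul_cancel₀ _ (pow_ne_zero e hα'x)]
  have hmain : ∀ x : K, x ∉ K0 K p → α x = α' x := by
    intro x hx
    have hx0 : x ≠ 0 := by
      rintro rfl
      exact hx (zero_mem _)
    have h1x : 1 + x ∉ K0 K p := by
      intro h1
      apply hx
      have hx' : x = (1 + x) - 1 := by ring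
      rw [hx']
      exact sub_mem h1 (one_mem _)
    have h1x0 : 1 + x ≠ 0 := by
      intro h0
      rw [h0] at h1x
      exact h1x (zero_mem _)
    obtain ⟨κ, hκ, hκe⟩ := key x hx0
    obtain ⟨κ', hκ', hκ'e⟩ := key (1 + x) h1x0
    have hy : α' x ∉ K0 L p := unique_not_mem_K0_map α' hx
    have heq : 1 + κ * (α' x) ^ e = κ' * (1 + α' x) ^ e := by
      have h3 := hκ'e
      rw [map_add, map_one, map_add, map_one, hκe] at h3
      exact h3
    obtain ⟨he1, hκ1⟩ := unique_coeff hy hκ hκ' he0 hep heq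
    rw [hκe, hκ1, he1, one_mul, pow_one]
  obtain ⟨x0, hx0⟩ := hK
  have hx0eq := hmain x0 hx0
  ext x
  by_cases hx : x ∈ K0 K p
  · have hxx0 : x + x0 ∉ K0 K p := by
      intro h1
      apply hx0
      have hx' : x0 = (x + x0) - x := by ring
      rw [hx']
      exact sub_mem h1 hx
    have h2 := hmain (x + x0) hxx0
    rw [map_add, map_add, hx0eq] at h2
    exact add_right_cancel h2
  · exact hmain x hx

end Crest.Agent.S0010lib
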