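/-
ROW 9 / S0010 — generic module for step (2) of helper8's proof (board 425).
Author: helper56.

Exports (K a field of characteristic p):
* `exists_derivation` : if `F` is a subfield containing all `p`-th powers and `f ∉ F`, there is a
  derivation `D` of `K` with `D f = 1` vanishing on `F`.
* `tmul_not_mem_steinberg` : step (2): a `p`-independent pair gives a tensor outside `steinberg`.
-/
import Mathlib
import Crest.Prelude.Def_MilnorK

set_option autoImplicit false

open Crest.NumberTheoryR.MilnorK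
open Polynomial
open scoped TensorProduct IntermediateField

namespace Crest.Agent.S0010.Dlog

section Deriv

variable {K : Type*} [Field K] {p : ℕ} [hp : Fact p.Prime] [CharP K p]

/-- The minimal polynomial of a `p`-th root outside the base field. -/
theorem minpoly_eq (M : Subfield K) (f : K) (hfp : f ^ p ∈ M) (hf : f ∉ M) :
    minpoly M f = X ^ p - C (⟨f ^ p, hfp⟩ : M) := by
  symm
  apply minpoly.eq_of_irreducible_of_monic
  · apply X_pow_sub_C_irreducible_of_prime hp.out
    intro b hb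
    apply hf
    have h1 : (b : K) ^ p = f ^ p := by
      have := congrArg (Subtype.val) hb
      simpa using this
    have h2 : (b : K) = f := frobenius_inj K p h1
    rw [← h2]; exact b.2
  · have h0 : algebraMap M K ⟨f ^ p, hfp⟩ = f ^ p := rfl
    simp [h0]
  · exact monic_X_pow_sub_C _ hp.out.ne_zero

omit [CharP K p] in
theorem isIntegral_of_pow_mem (M : Subfield K) (f : K) (hfp : f ^ p ∈ M) : IsIntegral M f := by
  refine ⟨X ^ p - C (⟨f ^ p, hfp⟩ : M), monic_X_pow_sub_C _ hp.out.ne_zero, ?_⟩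
  have h0 : algebraMap M K ⟨f ^ p, hfp⟩ = f ^ p := rfl
  simp [h0]

theorem finrank_adjoin (M : Subfield K) (f : K) (hfp : f ^ p ∈ M) (hf : f ∉ M) :
    Module.finrank M M⟮f⟯ = p := by
  rw [IntermediateField.adjoin.finrank (isIntegral_of_pow_mem M f hfp), minpoly_eq M f hfp hf]
  exact natDegree_X_pow_sub_C

/-- For a subfield `M` maximal among those containing `F` and not containing `f`, `K = M(f)`. -/
theorem adjoin_eq_top_of_maximal (F : Subfield K) (hF : ∀ x : K, x ^ p ∈ F) (f : K)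
    (M : Subfield K) (hM : Maximal (fun N : Subfield K => F ≤ N ∧ f ∉ N) M) :
    M⟮f⟯ = ⊤ := by
  have hFM : F ≤ M := hM.prop.1
  have hfM : f ∉ M := hM.prop.2
  have hpow : ∀ x : K, x ^ p ∈ M := fun x => hFM (hF x)
  rw [eq_top_iff]
  intro h _
  by_cases hh : h ∈ M
  · exact (M⟮f⟯).algebraMap_mem ⟨h, hh⟩
  · have hf_in : f ∈ M⟮h⟯ := by
      by_contra hcon
      have hle : M ≤ M⟮h⟯.toSubfield := fun x hx => (M⟮h⟯).algebraMap_mem ⟨x, hx⟩
      have h3 := hM.le_of_ge
        (show F ≤ M⟮h⟯.toSubfield ∧ f ∉ M⟮h⟯.toSubfield from ⟨hFM.trans hle, hcon⟩) hle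
      exact hh (h3 (IntermediateField.mem_adjoin_simple_self M h))
    have hle : M⟮f⟯ ≤ M⟮h⟯ := IntermediateField.adjoin_simple_le_iff.mpr hf_in
    have : FiniteDimensional M M⟮h⟯ :=
      IntermediateField.adjoin.finiteDimensional (isIntegral_of_pow_mem M h (hpow h))
    have heq : M⟮f⟯ = M⟮h⟯ := IntermediateField.eq_of_le_of_finrank_eq hle
      (by rw [finrank_adjoin M f (hpow f) hfM, finrank_adjoin M h (hpow h) hh])
    rw [heq]; exact IntermediateField.mem_adjoin_simple_self M h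

/-- If `K = M(f)` with `f ^ p ∈ M`, `f ∉ M`, then `d/df` is an `M`-linear derivation of `K`. -/
theorem exists_derivation_of_adjoin_eq_top (M : Subfield K) (hpow : ∀ x : K, x ^ p ∈ M) (f : K)
    (hf : f ∉ M) (htop : M⟮f⟯ = ⊤) : ∃ D : Derivation M K K, D f = 1 := by
  have hint : IsIntegral M f := isIntegral_of_pow_mem M f (hpow f)
  have hsurj : Function.Surjective (aeval f : M[X] →ₐ[M] K) := by
    have h1 : (M⟮f⟯).toSubalgebra = Algebra.adjoin M {f} :=
      IntermediateField.adjoin_simple_toSubalgebra_of_isAlgebraic hint.isAlgebraic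
    rw [htop] at h1
    have h2 : (aeval f : M[X] →ₐ[M] K).range = ⊤ := by
      rw [← Algebra.adjoin_singleton_eq_range_aeval, ← h1]; simp
    exact (AlgHom.range_eq_top _).mp h2
  have hker : ∀ q : M[X], aeval f q = 0 → aeval f (derivative q) = 0 := by
    intro q hq
    obtain ⟨r, rfl⟩ := minpoly.dvd M f hq
    rw [minpoly_eq M f (hpow f) hf]
    have h0 : algebraMap M K ⟨f ^ p, hpow f⟩ = f ^ p := rfl
    simp [derivative_mul, derivative_X_pow, h0]
  let s : K → M[X] := Function.surjInv hsurj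
  have hs : ∀ x, aeval f (s x) = x := Function.surjInv_eq hsurj
  let D0 : K → K := fun x => aeval f (derivative (s x))
  have key : ∀ q : M[X], D0 (aeval f q) = aeval f (derivative q) := by
    intro q
    have h1 : aeval f (s (aeval f q) - q) = 0 := by simp [hs]
    have h2 := hker _ h1
    rw [derivative_sub, map_sub, sub_eq_zero] at h2
    exact h2
  let L : K →ₗ[M] K :=
    { toFun := D0
      map_add' := by
        intro x y
        obtain ⟨q, rfl⟩ := hsurj x
        obtain ⟨r, rfl⟩ := hsurj y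
        rw [← map_add, key, key, key, derivative_add, map_add]
      map_smul' := by
        intro c x
        obtain ⟨q, rfl⟩ := hsurj x
        rw [← map_smul, key, key, derivative_smul, map_smul]
        rfl }
  refine ⟨Derivation.mk' L ?_, ?_⟩
  · intro x y
    obtain ⟨q, rfl⟩ := hsurj x
    obtain ⟨r, rfl⟩ := hsurj y
    show D0 (aeval f q * aeval f r) = aeval f q • D0 (aeval f r) + aeval f r • D0 (aeval f q)
    rw [← map_mul, key, key, key, derivative_mul, map_add, map_mul, map_mul, smul_eq_mul,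
      smul_eq_mul]
    ring
  · show D0 f = 1
    have h1 := key X
    simpa using h1

/-- **Lemma D.** If `F` is a subfield of `K` (char `p`) containing all `p`-th powers and
`f ∉ F`, then there is a derivation `D : K → K` with `D f = 1` which vanishes on `F`. -/
theorem exists_derivation (F : Subfield K) (hF : ∀ x : K, x ^ p ∈ F) (f : K) (hf : f ∉ F) :
    ∃ D : Derivation ℤ K K, D f = 1 ∧ ∀ x ∈ F, D x = 0 := by
  obtain ⟨M, hFM, hM⟩ := zorn_le_nonempty₀ {N : Subfield K | F ≤ N ∧ f ∉ N}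
    (by
      intro c hc hchain y hy
      refine ⟨sSup c, ⟨(hc hy).1.trans (le_sSup hy), ?_⟩, fun z hz => le_sSup hz⟩
      intro hmem
      obtain ⟨N, hN, hfN⟩ := (Subfield.mem_sSup_of_directedOn ⟨y, hy⟩ hchain.directedOn).mp hmem
      exact (hc hN).2 hfN) F ⟨le_rfl, hf⟩
  have hpow : ∀ x : K, x ^ p ∈ M := fun x => hFM (hF x)
  obtain ⟨D, hD⟩ := exists_derivation_of_adjoin_eq_top M hpow f hM.prop.2
    (adjoin_eq_top_of_maximal F hF f M hM)
  refine ⟨D.restrictScalars ℤ, hD, fun x hx => ?_⟩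
  exact D.map_algebraMap (⟨x, hFM hx⟩ : M)

end Deriv

section Pairing

variable {K : Type*} [Field K] {p : ℕ} [hp : Fact p.Prime] [CharP K p]

/-- The logarithmic derivative `u ↦ D u / u` as an additive map on `Additive Kˣ`. -/
def dlogAux (D : Derivation ℤ K K) : Additive Kˣ →+ K where
  toFun u := D ((Additive.toMul u : Kˣ) : K) / ((Additive.toMul u : Kˣ) : K)
  map_zero' := by simp
  map_add' := fun u v => by
    have hu : ((Additive.toMul u : Kˣ) : K) ≠ 0 := Units.ne_zero _
    have hv : ((Additive.toMul v : Kˣ) : K) ≠ 0 := Units.ne_zero _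
    simp only [toMul_add, Units.val_mul, Derivation.leibniz, smul_eq_mul]
    field_simp
    ring

omit hp in
theorem dlogAux_pMultiples (D : Derivation ℤ K K) :
    pMultiples K p ≤ (dlogAux D).ker := by
  rintro _ ⟨u, rfl⟩
  rw [AddMonoidHom.mem_ker]
  show dlogAux D (p • u) = 0
  rw [map_nsmul, nsmul_eq_mul, CharP.cast_eq_zero K p, zero_mul]

/-- `dlog D : KOne K p →+ K`, `[u] ↦ D u / u`. -/
def dlog (D : Derivation ℤ K K) : KOne K p →+ K :=
  QuotientAddGroup.lift (pMultiples K p) (dlogAux D) (dlogAux_pMultiples D)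

omit hp in
theorem dlog_cls (D : Derivation ℤ K K) (u : Kˣ) :
    dlog (p := p) D (cls K p u) = D (u : K) / (u : K) := rfl

theorem zmod_smul_eq_nsmul {M : Type*} [AddCommGroup M] [Module (ZMod p) M] (r : ZMod p)
    (a : M) : r • a = r.val • a := by
  rw [← Nat.cast_smul_eq_nsmul (ZMod p), ZMod.natCast_zmod_val]

/-- The bi-additive pairing `(a, b) ↦ dlog₁ a · dlog₂ b − dlog₂ a · dlog₁ b`. -/
def betaAux (D1 D2 : Derivation ℤ K K) : KOne K p →+ KOne K p →+ K :=
  AddMonoidHom.mk' (fun a => AddMonoidHom.mk'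
    (fun b => dlog D1 a * dlog D2 b - dlog D2 a * dlog D1 b)
    (by intro b b'; simp only [map_add]; ring))
    (by
      intro a a'
      refine AddMonoidHom.ext fun b => ?_
      show dlog D1 (a + a') * dlog D2 b - dlog D2 (a + a') * dlog D1 b =
        (dlog D1 a * dlog D2 b - dlog D2 a * dlog D1 b) +
          (dlog D1 a' * dlog D2 b - dlog D2 a' * dlog D1 b)
      simp only [map_add]; ring)

omit hp in
theorem betaAux_apply (D1 D2 : Derivation ℤ K K) (a b : KOne K p) :
    betaAux D1 D2 a b = dlog D1 a * dlog D2 b - dlog D2 a * dlog D1 b := rfl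

/-- The pairing `β = dlog_{D1} ∧ dlog_{D2}` on `KOne ⊗ KOne`. -/
def beta (D1 D2 : Derivation ℤ K K) : KOne K p ⊗[ZMod p] KOne K p →+ K :=
  TensorProduct.liftAddHom (betaAux D1 D2) (by
    intro r a b
    rw [zmod_smul_eq_nsmul r a, zmod_smul_eq_nsmul r b, betaAux_apply, betaAux_apply]
    simp only [map_nsmul, nsmul_eq_mul]
    ring)

theorem beta_tmul (D1 D2 : Derivation ℤ K K) (u v : Kˣ) :
    beta D1 D2 (cls K p u ⊗ₜ[ZMod p] cls K p v) =
      (D1 (u : K) * D2 (v : K) - D2 (u : K) * D1 (v : K)) / ((u : K) * (v : K)) := by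
  have hu : (u : K) ≠ 0 := Units.ne_zero _
  have hv : (v : K) ≠ 0 := Units.ne_zero _
  show dlog D1 (cls K p u) * dlog D2 (cls K p v) - dlog D2 (cls K p u) * dlog D1 (cls K p v) = _
  simp only [dlog_cls]
  field_simp

/-- `β` kills the Steinberg subspace. -/
theorem beta_steinberg (D1 D2 : Derivation ℤ K K) (t : KOne K p ⊗[ZMod p] KOne K p)
    (ht : t ∈ steinberg K p) : beta D1 D2 t = 0 := by
  induction ht using Submodule.span_induction with
  | mem t ht =>
    obtain ⟨f, hf, hf1, rfl⟩ := ht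
    rw [beta_tmul]
    simp only [Units.val_mk0, map_sub, Derivation.map_one_eq_zero, zero_sub]
    ring_nf
  | zero => simp
  | add x y _ _ hx hy => rw [map_add, hx, hy, add_zero]
  | smul c x _ hx => rw [zmod_smul_eq_nsmul c x, map_nsmul, hx, smul_zero]

/-- **Step (2).** If `f`, `g` are `p`-independent, witnessed by subfields `F ∌ f`, `F ∋ g` and
`F' ∌ g`, `F' ∋ f` containing all `p`-th powers (e.g. `F = K^p(g)`, `F' = K^p(f)`), then
`[f] ⊗ [g]` is not in the Steinberg subspace. -/
theorem tmul_not_mem_steinberg (f g : Kˣ) (F F' : Subfield K) (hF : ∀ x : K, x ^ p ∈ F)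
    (hF' : ∀ x : K, x ^ p ∈ F') (hf : (f : K) ∉ F) (hg : (g : K) ∈ F)
    (hg' : (g : K) ∉ F') (hf' : (f : K) ∈ F') :
    cls K p f ⊗ₜ[ZMod p] cls K p g ∉ steinberg K p := by
  obtain ⟨D1, h1f, h1F⟩ := exists_derivation F hF (f : K) hf
  obtain ⟨D2, h2g, h2F⟩ := exists_derivation F' hF' (g : K) hg'
  intro hmem
  have h := beta_steinberg D1 D2 _ hmem
  rw [beta_tmul, h1f, h2g, h1F _ hg, h2F _ hf'] at h
  simp at h

/-- **Step (2), minimal hypotheses.** `F0` and `F'` are subfields containing all `p`-th powers,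
`f ∉ F0`, `f ∈ F'`, `g ∉ F'` (e.g. `F0 = K^p`, `F' = K^p(f)`). Then `[f] ⊗ [g] ∉ steinberg`. -/
theorem tmul_not_mem_steinberg_of_indep (f g : Kˣ) (F0 F' : Subfield K)
    (hF0 : ∀ x : K, x ^ p ∈ F0) (hF' : ∀ x : K, x ^ p ∈ F') (hf : (f : K) ∉ F0)
    (hf' : (f : K) ∈ F') (hg' : (g : K) ∉ F') :
    cls K p f ⊗ₜ[ZMod p] cls K p g ∉ steinberg K p := by
  obtain ⟨D1, h1f, -⟩ := exists_derivation F0 hF0 (f : K) hf
  obtain ⟨D2, h2g, h2F⟩ := exists_derivation F' hF' (g : K) hg'
  intro hmem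
  have h := beta_steinberg D1 D2 _ hmem
  rw [beta_tmul, h1f, h2g, h2F _ hf'] at h
  simp at h

/-- **Step (2), Frobenius-range form** (`K0 = (frobenius K p).fieldRange`,
`K0(f) = Subfield.closure (K0 ∪ {f})`): if `f ∉ K0` and `g ∉ K0(f)` then
`[f] ⊗ [g] ∉ steinberg K p`. -/
theorem tmul_not_mem_steinberg_frobenius (f g : Kˣ)
    (hf : (f : K) ∉ (frobenius K p).fieldRange)
    (hg : (g : K) ∉ Subfield.closure (((frobenius K p).fieldRange : Set K) ∪ {(f : K)})) :
    cls K p f ⊗ₜ[ZMod p] cls K p g ∉ steinberg K p := by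
  have h0 : ∀ x : K, x ^ p ∈ (frobenius K p).fieldRange := fun x => ⟨x, rfl⟩
  refine tmul_not_mem_steinberg_of_indep f g (frobenius K p).fieldRange
    (Subfield.closure (((frobenius K p).fieldRange : Set K) ∪ {(f : K)})) h0
    (fun x => Subfield.subset_closure (Or.inl (h0 x))) hf
    (Subfield.subset_closure (Or.inr rfl)) hg

/-- Dual derivations for a `p`-independent pair, Frobenius-range form:
`D₁ f = 1`, `D₁ g = 0`, `D₂ f = 0`, `D₂ g = 1`, and both kill `K0 = K^p`;
moreover `D₂` kills `K0(f)`. -/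
theorem exists_dual_derivations (f g : K)
    (hf : f ∉ (frobenius K p).fieldRange)
    (hg : g ∉ Subfield.closure (((frobenius K p).fieldRange : Set K) ∪ {f})) :
    ∃ D1 D2 : Derivation ℤ K K, D1 f = 1 ∧ D1 g = 0 ∧ D2 f = 0 ∧ D2 g = 1 ∧
      (∀ x ∈ (frobenius K p).fieldRange, D1 x = 0) ∧
      (∀ x ∈ Subfield.closure (((frobenius K p).fieldRange : Set K) ∪ {f}), D2 x = 0) := by
  have h0 : ∀ x : K, x ^ p ∈ (frobenius K p).fieldRange := fun x => ⟨x, rfl⟩
  obtain ⟨D1, h1f, h1F⟩ := exists_derivation (frobenius K p).fieldRange h0 f hf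
  obtain ⟨D2, h2g, h2F⟩ := exists_derivation
    (Subfield.closure (((frobenius K p).fieldRange : Set K) ∪ {f}))
    (fun x => Subfield.subset_closure (Or.inl (h0 x))) g hg
  have h2f : D2 f = 0 := h2F f (Subfield.subset_closure (Or.inr rfl))
  have h2K0 : ∀ x ∈ (frobenius K p).fieldRange, D2 x = 0 := fun x hx =>
    h2F x (Subfield.subset_closure (Or.inl hx))
  refine ⟨D1 - D1 g • D2, D2, ?_, ?_, h2f, h2g, ?_, h2F⟩
  · simp [h1f, h2f]
  · simp [h2g]
  · intro x hx
    simp [h1F x hx, h2K0 x hx]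

end Pairing

end Crest.Agent.S0010.Dlog
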