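import Crest.Agent.S0010.Defs
import Crest.Agent.S0010.Dlog

/-!
# Row 9 (S0010): hedge for module BASICADJ (helper76)

Sorry-free proofs of the twelve statements of `BasicAdj.lean`, in namespace
`Crest.Agent.S0010.Adj76` (imports only `Defs` and the landed `Dlog.lean`, from which
`minpoly_eq` is used).
-/

set_option autoImplicit false
set_option linter.unusedSectionVars false
open Crest.NumberTheoryR.MilnorK
open Polynomial

namespace Crest.Agent.S0010.Adj76

open Crest.Agent.S0010lib (K0 adj)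

variable {K : Type*} [Field K] {p : ℕ} [Fact p.Prime] [CharP K p]

theorem mem_K0 {a : K} : a ∈ K0 K p ↔ ∃ b : K, b ^ p = a := by
  simp [K0, RingHom.mem_fieldRange, frobenius_def]

theorem pow_mem_K0 (b : K) : b ^ p ∈ K0 K p := mem_K0.2 ⟨b, rfl⟩

theorem K0_le_adj (f : K) : K0 K p ≤ adj p f := fun _ ha =>
  Subfield.subset_closure (Or.inl ha)

theorem self_mem_adj (f : K) : f ∈ adj p f :=
  Subfield.subset_closure (Or.inr rfl)

theorem adj_le {E : Subfield K} {f : K} (h0 : K0 K p ≤ E) (hf : f ∈ E) : adj p f ≤ E := by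
  rw [adj, Subfield.closure_le]
  rintro x (hx | hx)
  · exact h0 hx
  · rw [Set.mem_singleton_iff] at hx; rw [hx]; exact hf

theorem adj_eq_K0 {f : K} (hf : f ∈ K0 K p) : adj p f = K0 K p :=
  le_antisymm (adj_le le_rfl hf) (K0_le_adj f)

theorem algebraMap_K0 (a : K0 K p) : algebraMap (K0 K p) K a = (a : K) := rfl

/-- The values at `f` of the polynomials over `K^p` form a subfield. -/
def polySub (p : ℕ) [Fact p.Prime] {K : Type*} [Field K] [CharP K p] (f : K) : Subfield K where
  carrier := {w | ∃ P : (K0 K p)[X], aeval f P = w}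
  mul_mem' := by rintro _ _ ⟨P, rfl⟩ ⟨Q, rfl⟩; exact ⟨P * Q, by simp⟩
  one_mem' := ⟨1, by simp⟩
  add_mem' := by rintro _ _ ⟨P, rfl⟩ ⟨Q, rfl⟩; exact ⟨P + Q, by simp⟩
  zero_mem' := ⟨0, by simp⟩
  neg_mem' := by rintro _ ⟨P, rfl⟩; exact ⟨-P, by simp⟩
  inv_mem' := by
    rintro _ ⟨P, rfl⟩
    by_cases hw : aeval f P = 0
    · rw [hw, inv_zero]; exact ⟨0, by simp⟩
    · have hwp : (aeval f P) ^ p ∈ K0 K p := pow_mem_K0 _
      have hp0 : p ≠ 0 := (Fact.out : p.Prime).ne_zero
      refine ⟨C (⟨((aeval f P) ^ p)⁻¹, inv_mem hwp⟩ : K0 K p) * P ^ (p - 1), ?_⟩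
      simp only [map_mul, aeval_C, map_pow, algebraMap_K0]
      rw [← pow_sub_one_mul hp0 (aeval f P), mul_inv, mul_right_comm,
        inv_mul_cancel₀ (pow_ne_zero _ hw), one_mul]

theorem adj_le_polySub (f : K) : adj p f ≤ polySub p f := by
  apply adj_le
  · intro c hc
    exact ⟨C ⟨c, hc⟩, by simp [algebraMap_K0]⟩
  · exact ⟨X, by simp⟩

theorem aeval_root_poly (f : K) :
    aeval f (X ^ p - C (⟨f ^ p, pow_mem_K0 f⟩ : K0 K p)) = 0 := by
  simp [algebraMap_K0]

/-- Elements of `K^p(f)` are the polynomials of degree `< p` in `f` with coefficients in `K^p`. -/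
theorem mem_adj_iff {f w : K} :
    w ∈ adj p f ↔ ∃ c : ℕ → K, (∀ i, c i ∈ K0 K p) ∧ w = ∑ i ∈ Finset.range p, c i * f ^ i := by
  constructor
  · intro hw
    obtain ⟨P, rfl⟩ := adj_le_polySub f hw
    have hp0 : p ≠ 0 := (Fact.out : p.Prime).ne_zero
    set a : K0 K p := ⟨f ^ p, pow_mem_K0 f⟩ with ha
    have hq : (X ^ p - C a : (K0 K p)[X]).Monic := monic_X_pow_sub_C a hp0
    have hdeg : (P %ₘ (X ^ p - C a)).natDegree < p := by
      have h1 := natDegree_modByMonic_lt P hq (by
        intro h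
        have := congrArg natDegree h
        rw [natDegree_X_pow_sub_C, natDegree_one] at this
        exact hp0 this)
      rwa [natDegree_X_pow_sub_C] at h1
    have heq : aeval f P = aeval f (P %ₘ (X ^ p - C a)) := by
      conv_lhs => rw [← modByMonic_add_div P (X ^ p - C a)]
      rw [map_add, map_mul, aeval_root_poly f, zero_mul, add_zero]
    refine ⟨fun i => (((P %ₘ (X ^ p - C a)).coeff i : K0 K p) : K), fun i => Subtype.property _, ?_⟩
    rw [heq, aeval_eq_sum_range' hdeg]
    rfl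
  · rintro ⟨c, hc, rfl⟩
    exact sum_mem fun i _ => mul_mem (K0_le_adj f (hc i)) (pow_mem (self_mem_adj f) i)

/-- `1, f, …, f^(p-1)` are linearly independent over `K^p` when `f ∉ K^p`. -/
theorem adj_indep {f : K} (hf : f ∉ K0 K p) {c : ℕ → K} (hc : ∀ i, c i ∈ K0 K p)
    (h : ∑ i ∈ Finset.range p, c i * f ^ i = 0) : ∀ i < p, c i = 0 := by
  set P : (K0 K p)[X] := ∑ i ∈ Finset.range p, C (⟨c i, hc i⟩ : K0 K p) * X ^ i with hP
  have hcoeff : ∀ m, P.coeff m = if m < p then (⟨c m, hc m⟩ : K0 K p) else 0 := by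
    intro m
    rw [hP, finsetSum_coeff]
    simp only [coeff_C_mul, coeff_X_pow, mul_ite, mul_one, mul_zero]
    rw [Finset.sum_ite_eq]
    simp
  have haev : aeval f P = 0 := by
    rw [hP, map_sum]
    simpa [algebraMap_K0] using h
  have hmin := Crest.Agent.S0010.Dlog.minpoly_eq (K0 K p) f (pow_mem_K0 f) hf
  have hdvd : minpoly (K0 K p) f ∣ P := minpoly.dvd _ _ haev
  have hdeg : P.degree < (minpoly (K0 K p) f).degree := by
    rw [hmin, degree_X_pow_sub_C (Fact.out : p.Prime).pos, degree_lt_iff_coeff_zero]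
    intro m hm
    rw [hcoeff, if_neg (by omega)]
  have hP0 : P = 0 := eq_zero_of_dvd_of_degree_lt hdvd hdeg
  intro i hi
  have := hcoeff i
  rw [hP0, coeff_zero, if_pos hi] at this
  exact congrArg Subtype.val this.symm

/-- `K0`-span of the powers `f^i`, `i < p`. -/
theorem mem_span_iff {f w : K} :
    w ∈ Submodule.span (K0 K p) (Set.range fun i : Fin p => f ^ (i : ℕ)) ↔ w ∈ adj p f := by
  rw [mem_adj_iff, Submodule.mem_span_range_iff_exists_fun]
  constructor
  · rintro ⟨c, rfl⟩
    refine ⟨fun i => if h : i < p then ((c ⟨i, h⟩ : K0 K p) : K) else 0, fun i => ?_, ?_⟩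
    · by_cases h : i < p
      · simp only [h, dif_pos]; exact Subtype.property _
      · simp only [h, dif_neg, not_false_eq_true]; exact zero_mem _
    · rw [← Fin.sum_univ_eq_sum_range (fun i => (if h : i < p then ((c ⟨i, h⟩ : K0 K p) : K) else 0) * f ^ i) p]
      apply Finset.sum_congr rfl
      intro i _
      simp only [i.2, dif_pos, Fin.eta]
      rfl
  · rintro ⟨c, hc, rfl⟩
    refine ⟨fun i => ⟨c i, hc i⟩, ?_⟩
    rw [← Fin.sum_univ_eq_sum_range (fun i => c i * f ^ i) p]
    rfl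

/-- `[K^p(f) : K^p] = p` is prime, so any `g ∈ K^p(f) ∖ K^p` generates it. -/
theorem adj_eq_of_mem {f g : K} (hg : g ∈ adj p f) (hg0 : g ∉ K0 K p) : adj p g = adj p f := by
  apply le_antisymm (adj_le (K0_le_adj f) hg)
  have hli : LinearIndependent (K0 K p) (fun i : Fin p => g ^ (i : ℕ)) := by
    rw [Fintype.linearIndependent_iff]
    intro c hc i
    have h1 : ∑ i ∈ Finset.range p, (if h : i < p then ((c ⟨i, h⟩ : K0 K p) : K) else 0) * g ^ i = 0 := by
      rw [← Fin.sum_univ_eq_sum_range (fun i => (if h : i < p then ((c ⟨i, h⟩ : K0 K p) : K) else 0) * g ^ i) p]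
      rw [← hc]
      apply Finset.sum_congr rfl
      intro i _
      simp only [i.2, dif_pos, Fin.eta]
      rfl
    have h2 := adj_indep hg0 (c := fun i => if h : i < p then ((c ⟨i, h⟩ : K0 K p) : K) else 0)
      (fun i => by
        by_cases h : i < p
        · simp only [h, dif_pos]; exact Subtype.property _
        · simp only [h, dif_neg, not_false_eq_true]; exact zero_mem _) h1 i i.2
    simp only [i.2, dif_pos, Fin.eta] at h2
    exact Subtype.ext h2
  have hle : Submodule.span (K0 K p) (Set.range fun i : Fin p => g ^ (i : ℕ))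
      ≤ Submodule.span (K0 K p) (Set.range fun i : Fin p => f ^ (i : ℕ)) := by
    rw [Submodule.span_le]
    rintro _ ⟨i, rfl⟩
    exact mem_span_iff.2 (pow_mem hg _)
  have hfin1 : Module.finrank (K0 K p)
      (Submodule.span (K0 K p) (Set.range fun i : Fin p => g ^ (i : ℕ))) = p := by
    rw [finrank_span_eq_card hli, Fintype.card_fin]
  have hfin2 : Module.finrank (K0 K p)
      (Submodule.span (K0 K p) (Set.range fun i : Fin p => f ^ (i : ℕ))) ≤ p := by
    have := finrank_range_le_card (R := K0 K p) (fun i : Fin p => f ^ (i : ℕ))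
    rwa [Fintype.card_fin] at this
  have : FiniteDimensional (K0 K p)
      (Submodule.span (K0 K p) (Set.range fun i : Fin p => f ^ (i : ℕ))) :=
    FiniteDimensional.span_of_finite (K0 K p) (Set.finite_range _)
  have heq := Submodule.eq_of_le_of_finrank_le hle (by rw [hfin1]; exact hfin2)
  have hf : f ∈ Submodule.span (K0 K p) (Set.range fun i : Fin p => g ^ (i : ℕ)) := by
    rw [heq, mem_span_iff]; exact self_mem_adj f
  exact adj_le (K0_le_adj g) (mem_span_iff.1 hf)

theorem adj_K0_mul {f c : K} (hc : c ∈ K0 K p) (hc0 : c ≠ 0) : adj p (c * f) = adj p f := by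
  apply le_antisymm
  · exact adj_le (K0_le_adj f) (mul_mem (K0_le_adj f hc) (self_mem_adj f))
  · apply adj_le (K0_le_adj _)
    have h := mul_mem (K0_le_adj (c * f) (inv_mem hc)) (self_mem_adj (p := p) (c * f))
    rwa [← mul_assoc, inv_mul_cancel₀ hc0, one_mul] at h

/-- `K^p(x) ∩ K^p(y) = K^p` for a `p`-independent pair. -/
theorem adj_inter {x y w : K} (hy : y ∉ adj p x) (hw1 : w ∈ adj p x) (hw2 : w ∈ adj p y) :
    w ∈ K0 K p := by
  by_contra hw
  apply hy
  rw [← adj_eq_of_mem hw1 hw, adj_eq_of_mem hw2 hw]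
  exact self_mem_adj y

/-- `p`-independence is symmetric. -/
theorem not_mem_adj_symm {x y : K} (hx : x ∉ K0 K p) (hy : y ∉ adj p x) : x ∉ adj p y := by
  intro h
  apply hy
  rw [adj_eq_of_mem h hx]
  exact self_mem_adj y

end Crest.Agent.S0010.Adj76
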