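/-
ROW 9 / S0010 — field-theoretic facts (helper50).  Mathlib only.

For a field `K` of characteristic `p`, finitely generated over an algebraically closed subfield `k`:
* `mem_iff_forall_exists_pow` : `a ∈ k ↔ ∀ n, ∃ b, b ^ p ^ n = a`  (`k` is the perfect core of `K`);
* `map_eq_of_ringEquiv` : every ring isomorphism `K ≃+* L` maps `k` onto `l`;
* `exists_pIndep_pair` : if `2 ≤ trdeg k K` there are `x y` with `x ∉ K^p` and `y ∉ K^p(x)`;
* `subfield_le_frobenius`, `fg_over_frobenius` : `k ⊆ K^p` and `K` is finitely generated over `K^p`.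
-/
import Mathlib

set_option autoImplicit false

namespace Crest.Agent.S0010.FieldFacts

open Polynomial

/-! ### A single-variable fact: `1, t, …, t^(q-1)` are independent over `F(t^q)` -/

section SV

variable {F K : Type*} [Field F] [Field K] [Algebra F K]

/-- Common denominators for finitely many elements of a simple extension. -/
lemma exists_common_denom {α : K} {q : ℕ} (g : Fin q → K)
    (hg : ∀ j, g j ∈ IntermediateField.adjoin F {α}) :
    ∃ (Q : F[X]) (R : Fin q → F[X]), aeval α Q ≠ 0 ∧ ∀ j, g j * aeval α Q = aeval α (R j) := by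
  classical
  have h1 : ∀ j, ∃ r s : F[X], aeval α s ≠ 0 ∧ g j = aeval α r / aeval α s := by
    intro j
    obtain ⟨r, s, h⟩ := (IntermediateField.mem_adjoin_simple_iff F (g j)).1 (hg j)
    by_cases hs : aeval α s = 0
    · refine ⟨0, 1, by simp, ?_⟩
      rw [h, hs]; simp
    · exact ⟨r, s, hs, h⟩
  choose r s hs hrs using h1
  refine ⟨∏ i, s i, fun j => r j * ∏ i ∈ Finset.univ.erase j, s i, ?_, ?_⟩
  · rw [map_prod]; exact Finset.prod_ne_zero_iff.2 (fun i _ => hs i)
  · intro j
    rw [hrs j, ← Finset.mul_prod_erase Finset.univ s (Finset.mem_univ j), map_mul, map_mul]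
    field_simp [hs j]

/-- If `t` is transcendental over `F`, then `1, t, …, t^(q-1)` are linearly independent over
`F(t^q)`. -/
lemma sv2 {t : K} (ht : Transcendental F t) {q : ℕ} (hq : 0 < q) (g : Fin q → K)
    (hg : ∀ j, g j ∈ IntermediateField.adjoin F {t ^ q})
    (h : ∑ j, g j * t ^ (j : ℕ) = 0) : ∀ j, g j = 0 := by
  classical
  obtain ⟨Q, R, hQ, hR⟩ := exists_common_denom g hg
  have hpoly : ∑ j : Fin q, expand F q (R j) * X ^ (j : ℕ) = 0 := by
    apply (transcendental_iff.1 ht)
    rw [map_sum]
    have h2 : ∀ j : Fin q, aeval t (expand F q (R j) * X ^ (j : ℕ))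
        = (g j * t ^ (j : ℕ)) * aeval (t ^ q) Q := by
      intro j
      rw [map_mul, expand_aeval, ← hR j, map_pow, aeval_X]; ring
    rw [Finset.sum_congr rfl (fun j _ => h2 j), ← Finset.sum_mul, h, zero_mul]
  have hR0 : ∀ j, R j = 0 := by
    by_contra hne
    obtain ⟨j0, hj0⟩ := not_forall.1 hne
    have hnd : ∀ j : Fin q, R j ≠ 0 →
        (expand F q (R j) * X ^ (j : ℕ)).natDegree = (R j).natDegree * q + (j : ℕ) := by
      intro j hj
      rw [natDegree_mul_X_pow _ (by rwa [Ne, expand_eq_zero hq]), natDegree_expand]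
    have hdeg := degree_sum_eq_of_disjoint (fun j : Fin q => expand F q (R j) * X ^ (j : ℕ))
      Finset.univ (by
        intro i hi j hj hij
        have hi0 : R i ≠ 0 := by
          intro h0; apply hi.2; simp [h0]
        have hj0' : R j ≠ 0 := by
          intro h0; apply hj.2; simp [h0]
        intro heq
        simp only [Function.comp] at heq
        have h3 := natDegree_eq_of_degree_eq heq
        rw [hnd i hi0, hnd j hj0'] at h3
        apply hij
        apply Fin.ext
        have h4 := congrArg (· % q) h3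
        simp only [Nat.mul_add_mod_self_right] at h4
        rwa [Nat.mod_eq_of_lt i.2, Nat.mod_eq_of_lt j.2] at h4)
    rw [hpoly, degree_zero] at hdeg
    have h5 : degree (expand F q (R j0) * X ^ (j0 : ℕ)) ≤ ⊥ := by
      rw [hdeg]
      exact Finset.le_sup (f := fun i : Fin q => degree (expand F q (R i) * X ^ (i : ℕ)))
        (Finset.mem_univ j0)
    rw [le_bot_iff, degree_eq_bot] at h5
    rcases mul_eq_zero.1 h5 with h6 | h6
    · exact hj0 ((expand_eq_zero hq).1 h6)
    · exact (pow_ne_zero _ X_ne_zero) h6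
  intro j
  have h7 := hR j
  rw [hR0 j, map_zero] at h7
  exact (mul_eq_zero.1 h7).resolve_right hQ

end SV

/-! ### Frobenius and simple extensions; two linear-algebra lemmas -/

section Core

variable {p : ℕ} [Fact p.Prime] {K : Type*} [Field K] [CharP K p]
variable {F' : Type*} [Field F'] [Algebra F' K]

/-- `f ∈ F'(t)` implies `f ^ (p^n) ∈ F'(t ^ (p^n))`. -/
lemma pow_mem_adjoin_pow (t : K) (n : ℕ) {f : K} (hf : f ∈ IntermediateField.adjoin F' {t}) :
    f ^ p ^ n ∈ IntermediateField.adjoin F' {t ^ p ^ n} := by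
  have hle : (IntermediateField.adjoin F' {t}).toSubfield ≤
      (IntermediateField.adjoin F' {t ^ p ^ n}).toSubfield.comap (iterateFrobenius K p n) := by
    change Subfield.closure _ ≤ _
    rw [Subfield.closure_le]
    rintro z (⟨c, rfl⟩ | hz)
    · change iterateFrobenius K p n (algebraMap F' K c) ∈ IntermediateField.adjoin F' {t ^ p ^ n}
      rw [iterateFrobenius_def, ← map_pow]
      exact IntermediateField.algebraMap_mem _ _
    · rw [Set.mem_singleton_iff] at hz
      subst hz
      change iterateFrobenius K p n z ∈ IntermediateField.adjoin F' {z ^ p ^ n}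
      rw [iterateFrobenius_def]
      exact IntermediateField.mem_adjoin_simple_self F' _
  have := hle hf
  change iterateFrobenius K p n f ∈ IntermediateField.adjoin F' {t ^ p ^ n} at this
  rwa [iterateFrobenius_def] at this

/-- Linear-algebra core of the `p`-independent pair: if `K` is finite over `F`, `F^p ⊆ G ⊆ F`,
`t ∈ F ∖ G` and `x ∈ G`, then `K ≠ K^p[x]`. -/
lemma coreA (F G : IntermediateField F' K) (hGF : G ≤ F) (hpow : ∀ f ∈ F, f ^ p ∈ G)
    [FiniteDimensional F K] (t : K) (htF : t ∈ F) (htG : t ∉ G) (x : K) (hx : x ∈ G) :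
    ∃ y : K, ∀ c : Fin p → K, ∑ j, c j ^ p * x ^ (j : ℕ) ≠ y := by
  classical
  by_contra hcon
  have hcon' : ∀ y : K, ∃ c : Fin p → K, ∑ j, c j ^ p * x ^ (j : ℕ) = y := by
    intro y
    by_contra hy
    exact hcon ⟨y, fun c hc => hy ⟨c, hc⟩⟩
  let b := Module.finBasis F K
  have hN : 0 < Module.finrank F K := Module.finrank_pos
  have key : ∀ y : K, ∃ g : Fin (Module.finrank F K) → K,
      (∀ i, g i ∈ G) ∧ y = ∑ i, g i * (b i) ^ p := by
    intro y
    obtain ⟨c, hc⟩ := hcon' y
    refine ⟨fun i => ∑ j, ((b.repr (c j) i : F) : K) ^ p * x ^ (j : ℕ), ?_, ?_⟩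
    · intro i
      exact G.sum_mem (fun j _ => G.mul_mem (hpow _ (b.repr (c j) i).2) (pow_mem hx _))
    · rw [← hc]
      have hcj : ∀ j, c j ^ p = ∑ i, ((b.repr (c j) i : F) : K) ^ p * (b i) ^ p := by
        intro j
        conv_lhs => rw [← b.sum_repr (c j)]
        rw [sum_pow_char p]
        refine Finset.sum_congr rfl (fun i _ => ?_)
        rw [IntermediateField.smul_def, smul_eq_mul, mul_pow]
      simp_rw [hcj, Finset.sum_mul]
      rw [Finset.sum_comm]
      refine Finset.sum_congr rfl (fun i _ => ?_)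
      refine Finset.sum_congr rfl (fun j _ => by ring)
  have hspan : ⊤ ≤ Submodule.span F (Set.range (fun i => (b i) ^ p)) := by
    intro y _
    obtain ⟨g, hg, hy⟩ := key y
    rw [hy]
    refine Submodule.sum_mem _ (fun i _ => ?_)
    have h1 : g i * (b i) ^ p = (⟨g i, hGF (hg i)⟩ : F) • (b i) ^ p := by
      rw [IntermediateField.smul_def, smul_eq_mul]
    rw [h1]
    exact Submodule.smul_mem _ _ (Submodule.subset_span ⟨i, rfl⟩)
  have hli : LinearIndependent F (fun i => (b i) ^ p) :=
    linearIndependent_of_top_le_span_of_card_eq_finrank hspan (by simp)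
  obtain ⟨g, hg, hy⟩ := key (t * (b ⟨0, hN⟩) ^ p)
  have h0 := Fintype.linearIndependent_iff.1 hli
    (fun i => (⟨g i, hGF (hg i)⟩ : F) - if i = ⟨0, hN⟩ then (⟨t, htF⟩ : F) else 0) (by
      simp only [sub_smul, Finset.sum_sub_distrib, ite_smul, zero_smul, Finset.sum_ite_eq',
        Finset.mem_univ, if_true]
      rw [sub_eq_zero]
      simp only [IntermediateField.smul_def, smul_eq_mul]
      exact hy.symm) ⟨0, hN⟩
  simp only [if_true, sub_eq_zero] at h0
  apply htG
  have h2 : g ⟨0, hN⟩ = t := congrArg Subtype.val h0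
  rw [← h2]; exact hg _

/-- Linear-algebra core of the perfect-core lemma: if `[K : F] < p^n`, `F^(p^n) ⊆ G`, and
`1, t, …, t^(p^n - 1)` are independent over `G`, then `t` has no `p^n`-th root in `K`. -/
lemma coreC (n : ℕ) (F G : IntermediateField F' K) (hpow : ∀ f ∈ F, f ^ p ^ n ∈ G)
    [FiniteDimensional F K] (hN : Module.finrank F K < p ^ n) (t : K)
    (hind : ∀ g : Fin (p ^ n) → K, (∀ j, g j ∈ G) → ∑ j, g j * t ^ (j : ℕ) = 0 → ∀ j, g j = 0) :
    ¬ ∃ b : K, b ^ p ^ n = t := by
  classical
  rintro ⟨b, hb⟩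
  have hdep : ¬ LinearIndependent F (fun j : Fin (p ^ n) => b ^ (j : ℕ)) := by
    intro hli
    have := hli.fintype_card_le_finrank
    simp only [Fintype.card_fin] at this
    omega
  rw [Fintype.linearIndependent_iff] at hdep
  obtain ⟨f, hf⟩ := not_forall.1 hdep
  obtain ⟨hf0, hf1⟩ := Classical.not_imp.1 hf
  obtain ⟨j0, hj0⟩ := not_forall.1 hf1
  have h1 := hind (fun j => ((f j : F) : K) ^ p ^ n) (fun j => hpow _ (f j).2) (by
    have h2 : ∑ j, ((f j : F) : K) ^ p ^ n * t ^ (j : ℕ) = (∑ j, f j • b ^ (j : ℕ)) ^ p ^ n := by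
      rw [sum_pow_char_pow]
      refine Finset.sum_congr rfl (fun j _ => ?_)
      rw [IntermediateField.smul_def, smul_eq_mul, mul_pow, ← hb]; ring
    rw [h2, hf0, zero_pow (pow_ne_zero _ (Fact.out : p.Prime).ne_zero)]) j0
  apply hj0
  have h3 : ((f j0 : F) : K) = 0 :=
    (pow_eq_zero_iff (pow_ne_zero _ (Fact.out : p.Prime).ne_zero)).1 h1
  exact Subtype.ext h3

end Core

/-! ### From a transcendence basis to a rational-function subfield of finite index -/

section Base

variable {K : Type*} [Field K]

/-- Integrality over `A` passes to any `B` whose image in `K` contains that of `A`. -/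
lemma isIntegral_of_range_subset {A B : Type*} [CommRing A] [CommRing B] [Algebra A K]
    [Algebra B K] (h : Set.range (algebraMap A K) ⊆ Set.range (algebraMap B K)) {x : K}
    (hx : IsIntegral A x) : IsIntegral B x := by
  obtain ⟨P, hP, hPx⟩ := hx
  have hl : P.map (algebraMap A K) ∈ Polynomial.lifts (algebraMap B K) := by
    rw [Polynomial.lifts_iff_coeff_lifts]
    intro n
    rw [Polynomial.coeff_map]
    exact h ⟨_, rfl⟩
  obtain ⟨Q, hQ, -, hQm⟩ := Polynomial.lifts_and_natDegree_eq_and_monic hl (hP.map _)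
  refine ⟨Q, hQm, ?_⟩
  rw [← Polynomial.eval_map, hQ, Polynomial.eval_map]
  exact hPx

open scoped IntermediateField.algebraAdjoinAdjoin in
/-- For a transcendence basis `B` of `K/k` (`K` finitely generated over `k`) and `t ∈ B`:
`t` is transcendental over `F' = k(B ∖ {t})` and `K` is finite over `F'(t)`. -/
lemma exists_base (k : Subfield K)
    (hK : ∃ s : Finset K, Subfield.closure ((k : Set K) ∪ (s : Set K)) = ⊤)
    (B : Set K) (hB : IsTranscendenceBasis k ((↑) : B → K)) (t : K) (ht : t ∈ B) :
    Transcendental (IntermediateField.adjoin k (B \ {t})) t ∧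
    FiniteDimensional (IntermediateField.adjoin (IntermediateField.adjoin k (B \ {t})) {t}) K := by
  constructor
  · have h1 := hB.1.transcendental_adjoin (s := {⟨t, ht⟩}ᶜ) (i := ⟨t, ht⟩) (by simp)
    have h2 : (Subtype.val '' ({⟨t, ht⟩}ᶜ : Set B)) = B \ {t} := by
      ext z; constructor
      · rintro ⟨⟨w, hw⟩, hne, rfl⟩
        exact ⟨hw, fun h => hne (Subtype.ext h)⟩
      · rintro ⟨hz, hne⟩
        exact ⟨⟨z, hz⟩, fun h => hne (congrArg Subtype.val h), rfl⟩
    rw [h2] at h1
    exact h1.extendScalars _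
  · obtain ⟨s, hs⟩ := hK
    have hkF : ∀ z ∈ k, z ∈ IntermediateField.adjoin (IntermediateField.adjoin k (B \ {t})) {t} :=
      fun z hz => IntermediateField.algebraMap_mem _
        (⟨z, IntermediateField.algebraMap_mem _ (⟨z, hz⟩ : k)⟩ : IntermediateField.adjoin k (B \ {t}))
    have hBF : ∀ z ∈ B, z ∈ IntermediateField.adjoin (IntermediateField.adjoin k (B \ {t})) {t} := by
      intro z hz
      by_cases hzt : z = t
      · rw [hzt]; exact IntermediateField.mem_adjoin_simple_self _ _
      · exact IntermediateField.algebraMap_mem _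
          (⟨z, IntermediateField.subset_adjoin k _ ⟨hz, hzt⟩⟩ : IntermediateField.adjoin k (B \ {t}))
    have halg := hB.isAlgebraic_field
    have hint : ∀ x : K,
        IsIntegral (IntermediateField.adjoin (IntermediateField.adjoin k (B \ {t})) {t}) x := by
      intro x
      have h1 : IsIntegral (IntermediateField.adjoin k (Set.range ((↑) : B → K))) x :=
        (halg.isAlgebraic x).isIntegral
      refine isIntegral_of_range_subset ?_ h1
      rintro _ ⟨⟨z, hz⟩, rfl⟩
      have hle : IntermediateField.adjoin k (Set.range ((↑) : B → K)) ≤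
          (IntermediateField.adjoin (IntermediateField.adjoin k (B \ {t})) {t}).restrictScalars k := by
        rw [IntermediateField.adjoin_le_iff]
        rintro _ ⟨w, rfl⟩
        exact hBF w.1 w.2
      exact ⟨⟨z, hle hz⟩, rfl⟩
    have hfd : FiniteDimensional (IntermediateField.adjoin (IntermediateField.adjoin k (B \ {t})) {t})
        (IntermediateField.adjoin
          (IntermediateField.adjoin (IntermediateField.adjoin k (B \ {t})) {t}) (s : Set K)) :=
      IntermediateField.finiteDimensional_adjoin (fun x _ => hint x)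
    have htop : IntermediateField.adjoin
        (IntermediateField.adjoin (IntermediateField.adjoin k (B \ {t})) {t}) (s : Set K) = ⊤ := by
      rw [eq_top_iff]
      intro y _
      have hy : y ∈ Subfield.closure ((k : Set K) ∪ (s : Set K)) := by rw [hs]; trivial
      have hle : Subfield.closure ((k : Set K) ∪ (s : Set K)) ≤ (IntermediateField.adjoin
          (IntermediateField.adjoin (IntermediateField.adjoin k (B \ {t})) {t})
          (s : Set K)).toSubfield := by
        rw [Subfield.closure_le]
        rintro z (hz | hz)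
        · exact IntermediateField.algebraMap_mem _
            (⟨z, hkF z hz⟩ : IntermediateField.adjoin (IntermediateField.adjoin k (B \ {t})) {t})
        · exact IntermediateField.subset_adjoin _ _ hz
      exact hle hy
    rw [htop] at hfd
    exact (IntermediateField.topEquiv (F := IntermediateField.adjoin
      (IntermediateField.adjoin k (B \ {t})) {t}) (E := K)).toLinearEquiv.finiteDimensional

end Base

/-! ### Main statements -/

section Main

variable {p : ℕ} [Fact p.Prime] {K : Type*} [Field K] [CharP K p]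

/-- An element outside an algebraically closed subfield is transcendental over it. -/
lemma transcendental_of_not_mem (k : Subfield K) [IsAlgClosed k] {a : K} (ha : a ∉ k) :
    Transcendental k a := by
  intro halg
  apply ha
  have hint : IsIntegral k a := halg.isIntegral
  have hdeg := IsAlgClosed.degree_eq_one_of_irreducible k (minpoly.irreducible hint)
  obtain ⟨⟨z, hz⟩, rfl⟩ := minpoly.mem_range_of_degree_eq_one k a hdeg
  exact hz

omit [CharP K p] in
/-- Elements of an algebraically closed subfield have `p^n`-th roots in it. -/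
lemma subfield_pow_mem (k : Subfield K) [IsAlgClosed k] (n : ℕ) {a : K} (ha : a ∈ k) :
    ∃ b ∈ k, b ^ p ^ n = a := by
  obtain ⟨z, hz⟩ := IsAlgClosed.exists_pow_nat_eq (⟨a, ha⟩ : k)
    (pow_pos (Fact.out : p.Prime).pos n)
  exact ⟨z.1, z.2, congrArg Subtype.val hz⟩

omit [Fact p.Prime] [CharP K p] in
/-- A transcendence basis through a given transcendental element. -/
lemma exists_basis_mem (k : Subfield K) {a : K} (ha : Transcendental k a) :
    ∃ B : Set K, a ∈ B ∧ IsTranscendenceBasis k ((↑) : B → K) := by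
  have h1 : AlgebraicIndepOn k id ({a} : Set K) :=
    algebraicIndependent_unique_type_iff.2 ha
  obtain ⟨B, hsub, hB⟩ := exists_isTranscendenceBasis_superset h1
  exact ⟨B, hsub rfl, hB⟩

/-- **Perfect core.** If `K` is finitely generated over the algebraically closed subfield `k`,
then `k` is exactly the set of elements having `p^n`-th roots in `K` for all `n`. -/
theorem mem_iff_forall_exists_pow (k : Subfield K) [IsAlgClosed k]
    (hK : ∃ s : Finset K, Subfield.closure ((k : Set K) ∪ (s : Set K)) = ⊤) (a : K) :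
    a ∈ k ↔ ∀ n : ℕ, ∃ b : K, b ^ p ^ n = a := by
  constructor
  · intro ha n
    obtain ⟨b, -, hb⟩ := subfield_pow_mem (p := p) k n ha
    exact ⟨b, hb⟩
  · intro h
    by_contra ha
    have htr := transcendental_of_not_mem k ha
    obtain ⟨B, haB, hB⟩ := exists_basis_mem k htr
    obtain ⟨ht, hfd⟩ := exists_base k hK B hB a haB
    have := hfd
    have hlt : Module.finrank (IntermediateField.adjoin (IntermediateField.adjoin k (B \ {a})) {a}) K
        < p ^ Module.finrank
          (IntermediateField.adjoin (IntermediateField.adjoin k (B \ {a})) {a}) K :=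
      Nat.lt_pow_self (Fact.out : p.Prime).one_lt
    exact coreC (p := p) _ (IntermediateField.adjoin (IntermediateField.adjoin k (B \ {a})) {a})
      (IntermediateField.adjoin (IntermediateField.adjoin k (B \ {a})) {a ^ p ^ Module.finrank
          (IntermediateField.adjoin (IntermediateField.adjoin k (B \ {a})) {a}) K})
      (fun f hf => pow_mem_adjoin_pow a _ hf) hlt a
      (fun g hg hsum => sv2 ht (pow_pos (Fact.out : p.Prime).pos _) g hg hsum) (h _)

/-- Every ring isomorphism between fields finitely generated over algebraically closed subfields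
(of characteristic `p`) maps the one subfield onto the other. -/
theorem map_eq_of_ringEquiv {L : Type*} [Field L] [CharP L p] (k : Subfield K) (l : Subfield L)
    [IsAlgClosed k] [IsAlgClosed l]
    (hK : ∃ s : Finset K, Subfield.closure ((k : Set K) ∪ (s : Set K)) = ⊤)
    (hL : ∃ s : Finset L, Subfield.closure ((l : Set L) ∪ (s : Set L)) = ⊤)
    (α : K ≃+* L) : k.map α.toRingHom = l := by
  ext c
  rw [Subfield.mem_map]
  constructor
  · rintro ⟨a, ha, rfl⟩
    rw [mem_iff_forall_exists_pow (p := p) l hL]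
    intro n
    obtain ⟨b, hb⟩ := (mem_iff_forall_exists_pow (p := p) k hK a).1 ha n
    exact ⟨α b, by rw [← hb]; simp⟩
  · intro hc
    refine ⟨α.symm c, ?_, by simp⟩
    rw [mem_iff_forall_exists_pow (p := p) k hK]
    intro n
    obtain ⟨b, hb⟩ := (mem_iff_forall_exists_pow (p := p) l hL c).1 hc n
    exact ⟨α.symm b, by rw [← map_pow, hb]⟩

/-- **A `p`-independent pair.** If `K` is finitely generated of transcendence degree `≥ 2` over the
algebraically closed subfield `k`, there are `x, y ∈ K` with `x ∉ K^p` and `y ∉ K^p[x]`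
(element form). -/
theorem exists_pIndep_pair (k : Subfield K) [IsAlgClosed k]
    (hK : ∃ s : Finset K, Subfield.closure ((k : Set K) ∪ (s : Set K)) = ⊤)
    (hK2 : 2 ≤ Algebra.trdeg k K) :
    ∃ x y : K, (∀ z : K, z ^ p ≠ x) ∧ (∀ c : Fin p → K, ∑ i, c i ^ p * x ^ (i : ℕ) ≠ y) := by
  classical
  have hp : p.Prime := Fact.out
  have claim : ∀ (B : Set K), IsTranscendenceBasis k ((↑) : B → K) → ∀ t ∈ B,
      ∀ x ∈ IntermediateField.adjoin k (B \ {t}),
      ∃ y : K, ∀ c : Fin p → K, ∑ j, c j ^ p * x ^ (j : ℕ) ≠ y := by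
    intro B hB t ht x hx
    obtain ⟨htr, hfd⟩ := exists_base k hK B hB t ht
    have := hfd
    refine coreA (p := p) (IntermediateField.adjoin (IntermediateField.adjoin k (B \ {t})) {t})
      (IntermediateField.adjoin (IntermediateField.adjoin k (B \ {t})) {t ^ p}) ?_ ?_ t ?_ ?_ x ?_
    · rw [IntermediateField.adjoin_le_iff]
      rintro _ rfl
      exact pow_mem (IntermediateField.mem_adjoin_simple_self _ _) _
    · intro f hf
      have := pow_mem_adjoin_pow (p := p) t 1 hf
      simpa using this
    · exact IntermediateField.mem_adjoin_simple_self _ _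
    · intro htG
      have h01 : (⟨0, hp.pos⟩ : Fin p) ≠ ⟨1, hp.one_lt⟩ := by
        intro h; exact absurd (congrArg Fin.val h) (by norm_num)
      have h1 := sv2 htr hp.pos
        (fun j : Fin p => if j = ⟨0, hp.pos⟩ then t else if j = ⟨1, hp.one_lt⟩ then -1 else 0)
        (by
          intro j
          by_cases hj0 : j = ⟨0, hp.pos⟩
          · rw [if_pos hj0]; exact htG
          · by_cases hj1 : j = ⟨1, hp.one_lt⟩
            · rw [if_neg hj0, if_pos hj1]; exact neg_mem (one_mem _)
            · rw [if_neg hj0, if_neg hj1]; exact zero_mem _)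
        (by
          rw [Finset.sum_eq_add (⟨0, hp.pos⟩ : Fin p) ⟨1, hp.one_lt⟩ h01]
          · rw [if_pos rfl, if_neg h01.symm, if_pos rfl]
            simp
          · intro c _ hc
            rw [if_neg hc.1, if_neg hc.2, zero_mul]
          · intro h; exact absurd (Finset.mem_univ _) h
          · intro h; exact absurd (Finset.mem_univ _) h)
        ⟨1, hp.one_lt⟩
      rw [if_neg h01.symm, if_pos rfl] at h1
      exact absurd h1 (by norm_num)
    · exact IntermediateField.algebraMap_mem _
        (⟨x, hx⟩ : IntermediateField.adjoin k (B \ {t}))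
  -- Step 1: an element which is not a `p`-th power
  obtain ⟨B1, hB1⟩ := exists_isTranscendenceBasis k K
  have hcard1 := hB1.cardinalMk_eq_trdeg
  have hne : B1.Nonempty := by
    by_contra hempty
    rw [Set.not_nonempty_iff_eq_empty] at hempty
    subst hempty
    rw [← hcard1] at hK2
    simp at hK2
  obtain ⟨t1, ht1⟩ := hne
  obtain ⟨x, hx⟩ := claim B1 hB1 t1 ht1 1 (one_mem _)
  have hxp : ∀ z : K, z ^ p ≠ x := by
    intro z hz
    apply hx (fun j => if j = ⟨0, hp.pos⟩ then z else 0)
    rw [Finset.sum_eq_single (⟨0, hp.pos⟩ : Fin p)]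
    · rw [if_pos rfl, one_pow, mul_one]; exact hz
    · intro j _ hj
      rw [if_neg hj, zero_pow hp.ne_zero, zero_mul]
    · intro h; exact absurd (Finset.mem_univ _) h
  -- Step 2: a second element outside `K^p[x]`
  have hxk : x ∉ k := fun hxk => by
    obtain ⟨b, -, hb⟩ := subfield_pow_mem (p := p) k 1 hxk
    exact hxp b (by simpa using hb)
  obtain ⟨B, hxB, hB⟩ := exists_basis_mem k (transcendental_of_not_mem k hxk)
  have hcard := hB.cardinalMk_eq_trdeg
  have hex : ∃ t ∈ B, t ≠ x := by
    by_contra hcon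
    have hBsub : B ⊆ {x} := by
      intro t ht
      by_contra htx
      exact hcon ⟨t, ht, htx⟩
    have h1 : Cardinal.mk B ≤ 1 := by
      calc Cardinal.mk B ≤ Cardinal.mk ({x} : Set K) := Cardinal.mk_le_mk_of_subset hBsub
        _ = 1 := Cardinal.mk_singleton x
    rw [hcard] at h1
    exact absurd (hK2.trans h1) (by norm_num)
  obtain ⟨t, htB, htx⟩ := hex
  obtain ⟨y, hy⟩ := claim B hB t htB x
    (IntermediateField.subset_adjoin k _ ⟨hxB, fun h => htx h.symm⟩)
  exact ⟨x, y, hxp, hy⟩

/-- `k ⊆ K^p`. -/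
theorem subfield_le_frobenius (k : Subfield K) [IsAlgClosed k] :
    k ≤ (frobenius K p).fieldRange := by
  intro a ha
  obtain ⟨b, -, hb⟩ := subfield_pow_mem (p := p) k 1 ha
  exact ⟨b, by simpa [frobenius_def] using hb⟩

/-- `K` is finitely generated over `K^p` (same generators as over `k`). -/
theorem fg_over_frobenius (k : Subfield K) [IsAlgClosed k]
    (hK : ∃ s : Finset K, Subfield.closure ((k : Set K) ∪ (s : Set K)) = ⊤) :
    ∃ s : Finset K,
      Subfield.closure (((frobenius K p).fieldRange : Set K) ∪ (s : Set K)) = ⊤ := by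
  obtain ⟨s, hs⟩ := hK
  refine ⟨s, ?_⟩
  rw [eq_top_iff, ← hs]
  exact Subfield.closure_mono (Set.union_subset_union_left _ (subfield_le_frobenius k))

/-! ### Structure of `K^p(x)` -/

lemma pow_mem_fieldRange (z : K) : z ^ p ∈ (frobenius K p).fieldRange :=
  RingHom.mem_fieldRange.2 ⟨z, frobenius_def p z⟩

/-- `x` is a root of `X^p - x^p ∈ K^p[X]`. -/
lemma aeval_X_pow_sub_C (x : K) :
    aeval x (X ^ p - C (⟨x ^ p, pow_mem_fieldRange x⟩ : (frobenius K p).fieldRange)) = 0 := by
  rw [map_sub, map_pow, aeval_X, aeval_C]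
  exact sub_self _

/-- Every element of `K^p(x)` is of the form `∑_{i<p} c_i^p x^i`. -/
theorem exists_of_mem_closure {x y : K}
    (hy : y ∈ Subfield.closure (((frobenius K p).fieldRange : Set K) ∪ {x})) :
    ∃ c : Fin p → K, ∑ i, c i ^ p * x ^ (i : ℕ) = y := by
  classical
  have hp : p.Prime := Fact.out
  have hy' : y ∈ IntermediateField.adjoin (frobenius K p).fieldRange {x} := by
    change y ∈ Subfield.closure (Set.range (algebraMap (frobenius K p).fieldRange K) ∪ {x})
    have h1 : Set.range (algebraMap (frobenius K p).fieldRange K)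
        = ((frobenius K p).fieldRange : Set K) := by
      ext z; constructor
      · rintro ⟨w, rfl⟩; exact w.2
      · intro hz; exact ⟨⟨z, hz⟩, rfl⟩
    rw [h1]; exact hy
  have hmon : (X ^ p - C (⟨x ^ p, pow_mem_fieldRange x⟩ : (frobenius K p).fieldRange)).Monic :=
    monic_X_pow_sub_C _ hp.ne_zero
  have hint : IsIntegral (frobenius K p).fieldRange x := ⟨_, hmon, aeval_X_pow_sub_C x⟩
  have hdim : (IntermediateField.adjoin.powerBasis hint).dim ≤ p := by
    rw [IntermediateField.adjoin.powerBasis_dim]
    have h2 := minpoly.degree_le_of_ne_zero (frobenius K p).fieldRange x hmon.ne_zero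
      (aeval_X_pow_sub_C x)
    have h3 := natDegree_le_natDegree h2
    rwa [natDegree_X_pow_sub_C] at h3
  obtain ⟨f, hf, hfy⟩ := (IntermediateField.adjoin.powerBasis hint).exists_eq_aeval ⟨y, hy'⟩
  have hyf : y = aeval x f := by
    have h4 := congrArg (Subtype.val) hfy
    rw [IntermediateField.adjoin.powerBasis_gen, ← IntermediateField.aeval_coe,
      IntermediateField.AdjoinSimple.coe_gen] at h4
    exact h4
  have hcoef : ∀ i : ℕ, ∃ z : K, z ^ p = (f.coeff i : K) := by
    intro i
    obtain ⟨z, hz⟩ := (f.coeff i).2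
    exact ⟨z, by rw [← frobenius_def p z]; exact hz⟩
  choose c hc using hcoef
  refine ⟨fun i => c i, ?_⟩
  rw [hyf, aeval_eq_sum_range' (lt_of_lt_of_le hf hdim),
    Fin.sum_univ_eq_sum_range (fun i => c i ^ p * x ^ i) p]
  refine Finset.sum_congr rfl (fun i _ => ?_)
  rw [hc i]; rfl

/-- Conversely `∑_{i<p} c_i^p x^i ∈ K^p(x)`. -/
theorem sum_mem_closure (x : K) (c : Fin p → K) :
    ∑ i, c i ^ p * x ^ (i : ℕ) ∈
      Subfield.closure (((frobenius K p).fieldRange : Set K) ∪ {x}) := by
  refine sum_mem (fun i _ => mul_mem ?_ (pow_mem ?_ _))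
  · exact Subfield.subset_closure (Set.mem_union_left _ (pow_mem_fieldRange (c i)))
  · exact Subfield.subset_closure (Set.mem_union_right _ rfl)

/-- If `x ∉ K^p` then `1, x, …, x^(p-1)` are linearly independent over `K^p`. -/
theorem pow_indep {x : K} (hx : ∀ z : K, z ^ p ≠ x) (c : Fin p → K)
    (h : ∑ i, c i ^ p * x ^ (i : ℕ) = 0) : ∀ i, c i = 0 := by
  classical
  have hp : p.Prime := Fact.out
  have hirr : Irreducible
      (X ^ p - C (⟨x ^ p, pow_mem_fieldRange x⟩ : (frobenius K p).fieldRange)) := by
    apply X_pow_sub_C_irreducible_of_prime hp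
    rintro ⟨b, z, rfl⟩ hb
    have h1 : (frobenius K p z) ^ p = x ^ p := congrArg Subtype.val hb
    rw [← frobenius_def p (frobenius K p z), ← frobenius_def p x] at h1
    have h2 := frobenius_inj K p h1
    rw [frobenius_def] at h2
    exact hx z h2
  have hmin := minpoly.eq_of_irreducible_of_monic hirr (aeval_X_pow_sub_C x)
    (monic_X_pow_sub_C _ hp.ne_zero)
  -- the polynomial with coefficients `c i ^ p`
  set f : (frobenius K p).fieldRange[X] :=
    ∑ i : Fin p, C (⟨c i ^ p, pow_mem_fieldRange (c i)⟩ : (frobenius K p).fieldRange)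
      * X ^ (i : ℕ) with hfdef
  have hfx : aeval x f = 0 := by
    rw [hfdef, map_sum, ← h]
    refine Finset.sum_congr rfl (fun i _ => ?_)
    rw [map_mul, aeval_C, map_pow, aeval_X]; rfl
  have hdeg : f.degree < (p : WithBot ℕ) := by
    rw [hfdef]
    exact degree_sum_fin_lt _
  have hf0 : f = 0 := by
    by_contra hne
    have h1 := minpoly.degree_le_of_ne_zero (frobenius K p).fieldRange x hne hfx
    rw [← hmin, degree_X_pow_sub_C hp.pos] at h1
    exact absurd (lt_of_le_of_lt h1 hdeg) (lt_irrefl _)
  intro i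
  have h2 : f.coeff (i : ℕ) = ⟨c i ^ p, pow_mem_fieldRange (c i)⟩ := by
    rw [hfdef, finsetSum_coeff, Finset.sum_eq_single i]
    · rw [coeff_C_mul, coeff_X_pow, if_pos rfl, mul_one]
    · intro j _ hj
      rw [coeff_C_mul, coeff_X_pow, if_neg (fun hij => hj (Fin.ext hij.symm)), mul_zero]
    · intro hi; exact absurd (Finset.mem_univ _) hi
  rw [hf0, coeff_zero] at h2
  have h3 : c i ^ p = 0 := (congrArg Subtype.val h2).symm
  exact (pow_eq_zero_iff hp.ne_zero).1 h3

/-- Subfield form of `exists_pIndep_pair`. -/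
theorem exists_pIndep_pair' (k : Subfield K) [IsAlgClosed k]
    (hK : ∃ s : Finset K, Subfield.closure ((k : Set K) ∪ (s : Set K)) = ⊤)
    (hK2 : 2 ≤ Algebra.trdeg k K) :
    ∃ x y : K, x ∉ (frobenius K p).fieldRange ∧
      y ∉ Subfield.closure (((frobenius K p).fieldRange : Set K) ∪ {x}) := by
  obtain ⟨x, y, hx, hy⟩ := exists_pIndep_pair (p := p) k hK hK2
  refine ⟨x, y, ?_, ?_⟩
  · rintro ⟨z, hz⟩
    exact hx z (by rw [← frobenius_def p z]; exact hz)
  · intro h
    obtain ⟨c, hc⟩ := exists_of_mem_closure h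
    exact hy c hc

end Main

end Crest.Agent.S0010.FieldFacts
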