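/-
S0010 (row 9), module BASICADJ: elementary API for `K0 K p = K^p` and `adj p f = K^p(f)`.
Used by almost every other module: do not change statements (add lemmas freely).
Hint: `adj p f = (IntermediateField.adjoin (K0 K p) {f}).toSubfield`; `f^p ∈ K^p`; if `f ∉ K^p`
then `X^p - C (f^p)` is irreducible over `K^p` (`X_pow_sub_C_irreducible_of_prime`), so it is the
minimal polynomial, `[K^p(f) : K^p] = p` and `1, f, …, f^(p-1)` is a basis
(`IntermediateField.adjoin.powerBasis`).
-/
import Crest.Agent.S0010.Defs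
import Crest.Agent.S0010.FieldFacts

set_option autoImplicit false
open Crest.NumberTheoryR.MilnorK
open scoped TensorProduct

namespace Crest.Agent.S0010lib

variable {K : Type*} [Field K] {p : ℕ} [Fact p.Prime] [CharP K p]

/-! ### `K0 = K^p` -/

theorem mem_K0 {a : K} : a ∈ K0 K p ↔ ∃ b : K, b ^ p = a := by
  unfold K0
  rw [RingHom.mem_fieldRange]
  constructor
  · rintro ⟨b, hb⟩
    exact ⟨b, by rw [← frobenius_def p b]; exact hb⟩
  · rintro ⟨b, hb⟩
    exact ⟨b, by rw [frobenius_def]; exact hb⟩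

theorem pow_mem_K0 (b : K) : b ^ p ∈ K0 K p := mem_K0.2 ⟨b, rfl⟩

/-! ### `adj p f = K^p(f)` -/

theorem K0_le_adj (f : K) : K0 K p ≤ adj p f :=
  fun _ ha => Subfield.subset_closure (Set.mem_union_left _ ha)

theorem self_mem_adj (f : K) : f ∈ adj p f :=
  Subfield.subset_closure (Set.mem_union_right _ rfl)

theorem adj_le {E : Subfield K} {f : K} (h0 : K0 K p ≤ E) (hf : f ∈ E) : adj p f ≤ E := by
  unfold adj
  rw [Subfield.closure_le]
  rintro a (ha | ha)
  · exact h0 ha
  · rw [Set.mem_singleton_iff.1 ha]; exact hf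

theorem adj_eq_K0 {f : K} (hf : f ∈ K0 K p) : adj p f = K0 K p :=
  le_antisymm (adj_le le_rfl hf) (K0_le_adj f)

private theorem basicAdj_fin_range (c : ℕ → K) (f : K) :
    ∑ i : Fin p, c i * f ^ (i : ℕ) = ∑ i ∈ Finset.range p, c i * f ^ i :=
  Fin.sum_univ_eq_sum_range (fun i => c i * f ^ i) p

/-- Elements of `K^p(f)` are the polynomials of degree `< p` in `f` with coefficients in `K^p`. -/
theorem mem_adj_iff {f w : K} :
    w ∈ adj p f ↔ ∃ c : ℕ → K, (∀ i, c i ∈ K0 K p) ∧ w = ∑ i ∈ Finset.range p, c i * f ^ i := by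
  constructor
  · intro hw
    obtain ⟨c, hc⟩ := Crest.Agent.S0010.FieldFacts.exists_of_mem_closure (p := p) hw
    refine ⟨fun i => if h : i < p then c ⟨i, h⟩ ^ p else 0, ?_, ?_⟩
    · intro i
      by_cases h : i < p
      · simp only [dif_pos h]; exact pow_mem_K0 _
      · simp only [dif_neg h]; exact zero_mem _
    · rw [← hc, ← basicAdj_fin_range]
      refine Finset.sum_congr rfl (fun i _ => ?_)
      simp only [dif_pos i.2]
  · rintro ⟨c, hc, rfl⟩
    exact sum_mem (fun i _ => mul_mem (K0_le_adj f (hc i)) (pow_mem (self_mem_adj f) i))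

/-- `1, f, …, f^(p-1)` are linearly independent over `K^p` when `f ∉ K^p`. -/
theorem adj_indep {f : K} (hf : f ∉ K0 K p) {c : ℕ → K} (hc : ∀ i, c i ∈ K0 K p)
    (h : ∑ i ∈ Finset.range p, c i * f ^ i = 0) : ∀ i < p, c i = 0 := by
  have hf' : ∀ z : K, z ^ p ≠ f := fun z hz => hf (mem_K0.2 ⟨z, hz⟩)
  choose d hd using fun i => mem_K0.1 (hc i)
  have h2 : ∑ i : Fin p, d i ^ p * f ^ (i : ℕ) = 0 := by
    rw [← h, ← basicAdj_fin_range]
    refine Finset.sum_congr rfl (fun i _ => ?_)
    rw [hd]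
  have h3 := Crest.Agent.S0010.FieldFacts.pow_indep hf' (fun i : Fin p => d i) h2
  intro i hi
  have h4 := h3 ⟨i, hi⟩
  rw [← hd i]
  simp only at h4
  rw [h4, zero_pow (Fact.out : p.Prime).ne_zero]

/-- `[K^p(f) : K^p] = p` is prime, so any `g ∈ K^p(f) ∖ K^p` generates it. -/
theorem adj_eq_of_mem {f g : K} (hg : g ∈ adj p f) (hg0 : g ∉ K0 K p) : adj p g = adj p f := by
  classical
  have hp : p.Prime := Fact.out
  refine le_antisymm (adj_le (K0_le_adj f) hg) (adj_le (K0_le_adj g) ?_)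
  -- the `K^p`-span of the powers of `f` contains `adj p f`
  have hsub : ∀ w ∈ adj p f,
      w ∈ Submodule.span (K0 K p) (Set.range (fun i : Fin p => f ^ (i : ℕ))) := by
    intro w hw
    obtain ⟨c, hc, rfl⟩ := mem_adj_iff.1 hw
    rw [← basicAdj_fin_range]
    refine Submodule.sum_mem _ (fun i _ => ?_)
    have h1 : c i * f ^ (i : ℕ) = (⟨c i, hc i⟩ : K0 K p) • f ^ (i : ℕ) := rfl
    rw [h1]
    exact Submodule.smul_mem _ _ (Submodule.subset_span ⟨i, rfl⟩)
  -- the powers of `g` are independent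
  have hg' : ∀ z : K, z ^ p ≠ g := fun z hz => hg0 (mem_K0.2 ⟨z, hz⟩)
  have hli : LinearIndependent (K0 K p) (fun i : Fin p => g ^ (i : ℕ)) := by
    rw [Fintype.linearIndependent_iff]
    intro c hc
    choose d hd using fun i => mem_K0.1 (c i).2
    have h2 : ∑ i : Fin p, d i ^ p * g ^ (i : ℕ) = 0 := by
      rw [← hc]
      refine Finset.sum_congr rfl (fun i _ => ?_)
      rw [hd]; rfl
    have h3 := Crest.Agent.S0010.FieldFacts.pow_indep hg' d h2
    intro i
    apply Subtype.ext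
    rw [← hd i, h3 i, zero_pow hp.ne_zero]; rfl
  have hle : Submodule.span (K0 K p) (Set.range (fun i : Fin p => g ^ (i : ℕ)))
      ≤ Submodule.span (K0 K p) (Set.range (fun i : Fin p => f ^ (i : ℕ))) := by
    rw [Submodule.span_le]
    rintro _ ⟨i, rfl⟩
    exact hsub _ (pow_mem hg _)
  have hfin : Module.finrank (K0 K p)
      (Submodule.span (K0 K p) (Set.range (fun i : Fin p => f ^ (i : ℕ))))
      ≤ Module.finrank (K0 K p)
        (Submodule.span (K0 K p) (Set.range (fun i : Fin p => g ^ (i : ℕ)))) := by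
    rw [finrank_span_eq_card hli]
    exact finrank_range_le_card _
  haveI : FiniteDimensional (K0 K p)
      (Submodule.span (K0 K p) (Set.range (fun i : Fin p => f ^ (i : ℕ)))) :=
    FiniteDimensional.span_of_finite _ (Set.finite_range _)
  have heq := Submodule.eq_of_le_of_finrank_le hle hfin
  have hf1 : f ∈ Submodule.span (K0 K p) (Set.range (fun i : Fin p => g ^ (i : ℕ))) := by
    rw [heq]
    exact Submodule.subset_span ⟨⟨1, hp.one_lt⟩, by simp⟩
  refine Submodule.span_induction (p := fun w _ => w ∈ adj p g) ?_ ?_ ?_ ?_ hf1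
  · rintro _ ⟨i, rfl⟩
    exact pow_mem (self_mem_adj g) _
  · exact zero_mem _
  · intro a b _ _ ha hb
    exact add_mem ha hb
  · intro c a _ ha
    exact mul_mem (K0_le_adj g c.2) ha

theorem adj_K0_mul {f c : K} (hc : c ∈ K0 K p) (hc0 : c ≠ 0) : adj p (c * f) = adj p f := by
  refine le_antisymm (adj_le (K0_le_adj f) (mul_mem (K0_le_adj f hc) (self_mem_adj f)))
    (adj_le (K0_le_adj _) ?_)
  have h1 : c⁻¹ * (c * f) = f := by
    rw [← mul_assoc, inv_mul_cancel₀ hc0, one_mul]
  have h2 : c⁻¹ * (c * f) ∈ adj p (c * f) :=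
    mul_mem (K0_le_adj _ (inv_mem hc)) (self_mem_adj _)
  rwa [h1] at h2

/-- `K^p(x) ∩ K^p(y) = K^p` for a `p`-independent pair. -/
theorem adj_inter {x y w : K} (hy : y ∉ adj p x) (hw1 : w ∈ adj p x) (hw2 : w ∈ adj p y) :
    w ∈ K0 K p := by
  by_contra h
  have e1 := adj_eq_of_mem hw1 h
  have e2 := adj_eq_of_mem hw2 h
  apply hy
  rw [← e1, e2]
  exact self_mem_adj y

/-- `p`-independence is symmetric. -/
theorem not_mem_adj_symm {x y : K} (hx : x ∉ K0 K p) (hy : y ∉ adj p x) : x ∉ adj p y := by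
  intro h
  have e1 := adj_eq_of_mem h hx
  apply hy
  rw [e1]
  exact self_mem_adj y

end Crest.Agent.S0010lib
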