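/-
S0010 (row 9), module BASICCL: elementary API for `cl p x` (class in `KOne K p`) and the blocks
`G p a`.  Used by almost every other module: do not change statements (add lemmas freely).
`KOne K p = Additive Kˣ ⧸ pMultiples K p`; `cl p x = cls K p (Units.mk0 x _)` for `x ≠ 0`.
-/
import Crest.Agent.S0010.Defs
import Crest.Agent.S0010.BasicAdj

set_option autoImplicit false
open Crest.NumberTheoryR.MilnorK
open scoped TensorProduct

namespace Crest.Agent.S0010lib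

variable {K : Type*} [Field K] {p : ℕ} [Fact p.Prime] [CharP K p]

/-! ### private helpers on `cls` -/

private theorem BasicCl_cls_mul (u v : Kˣ) : cls K p (u * v) = cls K p u + cls K p v := rfl

private theorem BasicCl_cls_one : cls K p (1 : Kˣ) = 0 := rfl

private theorem BasicCl_cls_inv (u : Kˣ) : cls K p u⁻¹ = - cls K p u := rfl

private theorem BasicCl_cls_pow (u : Kˣ) (n : ℕ) : cls K p (u ^ n) = n • cls K p u := by
  induction n with
  | zero => simp [BasicCl_cls_one]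
  | succ n ih => rw [pow_succ, BasicCl_cls_mul, ih, succ_nsmul]

private theorem BasicCl_cls_eq_zero_iff (u : Kˣ) : cls K p u = 0 ↔ ∃ v : Kˣ, v ^ p = u := by
  unfold cls
  rw [QuotientAddGroup.eq_zero_iff]
  unfold pMultiples
  rw [AddMonoidHom.mem_range]
  constructor
  · rintro ⟨x, hx⟩
    refine ⟨Additive.toMul x, ?_⟩
    have h2 : Additive.ofMul ((Additive.toMul x) ^ p) = Additive.ofMul u := by
      rw [ofMul_pow]
      simpa using hx
    exact Additive.ofMul.injective h2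
  · rintro ⟨v, hv⟩
    refine ⟨Additive.ofMul v, ?_⟩
    rw [nsmulAddMonoidHom_apply, ← ofMul_pow, hv]

private theorem BasicCl_cl_of_ne {x : K} (hx : x ≠ 0) : cl p x = cls K p (Units.mk0 x hx) := by
  unfold cl
  rw [dif_neg hx]

/-! ### `cl p x`, the class of `x` in `KOne K p` -/

theorem cl_zero : cl p (0 : K) = 0 := by
  unfold cl
  rw [dif_pos rfl]

theorem cl_unit (u : Kˣ) : cl p (u : K) = cls K p u := by
  rw [BasicCl_cl_of_ne u.ne_zero]
  congr 1
  exact Units.ext rfl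

theorem cl_one : cl p (1 : K) = 0 := by
  have h := cl_unit (K := K) (p := p) (1 : Kˣ)
  rw [Units.val_one] at h
  rw [h]
  exact BasicCl_cls_one

theorem cl_mul {x y : K} (hx : x ≠ 0) (hy : y ≠ 0) : cl p (x * y) = cl p x + cl p y := by
  rw [BasicCl_cl_of_ne hx, BasicCl_cl_of_ne hy, BasicCl_cl_of_ne (mul_ne_zero hx hy),
    ← BasicCl_cls_mul]
  congr 1
  exact Units.ext rfl

theorem cl_inv (x : K) : cl p x⁻¹ = - cl p x := by
  by_cases hx : x = 0
  · subst hx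
    rw [inv_zero, cl_zero, neg_zero]
  · rw [BasicCl_cl_of_ne hx, BasicCl_cl_of_ne (inv_ne_zero hx), ← BasicCl_cls_inv]
    congr 1
    exact Units.ext rfl

theorem cl_div {x y : K} (hx : x ≠ 0) (hy : y ≠ 0) : cl p (x / y) = cl p x - cl p y := by
  rw [div_eq_mul_inv, cl_mul hx (inv_ne_zero hy), cl_inv, sub_eq_add_neg]

theorem cl_pow (x : K) (n : ℕ) : cl p (x ^ n) = (n : ZMod p) • cl p x := by
  rw [Nat.cast_smul_eq_nsmul]
  by_cases hx : x = 0
  · subst hx
    rw [cl_zero, smul_zero]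
    rcases Nat.eq_zero_or_pos n with hn | hn
    · subst hn
      rw [pow_zero, cl_one]
    · rw [zero_pow hn.ne', cl_zero]
  · rw [BasicCl_cl_of_ne hx, BasicCl_cl_of_ne (pow_ne_zero n hx), ← BasicCl_cls_pow]
    congr 1
    exact Units.ext rfl

theorem cl_eq_zero_iff {x : K} (hx : x ≠ 0) : cl p x = 0 ↔ x ∈ K0 K p := by
  rw [BasicCl_cl_of_ne hx, BasicCl_cls_eq_zero_iff, mem_K0]
  constructor
  · rintro ⟨v, hv⟩
    refine ⟨(v : K), ?_⟩
    have h := congrArg (fun u : Kˣ => (u : K)) hv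
    simpa using h
  · rintro ⟨b, hb⟩
    have hb0 : b ≠ 0 := by
      rintro rfl
      rw [zero_pow (Fact.out : p.Prime).ne_zero] at hb
      exact hx hb.symm
    refine ⟨Units.mk0 b hb0, ?_⟩
    apply Units.ext
    simpa using hb

theorem cl_eq_cl_iff {x y : K} (hx : x ≠ 0) (hy : y ≠ 0) :
    cl p x = cl p y ↔ x / y ∈ K0 K p := by
  rw [← cl_eq_zero_iff (div_ne_zero hx hy), cl_div hx hy, sub_eq_zero]

theorem cl_K0_mul {c : K} (hc : c ∈ K0 K p) (hc0 : c ≠ 0) (x : K) : cl p (c * x) = cl p x := by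
  by_cases hx : x = 0
  · subst hx
    rw [mul_zero]
  · have h1 : cl p (c * x) = cl p c + cl p x := cl_mul hc0 hx
    have h2 : cl p c = 0 := (cl_eq_zero_iff hc0).2 hc
    rw [h1, h2]
    exact zero_add (cl p x)

theorem exists_cl (a : KOne K p) : ∃ x : K, x ≠ 0 ∧ cl p x = a := by
  obtain ⟨u, rfl⟩ := QuotientAddGroup.mk_surjective a
  exact ⟨((Additive.toMul u : Kˣ) : K), Units.ne_zero _, cl_unit _⟩

/-! ### `G` -/

private theorem BasicCl_adj_eq_of_cl_eq {f f' : K} (hf : f ≠ 0) (hf' : f' ≠ 0)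
    (h : cl p f = cl p f') : adj p f = adj p f' := by
  have hc : f / f' ∈ K0 K p := (cl_eq_cl_iff hf hf').1 h
  have hc0 : f / f' ≠ 0 := div_ne_zero hf hf'
  have e : f = f / f' * f' := by field_simp
  calc adj p f = adj p (f / f' * f') := by rw [← e]
    _ = adj p f' := adj_K0_mul hc hc0

private theorem BasicCl_mem_G_cl {f : K} (hf : f ≠ 0) (b : KOne K p) :
    b ∈ G p (cl p f) ↔ ∃ g : K, g ≠ 0 ∧ cl p g = b ∧ g ∈ adj p f := by
  constructor
  · rintro ⟨f', g, hf', hg, hff, hgb, hgadj⟩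
    refine ⟨g, hg, hgb, ?_⟩
    rw [← BasicCl_adj_eq_of_cl_eq hf' hf hff]
    exact hgadj
  · rintro ⟨g, hg, hgb, hgadj⟩
    exact ⟨f, g, hf, hg, rfl, hgb, hgadj⟩

theorem mem_G_iff {f g : K} (hf : f ≠ 0) (hg : g ≠ 0) : cl p g ∈ G p (cl p f) ↔ g ∈ adj p f := by
  rw [BasicCl_mem_G_cl hf]
  constructor
  · rintro ⟨g', hg', hgg, hgadj⟩
    have hc : g / g' ∈ K0 K p := (cl_eq_cl_iff hg hg').1 hgg.symm
    have e : g = g / g' * g' := by field_simp
    rw [e]
    exact mul_mem (K0_le_adj f hc) hgadj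
  · intro h
    exact ⟨g, hg, rfl, h⟩

theorem zero_mem_G (a : KOne K p) : (0 : KOne K p) ∈ G p a := by
  obtain ⟨f, hf, rfl⟩ := exists_cl (K := K) (p := p) a
  rw [BasicCl_mem_G_cl hf]
  exact ⟨1, one_ne_zero, cl_one, one_mem _⟩

theorem self_mem_G (a : KOne K p) : a ∈ G p a := by
  obtain ⟨f, hf, rfl⟩ := exists_cl (K := K) (p := p) a
  rw [BasicCl_mem_G_cl hf]
  exact ⟨f, hf, rfl, self_mem_adj f⟩

theorem G_zero : G p (0 : KOne K p) = {0} := by
  ext b
  rw [Set.mem_singleton_iff]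
  constructor
  · rintro ⟨f, g, hf, hg, hf0, hgb, hgadj⟩
    have hfK : f ∈ K0 K p := (cl_eq_zero_iff hf).1 hf0
    rw [adj_eq_K0 hfK] at hgadj
    rw [← hgb]
    exact (cl_eq_zero_iff hg).2 hgadj
  · rintro rfl
    exact zero_mem_G 0

/-- `G(a)` is closed under addition, negation and scalars. -/
theorem G_add {a b c : KOne K p} (hb : b ∈ G p a) (hc : c ∈ G p a) : b + c ∈ G p a := by
  obtain ⟨f, hf, rfl⟩ := exists_cl (K := K) (p := p) a
  rw [BasicCl_mem_G_cl hf] at hb hc ⊢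
  obtain ⟨g, hg, rfl, hgadj⟩ := hb
  obtain ⟨g', hg', rfl, hgadj'⟩ := hc
  exact ⟨g * g', mul_ne_zero hg hg', cl_mul hg hg', mul_mem hgadj hgadj'⟩

theorem G_neg {a b : KOne K p} (hb : b ∈ G p a) : -b ∈ G p a := by
  obtain ⟨f, hf, rfl⟩ := exists_cl (K := K) (p := p) a
  rw [BasicCl_mem_G_cl hf] at hb ⊢
  obtain ⟨g, hg, rfl, hgadj⟩ := hb
  exact ⟨g⁻¹, inv_ne_zero hg, cl_inv g, inv_mem hgadj⟩

theorem G_smul {a b : KOne K p} (n : ZMod p) (hb : b ∈ G p a) : n • b ∈ G p a := by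
  obtain ⟨f, hf, rfl⟩ := exists_cl (K := K) (p := p) a
  rw [BasicCl_mem_G_cl hf] at hb ⊢
  obtain ⟨g, hg, rfl, hgadj⟩ := hb
  haveI : NeZero p := ⟨(Fact.out : p.Prime).ne_zero⟩
  refine ⟨g ^ n.val, pow_ne_zero _ hg, ?_, pow_mem hgadj _⟩
  rw [cl_pow, ZMod.natCast_zmod_val]

/-- The blocks `G(a)`, `a ≠ 0`, partition the nonzero classes. -/
theorem G_eq_of_mem {a b : KOne K p} (hb : b ∈ G p a) (hb0 : b ≠ 0) : G p b = G p a := by
  obtain ⟨f, hf, rfl⟩ := exists_cl (K := K) (p := p) a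
  rw [BasicCl_mem_G_cl hf] at hb
  obtain ⟨g, hg, rfl, hgadj⟩ := hb
  have hg0 : g ∉ K0 K p := fun h => hb0 ((cl_eq_zero_iff hg).2 h)
  have hadj : adj p g = adj p f := adj_eq_of_mem hgadj hg0
  ext c
  rw [BasicCl_mem_G_cl hg, BasicCl_mem_G_cl hf, hadj]

end Crest.Agent.S0010lib
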