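/-
S0010 (row 9), module DERFACTS (PLAN step 2b): calculus toolkit for a derivation `D` of `K`
(characteristic `p`), relative to `K0 = K^p` and `adj p x = K^p(x)`.  Pure algebra; does not
need module DER.
-/
import Crest.Agent.S0010.Basic

set_option autoImplicit false
open Crest.NumberTheoryR.MilnorK

namespace Crest.Agent.S0010lib

variable {K : Type*} [Field K] {p : ℕ} [Fact p.Prime] [CharP K p]

/-- Every derivation kills `p`-th powers. -/
theorem D_K0 (D : Derivation ℤ K K) {a : K} (ha : a ∈ K0 K p) : D a = 0 := by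
  obtain ⟨b, rfl⟩ := mem_K0.1 ha
  rw [Derivation.leibniz_pow, nsmul_eq_mul, CharP.cast_eq_zero K p, zero_mul]

/-- `D` is `K^p`-linear. -/
theorem D_K0_mul (D : Derivation ℤ K K) {a : K} (ha : a ∈ K0 K p) (w : K) :
    D (a * w) = a * D w := by
  rw [Derivation.leibniz, D_K0 D ha, smul_zero, add_zero, smul_eq_mul]

theorem D_inv (D : Derivation ℤ K K) (w : K) : D w⁻¹ = - D w / w ^ 2 := by
  rw [Derivation.leibniz_inv, smul_eq_mul, inv_pow, neg_mul, neg_div, inv_mul_eq_div]

theorem D_div (D : Derivation ℤ K K) (a b : K) (hb : b ≠ 0) :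
    D (a / b) = (D a * b - a * D b) / b ^ 2 := by
  rw [Derivation.leibniz_div, smul_eq_mul, smul_eq_mul, smul_eq_mul, inv_pow, inv_mul_eq_div,
    mul_comm b (D a)]

theorem D_pow (D : Derivation ℤ K K) (w : K) (n : ℕ) : D (w ^ n) = n * w ^ (n - 1) * D w := by
  rw [Derivation.leibniz_pow, nsmul_eq_mul, smul_eq_mul, mul_assoc]

/-- `x * D (∑ c_i x^i) = ∑ i c_i x^i` when `D x = 1`, `c_i ∈ K^p`. -/
private theorem DerFacts_euler_sum (D : Derivation ℤ K K) {x : K} (hDx : D x = 1)
    {c : ℕ → K} (hc : ∀ i, c i ∈ K0 K p) (n : ℕ) :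
    x * D (∑ i ∈ Finset.range n, c i * x ^ i) = ∑ i ∈ Finset.range n, ((i : K) * c i) * x ^ i := by
  rw [map_sum, Finset.mul_sum]
  refine Finset.sum_congr rfl fun i _ => ?_
  rw [D_K0_mul D (hc i), D_pow, hDx, mul_one]
  rcases Nat.eq_zero_or_pos i with rfl | hi
  · simp
  · have : x ^ i = x * x ^ (i - 1) := by
      rw [← pow_succ', Nat.sub_add_cancel hi]
    rw [this]; ring

private theorem DerFacts_natCast_mem_K0 (i : ℕ) : (i : K) ∈ K0 K p := natCast_mem _ i

/-- If `D x = 0` then `D` kills `K^p(x)`. -/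
theorem D_adj_eq_zero (D : Derivation ℤ K K) {x w : K} (hDx : D x = 0) (hw : w ∈ adj p x) :
    D w = 0 := by
  obtain ⟨c, hc, rfl⟩ := mem_adj_iff.1 hw
  rw [map_sum]
  refine Finset.sum_eq_zero fun i _ => ?_
  rw [D_K0_mul D (hc i), D_pow, hDx, mul_zero, mul_zero]

/-- If `D x = 1` then `D` maps `K^p(x)` into itself. -/
theorem D_mem_adj (D : Derivation ℤ K K) {x w : K} (hDx : D x = 1) (hw : w ∈ adj p x) :
    D w ∈ adj p x := by
  obtain ⟨c, hc, rfl⟩ := mem_adj_iff.1 hw
  rw [map_sum]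
  refine sum_mem fun i _ => ?_
  rw [D_K0_mul D (hc i), D_pow, hDx, mul_one]
  exact mul_mem (K0_le_adj x (hc i)) (mul_mem (natCast_mem _ i) (pow_mem (self_mem_adj x) _))

omit [Fact p.Prime] in
/-- for `0 < i < p` the natural number `i` is nonzero in `K`. -/
private theorem DerFacts_natCast_ne_zero {i : ℕ} (hi0 : i ≠ 0) (hip : i < p) : (i : K) ≠ 0 := by
  intro h
  have := (CharP.cast_eq_zero_iff K p i).1 h
  exact hi0 (Nat.eq_zero_of_dvd_of_lt this hip)

omit [Fact p.Prime] in
/-- for `i, m < p`, `(i : K) = (m : K)` implies `i = m`. -/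
private theorem DerFacts_natCast_inj {i m : ℕ} (hip : i < p) (hmp : m < p)
    (h : (i : K) = (m : K)) : i = m := by
  have := (CharP.natCast_eq_natCast K p).1 h
  exact Nat.ModEq.eq_of_lt_of_lt this hip hmp

/-- If `D x = 1`, `x ∉ K^p`, the constants of `D` in `K^p(x)` are `K^p`. -/
theorem mem_K0_of_D_eq_zero (D : Derivation ℤ K K) {x w : K} (hx : x ∉ K0 K p) (hDx : D x = 1)
    (hw : w ∈ adj p x) (h : D w = 0) : w ∈ K0 K p := by
  obtain ⟨c, hc, rfl⟩ := mem_adj_iff.1 hw
  have h1 := DerFacts_euler_sum D hDx hc p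
  rw [h, mul_zero] at h1
  have h2 := adj_indep hx (c := fun i => (i : K) * c i)
    (fun i => mul_mem (DerFacts_natCast_mem_K0 i) (hc i)) h1.symm
  have h3 : ∀ i ∈ Finset.range p, i ≠ 0 → c i * x ^ i = 0 := by
    intro i hi hi0
    have hip := Finset.mem_range.1 hi
    have := h2 i hip
    rcases mul_eq_zero.1 this with h4 | h4
    · exact absurd h4 (DerFacts_natCast_ne_zero hi0 hip)
    · rw [h4, zero_mul]
  have hp0 : 0 ∈ Finset.range p := Finset.mem_range.2 (Fact.out : p.Prime).pos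
  rw [Finset.sum_eq_single_of_mem 0 hp0 h3, pow_zero, mul_one]
  exact hc 0

/-- Eigenvectors of the Euler operator `x D` on `K^p(x)` with eigenvalue in `K^p` are monomials.
(Write `P = ∑_{i<p} c_i x^i`; then `x D P = ∑ i c_i x^i`, so `(i - lam) c_i = 0` for all `i`.) -/
theorem euler_eigen (D : Derivation ℤ K K) {x P lam : K} (hx : x ∉ K0 K p) (hDx : D x = 1)
    (hP : P ∈ adj p x) (hP0 : P ≠ 0) (hlam : lam ∈ K0 K p) (h : x * D P = lam * P) :
    ∃ m : ℕ, m < p ∧ lam = (m : K) ∧ ∃ c ∈ K0 K p, c ≠ 0 ∧ P = c * x ^ m := by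
  obtain ⟨c, hc, rfl⟩ := mem_adj_iff.1 hP
  have h1 := DerFacts_euler_sum D hDx hc p
  rw [h, Finset.mul_sum] at h1
  have h2 : ∑ i ∈ Finset.range p, (((i : K) - lam) * c i) * x ^ i = 0 := by
    have : ∀ i ∈ Finset.range p, (((i : K) - lam) * c i) * x ^ i
        = ((i : K) * c i) * x ^ i - lam * (c i * x ^ i) := fun i _ => by ring
    rw [Finset.sum_congr rfl this, Finset.sum_sub_distrib, h1, sub_self]
  have h3 := adj_indep hx (c := fun i => ((i : K) - lam) * c i)
    (fun i => mul_mem (sub_mem (DerFacts_natCast_mem_K0 i) hlam) (hc i)) h2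
  -- some coefficient is nonzero
  obtain ⟨m, hm, hcm⟩ : ∃ m ∈ Finset.range p, c m ≠ 0 := by
    by_contra hcon
    refine hP0 (Finset.sum_eq_zero fun i hi => ?_)
    have h5 : c i = 0 := by
      by_contra h6
      exact hcon ⟨i, hi, h6⟩
    rw [h5, zero_mul]
  have hmp := Finset.mem_range.1 hm
  have hlam' : lam = (m : K) := by
    rcases mul_eq_zero.1 (h3 m hmp) with h4 | h4
    · exact (sub_eq_zero.1 h4).symm
    · exact absurd h4 hcm
  refine ⟨m, hmp, hlam', c m, hc m, hcm, ?_⟩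
  refine Finset.sum_eq_single_of_mem m hm fun i hi him => ?_
  have hip := Finset.mem_range.1 hi
  rcases mul_eq_zero.1 (h3 i hip) with h4 | h4
  · rw [hlam', sub_eq_zero] at h4
    exact absurd (DerFacts_natCast_inj hip hmp h4) him
  · rw [h4, zero_mul]

/-- Two derivations dual to `(x, y)` commute on `K^p(x, y)`. -/
theorem D_comm (D₁ D₂ : Derivation ℤ K K) {x y : K} (h11 : D₁ x = 1) (h12 : D₁ y = 0)
    (h21 : D₂ x = 0) (h22 : D₂ y = 1) {w : K}
    (hw : w ∈ Subfield.closure ((K0 K p : Set K) ∪ {x, y})) : D₁ (D₂ w) = D₂ (D₁ w) := by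
  have key : ∀ w ∈ Subfield.closure ((K0 K p : Set K) ∪ {x, y}), ⁅D₁, D₂⁆ w = 0 := by
    intro w hw
    induction hw using Subfield.closure_induction with
    | mem z hz =>
      rcases hz with hz | hz | hz
      · exact D_K0 _ hz
      · rw [hz, Derivation.commutator_apply, h21, h11, map_zero, Derivation.map_one_eq_zero,
          sub_zero]
      · rw [Set.mem_singleton_iff.1 hz, Derivation.commutator_apply, h22, h12, map_zero,
          Derivation.map_one_eq_zero, sub_zero]
    | one => exact Derivation.map_one_eq_zero _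
    | add a b _ _ ha hb => rw [map_add, ha, hb, add_zero]
    | neg a _ ha => rw [map_neg, ha, neg_zero]
    | inv a _ ha => rw [Derivation.leibniz_inv, ha, smul_zero]
    | mul a b _ _ ha hb => rw [Derivation.leibniz, ha, hb, smul_zero, smul_zero, add_zero]
  have := key w hw
  rw [Derivation.commutator_apply, sub_eq_zero] at this
  exact this

/-- `K^p(z) ⊆ K^p(x, y)` for `z ∈ K^p(x, y)`. -/
theorem adj_le_closure_pair {x y z : K}
    (hz : z ∈ Subfield.closure ((K0 K p : Set K) ∪ {x, y})) :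
    adj p z ≤ Subfield.closure ((K0 K p : Set K) ∪ {x, y}) :=
  adj_le (fun _ ha => Subfield.subset_closure (Or.inl ha)) hz

end Crest.Agent.S0010lib
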