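import Mathlib

/-!
# S0010 (row 9): existence of derivations with prescribed values on a `p`-independent pair

`K` is a field of characteristic `p`, `K0 = K^p = (frobenius K p).fieldRange`.
A *partial derivation* is a pair `(E, D)` of a subfield `E ⊇ K0` and a total function `D : K → K`
which is additive and satisfies the Leibniz rule on `E` (`IsDerOn E D`) and kills `p`-th powers.
The one-step extension lemma `IsDerOn.extend` extends a partial derivation along `E(h)`, `h ∉ E`,
with an arbitrary value at `h`.  Iterating along a finite generating set gives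
`exists_derivation_pair`.
-/

set_option autoImplicit false
open Polynomial

namespace Crest.Agent.S0010

variable {K : Type*} [Field K]

/-- `D` restricted to the subfield `E` is a derivation with values in `K`. -/
structure IsDerOn (E : Subfield K) (D : K → K) : Prop where
  add : ∀ a ∈ E, ∀ b ∈ E, D (a + b) = D a + D b
  mul : ∀ a ∈ E, ∀ b ∈ E, D (a * b) = a * D b + b * D a

namespace IsDerOn

variable {E : Subfield K} {D : K → K}

theorem map_zero (hD : IsDerOn E D) : D 0 = 0 := by
  have h := hD.add 0 E.zero_mem 0 E.zero_mem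
  rw [add_zero] at h
  exact left_eq_add.mp h

theorem map_one (hD : IsDerOn E D) : D 1 = 0 := by
  have h := hD.mul 1 E.one_mem 1 E.one_mem
  rw [mul_one, one_mul] at h
  exact left_eq_add.mp h

theorem map_neg (hD : IsDerOn E D) {a : K} (ha : a ∈ E) : D (-a) = - D a := by
  have h := hD.add a ha (-a) (E.neg_mem ha)
  rw [add_neg_cancel, hD.map_zero] at h
  exact eq_neg_of_add_eq_zero_right h.symm

theorem mono {E' : Subfield K} (hD : IsDerOn E D) (h : E' ≤ E) : IsDerOn E' D :=
  ⟨fun a ha b hb => hD.add a (h ha) b (h hb), fun a ha b hb => hD.mul a (h ha) b (h hb)⟩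

end IsDerOn

theorem algebraMap_subfield (E : Subfield K) (a : ↥E) : algebraMap (↥E) K a = (a : K) := rfl

section Extend

variable (E : Subfield K) (D : K → K) (h w : K)

/-- The auxiliary map on polynomials over `E`: `P ↦ ∑ D(aᵢ) hⁱ + P'(h) w`. -/
noncomputable def delta (P : (↥E)[X]) : K :=
  P.sum (fun i a => D (a : K) * h ^ i) + aeval h (derivative P) * w

variable {E D}

theorem delta_add (hD : IsDerOn E D) (P Q : (↥E)[X]) :
    delta E D h w (P + Q) = delta E D h w P + delta E D h w Q := by
  unfold delta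
  rw [Polynomial.sum_add_index, derivative_add, map_add]
  · ring
  · intro i
    simp [hD.map_zero]
  · intro i a b
    rw [Subfield.coe_add, hD.add _ a.2 _ b.2]
    ring

theorem delta_monomial (hD : IsDerOn E D) (n : ℕ) (a : ↥E) :
    delta E D h w (monomial n a) = D (a : K) * h ^ n + (a : K) * (n : K) * h ^ (n - 1) * w := by
  unfold delta
  rw [Polynomial.sum_monomial_index, derivative_monomial, aeval_monomial]
  · simp [algebraMap_subfield]
  · simp [hD.map_zero]

theorem delta_mul (hD : IsDerOn E D) (P Q : (↥E)[X]) :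
    delta E D h w (P * Q) = aeval h P * delta E D h w Q + aeval h Q * delta E D h w P := by
  induction P using Polynomial.induction_on' with
  | add P1 P2 h1 h2 =>
    rw [add_mul, delta_add h w hD, h1, h2, delta_add h w hD, map_add]
    ring
  | monomial m a =>
    induction Q using Polynomial.induction_on' with
    | add Q1 Q2 h1 h2 =>
      rw [mul_add, delta_add h w hD, h1, h2, delta_add h w hD, map_add]
      ring
    | monomial n b =>
      rw [monomial_mul_monomial, delta_monomial h w hD, delta_monomial h w hD,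
        delta_monomial h w hD, aeval_monomial, aeval_monomial, Subfield.coe_mul,
        hD.mul _ a.2 _ b.2]
      simp only [algebraMap_subfield, Nat.cast_add]
      rcases Nat.eq_zero_or_pos m with rfl | hm
      · rcases Nat.eq_zero_or_pos n with rfl | hn
        · simp
        · simp
          ring
      · rcases Nat.eq_zero_or_pos n with rfl | hn
        · simp
          ring
        · obtain ⟨m', rfl⟩ : ∃ m', m = m' + 1 := ⟨m - 1, by omega⟩
          obtain ⟨n', rfl⟩ : ∃ n', n = n' + 1 := ⟨n - 1, by omega⟩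
          have e1 : m' + 1 + (n' + 1) - 1 = m' + n' + 1 := by omega
          simp only [e1, Nat.add_sub_cancel]
          push_cast
          ring

theorem delta_C (hD : IsDerOn E D) (a : ↥E) : delta E D h w (C a) = D (a : K) := by
  rw [← monomial_zero_left, delta_monomial h w hD]
  simp

theorem delta_X_pow (hD : IsDerOn E D) (n : ℕ) :
    delta E D h w (X ^ n) = (n : K) * h ^ (n - 1) * w := by
  rw [← monomial_one_right_eq_X_pow, delta_monomial h w hD]
  simp [hD.map_one]

/-- Membership in `E(h)` for algebraic `h`: values of polynomials at `h`. -/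
theorem mem_closure_insert_iff (halg : IsAlgebraic (↥E) h) (x : K) :
    x ∈ Subfield.closure ((E : Set K) ∪ {h}) ↔ ∃ P : (↥E)[X], aeval h P = x := by
  constructor
  · intro hx
    have hle : Subfield.closure ((E : Set K) ∪ {h})
        ≤ (IntermediateField.adjoin (↥E) ({h} : Set K)).toSubfield := by
      rw [Subfield.closure_le]
      rintro y (hy | hy)
      · exact (IntermediateField.adjoin (↥E) ({h} : Set K)).algebraMap_mem ⟨y, hy⟩
      · rw [Set.mem_singleton_iff] at hy
        rw [hy]
        exact IntermediateField.mem_adjoin_simple_self (↥E) h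
    have hx' : x ∈ (IntermediateField.adjoin (↥E) ({h} : Set K)).toSubalgebra := hle hx
    rw [IntermediateField.adjoin_simple_toSubalgebra_of_isAlgebraic halg,
      Algebra.adjoin_singleton_eq_range_aeval] at hx'
    obtain ⟨P, hP⟩ := hx'
    exact ⟨P, hP⟩
  · rintro ⟨P, rfl⟩
    rw [aeval_eq_sum_range]
    refine Subfield.sum_mem _ (fun i _ => ?_)
    rw [Algebra.smul_def]
    refine Subfield.mul_mem _ ?_ (Subfield.pow_mem _ ?_ i)
    · exact Subfield.subset_closure (Or.inl (P.coeff i).2)
    · exact Subfield.subset_closure (Or.inr rfl)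

end Extend

section Step

variable (p : ℕ) [hp : Fact p.Prime] [CharP K p]

/-- One-step extension of a partial derivation along `E(h)`, `h ∉ E`, with value `w` at `h`. -/
theorem IsDerOn.extend {E : Subfield K} {D : K → K} (hE : ∀ a : K, a ^ p ∈ E)
    (hD : IsDerOn E D) (hD0 : ∀ a : K, D (a ^ p) = 0) (h w : K) (hh : h ∉ E) :
    ∃ D' : K → K, IsDerOn (Subfield.closure ((E : Set K) ∪ {h})) D' ∧
      (∀ a ∈ E, D' a = D a) ∧ D' h = w ∧ ∀ a : K, D' (a ^ p) = 0 := by
  classical
  -- the minimal polynomial `X^p - t`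
  set t : ↥E := ⟨h ^ p, hE h⟩ with ht
  set q : (↥E)[X] := X ^ p - C t with hq
  have hq0 : aeval h q = 0 := by
    simp [hq, ht, algebraMap_subfield]
  have hqirr : Irreducible q := by
    refine X_pow_sub_C_irreducible_of_prime hp.out (fun b hb => hh ?_)
    have hb' : (b : K) ^ p = h ^ p := by
      have := congrArg (fun z : ↥E => (z : K)) hb
      simpa [ht] using this
    have : (b : K) = h := by
      have hfi := frobenius_inj K p
      apply hfi
      simpa [frobenius_def] using hb'
    rw [← this]
    exact b.2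
  have hqmonic : q.Monic := monic_X_pow_sub_C t hp.out.ne_zero
  have hqmin : q = minpoly (↥E) h := minpoly.eq_of_irreducible_of_monic hqirr hq0 hqmonic
  have halg : IsAlgebraic (↥E) h := ⟨q, hqmonic.ne_zero, hq0⟩
  have hdq : delta E D h w q = 0 := by
    have h1 : q = X ^ p + C (-t) := by
      rw [hq, C_neg, sub_eq_add_neg]
    rw [h1, delta_add h w hD, delta_X_pow h w hD, delta_C h w hD]
    have h2 : ((-t : ↥E) : K) = -(h ^ p) := by simp [ht]
    rw [h2, hD.map_neg (hE h), hD0 h, CharP.cast_eq_zero K p]
    simp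
  have hker : ∀ P Q : (↥E)[X], aeval h P = aeval h Q → delta E D h w P = delta E D h w Q := by
    intro P Q hPQ
    have h0 : aeval h (P - Q) = 0 := by rw [map_sub, hPQ, sub_self]
    have hdvd : q ∣ P - Q := by
      rw [hqmin]
      exact minpoly.dvd (↥E) h h0
    obtain ⟨R, hR⟩ := hdvd
    have hP : P = Q + q * R := by rw [← hR]; ring
    rw [hP, delta_add h w hD, delta_mul h w hD, hq0, hdq]
    ring
  -- the extended derivation
  let D' : K → K := fun x =>
    if hx : ∃ P : (↥E)[X], aeval h P = x then delta E D h w (Classical.choose hx) else 0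
  have hD' : ∀ P : (↥E)[X], D' (aeval h P) = delta E D h w P := by
    intro P
    have hx : ∃ P' : (↥E)[X], aeval h P' = aeval h P := ⟨P, rfl⟩
    simp only [D', dif_pos hx]
    exact hker _ _ (Classical.choose_spec hx)
  refine ⟨D', ⟨?_, ?_⟩, ?_, ?_, ?_⟩
  · intro a ha b hb
    obtain ⟨P, rfl⟩ := (mem_closure_insert_iff h halg a).1 ha
    obtain ⟨Q, rfl⟩ := (mem_closure_insert_iff h halg b).1 hb
    rw [← map_add, hD', hD', hD', delta_add h w hD]
  · intro a ha b hb
    obtain ⟨P, rfl⟩ := (mem_closure_insert_iff h halg a).1 ha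
    obtain ⟨Q, rfl⟩ := (mem_closure_insert_iff h halg b).1 hb
    rw [← map_mul, hD', hD', hD', delta_mul h w hD]
  · intro a ha
    have h1 : D' (aeval h (C (⟨a, ha⟩ : ↥E))) = D a := by rw [hD', delta_C h w hD]
    simpa [algebraMap_subfield] using h1
  · have : h = aeval h (X : (↥E)[X]) := by simp
    rw [this, hD', ← pow_one (X : (↥E)[X]), delta_X_pow h w hD]
    simp
  · intro a
    have : a ^ p = aeval h (C (⟨a ^ p, hE a⟩ : ↥E)) := by simp [algebraMap_subfield]
    rw [this, hD', delta_C h w hD]
    exact hD0 a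

end Step

section Main

variable (p : ℕ) [hp : Fact p.Prime] [CharP K p]

/-- Extend (or keep) a partial derivation by one element, whether or not it already lies in `E`. -/
theorem IsDerOn.extend' {E : Subfield K} {D : K → K} (hE : ∀ a : K, a ^ p ∈ E)
    (hD : IsDerOn E D) (hD0 : ∀ a : K, D (a ^ p) = 0) (h : K) :
    ∃ D' : K → K, IsDerOn (Subfield.closure ((E : Set K) ∪ {h})) D' ∧
      (∀ a ∈ E, D' a = D a) ∧ ∀ a : K, D' (a ^ p) = 0 := by
  by_cases hh : h ∈ E
  · have : Subfield.closure ((E : Set K) ∪ {h}) = E := by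
      apply le_antisymm
      · rw [Subfield.closure_le]
        rintro y (hy | hy)
        · exact hy
        · rw [Set.mem_singleton_iff] at hy
          rw [hy]
          exact hh
      · intro y hy
        exact Subfield.subset_closure (Or.inl hy)
    rw [this]
    exact ⟨D, hD, fun a _ => rfl, hD0⟩
  · obtain ⟨D', h1, h2, _, h4⟩ := IsDerOn.extend p hE hD hD0 h 0 hh
    exact ⟨D', h1, h2, h4⟩

/-- Extend a partial derivation along a finite list of elements. -/
theorem IsDerOn.extend_list (l : List K) : ∀ {E : Subfield K} {D : K → K},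
    (∀ a : K, a ^ p ∈ E) → IsDerOn E D → (∀ a : K, D (a ^ p) = 0) →
    ∃ D' : K → K, IsDerOn (Subfield.closure ((E : Set K) ∪ {x | x ∈ l})) D' ∧
      (∀ a ∈ E, D' a = D a) ∧ ∀ a : K, D' (a ^ p) = 0 := by
  induction l with
  | nil =>
    intro E D hE hD hD0
    refine ⟨D, hD.mono ?_, fun a _ => rfl, hD0⟩
    rw [Subfield.closure_le]
    rintro y (hy | hy)
    · exact hy
    · simp at hy
  | cons h l ih =>
    intro E D hE hD hD0
    obtain ⟨D1, h1, h2, h3⟩ := IsDerOn.extend' p hE hD hD0 h
    have hE1 : ∀ a : K, a ^ p ∈ Subfield.closure ((E : Set K) ∪ {h}) :=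
      fun a => Subfield.subset_closure (Or.inl (hE a))
    obtain ⟨D2, k1, k2, k3⟩ := ih hE1 h1 h3
    refine ⟨D2, k1.mono ?_, ?_, k3⟩
    · rw [Subfield.closure_le]
      rintro y (hy | hy)
      · exact Subfield.subset_closure (Or.inl (Subfield.subset_closure (Or.inl hy)))
      · rcases List.mem_cons.1 hy with rfl | hy'
        · exact Subfield.subset_closure (Or.inl (Subfield.subset_closure (Or.inr rfl)))
        · exact Subfield.subset_closure (Or.inr hy')
    · intro a ha
      rw [k2 a (Subfield.subset_closure (Or.inl ha)), h2 a ha]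

/-- **Existence of a derivation with prescribed values on a `p`-independent pair.**
`K` of characteristic `p`, finitely generated over `K^p`; `f ∉ K^p`, `g ∉ K^p(f)`. Then for any
`wf wg : K` there is a derivation `D : K → K` (additive + Leibniz) with `D f = wf`, `D g = wg`. -/
theorem exists_derivation (s : Finset K)
    (hs : Subfield.closure (((frobenius K p).fieldRange : Set K) ∪ (s : Set K)) = ⊤)
    (f g : K) (hf : f ∉ (frobenius K p).fieldRange)
    (hg : g ∉ Subfield.closure (((frobenius K p).fieldRange : Set K) ∪ {f})) (wf wg : K) :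
    ∃ D : K → K, (∀ a b, D (a + b) = D a + D b) ∧ (∀ a b, D (a * b) = a * D b + b * D a) ∧
      D f = wf ∧ D g = wg ∧ ∀ a : K, D (a ^ p) = 0 := by
  set E0 : Subfield K := (frobenius K p).fieldRange with hE0def
  have hE0 : ∀ a : K, a ^ p ∈ E0 := fun a => ⟨a, by simp [frobenius_def]⟩
  have hD0 : IsDerOn E0 (fun _ : K => (0 : K)) := ⟨fun _ _ _ _ => by simp, fun _ _ _ _ => by simp⟩
  obtain ⟨D1, h1, h2, h3, h4⟩ := IsDerOn.extend p hE0 hD0 (fun _ => rfl) f wf hf
  have hE1 : ∀ a : K, a ^ p ∈ Subfield.closure ((E0 : Set K) ∪ {f}) :=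
    fun a => Subfield.subset_closure (Or.inl (hE0 a))
  obtain ⟨D2, k1, k2, k3, k4⟩ := IsDerOn.extend p hE1 h1 h4 g wg hg
  have hE2 : ∀ a : K, a ^ p ∈
      Subfield.closure ((Subfield.closure ((E0 : Set K) ∪ {f}) : Set K) ∪ {g}) :=
    fun a => Subfield.subset_closure (Or.inl (hE1 a))
  obtain ⟨D3, m1, m2, m3⟩ := IsDerOn.extend_list p s.toList hE2 k1 k4
  have htop : Subfield.closure
      ((Subfield.closure ((Subfield.closure ((E0 : Set K) ∪ {f}) : Set K) ∪ {g}) : Set K)
        ∪ {x | x ∈ s.toList}) = ⊤ := by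
    rw [eq_top_iff, ← hs, Subfield.closure_le]
    rintro y (hy | hy)
    · exact Subfield.subset_closure (Or.inl (Subfield.subset_closure (Or.inl
        (Subfield.subset_closure (Or.inl hy)))))
    · exact Subfield.subset_closure (Or.inr (by simpa using hy))
  rw [htop] at m1
  have hfE1 : f ∈ Subfield.closure ((E0 : Set K) ∪ {f}) := Subfield.subset_closure (Or.inr rfl)
  have hfE2 : f ∈ Subfield.closure ((Subfield.closure ((E0 : Set K) ∪ {f}) : Set K) ∪ {g}) :=
    Subfield.subset_closure (Or.inl hfE1)
  have hgE2 : g ∈ Subfield.closure ((Subfield.closure ((E0 : Set K) ∪ {f}) : Set K) ∪ {g}) :=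
    Subfield.subset_closure (Or.inr rfl)
  refine ⟨D3, fun a b => m1.add a trivial b trivial, fun a b => m1.mul a trivial b trivial,
    ?_, ?_, m3⟩
  · rw [m2 f hfE2, k2 f hfE1, h3]
  · rw [m2 g hgE2, k3]

/-- The pair of derivations dual to a `p`-independent pair `f, g`. -/
theorem exists_derivation_pair (s : Finset K)
    (hs : Subfield.closure (((frobenius K p).fieldRange : Set K) ∪ (s : Set K)) = ⊤)
    (f g : K) (hf : f ∉ (frobenius K p).fieldRange)
    (hg : g ∉ Subfield.closure (((frobenius K p).fieldRange : Set K) ∪ {f})) :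
    ∃ D1 D2 : K → K,
      (∀ a b, D1 (a + b) = D1 a + D1 b) ∧ (∀ a b, D1 (a * b) = a * D1 b + b * D1 a) ∧
      (∀ a b, D2 (a + b) = D2 a + D2 b) ∧ (∀ a b, D2 (a * b) = a * D2 b + b * D2 a) ∧
      D1 f = 1 ∧ D1 g = 0 ∧ D2 f = 0 ∧ D2 g = 1 := by
  obtain ⟨D1, a1, b1, c1, d1, _⟩ := exists_derivation p s hs f g hf hg 1 0
  obtain ⟨D2, a2, b2, c2, d2, _⟩ := exists_derivation p s hs f g hf hg 0 1
  exact ⟨D1, D2, a1, b1, a2, b2, c1, d1, c2, d2⟩

end Main

end Crest.Agent.S0010
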