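import Mathlib
import Crest.Prelude.Def_MilnorK

/-!
# S0010 helper module DERIV (helper31)

Derivations of a field `K` of characteristic `p` over its subfield `K^p` of `p`-th powers:

* `pth K p` : the subfield of `p`-th powers;
* `step` : a derivation on a subfield `E ⊇ K^p` extends to `E(h)` (`h ∉ E`) with an arbitrary
  value at `h`;
* `exists_derivation` : if `K = K^p(s)` for a finite set `s`, `f ∉ K^p`, `g ∉ K^p(f)`, there is a
  derivation of `K` with prescribed values at `f` and `g`;
* `exists_dual_derivations` : the dual pair `D₁ f = 1, D₁ g = 0, D₂ f = 0, D₂ g = 1`;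
* `tmul_not_mem_steinberg` : step (2) of the S0010 plan: `[f] ⊗ [g] ∉ steinberg K p` for a
  `p`-independent pair.
-/

set_option autoImplicit false

open Polynomial TensorProduct
open Crest.NumberTheoryR.MilnorK

namespace Crest.Agent.S0010.D31

variable {p : ℕ} [hp : Fact p.Prime] {K : Type*} [Field K] [CharP K p]

/-- The subfield of `p`-th powers of a field of characteristic `p`. -/
def pth (K : Type*) [Field K] (p : ℕ) [Fact p.Prime] [CharP K p] : Subfield K :=
  (frobenius K p).fieldRange

lemma mem_pth {a : K} : a ∈ pth K p ↔ ∃ b : K, b ^ p = a := by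
  simp [pth, RingHom.mem_fieldRange, frobenius_def]

lemma pow_mem_pth (b : K) : b ^ p ∈ pth K p := mem_pth.2 ⟨b, rfl⟩

/-- `D` behaves like a derivation on the subfield `E` (as a function on all of `K`). -/
structure IsDerOn (E : Subfield K) (D : K → K) : Prop where
  add : ∀ a ∈ E, ∀ b ∈ E, D (a + b) = D a + D b
  mul : ∀ a ∈ E, ∀ b ∈ E, D (a * b) = a * D b + b * D a

lemma IsDerOn.map_zero {E : Subfield K} {D : K → K} (hD : IsDerOn E D) : D 0 = 0 := by
  have := hD.add 0 E.zero_mem 0 E.zero_mem
  simpa using this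

lemma IsDerOn.map_one {E : Subfield K} {D : K → K} (hD : IsDerOn E D) : D 1 = 0 := by
  have := hD.mul 1 E.one_mem 1 E.one_mem
  simpa using this

/-- The ring homomorphism `E → K[ε]`, `a ↦ a + D(a) ε`, attached to a derivation on `E`. -/
noncomputable def dualHom {E : Subfield K} {D : K → K} (hD : IsDerOn E D) : E →+* DualNumber K where
  toFun a := TrivSqZeroExt.inl (a : K) + TrivSqZeroExt.inr (D a)
  map_one' := by
    apply TrivSqZeroExt.ext <;> simp [hD.map_one]
  map_mul' a b := by
    apply TrivSqZeroExt.ext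
    · simp
    · simp [hD.mul a a.2 b b.2, mul_comm]
  map_zero' := by
    apply TrivSqZeroExt.ext <;> simp [hD.map_zero]
  map_add' a b := by
    apply TrivSqZeroExt.ext
    · simp
    · simp [hD.add a a.2 b b.2]

lemma dualHom_fst {E : Subfield K} {D : K → K} (hD : IsDerOn E D) (a : E) :
    (dualHom hD a).fst = (a : K) := by
  simp [dualHom]

lemma dualHom_snd {E : Subfield K} {D : K → K} (hD : IsDerOn E D) (a : E) :
    (dualHom hD a).snd = D a := by
  simp [dualHom]

/-- **Extension step.** A derivation on a subfield `E ⊇ K^p` extends to `E(h)`, `h ∉ E`, with an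
arbitrary value `c` at `h`. -/
theorem step (E : Subfield K) (hE : pth K p ≤ E) (D : K → K) (hD : IsDerOn E D)
    (hD0 : ∀ a ∈ pth K p, D a = 0) (h : K) (hh : h ∉ E) (c : K) :
    ∃ D' : K → K, IsDerOn (Subfield.closure ((E : Set K) ∪ {h})) D' ∧
      (∀ a ∈ E, D' a = D a) ∧ D' h = c := by
  classical
  have hp0 : p ≠ 0 := hp.out.ne_zero
  set φ : E →+* DualNumber K := dualHom hD with hφ
  -- the element `h ^ p` of `E`
  set a0 : E := ⟨h ^ p, hE (pow_mem_pth h)⟩ with ha0
  have hirr : Irreducible (X ^ p - C a0 : E[X]) := by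
    apply X_pow_sub_C_irreducible_of_prime hp.out
    intro b hb
    have hb' : (b : K) ^ p = h ^ p := by
      have := congrArg (fun z : E => (z : K)) hb
      simpa [ha0] using this
    have : (b : K) = h := frobenius_inj K p (by simpa [frobenius_def] using hb')
    exact hh (this ▸ b.2)
  have hmonic : (X ^ p - C a0 : E[X]).Monic := monic_X_pow_sub_C a0 hp0
  have hroot : aeval h (X ^ p - C a0 : E[X]) = 0 := by
    simp only [map_sub, map_pow, aeval_X, aeval_C]
    exact sub_self _
  have hmin : (X ^ p - C a0 : E[X]) = minpoly E h :=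
    minpoly.eq_of_irreducible_of_monic hirr hroot hmonic
  have hint : IsIntegral E h := ⟨_, hmonic, by simpa [aeval_def] using hroot⟩
  -- the prospective image of `h`
  set x : DualNumber K := TrivSqZeroExt.inl h + TrivSqZeroExt.inr c with hx
  have hxp : x ^ p = TrivSqZeroExt.inl (h ^ p) := by
    apply TrivSqZeroExt.ext
    · simp [hx]
    · simp [hx, TrivSqZeroExt.snd_pow]
  have hφa0 : φ a0 = TrivSqZeroExt.inl (h ^ p) := by
    apply TrivSqZeroExt.ext
    · simp [hφ, dualHom_fst, ha0]
    · simp [hφ, dualHom_snd, ha0, hD0 _ (pow_mem_pth h)]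
  have hev : (minpoly E h).eval₂ φ x = 0 := by
    rw [← hmin]
    simp [eval₂_sub, eval₂_pow, hxp, hφa0]
  set ψ : AdjoinRoot (minpoly E h) →+* DualNumber K := AdjoinRoot.lift φ x hev with hψ
  set e := IntermediateField.adjoinRootEquivAdjoin E hint with he
  -- the first component of `ψ` is the inclusion
  have hfst : ∀ w : AdjoinRoot (minpoly E h), (ψ w).fst = ((e w : IntermediateField.adjoin E {h}) : K) := by
    intro w
    have key : ((TrivSqZeroExt.fstHom K K K).toRingHom.comp ψ) =
        ((algebraMap (IntermediateField.adjoin E {h}) K).comp (e : AdjoinRoot (minpoly E h) →+* _)) := by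
      apply AdjoinRoot.ringHom_ext
      · ext a
        have h1 : e (AdjoinRoot.of (minpoly E h) a) = algebraMap E (IntermediateField.adjoin E {h}) a := by
          rw [← AdjoinRoot.algebraMap_eq]
          exact e.commutes a
        simp only [RingHom.coe_comp, Function.comp_apply, RingHom.coe_coe, h1]
        simp only [hψ, AdjoinRoot.lift_of, hφ]
        change (dualHom hD a).fst = (a : K)
        exact dualHom_fst hD a
      · simp [hψ, hx, he, IntermediateField.adjoinRootEquivAdjoin_apply_root]
    have := congrArg (fun F => F w) key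
    simpa using this
  -- the extended homomorphism on `E(h)`
  set Ψ : IntermediateField.adjoin E {h} →+* DualNumber K :=
    ψ.comp (e.symm : IntermediateField.adjoin E {h} →+* AdjoinRoot (minpoly E h)) with hΨ
  have hΨfst : ∀ z : IntermediateField.adjoin E {h}, (Ψ z).fst = (z : K) := by
    intro z
    have := hfst (e.symm z)
    simpa [hΨ] using this
  have hmemE : ∀ a : K, a ∈ Subfield.closure ((E : Set K) ∪ {h}) ↔
      a ∈ IntermediateField.adjoin E {h} := by
    intro a
    rw [← IntermediateField.mem_toSubfield, IntermediateField.adjoin_toSubfield]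
    have : Set.range (algebraMap E K) = (E : Set K) := by
      ext y
      constructor
      · rintro ⟨z, rfl⟩
        exact z.2
      · intro hy
        exact ⟨⟨y, hy⟩, rfl⟩
    rw [this]
  refine ⟨fun a => if ha : a ∈ IntermediateField.adjoin E {h} then (Ψ ⟨a, ha⟩).snd else 0,
    ⟨?_, ?_⟩, ?_, ?_⟩
  · intro a ha b hb
    have ha' := (hmemE a).1 ha
    have hb' := (hmemE b).1 hb
    have hab' : a + b ∈ IntermediateField.adjoin E {h} := add_mem ha' hb'
    simp only [dif_pos ha', dif_pos hb', dif_pos hab']
    have : (⟨a + b, hab'⟩ : IntermediateField.adjoin E {h}) = ⟨a, ha'⟩ + ⟨b, hb'⟩ := rfl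
    rw [this, map_add, TrivSqZeroExt.snd_add]
  · intro a ha b hb
    have ha' := (hmemE a).1 ha
    have hb' := (hmemE b).1 hb
    have hab' : a * b ∈ IntermediateField.adjoin E {h} := mul_mem ha' hb'
    simp only [dif_pos ha', dif_pos hb', dif_pos hab']
    have : (⟨a * b, hab'⟩ : IntermediateField.adjoin E {h}) = ⟨a, ha'⟩ * ⟨b, hb'⟩ := rfl
    rw [this, map_mul, TrivSqZeroExt.snd_mul, hΨfst, hΨfst]
    simp [mul_comm]
  · intro a ha
    have ha' : a ∈ IntermediateField.adjoin E {h} :=
      (hmemE a).1 (Subfield.subset_closure (Or.inl ha))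
    simp only [dif_pos ha']
    have h1 : (⟨a, ha'⟩ : IntermediateField.adjoin E {h}) =
        algebraMap E (IntermediateField.adjoin E {h}) ⟨a, ha⟩ := rfl
    have h2 : e.symm (algebraMap E (IntermediateField.adjoin E {h}) ⟨a, ha⟩) =
        AdjoinRoot.of (minpoly E h) ⟨a, ha⟩ := by
      rw [← AdjoinRoot.algebraMap_eq]
      exact e.symm.commutes _
    rw [h1, hΨ]
    simp only [RingHom.coe_comp, Function.comp_apply, RingHom.coe_coe, h2, hψ,
      AdjoinRoot.lift_of, hφ]
    exact dualHom_snd hD ⟨a, ha⟩
  · have hh' : h ∈ IntermediateField.adjoin E {h} := IntermediateField.mem_adjoin_simple_self E h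
    simp only [dif_pos hh']
    have h1 : (⟨h, hh'⟩ : IntermediateField.adjoin E {h}) = IntermediateField.AdjoinSimple.gen E h :=
      rfl
    rw [h1, hΨ]
    simp only [RingHom.coe_comp, Function.comp_apply, RingHom.coe_coe, he,
      IntermediateField.adjoinRootEquivAdjoin_symm_apply_gen, hψ, AdjoinRoot.lift_root, hx]
    simp

/-- Extension along finitely many further generators. -/
theorem extend_finset (s : Finset K) :
    ∀ (E : Subfield K) (_ : pth K p ≤ E) (D : K → K) (_ : IsDerOn E D)
      (_ : ∀ a ∈ pth K p, D a = 0),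
      ∃ D' : K → K, IsDerOn (Subfield.closure ((E : Set K) ∪ (s : Set K))) D' ∧
        ∀ a ∈ E, D' a = D a := by
  classical
  induction s using Finset.induction_on with
  | empty =>
    intro E hE D hD hD0
    refine ⟨D, ?_, fun a _ => rfl⟩
    simpa using hD
  | insert h s hhs ih =>
    intro E hE D hD hD0
    by_cases hh : h ∈ E
    · obtain ⟨D', hD', hag⟩ := ih E hE D hD hD0
      refine ⟨D', ?_, hag⟩
      have : Subfield.closure ((E : Set K) ∪ ((insert h s : Finset K) : Set K)) =
          Subfield.closure ((E : Set K) ∪ (s : Set K)) := by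
        apply le_antisymm
        · rw [Subfield.closure_le]
          rintro y (hy | hy)
          · exact Subfield.subset_closure (Or.inl hy)
          · rw [Finset.coe_insert] at hy
            rcases hy with rfl | hy
            · exact Subfield.subset_closure (Or.inl hh)
            · exact Subfield.subset_closure (Or.inr hy)
        · apply Subfield.closure_mono
          apply Set.union_subset_union_right
          rw [Finset.coe_insert]
          exact Set.subset_insert _ _
      rw [this]
      exact hD'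
    · obtain ⟨D₁, hD₁, hag₁, -⟩ := step E hE D hD hD0 h hh 0
      have hE₁ : pth K p ≤ Subfield.closure ((E : Set K) ∪ {h}) :=
        hE.trans (fun y hy => Subfield.subset_closure (Or.inl hy))
      obtain ⟨D', hD', hag⟩ := ih (Subfield.closure ((E : Set K) ∪ {h})) hE₁ D₁ hD₁
        (fun a ha => by rw [hag₁ a (hE ha)]; exact hD0 a ha)
      refine ⟨D', ?_, fun a ha => ?_⟩
      · have : Subfield.closure ((E : Set K) ∪ ((insert h s : Finset K) : Set K)) =
            Subfield.closure (((Subfield.closure ((E : Set K) ∪ {h}) : Subfield K) : Set K) ∪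
              (s : Set K)) := by
          apply le_antisymm
          · rw [Subfield.closure_le]
            rintro y (hy | hy)
            · exact Subfield.subset_closure (Or.inl (Subfield.subset_closure (Or.inl hy)))
            · rw [Finset.coe_insert] at hy
              rcases hy with rfl | hy
              · exact Subfield.subset_closure (Or.inl (Subfield.subset_closure (Or.inr rfl)))
              · exact Subfield.subset_closure (Or.inr hy)
          · rw [Subfield.closure_le]
            rintro y (hy | hy)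
            · revert y
              change Subfield.closure ((E : Set K) ∪ {h}) ≤ _
              apply Subfield.closure_mono
              apply Set.union_subset_union_right
              rw [Finset.coe_insert]
              intro z hz
              exact Or.inl hz
            · apply Subfield.subset_closure
              refine Or.inr ?_
              rw [Finset.coe_insert]
              exact Or.inr hy
        rw [this]
        exact hD'
      · rw [hag a (Subfield.subset_closure (Or.inl ha)), hag₁ a ha]

/-- A function that is a derivation on the whole field is a `Derivation`. -/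
noncomputable def toDerivation {D : K → K} (hD : IsDerOn (⊤ : Subfield K) D) : Derivation ℤ K K where
  toFun := D
  map_add' a b := hD.add a trivial b trivial
  map_smul' n a := by
    have hadd : ∀ a b, D (a + b) = D a + D b := fun a b => hD.add a trivial b trivial
    let F : K →+ K := AddMonoidHom.mk' D hadd
    have := map_zsmul F n a
    simpa [F] using this
  map_one_eq_zero' := hD.map_one
  leibniz' a b := by
    have := hD.mul a trivial b trivial
    simpa [smul_eq_mul] using this

@[simp] lemma toDerivation_apply {D : K → K} (hD : IsDerOn (⊤ : Subfield K) D) (a : K) :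
    toDerivation hD a = D a := rfl

/-- **Derivations with prescribed values on a `p`-independent pair.** -/
theorem exists_derivation
    (hfin : ∃ s : Finset K, Subfield.closure ((pth K p : Set K) ∪ (s : Set K)) = ⊤)
    (f g : K) (hf : f ∉ pth K p) (hg : g ∉ Subfield.closure ((pth K p : Set K) ∪ {f}))
    (c₁ c₂ : K) :
    ∃ D : Derivation ℤ K K, D f = c₁ ∧ D g = c₂ := by
  classical
  obtain ⟨s, hs⟩ := hfin
  have h0 : IsDerOn (pth K p) (fun _ : K => (0 : K)) := ⟨by simp, by simp⟩
  obtain ⟨D₁, hD₁, hag₁, hf₁⟩ := step (pth K p) le_rfl _ h0 (fun _ _ => rfl) f hf c₁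
  set E₁ := Subfield.closure ((pth K p : Set K) ∪ {f}) with hE₁
  have hE₁' : pth K p ≤ E₁ := fun y hy => Subfield.subset_closure (Or.inl hy)
  have hD₁0 : ∀ a ∈ pth K p, D₁ a = 0 := fun a ha => hag₁ a ha
  obtain ⟨D₂, hD₂, hag₂, hg₂⟩ := step E₁ hE₁' D₁ hD₁ hD₁0 g hg c₂
  set E₂ := Subfield.closure ((E₁ : Set K) ∪ {g}) with hE₂
  have hE₂' : pth K p ≤ E₂ := hE₁'.trans (fun y hy => Subfield.subset_closure (Or.inl hy))
  have hD₂0 : ∀ a ∈ pth K p, D₂ a = 0 := fun a ha => by rw [hag₂ a (hE₁' ha)]; exact hD₁0 a ha
  obtain ⟨D₃, hD₃, hag₃⟩ := extend_finset s E₂ hE₂' D₂ hD₂ hD₂0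
  have htop : Subfield.closure ((E₂ : Set K) ∪ (s : Set K)) = ⊤ := by
    rw [eq_top_iff, ← hs]
    apply Subfield.closure_mono
    exact Set.union_subset_union_left _ hE₂'
  rw [htop] at hD₃
  have hfE₁ : f ∈ E₁ := Subfield.subset_closure (Or.inr rfl)
  have hfE₂ : f ∈ E₂ := Subfield.subset_closure (Or.inl hfE₁)
  have hgE₂ : g ∈ E₂ := Subfield.subset_closure (Or.inr rfl)
  refine ⟨toDerivation hD₃, ?_, ?_⟩
  · rw [toDerivation_apply, hag₃ f hfE₂, hag₂ f hfE₁, hf₁]
  · rw [toDerivation_apply, hag₃ g hgE₂, hg₂]

/-- **A derivation with a prescribed value at one element outside `K^p`.** -/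
theorem exists_derivation_one
    (hfin : ∃ s : Finset K, Subfield.closure ((pth K p : Set K) ∪ (s : Set K)) = ⊤)
    (f : K) (hf : f ∉ pth K p) (c : K) :
    ∃ D : Derivation ℤ K K, D f = c := by
  classical
  obtain ⟨s, hs⟩ := hfin
  have h0 : IsDerOn (pth K p) (fun _ : K => (0 : K)) := ⟨by simp, by simp⟩
  obtain ⟨D₁, hD₁, hag₁, hf₁⟩ := step (pth K p) le_rfl _ h0 (fun _ _ => rfl) f hf c
  set E₁ := Subfield.closure ((pth K p : Set K) ∪ {f}) with hE₁
  have hE₁' : pth K p ≤ E₁ := fun y hy => Subfield.subset_closure (Or.inl hy)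
  have hD₁0 : ∀ a ∈ pth K p, D₁ a = 0 := fun a ha => hag₁ a ha
  obtain ⟨D₃, hD₃, hag₃⟩ := extend_finset s E₁ hE₁' D₁ hD₁ hD₁0
  have htop : Subfield.closure ((E₁ : Set K) ∪ (s : Set K)) = ⊤ := by
    rw [eq_top_iff, ← hs]
    apply Subfield.closure_mono
    exact Set.union_subset_union_left _ hE₁'
  rw [htop] at hD₃
  have hfE₁ : f ∈ E₁ := Subfield.subset_closure (Or.inr rfl)
  refine ⟨toDerivation hD₃, ?_⟩
  rw [toDerivation_apply, hag₃ f hfE₁, hf₁]

/-- **Dual derivations for a `p`-independent pair.** -/
theorem exists_dual_derivations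
    (hfin : ∃ s : Finset K, Subfield.closure ((pth K p : Set K) ∪ (s : Set K)) = ⊤)
    (f g : K) (hf : f ∉ pth K p) (hg : g ∉ Subfield.closure ((pth K p : Set K) ∪ {f})) :
    ∃ D₁ D₂ : Derivation ℤ K K, D₁ f = 1 ∧ D₁ g = 0 ∧ D₂ f = 0 ∧ D₂ g = 1 := by
  obtain ⟨D₁, h1, h2⟩ := exists_derivation hfin f g hf hg 1 0
  obtain ⟨D₂, h3, h4⟩ := exists_derivation hfin f g hf hg 0 1
  exact ⟨D₁, D₂, h1, h2, h3, h4⟩

/-! ### General facts on derivations of `K` -/

omit hp in
/-- A derivation kills `p`-th powers. -/
lemma derivation_pow_p (D : Derivation ℤ K K) (a : K) : D (a ^ p) = 0 := by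
  rw [Derivation.leibniz_pow]
  simp

lemma derivation_pth (D : Derivation ℤ K K) {a : K} (ha : a ∈ pth K p) : D a = 0 := by
  obtain ⟨b, rfl⟩ := mem_pth.1 ha
  exact derivation_pow_p D b

/-- A derivation vanishing on a set `S` vanishes on the subfield generated by `K^p` and `S`. -/
lemma derivation_zero_on_closure (C : Derivation ℤ K K) (S : Set K) (hS : ∀ t ∈ S, C t = 0) :
    ∀ a ∈ Subfield.closure ((pth K p : Set K) ∪ S), C a = 0 := by
  intro a ha
  induction ha using Subfield.closure_induction with
  | mem x hx =>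
    rcases hx with hx | hx
    · exact derivation_pth C hx
    · exact hS x hx
  | one => exact C.map_one_eq_zero
  | add x y _ _ hx hy => rw [map_add, hx, hy, add_zero]
  | neg x _ hx => rw [map_neg, hx, neg_zero]
  | inv x _ hx => rw [Derivation.leibniz_inv, hx, smul_zero]
  | mul x y _ _ hx hy => rw [Derivation.leibniz, hx, hy, smul_zero, smul_zero, add_zero]

/-- Two derivations that agree on a set `S` agree on the subfield generated by `K^p` and `S`. -/
lemma derivation_eqOn_closure (D D' : Derivation ℤ K K) (S : Set K) (hS : ∀ t ∈ S, D t = D' t) :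
    ∀ a ∈ Subfield.closure ((pth K p : Set K) ∪ S), D a = D' a := by
  intro a ha
  have := derivation_zero_on_closure (D - D') S (fun t ht => by simp [hS t ht]) a ha
  simpa [sub_eq_zero] using this

/-- Mixed partials commute on the subfield generated by `K^p` and a set `S` on which they
commute (e.g. when `D₁`, `D₂` take values in `K^p` on `S`). -/
lemma derivation_comm_on_closure (D₁ D₂ : Derivation ℤ K K) (S : Set K)
    (hS : ∀ t ∈ S, D₁ (D₂ t) = D₂ (D₁ t)) :
    ∀ a ∈ Subfield.closure ((pth K p : Set K) ∪ S), D₁ (D₂ a) = D₂ (D₁ a) := by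
  intro a ha
  have := derivation_zero_on_closure ⁅D₁, D₂⁆ S
    (fun t ht => by simp [Derivation.commutator_apply, hS t ht]) a ha
  simpa [Derivation.commutator_apply, sub_eq_zero] using this

/-- For a dual pair of derivations the mixed partials commute on `K^p(f, g)`. -/
lemma dual_comm (D₁ D₂ : Derivation ℤ K K) (f g : K)
    (h1 : D₁ f = 1) (h2 : D₁ g = 0) (h3 : D₂ f = 0) (h4 : D₂ g = 1) :
    ∀ a ∈ Subfield.closure ((pth K p : Set K) ∪ {f, g}), D₁ (D₂ a) = D₂ (D₁ a) := by
  apply derivation_comm_on_closure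
  intro t ht
  rcases ht with rfl | rfl
  · simp [h1, h3]
  · simp [h2, h4]

/-- The finiteness hypothesis `K = K^p(s)` follows from the hypotheses of S0010. -/
lemma hfin_of_fg (k : Subfield K) [IsAlgClosed k]
    (hK : ∃ s : Finset K, Subfield.closure ((k : Set K) ∪ (s : Set K)) = ⊤) :
    ∃ s : Finset K, Subfield.closure ((pth K p : Set K) ∪ (s : Set K)) = ⊤ := by
  obtain ⟨s, hs⟩ := hK
  refine ⟨s, ?_⟩
  rw [eq_top_iff, ← hs]
  apply Subfield.closure_mono
  apply Set.union_subset_union_left
  intro a ha
  obtain ⟨z, hz⟩ := IsAlgClosed.exists_pow_nat_eq (⟨a, ha⟩ : k) hp.out.pos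
  refine mem_pth.2 ⟨(z : K), ?_⟩
  have := congrArg (fun y : k => (y : K)) hz
  simpa using this

/-! ### The logarithmic derivative on `KOne K p` -/

/-- `u ↦ D u / u` as an additive map on `Additive Kˣ`. -/
noncomputable def dlogAux (D : Derivation ℤ K K) : Additive Kˣ →+ K where
  toFun u := D ((Additive.toMul u : Kˣ) : K) / ((Additive.toMul u : Kˣ) : K)
  map_zero' := by simp
  map_add' u v := by
    have hu : ((Additive.toMul u : Kˣ) : K) ≠ 0 := Units.ne_zero _
    have hv : ((Additive.toMul v : Kˣ) : K) ≠ 0 := Units.ne_zero _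
    simp only [toMul_add, Units.val_mul, Derivation.leibniz, smul_eq_mul]
    field_simp
    ring

lemma dlogAux_apply (D : Derivation ℤ K K) (u : Kˣ) :
    dlogAux D (Additive.ofMul u) = D (u : K) / (u : K) := rfl

omit hp in
lemma pMultiples_le_ker (D : Derivation ℤ K K) : pMultiples K p ≤ (dlogAux D).ker := by
  rintro x ⟨y, rfl⟩
  rw [AddMonoidHom.mem_ker]
  simp only [nsmulAddMonoidHom_apply, map_nsmul]
  simp

/-- The logarithmic derivative `[u] ↦ D u / u` on `KOne K p`. -/
noncomputable def dlog (D : Derivation ℤ K K) : KOne K p →+ K :=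
  QuotientAddGroup.lift (pMultiples K p) (dlogAux D) (pMultiples_le_ker D)

omit hp in
@[simp] lemma dlog_cls (D : Derivation ℤ K K) (u : Kˣ) :
    dlog (p := p) D (cls K p u) = D (u : K) / (u : K) := rfl

lemma zmod_smul_eq (M : Type*) [AddCommGroup M] [Module (ZMod p) M] (r : ZMod p) (m : M) :
    r • m = r.val • m := by
  conv_lhs => rw [← ZMod.natCast_zmod_val r]
  rw [Nat.cast_smul_eq_nsmul]

/-- The pairing `[u] ⊗ [v] ↦ (D₁u D₂v - D₂u D₁v)/(uv)`. -/
noncomputable def beta (D₁ D₂ : Derivation ℤ K K) :
    (KOne K p) ⊗[ZMod p] (KOne K p) →+ K :=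
  TensorProduct.liftAddHom
    (AddMonoidHom.mk' (fun a : KOne K p =>
      AddMonoidHom.mk' (fun b : KOne K p =>
        dlog D₁ a * dlog D₂ b - dlog D₂ a * dlog D₁ b)
        (by intro b b'; simp only [map_add]; ring))
      (by
        intro a a'
        refine AddMonoidHom.ext fun b => ?_
        simp only [map_add, AddMonoidHom.mk'_apply, AddMonoidHom.add_apply]
        ring))
    (by
      intro r a b
      simp only [AddMonoidHom.mk'_apply]
      rw [zmod_smul_eq (KOne K p) r a, zmod_smul_eq (KOne K p) r b]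
      simp only [map_nsmul, nsmul_eq_mul]
      ring)

@[simp] lemma beta_tmul (D₁ D₂ : Derivation ℤ K K) (a b : KOne K p) :
    beta D₁ D₂ (a ⊗ₜ[ZMod p] b) = dlog D₁ a * dlog D₂ b - dlog D₂ a * dlog D₁ b := rfl

/-- `beta` kills the Steinberg subspace. -/
lemma beta_steinberg (D₁ D₂ : Derivation ℤ K K) :
    ∀ t ∈ steinberg K p, beta D₁ D₂ t = 0 := by
  intro t ht
  induction ht using Submodule.span_induction with
  | mem x hx =>
    obtain ⟨f, hf, hf1, rfl⟩ := hx
    rw [beta_tmul]
    simp only [dlog_cls, Units.val_mk0, map_sub, Derivation.map_one_eq_zero, zero_sub]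
    field_simp
    ring
  | zero => exact map_zero _
  | add x y _ _ hx hy => rw [map_add, hx, hy, add_zero]
  | smul r x _ hx =>
    rw [zmod_smul_eq _ r x, map_nsmul, hx, smul_zero]

/-- **Step (2) of the S0010 plan.** For a `p`-independent pair `f, g` the symbol `[f] ⊗ [g]` does
not lie in the Steinberg subspace. -/
theorem tmul_not_mem_steinberg
    (hfin : ∃ s : Finset K, Subfield.closure ((pth K p : Set K) ∪ (s : Set K)) = ⊤)
    (f g : Kˣ) (hf : (f : K) ∉ pth K p)
    (hg : (g : K) ∉ Subfield.closure ((pth K p : Set K) ∪ {(f : K)})) :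
    (cls K p f) ⊗ₜ[ZMod p] (cls K p g) ∉ steinberg K p := by
  obtain ⟨D₁, D₂, h1, h2, h3, h4⟩ := exists_dual_derivations hfin (f : K) (g : K) hf hg
  intro hmem
  have := beta_steinberg D₁ D₂ _ hmem
  rw [beta_tmul] at this
  simp only [dlog_cls, h1, h2, h3, h4] at this
  have hf0 : (f : K) ≠ 0 := Units.ne_zero f
  have hg0 : (g : K) ≠ 0 := Units.ne_zero g
  field_simp at this
  simp at this

end Crest.Agent.S0010.D31

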