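import Mathlib
import Crest.Prelude.Def_MilnorK

/-!
# Row 9 (S0010): derivations of a field of characteristic `p` that is finitely generated over `K^p`

Generic module (helper87).  `K` is a field of characteristic `p`.

* `exists_derivation` : if `E` is a subfield containing all `p`-th powers, `K` is generated over `E`
  by finitely many elements and `g ∉ E`, then there is a derivation `D : K →+ K` vanishing on `E`
  with `D g = 1`.
* `dlog D : KOne K p →ₗ[ZMod p] K`, `[u] ↦ D u / u`.
* `beta D₁ D₂ : KOne K p ⊗ KOne K p →ₗ[ZMod p] K`, vanishing on the Steinberg subspace.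
* `tmul_not_mem_steinberg` : `[f] ⊗ [g] ∉ steinberg K p` for `p`-independent `f, g`.
-/

set_option autoImplicit false
open Polynomial
open scoped TensorProduct
open Crest.NumberTheoryR.MilnorK

namespace Crest.Agent.S0010.D87

variable {K : Type*} [Field K]

/-- Partial derivation on a subfield `F`: a total function with the derivation laws on `F`. -/
structure IsPDer (F : Subfield K) (D : K → K) : Prop where
  add : ∀ a ∈ F, ∀ b ∈ F, D (a + b) = D a + D b
  mul : ∀ a ∈ F, ∀ b ∈ F, D (a * b) = a * D b + b * D a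

theorem IsPDer.zero {F : Subfield K} {D : K → K} (hD : IsPDer F D) : D 0 = 0 := by
  have h := hD.add 0 F.zero_mem 0 F.zero_mem
  rw [add_zero] at h
  have : D 0 + D 0 = D 0 + 0 := by rw [add_zero]; exact h.symm
  exact add_left_cancel this

theorem IsPDer.one {F : Subfield K} {D : K → K} (hD : IsPDer F D) : D 1 = 0 := by
  have h := hD.mul 1 F.one_mem 1 F.one_mem
  rw [one_mul, one_mul] at h
  have : D 1 + D 1 = D 1 + 0 := by rw [add_zero]; exact h.symm
  exact add_left_cancel this

/-- Coefficientwise application of `D`, evaluated at `h`. -/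
noncomputable def phi0 (F : Subfield K) (D : K → K) (h : K) (q : Polynomial F) : K :=
  q.sum (fun i a => D (a : K) * h ^ i)

theorem phi0_add {F : Subfield K} {D : K → K} (hD : IsPDer F D) (h : K) (q r : Polynomial F) :
    phi0 F D h (q + r) = phi0 F D h q + phi0 F D h r := by
  unfold phi0
  rw [Polynomial.sum_add_index]
  · intro i
    simp [hD.zero]
  · intro i a b
    have := hD.add a a.2 b b.2
    simp only [Subfield.coe_add]
    rw [this, add_mul]

theorem phi0_monomial {F : Subfield K} {D : K → K} (hD : IsPDer F D) (h : K) (n : ℕ) (a : F) :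
    phi0 F D h (monomial n a) = D (a : K) * h ^ n := by
  unfold phi0
  rw [Polynomial.sum_monomial_index]
  simp [hD.zero]

theorem phi0_zero {F : Subfield K} {D : K → K} (h : K) :
    phi0 F D h 0 = 0 := by
  unfold phi0
  simp

theorem phi0_mul {F : Subfield K} {D : K → K} (hD : IsPDer F D) (h : K) (q r : Polynomial F) :
    phi0 F D h (q * r) = phi0 F D h q * aeval h r + aeval h q * phi0 F D h r := by
  induction q using Polynomial.induction_on' with
  | add q₁ q₂ h₁ h₂ =>
    rw [add_mul, phi0_add hD, h₁, h₂, phi0_add hD, map_add]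
    ring
  | monomial m a =>
    induction r using Polynomial.induction_on' with
    | add r₁ r₂ h₁ h₂ =>
      rw [mul_add, phi0_add hD, h₁, h₂, phi0_add hD, map_add]
      ring
    | monomial n c =>
      rw [monomial_mul_monomial, phi0_monomial hD, phi0_monomial hD, phi0_monomial hD,
        aeval_monomial, aeval_monomial]
      have := hD.mul a a.2 c c.2
      simp only [Subfield.coe_mul]
      rw [this]
      have e1 : algebraMap F K a = (a : K) := rfl
      have e2 : algebraMap F K c = (c : K) := rfl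
      rw [e1, e2]
      ring

/-- The extension functional: coefficientwise `D` plus `b` times the formal derivative. -/
noncomputable def phi (F : Subfield K) (D : K → K) (h b : K) (q : Polynomial F) : K :=
  phi0 F D h q + b * aeval h (derivative q)

theorem phi_add {F : Subfield K} {D : K → K} (hD : IsPDer F D) (h b : K) (q r : Polynomial F) :
    phi F D h b (q + r) = phi F D h b q + phi F D h b r := by
  unfold phi
  rw [phi0_add hD, derivative_add, map_add]
  ring

theorem phi_sub {F : Subfield K} {D : K → K} (hD : IsPDer F D) (h b : K) (q r : Polynomial F) :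
    phi F D h b (q - r) = phi F D h b q - phi F D h b r := by
  have := phi_add hD h b (q - r) r
  rw [sub_add_cancel] at this
  rw [this]
  ring

theorem phi_mul {F : Subfield K} {D : K → K} (hD : IsPDer F D) (h b : K) (q r : Polynomial F) :
    phi F D h b (q * r) = phi F D h b q * aeval h r + aeval h q * phi F D h b r := by
  unfold phi
  rw [phi0_mul hD, derivative_mul, map_add, map_mul, map_mul]
  ring

variable {p : ℕ} [CharP K p]

theorem phi_kummer {F : Subfield K} {D : K → K} (hD : IsPDer F D) (h b : K) (hF : h ^ p ∈ F)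
    (hDp : D (h ^ p) = 0) :
    phi F D h b (X ^ p - C (⟨h ^ p, hF⟩ : F)) = 0 := by
  rw [phi_sub hD]
  unfold phi
  rw [X_pow_eq_monomial, ← monomial_zero_left, phi0_monomial hD, phi0_monomial hD]
  rw [← X_pow_eq_monomial, derivative_X_pow, monomial_zero_left, derivative_C]
  have h1 : D ((1 : F) : K) = 0 := hD.one
  have h2 : (algebraMap F K) ((p : ℕ) : F) = 0 := by
    rw [map_natCast]
    exact CharP.cast_eq_zero K p
  simp only [map_mul, map_natCast, map_zero, mul_zero]
  rw [h1, hDp, CharP.cast_eq_zero K p]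
  simp

variable [Fact p.Prime]

theorem phi_eq_zero_of_aeval {F : Subfield K} {D : K → K} (hD : IsPDer F D)
    (hF : ∀ a : K, a ^ p ∈ F) (hDp : ∀ a : K, D (a ^ p) = 0) (h : K) (hh : h ∉ F) (b : K)
    (q : Polynomial F) (hq : aeval h q = 0) : phi F D h b q = 0 := by
  have hp : p.Prime := Fact.out
  have hirr : Irreducible (X ^ p - C (⟨h ^ p, hF h⟩ : F)) := by
    refine X_pow_sub_C_irreducible_of_prime hp (fun c hc => hh ?_)
    have h1 : (c : K) ^ p = h ^ p := by
      have := congrArg (fun x : F => (x : K)) hc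
      simpa using this
    have h2 : (c : K) = h := by
      apply frobenius_inj K p
      simpa [frobenius_def] using h1
    rw [← h2]
    exact c.2
  have hP : aeval h (X ^ p - C (⟨h ^ p, hF h⟩ : F)) = 0 := by
    simp only [map_sub, map_pow, aeval_X, aeval_C]
    exact sub_self _
  have hdvd : (X ^ p - C (⟨h ^ p, hF h⟩ : F)) ∣ q := by
    rcases hirr.isCoprime_or_dvd q with hc | hd
    · obtain ⟨u, v, huv⟩ := hc
      have := congrArg (aeval h) huv
      rw [map_add, map_mul, map_mul, hP, hq, mul_zero, mul_zero, add_zero, map_one] at this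
      exact absurd this zero_ne_one
    · exact hd
  obtain ⟨r, rfl⟩ := hdvd
  rw [phi_mul hD, phi_kummer hD h b (hF h) (hDp h), hP]
  ring

open Classical in
/-- The extended derivation on `F[h]`. -/
noncomputable def ext (F : Subfield K) (D : K → K) (h b : K) : K → K := fun x =>
  if hx : ∃ q : Polynomial F, aeval h q = x then phi F D h b (Classical.choose hx) else 0

theorem ext_aeval {F : Subfield K} {D : K → K} (hD : IsPDer F D)
    (hF : ∀ a : K, a ^ p ∈ F) (hDp : ∀ a : K, D (a ^ p) = 0) (h : K) (hh : h ∉ F) (b : K)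
    (q : Polynomial F) : ext F D h b (aeval h q) = phi F D h b q := by
  have hx : ∃ q' : Polynomial F, aeval h q' = aeval h q := ⟨q, rfl⟩
  unfold ext
  rw [dif_pos hx]
  have h1 := Classical.choose_spec hx
  have h2 : aeval h (Classical.choose hx - q) = 0 := by rw [map_sub, h1, sub_self]
  have h3 := phi_eq_zero_of_aeval hD hF hDp h hh b _ h2
  rw [phi_sub hD] at h3
  exact sub_eq_zero.1 h3

/-- `F[h]` as a subfield (every subring containing all `p`-th powers is a field). -/
noncomputable def adjF (F : Subfield K) (hF : ∀ a : K, a ^ p ∈ F) (h : K) : Subfield K where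
  carrier := {x | ∃ q : Polynomial F, aeval h q = x}
  mul_mem' := by
    rintro _ _ ⟨q, rfl⟩ ⟨r, rfl⟩
    exact ⟨q * r, map_mul _ _ _⟩
  one_mem' := ⟨1, map_one _⟩
  add_mem' := by
    rintro _ _ ⟨q, rfl⟩ ⟨r, rfl⟩
    exact ⟨q + r, map_add _ _ _⟩
  zero_mem' := ⟨0, map_zero _⟩
  neg_mem' := by
    rintro _ ⟨q, rfl⟩
    exact ⟨-q, map_neg _ _⟩
  inv_mem' := by
    rintro x ⟨q, rfl⟩
    have hp : p.Prime := Fact.out
    by_cases hx : aeval h q = 0
    · rw [hx, inv_zero]
      exact ⟨0, map_zero _⟩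
    · refine ⟨q ^ (p - 1) * C (⟨((aeval h q) ^ p)⁻¹, F.inv_mem (hF _)⟩ : F), ?_⟩
      rw [map_mul, map_pow, aeval_C]
      have e : algebraMap F K (⟨((aeval h q) ^ p)⁻¹, F.inv_mem (hF _)⟩ : F)
          = ((aeval h q) ^ p)⁻¹ := rfl
      rw [e]
      have hp1 : p = (p - 1) + 1 := (Nat.succ_pred_eq_of_pos hp.pos).symm
      have : (aeval h q) ^ p = (aeval h q) ^ (p - 1) * aeval h q := by
        conv_lhs => rw [hp1]
        rw [pow_succ]
      rw [this, mul_inv, ← mul_assoc, mul_inv_cancel₀ (pow_ne_zero _ hx), one_mul]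

theorem mem_adjF {F : Subfield K} (hF : ∀ a : K, a ^ p ∈ F) (h x : K) :
    x ∈ adjF F hF h ↔ ∃ q : Polynomial F, aeval h q = x := Iff.rfl

theorem le_adjF {F : Subfield K} (hF : ∀ a : K, a ^ p ∈ F) (h : K) : F ≤ adjF F hF h := by
  intro a ha
  exact ⟨C (⟨a, ha⟩ : F), by rw [aeval_C]; rfl⟩

theorem self_mem_adjF {F : Subfield K} (hF : ∀ a : K, a ^ p ∈ F) (h : K) : h ∈ adjF F hF h :=
  ⟨X, aeval_X _⟩

/-- One extension step with a prescribed value at the new generator. -/
theorem ext_step (F : Subfield K) (hF : ∀ a : K, a ^ p ∈ F) (D : K → K) (hD : IsPDer F D)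
    (hDp : ∀ a : K, D (a ^ p) = 0) (h : K) (hh : h ∉ F) (b : K) :
    ∃ (F' : Subfield K) (D' : K → K), F ≤ F' ∧ h ∈ F' ∧ IsPDer F' D' ∧
      (∀ a ∈ F, D' a = D a) ∧ D' h = b := by
  refine ⟨adjF F hF h, ext F D h b, le_adjF hF h, self_mem_adjF hF h, ⟨?_, ?_⟩, ?_, ?_⟩
  · rintro x ⟨q, rfl⟩ y ⟨r, rfl⟩
    rw [← map_add, ext_aeval hD hF hDp h hh, ext_aeval hD hF hDp h hh, ext_aeval hD hF hDp h hh,
      phi_add hD]
  · rintro x ⟨q, rfl⟩ y ⟨r, rfl⟩
    rw [← map_mul, ext_aeval hD hF hDp h hh, ext_aeval hD hF hDp h hh, ext_aeval hD hF hDp h hh,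
      phi_mul hD]
    ring
  · intro a ha
    have e : ext F D h b a = ext F D h b (aeval h (C (⟨a, ha⟩ : F))) := by rw [aeval_C]; rfl
    rw [e, ext_aeval hD hF hDp h hh]
    unfold phi
    rw [← monomial_zero_left, phi0_monomial hD, monomial_zero_left, derivative_C]
    simp
  · have e : ext F D h b h = ext F D h b (aeval h (X : Polynomial F)) := by rw [aeval_X]
    rw [e, ext_aeval hD hF hDp h hh]
    unfold phi
    have hX : phi0 F D h (X : Polynomial F) = D ((1 : F) : K) * h ^ 1 := by
      rw [← monomial_one_one_eq_X]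
      exact phi0_monomial hD h 1 1
    have h1 : D ((1 : F) : K) = 0 := hD.one
    rw [hX, derivative_X, h1]
    simp

/-- **Existence of derivations.**  `K` of characteristic `p`, `E` a subfield containing all `p`-th
powers, `K` generated over `E` by a finite set, `g ∉ E`: there is a derivation of `K` vanishing on
`E` with value `1` at `g`. -/
theorem exists_derivation (E : Subfield K) (hE : ∀ a : K, a ^ p ∈ E) (s : Finset K)
    (hs : Subfield.closure ((E : Set K) ∪ (s : Set K)) = ⊤) (g : K) (hg : g ∉ E) :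
    ∃ D : K →+ K, (∀ a b, D (a * b) = a * D b + b * D a) ∧ (∀ e ∈ E, D e = 0) ∧ D g = 1 := by
  classical
  have key : ∀ t : Finset K, ∃ (F : Subfield K) (D : K → K), E ≤ F ∧ g ∈ F ∧
      (∀ x ∈ t, x ∈ F) ∧ IsPDer F D ∧ (∀ e ∈ E, D e = 0) ∧ D g = 1 := by
    intro t
    induction t using Finset.induction_on with
    | empty =>
      have h0 : IsPDer E (fun _ : K => (0 : K)) :=
        ⟨fun _ _ _ _ => by simp, fun _ _ _ _ => by simp⟩
      obtain ⟨F', D', hle, hgF, hD', hagree, hDg⟩ :=
        ext_step E hE (fun _ => 0) h0 (fun _ => rfl) g hg 1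
      exact ⟨F', D', hle, hgF, by simp, hD', fun e he => by rw [hagree e he], hDg⟩
    | insert h t _ ih =>
      obtain ⟨F, D, hle, hgF, ht, hD, hDE, hDg⟩ := ih
      by_cases hh : h ∈ F
      · refine ⟨F, D, hle, hgF, ?_, hD, hDE, hDg⟩
        intro x hx
        rcases Finset.mem_insert.1 hx with rfl | hx
        · exact hh
        · exact ht x hx
      · have hF : ∀ a : K, a ^ p ∈ F := fun a => hle (hE a)
        obtain ⟨F', D', hle', hhF, hD', hagree, _⟩ :=
          ext_step F hF D hD (fun a => hDE _ (hE a)) h hh 0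
        refine ⟨F', D', hle.trans hle', hle' hgF, ?_, hD', fun e he => ?_, ?_⟩
        · intro x hx
          rcases Finset.mem_insert.1 hx with rfl | hx
          · exact hhF
          · exact hle' (ht x hx)
        · rw [hagree e (hle he)]
          exact hDE e he
        · rw [hagree g hgF]
          exact hDg
  obtain ⟨F, D, hle, hgF, hsF, hD, hDE, hDg⟩ := key s
  have hF : F = ⊤ := by
    rw [eq_top_iff, ← hs, Subfield.closure_le]
    rintro x (hx | hx)
    · exact hle hx
    · exact hsF x hx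
  have hmem : ∀ x : K, x ∈ F := fun x => by rw [hF]; exact Subfield.mem_top x
  exact ⟨⟨⟨D, hD.zero⟩, fun a b => hD.add a (hmem a) b (hmem b)⟩,
    fun a b => hD.mul a (hmem a) b (hmem b), hDE, hDg⟩

/-! ### Logarithmic derivative and the alternating form -/

theorem leibniz_one (D : K →+ K) (hD : ∀ a b, D (a * b) = a * D b + b * D a) : D 1 = 0 := by
  have h := hD 1 1
  rw [one_mul, one_mul] at h
  have : D 1 + D 1 = D 1 + 0 := by rw [add_zero]; exact h.symm
  exact add_left_cancel this

/-- `u ↦ D u / u` on `Additive Kˣ`. -/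
noncomputable def dlogAdd (D : K →+ K) (hD : ∀ a b, D (a * b) = a * D b + b * D a) :
    Additive Kˣ →+ K where
  toFun u := D ((Additive.toMul u : Kˣ) : K) / ((Additive.toMul u : Kˣ) : K)
  map_zero' := by
    simp [leibniz_one D hD]
  map_add' := fun u v => by
    have hu : ((Additive.toMul u : Kˣ) : K) ≠ 0 := Units.ne_zero _
    have hv : ((Additive.toMul v : Kˣ) : K) ≠ 0 := Units.ne_zero _
    simp only [toMul_add, Units.val_mul]
    rw [hD]
    field_simp
    ring

/-- The logarithmic derivative `[u] ↦ D u / u` as an additive map on `KOne K p`. -/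
noncomputable def dlog (D : K →+ K) (hD : ∀ a b, D (a * b) = a * D b + b * D a) :
    KOne K p →+ K :=
  QuotientAddGroup.lift (pMultiples K p) (dlogAdd D hD) (by
    rintro _ ⟨x, rfl⟩
    rw [AddMonoidHom.mem_ker]
    show dlogAdd D hD (p • x) = 0
    rw [map_nsmul, nsmul_eq_mul, CharP.cast_eq_zero K p, zero_mul])

theorem dlog_cls (D : K →+ K) (hD : ∀ a b, D (a * b) = a * D b + b * D a) (u : Kˣ) :
    dlog (p := p) D hD (cls K p u) = D (u : K) / (u : K) := rfl

/-- The alternating form `[u] ⊗ [v] ↦ (D₁u D₂v - D₂u D₁v)/(uv)`, as an additive map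
(no `ZMod p`-module structure on `K` appears in the type). -/
noncomputable def beta (D₁ D₂ : K →+ K) (h₁ : ∀ a b, D₁ (a * b) = a * D₁ b + b * D₁ a)
    (h₂ : ∀ a b, D₂ (a * b) = a * D₂ b + b * D₂ a) :
    KOne K p ⊗[ZMod p] KOne K p →+ K :=
  letI : Algebra (ZMod p) K := ZMod.algebra K p
  (TensorProduct.lift
    ((LinearMap.mul (ZMod p) K).compl₁₂ ((dlog (p := p) D₁ h₁).toZModLinearMap p)
        ((dlog (p := p) D₂ h₂).toZModLinearMap p) -
      (LinearMap.mul (ZMod p) K).compl₁₂ ((dlog (p := p) D₂ h₂).toZModLinearMap p)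
        ((dlog (p := p) D₁ h₁).toZModLinearMap p))).toAddMonoidHom

theorem beta_tmul (D₁ D₂ : K →+ K) (h₁ : ∀ a b, D₁ (a * b) = a * D₁ b + b * D₁ a)
    (h₂ : ∀ a b, D₂ (a * b) = a * D₂ b + b * D₂ a) (a b : KOne K p) :
    beta (p := p) D₁ D₂ h₁ h₂ (a ⊗ₜ[ZMod p] b) =
      dlog (p := p) D₁ h₁ a * dlog (p := p) D₂ h₂ b -
        dlog (p := p) D₂ h₂ a * dlog (p := p) D₁ h₁ b := by
  letI : Algebra (ZMod p) K := ZMod.algebra K p
  unfold beta
  simp only [LinearMap.toAddMonoidHom_coe, TensorProduct.lift.tmul]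
  rfl

theorem beta_cls (D₁ D₂ : K →+ K) (h₁ : ∀ a b, D₁ (a * b) = a * D₁ b + b * D₁ a)
    (h₂ : ∀ a b, D₂ (a * b) = a * D₂ b + b * D₂ a) (u v : Kˣ) :
    beta (p := p) D₁ D₂ h₁ h₂ (cls K p u ⊗ₜ[ZMod p] cls K p v) =
      (D₁ (u : K) * D₂ (v : K) - D₂ (u : K) * D₁ (v : K)) / ((u : K) * (v : K)) := by
  rw [beta_tmul, dlog_cls, dlog_cls, dlog_cls, dlog_cls]
  have hu : (u : K) ≠ 0 := u.ne_zero
  have hv : (v : K) ≠ 0 := v.ne_zero
  field_simp

/-- The alternating form vanishes on the Steinberg subspace. -/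
theorem beta_steinberg (D₁ D₂ : K →+ K) (h₁ : ∀ a b, D₁ (a * b) = a * D₁ b + b * D₁ a)
    (h₂ : ∀ a b, D₂ (a * b) = a * D₂ b + b * D₂ a)
    (t : KOne K p ⊗[ZMod p] KOne K p) (ht : t ∈ steinberg K p) :
    beta (p := p) D₁ D₂ h₁ h₂ t = 0 := by
  unfold steinberg at ht
  induction ht using Submodule.span_induction with
  | mem x hx =>
    obtain ⟨f, hf, hf1, rfl⟩ := hx
    rw [beta_cls]
    simp only [Units.val_mk0]
    rw [map_sub, map_sub, leibniz_one D₁ h₁, leibniz_one D₂ h₂]
    have : D₁ f * (0 - D₂ f) - D₂ f * (0 - D₁ f) = 0 := by ring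
    rw [this, zero_div]
  | zero => exact map_zero _
  | add x y _ _ hx hy => rw [map_add, hx, hy, add_zero]
  | smul c x _ hx =>
    rw [← ZMod.natCast_zmod_val c, Nat.cast_smul_eq_nsmul, map_nsmul, hx, nsmul_zero]

/-- **Step (2).** If `K` is finitely generated over `K^p`, `f ∉ K^p` and `g ∉ K^p(f)`, then
`[f] ⊗ [g]` is not in the Steinberg subspace. -/
theorem tmul_not_mem_steinberg (s : Finset K)
    (hs : Subfield.closure (((frobenius K p).fieldRange : Set K) ∪ (s : Set K)) = ⊤) (f g : Kˣ)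
    (hf : (f : K) ∉ (frobenius K p).fieldRange)
    (hg : (g : K) ∉ Subfield.closure (((frobenius K p).fieldRange : Set K) ∪ {(f : K)})) :
    cls K p f ⊗ₜ[ZMod p] cls K p g ∉ steinberg K p := by
  have hK0 : ∀ a : K, a ^ p ∈ (frobenius K p).fieldRange := fun a => ⟨a, rfl⟩
  obtain ⟨D₁, h₁, _, hD₁f⟩ := exists_derivation (p := p) _ hK0 s hs (f : K) hf
  set E₂ : Subfield K :=
    Subfield.closure (((frobenius K p).fieldRange : Set K) ∪ {(f : K)}) with hE₂
  have hE₂p : ∀ a : K, a ^ p ∈ E₂ := fun a =>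
    Subfield.subset_closure (Or.inl (hK0 a))
  have hs₂ : Subfield.closure ((E₂ : Set K) ∪ (s : Set K)) = ⊤ := by
    rw [eq_top_iff, ← hs]
    refine Subfield.closure_mono ?_
    rintro x (hx | hx)
    · exact Or.inl (Subfield.subset_closure (Or.inl hx))
    · exact Or.inr hx
  obtain ⟨D₂, h₂, hD₂E, hD₂g⟩ := exists_derivation (p := p) E₂ hE₂p s hs₂ (g : K) hg
  have hD₂f : D₂ (f : K) = 0 := hD₂E _ (Subfield.subset_closure (Or.inr rfl))
  intro hmem
  have h0 := beta_steinberg (p := p) D₁ D₂ h₁ h₂ _ hmem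
  rw [beta_cls, hD₁f, hD₂g, hD₂f] at h0
  have hu : (f : K) ≠ 0 := f.ne_zero
  have hv : (g : K) ≠ 0 := g.ne_zero
  have : ((1 : K) * 1 - 0 * D₁ (g : K)) / ((f : K) * (g : K)) ≠ 0 := by
    rw [one_mul, zero_mul, sub_zero]
    exact one_div_ne_zero (mul_ne_zero hu hv)
  exact this h0

end Crest.Agent.S0010.D87
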