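/-
S0010 (row 9), module FTPG0 (PLAN step 6): a bijective homomorphism `Φ : Kˣ/K0ˣ → Lˣ/L0ˣ`
(`K0 = K^p`, `L0 = L^p`) which, together with its inverse, preserves the projective lines through
`[1]`, is induced by a field isomorphism.  (Fundamental theorem of projective geometry, done by
hand using multiplicativity.)  Only these facts about the setting are used: `K0` is a subfield,
`cl x = cl y ↔ x / y ∈ K0`, `cl` is multiplicative (module BASIC).
The whole argument (steps 0-6) is split over FTPG0 (0-2), FTPG1 (3-4), FTPG (5-6).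
"Independent" = linearly independent over `K0` (resp. `L0`); `Indep3 p x y` = `1, x, y` independent.

THIS FILE: steps 0-2.
0. LINE for all lines: if `z = λ x + μ y` (`λ, μ ∈ K0`, `x, y` independent, `z ≠ 0`) and
   `Φ (cl x) = cl x'`, `Φ (cl y) = cl y'` then `Φ (cl z) = cl (λ' x' + μ' y')` for some
   `λ', μ' ∈ L0`  [`z = μ x (y/x + λ/μ)`, `LineMap` for `y/x`, multiplicativity].  Same for
   `Φ.symm`.  Hence `Φ` preserves independence of pairs and of triples `1, x, y`.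
1. For `x ∉ K0` let `α x` be the unique `w : L` with `Φ (cl x) = cl w` and
   `Φ (cl (1 + x)) = cl (1 + w)`.  (Existence: `Φ (cl x) = cl x'`, `Φ (cl (x + 1)) = cl (x' + c')`,
   `c' ≠ 0` by injectivity; `w = x' / c'`.  Uniqueness: `1 + λ w = μ (1 + w)` forces `λ = 1`.)
2. If `1, x, y` are independent, `x'' = α x`, `y'' = α y`:
   `Φ cl (x - y) = cl (x'' - y'')`        [on lines `(x, y)` and `(1 + x, 1 + y)`],
   `Φ cl (1 + x + y) = cl (1 + x'' + y'')` [on lines `(1 + x, y)` and `(1 + y, x)`],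
   `Φ cl (x + y) = cl (x'' + y'')`        [on lines `(x, y)` and `(1, 1 + x + y)`],
   hence `α (x + y) = α x + α y`.
-/
import Crest.Agent.S0010.Basic

set_option autoImplicit false
open Crest.NumberTheoryR.MilnorK

namespace Crest.Agent.S0010lib

variable {K : Type*} [Field K] {L : Type*} [Field L] {p : ℕ} [Fact p.Prime] [CharP K p] [CharP L p]

/-! ### Elementary facts about independent triples `1, x, y` -/

private theorem FTPG0_coeff {x y : K} (h : Indep3 p x y) {a b c a' b' c' u v : K}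
    (ha : a ∈ K0 K p) (hb : b ∈ K0 K p) (hc : c ∈ K0 K p)
    (ha' : a' ∈ K0 K p) (hb' : b' ∈ K0 K p) (hc' : c' ∈ K0 K p)
    (hu : u = a + b * x + c * y) (hv : v = a' + b' * x + c' * y)
    (hu0 : u ≠ 0) (hv0 : v ≠ 0) (hcl : cl p u = cl p v) :
    ∃ e ∈ K0 K p, a = e * a' ∧ b = e * b' ∧ c = e * c' := by
  have he : u / v ∈ K0 K p := (cl_eq_cl_iff hu0 hv0).1 hcl
  have h1 : u / v * v = u := div_mul_cancel₀ u hv0
  obtain ⟨k1, k2, k3⟩ := h (a - u / v * a') (b - u / v * b') (c - u / v * c')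
    (sub_mem ha (mul_mem he ha')) (sub_mem hb (mul_mem he hb')) (sub_mem hc (mul_mem he hc'))
    (by linear_combination -hu + (u / v) * hv - h1)
  exact ⟨u / v, he, sub_eq_zero.1 k1, sub_eq_zero.1 k2, sub_eq_zero.1 k3⟩

private theorem FTPG0_notin {x y : K} (h : Indep3 p x y) {a b c : K}
    (ha : a ∈ K0 K p) (hb : b ∈ K0 K p) (hc : c ∈ K0 K p) (hne : b ≠ 0 ∨ c ≠ 0) :
    a + b * x + c * y ∉ K0 K p := by
  intro hmem
  obtain ⟨-, k2, k3⟩ := h (a - (a + b * x + c * y)) b c (sub_mem ha hmem) hb hc (by ring)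
  rcases hne with hne | hne
  · exact hne k2
  · exact hne k3

private theorem FTPG0_ne {x y : K} (h : Indep3 p x y) {a b c : K}
    (ha : a ∈ K0 K p) (hb : b ∈ K0 K p) (hc : c ∈ K0 K p) (hne : b ≠ 0 ∨ c ≠ 0) :
    a + b * x + c * y ≠ 0 := fun h0 =>
  FTPG0_notin h ha hb hc hne (h0 ▸ zero_mem _)

/-- A class that `Φ` sends to `cl w` with `x ∉ K0` has `w ≠ 0`, `w ∉ L0`. -/
private theorem FTPG0_img (Φ : KOne K p ≃+ KOne L p) {x : K} (hx : x ∉ K0 K p) {w : L}
    (hw : Φ (cl p x) = cl p w) : w ≠ 0 ∧ w ∉ K0 L p := by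
  have hx0 : x ≠ 0 := by
    rintro rfl
    exact hx (zero_mem _)
  have hcx : cl p x ≠ 0 := fun h => hx ((cl_eq_zero_iff hx0).1 h)
  have hΦx : Φ (cl p x) ≠ 0 := fun h => hcx (by simpa using h)
  have hw0 : w ≠ 0 := by
    rintro rfl
    rw [cl_zero] at hw
    exact hΦx hw
  refine ⟨hw0, fun h => hΦx ?_⟩
  rw [hw]
  exact (cl_eq_zero_iff hw0).2 h

/-! ### Step 0: LINE for all lines -/

private theorem FTPG0_line (Φ : KOne K p ≃+ KOne L p) (hΦ : LineMap p Φ)
    {x y : K} (hx : x ≠ 0) (hy : y ≠ 0) (hxy : cl p x ≠ cl p y)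
    {x' y' : L} (hx' : x' ≠ 0) (hy' : y' ≠ 0)
    (h1 : Φ (cl p x) = cl p x') (h2 : Φ (cl p y) = cl p y')
    {a b : K} (ha : a ∈ K0 K p) (hb : b ∈ K0 K p) (hz : a * x + b * y ≠ 0) :
    ∃ a' ∈ K0 L p, ∃ b' ∈ K0 L p, a' * x' + b' * y' ≠ 0 ∧
      Φ (cl p (a * x + b * y)) = cl p (a' * x' + b' * y') := by
  by_cases hb0 : b = 0
  · subst hb0
    have ha0 : a ≠ 0 := by
      rintro rfl
      simp at hz
    refine ⟨1, one_mem _, 0, zero_mem _, by simpa using hx', ?_⟩
    simp only [zero_mul, add_zero, one_mul]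
    rw [cl_K0_mul ha ha0, h1]
  by_cases ha0 : a = 0
  · subst ha0
    refine ⟨0, zero_mem _, 1, one_mem _, by simpa using hy', ?_⟩
    simp only [zero_mul, zero_add, one_mul]
    rw [cl_K0_mul hb hb0, h2]
  have ht : y / x ∉ K0 K p := fun h => hxy ((cl_eq_cl_iff hy hx).2 h).symm
  have hΦt : Φ (cl p (y / x)) = cl p (y' / x') := by
    rw [cl_div hy hx, cl_div hy' hx', map_sub, h1, h2]
  obtain ⟨c', hc', hc⟩ := hΦ (y / x) ht (y' / x') hΦt (a / b) (div_mem ha hb)
  have hz' : a * x + b * y = b * (x * (y / x + a / b)) := by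
    field_simp
    ring
  have hne : y / x + a / b ≠ 0 := by
    intro h
    rw [hz', h] at hz
    simp at hz
  have hne' : y' / x' + c' ≠ 0 := by
    intro h
    have h3 : y' / x' ∈ K0 L p := by
      have h4 : y' / x' = -c' := by linear_combination h
      rw [h4]
      exact neg_mem hc'
    have h5 : cl p y' = cl p x' := (cl_eq_cl_iff hy' hx').2 h3
    rw [← h1, ← h2] at h5
    exact hxy (Φ.injective h5).symm
  have hv : c' * x' + 1 * y' = x' * (y' / x' + c') := by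
    field_simp
    ring
  refine ⟨c', hc', 1, one_mem _, ?_, ?_⟩
  · rw [hv]
    exact mul_ne_zero hx' hne'
  · rw [hz', cl_K0_mul hb hb0, cl_mul hx hne, map_add, h1, hc, ← cl_mul hx' hne', hv]

/-! ### Step 1: existence and uniqueness of the normalised representative -/

private theorem FTPG0_exists (Φ : KOne K p ≃+ KOne L p) (hΦ : LineMap p Φ) {x : K}
    (hx : x ∉ K0 K p) :
    ∃ w : L, Φ (cl p x) = cl p w ∧ Φ (cl p (1 + x)) = cl p (1 + w) := by
  obtain ⟨x', hx'0, hx'⟩ := exists_cl (Φ (cl p x))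
  obtain ⟨c', hc', hc⟩ := hΦ x hx x' hx'.symm 1 (one_mem _)
  have hx0 : x ≠ 0 := by
    rintro rfl
    exact hx (zero_mem _)
  have hx1 : x + 1 ≠ 0 := by
    intro h
    apply hx
    have h' : x = -1 := by linear_combination h
    rw [h']
    exact neg_mem (one_mem _)
  have hc0 : c' ≠ 0 := by
    rintro rfl
    rw [add_zero, hx'] at hc
    have h3 := (cl_eq_cl_iff hx1 hx0).1 (Φ.injective hc)
    apply hx
    have h4 : x⁻¹ ∈ K0 K p := by
      have h5 : x⁻¹ = (x + 1) / x - 1 := by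
        field_simp
        ring
      rw [h5]
      exact sub_mem h3 (one_mem _)
    simpa using inv_mem h4
  refine ⟨x' / c', ?_, ?_⟩
  · rw [div_eq_inv_mul, cl_K0_mul (inv_mem hc') (inv_ne_zero hc0), hx']
  · rw [add_comm 1 x, hc]
    have h6 : x' + c' = c' * (1 + x' / c') := by
      field_simp
      ring
    rw [h6, cl_K0_mul hc' hc0]

private theorem FTPG0_unique (Φ : KOne K p ≃+ KOne L p) {x : K} (hx : x ∉ K0 K p) {w1 w2 : L}
    (h1 : Φ (cl p x) = cl p w1) (h1' : Φ (cl p (1 + x)) = cl p (1 + w1))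
    (h2 : Φ (cl p x) = cl p w2) (h2' : Φ (cl p (1 + x)) = cl p (1 + w2)) : w1 = w2 := by
  have hx1 : 1 + x ∉ K0 K p := by
    intro h
    apply hx
    have h' : x = (1 + x) - 1 := by ring
    rw [h']
    exact sub_mem h (one_mem _)
  obtain ⟨hw1, hw1L⟩ := FTPG0_img Φ hx h1
  obtain ⟨hw2, -⟩ := FTPG0_img Φ hx h2
  obtain ⟨hv1, -⟩ := FTPG0_img Φ hx1 h1'
  obtain ⟨hv2, -⟩ := FTPG0_img Φ hx1 h2'
  have hlam : w2 / w1 ∈ K0 L p := (cl_eq_cl_iff hw2 hw1).1 (by rw [← h1, ← h2])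
  have hmu : (1 + w2) / (1 + w1) ∈ K0 L p := (cl_eq_cl_iff hv2 hv1).1 (by rw [← h1', ← h2'])
  have e1 : w2 = w2 / w1 * w1 := (div_mul_cancel₀ w2 hw1).symm
  have e2 : 1 + w2 = (1 + w2) / (1 + w1) * (1 + w1) := (div_mul_cancel₀ (1 + w2) hv1).symm
  generalize w2 / w1 = lam at hlam e1
  generalize (1 + w2) / (1 + w1) = mu at hmu e2
  by_cases hlm : lam = mu
  · subst hlm
    have h3 : lam = 1 := by linear_combination -e2 + e1
    rw [e1, h3, one_mul]
  · exfalso
    apply hw1L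
    have h4 : w1 = (mu - 1) / (lam - mu) :=
      eq_div_of_mul_eq (sub_ne_zero.2 hlm) (by linear_combination e2 - e1)
    rw [h4]
    exact div_mem (sub_mem hmu (one_mem _)) (sub_mem hlam hmu)

/-! ### Independence is preserved -/

private theorem FTPG0_indep3 (Φ : KOne K p ≃+ KOne L p) (hΦ' : LineMap p Φ.symm)
    {x y : K} (h : Indep3 p x y) {x' y' : L}
    (hx' : Φ (cl p x) = cl p x') (hy' : Φ (cl p y) = cl p y') : Indep3 p x' y' := by
  have hxK : x ∉ K0 K p := by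
    have := FTPG0_notin h (zero_mem _) (one_mem _) (zero_mem _) (Or.inl one_ne_zero)
    simpa using this
  have hyK : y ∉ K0 K p := by
    have := FTPG0_notin h (zero_mem _) (zero_mem _) (one_mem _) (Or.inr one_ne_zero)
    simpa using this
  have hx0 : x ≠ 0 := by
    rintro rfl
    exact hxK (zero_mem _)
  have hy0 : y ≠ 0 := by
    rintro rfl
    exact hyK (zero_mem _)
  obtain ⟨hx'0, hx'L⟩ := FTPG0_img Φ hxK hx'
  obtain ⟨hy'0, hy'L⟩ := FTPG0_img Φ hyK hy'
  intro a b c ha hb hc habc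
  by_cases hc0 : c = 0
  · subst hc0
    by_cases hb0 : b = 0
    · subst hb0
      refine ⟨?_, rfl, rfl⟩
      simpa using habc
    · exfalso
      apply hx'L
      have h1 : x' = -a / b := eq_div_of_mul_eq hb0 (by linear_combination habc)
      rw [h1]
      exact div_mem (neg_mem ha) hb
  · exfalso
    have hy'eq : (-a / c) * 1 + (-b / c) * x' = y' := by
      field_simp
      linear_combination -habc
    have h1ne : cl p (1 : L) ≠ cl p x' := by
      rw [cl_one]
      exact fun h0 => hx'L ((cl_eq_zero_iff hx'0).1 h0.symm)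
    have hs1 : Φ.symm (cl p (1 : L)) = cl p (1 : K) := by
      rw [cl_one, cl_one, map_zero]
    have hsx : Φ.symm (cl p x') = cl p x := by
      rw [← hx', AddEquiv.symm_apply_apply]
    have hsy : Φ.symm (cl p y') = cl p y := by
      rw [← hy', AddEquiv.symm_apply_apply]
    obtain ⟨a3, ha3, b3, hb3, hne, hcl⟩ := FTPG0_line Φ.symm hΦ' one_ne_zero hx'0 h1ne
      one_ne_zero hx0 hs1 hsx (div_mem (neg_mem ha) hc) (div_mem (neg_mem hb) hc)
      (by rw [hy'eq]; exact hy'0)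
    rw [hy'eq, hsy] at hcl
    obtain ⟨e, -, -, -, k3⟩ := FTPG0_coeff h (zero_mem _) (zero_mem _) (one_mem _) ha3 hb3
      (zero_mem _) (u := y) (v := a3 * 1 + b3 * x) (by ring) (by ring) hy0 hne hcl
    simp at k3

/-! ### Step 2: additivity on independent triples -/

private theorem FTPG0_sum (Φ : KOne K p ≃+ KOne L p) (hΦ : LineMap p Φ)
    {x y : K} (h : Indep3 p x y) {x' y' : L} (h' : Indep3 p x' y')
    (hx1 : Φ (cl p x) = cl p x') (hx2 : Φ (cl p (1 + x)) = cl p (1 + x'))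
    (hy1 : Φ (cl p y) = cl p y') (hy2 : Φ (cl p (1 + y)) = cl p (1 + y')) :
    Φ (cl p (x + y)) = cl p (x' + y') ∧ Φ (cl p (1 + (x + y))) = cl p (1 + (x' + y')) := by
  have m0 : (0 : K) ∈ K0 K p := zero_mem _
  have m1 : (1 : K) ∈ K0 K p := one_mem _
  have n0 : (0 : L) ∈ K0 L p := zero_mem _
  have n1 : (1 : L) ∈ K0 L p := one_mem _
  -- nonvanishing facts in `K`
  have hx0 : x ≠ 0 := by
    have := FTPG0_ne h m0 m1 m0 (Or.inl one_ne_zero)
    simpa using this
  have hy0 : y ≠ 0 := by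
    have := FTPG0_ne h m0 m0 m1 (Or.inr one_ne_zero)
    simpa using this
  have hx10 : 1 + x ≠ 0 := by
    have := FTPG0_ne h m1 m1 m0 (Or.inl one_ne_zero)
    simpa using this
  have hy10 : 1 + y ≠ 0 := by
    have := FTPG0_ne h m1 m0 m1 (Or.inr one_ne_zero)
    simpa using this
  have hs0 : 1 + (x + y) ≠ 0 := by
    have := FTPG0_ne h m1 m1 m1 (Or.inl one_ne_zero)
    intro h0
    apply this
    linear_combination h0
  have hsK : 1 + (x + y) ∉ K0 K p := by
    have := FTPG0_notin h m1 m1 m1 (Or.inl one_ne_zero)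
    intro h0
    apply this
    have e : 1 + 1 * x + 1 * y = 1 + (x + y) := by ring
    rw [e]
    exact h0
  -- nonvanishing facts in `L`
  have hx0' : x' ≠ 0 := by
    have := FTPG0_ne h' n0 n1 n0 (Or.inl one_ne_zero)
    simpa using this
  have hy0' : y' ≠ 0 := by
    have := FTPG0_ne h' n0 n0 n1 (Or.inr one_ne_zero)
    simpa using this
  have hx10' : 1 + x' ≠ 0 := by
    have := FTPG0_ne h' n1 n1 n0 (Or.inl one_ne_zero)
    simpa using this
  have hy10' : 1 + y' ≠ 0 := by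
    have := FTPG0_ne h' n1 n0 n1 (Or.inr one_ne_zero)
    simpa using this
  have hs0' : 1 + (x' + y') ≠ 0 := by
    have := FTPG0_ne h' n1 n1 n1 (Or.inl one_ne_zero)
    intro h0
    apply this
    linear_combination h0
  -- distinct points in `K`
  have d1 : cl p (1 + x) ≠ cl p y := by
    intro hcl
    obtain ⟨e, -, k1, -, -⟩ := FTPG0_coeff h m1 m1 m0 m0 m0 m1 (u := 1 + x) (v := y)
      (by ring) (by ring) hx10 hy0 hcl
    simp at k1
  have d2 : cl p (1 + y) ≠ cl p x := by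
    intro hcl
    obtain ⟨e, -, k1, -, -⟩ := FTPG0_coeff h m1 m0 m1 m0 m1 m0 (u := 1 + y) (v := x)
      (by ring) (by ring) hy10 hx0 hcl
    simp at k1
  have d3 : cl p x ≠ cl p y := by
    intro hcl
    obtain ⟨e, -, -, k2, -⟩ := FTPG0_coeff h m0 m1 m0 m0 m0 m1 (u := x) (v := y)
      (by ring) (by ring) hx0 hy0 hcl
    simp at k2
  have d4 : cl p (1 : K) ≠ cl p (1 + (x + y)) := by
    rw [cl_one]
    exact fun h0 => hsK ((cl_eq_zero_iff hs0).1 h0.symm)
  -- (2b)
  have hb : Φ (cl p (1 + (x + y))) = cl p (1 + (x' + y')) := by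
    obtain ⟨a1, ha1, b1, hb1, hv1, hc1⟩ := FTPG0_line Φ hΦ hx10 hy0 d1 hx10' hy0' hx2 hy1
      (a := 1) (b := 1) m1 m1 (by intro h0; apply hs0; linear_combination h0)
    obtain ⟨a2, ha2, b2, hb2, hv2, hc2⟩ := FTPG0_line Φ hΦ hy10 hx0 d2 hy10' hx0' hy2 hx1
      (a := 1) (b := 1) m1 m1 (by intro h0; apply hs0; linear_combination h0)
    have e1 : (1 : K) * (1 + x) + 1 * y = 1 + (x + y) := by ring
    have e2 : (1 : K) * (1 + y) + 1 * x = 1 + (x + y) := by ring
    rw [e1] at hc1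
    rw [e2] at hc2
    obtain ⟨e, -, k1, k2, k3⟩ := FTPG0_coeff h' ha1 ha1 hb1 ha2 hb2 ha2
      (u := a1 * (1 + x') + b1 * y') (v := a2 * (1 + y') + b2 * x')
      (by ring) (by ring) hv1 hv2 (by rw [← hc1, ← hc2])
    have hab : b1 = a1 := by rw [k3, k1]
    have hv : a1 * (1 + x') + b1 * y' = a1 * (1 + (x' + y')) := by
      rw [hab]
      ring
    have ha10 : a1 ≠ 0 := by
      rintro rfl
      apply hv1
      rw [hv, zero_mul]
    rw [hc1, hv, cl_K0_mul ha1 ha10]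
  refine ⟨?_, hb⟩
  -- (2c)
  have hΦ1 : Φ (cl p (1 : K)) = cl p (1 : L) := by
    rw [cl_one, cl_one, map_zero]
  have hxy0 : (1 : K) * x + 1 * y ≠ 0 := by
    have := FTPG0_ne h m0 m1 m1 (Or.inl one_ne_zero)
    intro h0
    apply this
    linear_combination h0
  obtain ⟨a1, ha1, b1, hb1, hv1, hc1⟩ := FTPG0_line Φ hΦ hx0 hy0 d3 hx0' hy0' hx1 hy1
    (a := 1) (b := 1) m1 m1 hxy0
  obtain ⟨a2, ha2, b2, hb2, hv2, hc2⟩ := FTPG0_line Φ hΦ one_ne_zero hs0 d4 one_ne_zero hs0'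
    hΦ1 hb (a := -1) (b := 1) (neg_mem m1) m1
    (by intro h0; apply hxy0; linear_combination h0)
  have e1 : (1 : K) * x + 1 * y = x + y := by ring
  have e2 : (-1 : K) * 1 + 1 * (1 + (x + y)) = x + y := by ring
  rw [e1] at hc1
  rw [e2] at hc2
  obtain ⟨e, -, -, k2, k3⟩ := FTPG0_coeff h' n0 ha1 hb1 (add_mem ha2 hb2) hb2 hb2
    (u := a1 * x' + b1 * y') (v := a2 * 1 + b2 * (1 + (x' + y')))
    (by ring) (by ring) hv1 hv2 (by rw [← hc1, ← hc2])
  have hab : b1 = a1 := by rw [k3, k2]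
  have hv : a1 * x' + b1 * y' = a1 * (x' + y') := by
    rw [hab]
    ring
  have ha10 : a1 ≠ 0 := by
    rintro rfl
    apply hv1
    rw [hv, zero_mul]
  rw [hc1, hv, cl_K0_mul ha1 ha10]

/-- The lift `α` on non-constants: `α x` is the representative `w` of `Φ [x]` with
`Φ [1 + x] = [1 + w]`; it preserves independence and is additive on independent triples. -/
theorem exists_lift0 (Φ : KOne K p ≃+ KOne L p) (hΦ : LineMap p Φ) (hΦ' : LineMap p Φ.symm) :
    ∃ α : K → L,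
      (∀ x, x ∉ K0 K p → Φ (cl p x) = cl p (α x) ∧ Φ (cl p (1 + x)) = cl p (1 + α x)) ∧
      (∀ x, x ∉ K0 K p → ∀ w : L, Φ (cl p x) = cl p w → Φ (cl p (1 + x)) = cl p (1 + w) →
        w = α x) ∧
      (∀ x y, Indep3 p x y → Indep3 p (α x) (α y)) ∧
      (∀ x y, Indep3 p x y → α (x + y) = α x + α y) := by
  have ex : ∀ x : K, ∃ w : L, x ∉ K0 K p →
      Φ (cl p x) = cl p w ∧ Φ (cl p (1 + x)) = cl p (1 + w) := by
    intro x
    by_cases hx : x ∈ K0 K p
    · exact ⟨0, fun h => absurd hx h⟩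
    · obtain ⟨w, hw⟩ := FTPG0_exists Φ hΦ hx
      exact ⟨w, fun _ => hw⟩
  choose α hα using ex
  have hnot : ∀ x y : K, Indep3 p x y → x ∉ K0 K p ∧ y ∉ K0 K p ∧ x + y ∉ K0 K p := by
    intro x y h
    refine ⟨?_, ?_, ?_⟩
    · have := FTPG0_notin h (zero_mem _) (one_mem _) (zero_mem _) (Or.inl one_ne_zero)
      simpa using this
    · have := FTPG0_notin h (zero_mem _) (zero_mem _) (one_mem _) (Or.inr one_ne_zero)
      simpa using this
    · have := FTPG0_notin h (zero_mem _) (one_mem _) (one_mem _) (Or.inl one_ne_zero)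
      simpa using this
  have hind : ∀ x y : K, Indep3 p x y → Indep3 p (α x) (α y) := by
    intro x y h
    obtain ⟨hx, hy, -⟩ := hnot x y h
    exact FTPG0_indep3 Φ hΦ' h (hα x hx).1 (hα y hy).1
  refine ⟨α, hα, ?_, hind, ?_⟩
  · intro x hx w h1 h2
    exact FTPG0_unique Φ hx h1 h2 (hα x hx).1 (hα x hx).2
  · intro x y h
    obtain ⟨hx, hy, hxy⟩ := hnot x y h
    obtain ⟨s1, s2⟩ := FTPG0_sum Φ hΦ h (hind x y h) (hα x hx).1 (hα x hx).2 (hα y hy).1
      (hα y hy).2
    exact FTPG0_unique Φ hxy (hα (x + y) hxy).1 (hα (x + y) hxy).2 s1 s2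

end Crest.Agent.S0010lib
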