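/-
S0010 (row 9), module FTPG1 (PLAN step 6, steps 3-4): the additive lift of a bijective
homomorphism `Φ : Kˣ/K0ˣ → Lˣ/L0ˣ` (`K0 = K^p`, `L0 = L^p`) which, together with its inverse,
preserves the projective lines through `[1]`.

The chain FTPG0 → FTPG1 → FTPG of the original plan was replaced by helper11's hand-made
fundamental theorem of projective geometry (`Collin.lean` + adapter `CollinFTPG.lean`), which
`FTPG.lean` now uses directly.  This file is therefore no longer in the import closure of the
statement; its two frozen statements are kept (byte-identical) and are derived here from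
`collin_exists_ringEquiv_of_lineMap` (the field isomorphism `α` is in particular an additive
lift), so that the folder stays free of `sorry`.  (helper16, job 96.)
-/
import Crest.Agent.S0010.CollinFTPG

set_option autoImplicit false
open Crest.NumberTheoryR.MilnorK

namespace Crest.Agent.S0010lib

variable {K : Type*} [Field K] {L : Type*} [Field L] {p : ℕ} [Fact p.Prime] [CharP K p] [CharP L p]

theorem indep3_of_twoIndep (h2 : TwoIndep K p) : ∃ x y : K, Indep3 p x y := by
  obtain ⟨x, y, h⟩ := collin_indep3_of_twoIndep h2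
  refine ⟨x, y, fun a b c ha hb hc habc => ?_⟩
  have key := h ⟨a, ha⟩ ⟨b, hb⟩ ⟨c, hc⟩ habc
  exact ⟨congrArg Subtype.val key.1, congrArg Subtype.val key.2.1, congrArg Subtype.val key.2.2⟩

/-- The additive lift of `Φ`. -/
theorem exists_additive_lift (h2 : TwoIndep K p) (Φ : KOne K p ≃+ KOne L p)
    (hΦ : LineMap p Φ) (hΦ' : LineMap p Φ.symm) :
    ∃ A : K →+ L, A 1 = 1 ∧ (∀ x : K, x ≠ 0 → Φ (cl p x) = cl p (A x)) ∧
      (∀ x : K, A x = 0 → x = 0) ∧ (∀ c' ∈ K0 L p, ∃ c ∈ K0 K p, A c = c') := by
  obtain ⟨α, hα⟩ := collin_exists_ringEquiv_of_lineMap h2 Φ hΦ hΦ'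
  refine ⟨α.toRingHom.toAddMonoidHom, ?_, ?_, ?_, ?_⟩
  · exact map_one α
  · intro x hx
    exact hα x hx
  · intro x hx
    have hx' : α x = 0 := hx
    exact (map_eq_zero_iff α α.injective).1 hx'
  · rintro c' ⟨ℓ, rfl⟩
    refine ⟨frobenius K p (α.symm ℓ), ⟨α.symm ℓ, rfl⟩, ?_⟩
    show α (frobenius K p (α.symm ℓ)) = frobenius L p ℓ
    rw [frobenius_def, frobenius_def, map_pow, RingEquiv.apply_symm_apply]

end Crest.Agent.S0010lib
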