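/-
ROW 9 / S0010 — KEY LEMMA (rigidity of twisted lines), derivation form.  Author: helper32.
Imports Mathlib only.

`K` a field of characteristic `p`, `K0 = K^p` (`Kp K p`), `adj p t = K0(t)`.
-/
import Mathlib

set_option autoImplicit false

namespace Crest.Agent.S0010.Key32

open Finset

variable {K : Type*} [Field K]

/-- The subfield `K^p` of `p`-th powers. -/
abbrev Kp (K : Type*) [Field K] (p : ℕ) [Fact p.Prime] [CharP K p] : Subfield K :=
  (frobenius K p).fieldRange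

/-- `K^p(t)` as a subfield of `K`. -/
abbrev adj (p : ℕ) [Fact p.Prime] [CharP K p] (t : K) : Subfield K :=
  Subfield.closure ((Kp K p : Set K) ∪ {t})

section basics

variable (p : ℕ) [Fact p.Prime] [CharP K p]

theorem pow_mem_Kp (a : K) : a ^ p ∈ Kp K p := ⟨a, rfl⟩

theorem Kp_le_adj (t : K) : Kp K p ≤ adj p t :=
  fun _ ha => Subfield.subset_closure (Or.inl ha)

theorem self_mem_adj (t : K) : t ∈ adj p t :=
  Subfield.subset_closure (Or.inr rfl)

theorem natCast_mem_Kp (n : ℕ) : (n : K) ∈ Kp K p := natCast_mem _ n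

/-- The kernel of a derivation, as a subfield. -/
def kerD (D : Derivation ℤ K K) : Subfield K where
  carrier := {a | D a = 0}
  mul_mem' := by
    intro a b ha hb
    simp only [Set.mem_ofPred_eq] at ha hb ⊢
    rw [D.leibniz, ha, hb]; simp
  one_mem' := D.map_one_eq_zero
  add_mem' := by
    intro a b ha hb
    simp only [Set.mem_ofPred_eq] at ha hb ⊢
    rw [map_add, ha, hb, add_zero]
  zero_mem' := map_zero D
  neg_mem' := by
    intro a ha
    simp only [Set.mem_ofPred_eq] at ha ⊢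
    rw [map_neg, ha, neg_zero]
  inv_mem' := by
    intro a ha
    simp only [Set.mem_ofPred_eq] at ha ⊢
    rw [D.leibniz_inv, ha]; simp

theorem mem_kerD (D : Derivation ℤ K K) (a : K) : a ∈ kerD D ↔ D a = 0 := Iff.rfl

/-- A derivation of a field of characteristic `p` kills `p`-th powers. -/
theorem D_Kp (D : Derivation ℤ K K) {a : K} (ha : a ∈ Kp K p) : D a = 0 := by
  obtain ⟨b, rfl⟩ := ha
  rw [frobenius_def, D.leibniz_pow]
  simp

theorem Kp_le_kerD (D : Derivation ℤ K K) : Kp K p ≤ kerD D := fun _ ha => D_Kp p D ha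

/-- A derivation killing `t` kills `K^p(t)`. -/
theorem D_adj_of_D_eq_zero (D : Derivation ℤ K K) {t : K} (ht : D t = 0) {w : K}
    (hw : w ∈ adj p t) : D w = 0 := by
  have : adj p t ≤ kerD D := by
    rw [Subfield.closure_le]
    rintro a (ha | ha)
    · exact D_Kp p D ha
    · rw [Set.mem_singleton_iff] at ha; subst ha; exact ht
  exact this hw

/-- Span form, easy direction. -/
theorem sum_mem_adj (t : K) (a : ℕ → K) (ha : ∀ i, a i ∈ Kp K p) (n : ℕ) :
    ∑ i ∈ range n, a i * t ^ i ∈ adj p t :=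
  sum_mem fun i _ => mul_mem (Kp_le_adj p t (ha i)) (pow_mem (self_mem_adj p t) i)

/-- Span form: every element of `K^p(t)` is `∑_{i<p} a_i t^i` with `a_i ∈ K^p`. -/
theorem exists_sum_of_mem_adj (t : K) {w : K} (hw : w ∈ adj p t) :
    ∃ a : ℕ → K, (∀ i, a i ∈ Kp K p) ∧ w = ∑ i ∈ range p, a i * t ^ i := by
  have hp : p.Prime := Fact.out
  -- the subring of polynomial values
  let φ : Polynomial (Kp K p) →+* K := Polynomial.eval₂RingHom (Kp K p).subtype t
  have hφ : ∀ q, φ q = Polynomial.eval₂ (Kp K p).subtype t q := fun q => rfl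
  let T : Subfield K :=
    { φ.range with
      inv_mem' := by
        intro a ha
        by_cases h0 : a = 0
        · subst h0; simpa using ha
        · have h1 : a⁻¹ = a ^ (p - 1) * (a ^ p)⁻¹ := by
            have : a ^ p = a ^ (p - 1) * a := by
              rw [← pow_succ, Nat.sub_add_cancel hp.one_le]
            rw [this]; field_simp
          have h2 : (a ^ p)⁻¹ ∈ φ.range := by
            refine ⟨Polynomial.C ⟨(a ^ p)⁻¹, inv_mem (pow_mem_Kp p a)⟩, ?_⟩
            rw [hφ, Polynomial.eval₂_C]; rfl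
          show a⁻¹ ∈ φ.range
          rw [h1]
          exact mul_mem (pow_mem ha _) h2 }
  have hT : ∀ a, a ∈ T ↔ a ∈ φ.range := fun a => Iff.rfl
  have hle : adj p t ≤ T := by
    rw [Subfield.closure_le]
    rintro a (ha | ha)
    · rw [SetLike.mem_coe, hT]
      exact ⟨Polynomial.C ⟨a, ha⟩, by rw [hφ, Polynomial.eval₂_C]; rfl⟩
    · rw [Set.mem_singleton_iff] at ha; subst ha
      rw [SetLike.mem_coe, hT]
      exact ⟨Polynomial.X, by rw [hφ, Polynomial.eval₂_X]⟩
  obtain ⟨q, rfl⟩ := (hT w).1 (hle hw)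
  -- reduce modulo X^p - t^p
  let c : Kp K p := ⟨t ^ p, pow_mem_Kp p t⟩
  let m : Polynomial (Kp K p) := Polynomial.X ^ p - Polynomial.C c
  have hm : m.Monic := Polynomial.monic_X_pow_sub_C c hp.ne_zero
  have hmdeg : m.natDegree = p := Polynomial.natDegree_X_pow_sub_C
  have hm1 : m ≠ 1 := by
    intro h
    have := hmdeg
    rw [h, Polynomial.natDegree_one] at this
    exact hp.ne_zero this.symm
  have hmt : φ m = 0 := by
    rw [hφ]
    simp only [m, Polynomial.eval₂_sub, Polynomial.eval₂_pow, Polynomial.eval₂_X,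
      Polynomial.eval₂_C]
    show t ^ p - t ^ p = 0
    ring
  have hq : φ q = φ (q %ₘ m) := by
    conv_lhs => rw [← Polynomial.modByMonic_add_div q m]
    rw [map_add, map_mul, hmt, zero_mul, add_zero]
  have hdeg : (q %ₘ m).natDegree < p := by
    have := Polynomial.natDegree_modByMonic_lt q hm hm1
    rwa [hmdeg] at this
  refine ⟨fun i => ((q %ₘ m).coeff i : K), fun i => (((q %ₘ m).coeff i)).2, ?_⟩
  rw [hq, hφ, Polynomial.eval₂_eq_sum_range' _ hdeg]
  rfl

end basics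

section onevar

variable (p : ℕ) [Fact p.Prime] [CharP K p]
variable (D : Derivation ℤ K K) (t : K)

omit [Fact p.Prime] in
theorem natCast_ne_zero_of_lt {i : ℕ} (hi0 : 0 < i) (hip : i < p) : (i : K) ≠ 0 := by
  intro h
  rw [CharP.cast_eq_zero_iff K p] at h
  exact absurd (Nat.le_of_dvd hi0 h) (not_le.mpr hip)

omit [Fact p.Prime] in
theorem natCast_inj_of_lt {i j : ℕ} (hi : i < p) (hj : j < p) (h : (i : K) = (j : K)) : i = j := by
  rw [CharP.natCast_eq_natCast K p] at h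
  have := h
  unfold Nat.ModEq at this
  rwa [Nat.mod_eq_of_lt hi, Nat.mod_eq_of_lt hj] at this

theorem ne_zero_of_D_eq_one (ht : D t = 1) : t ≠ 0 := by
  rintro rfl
  rw [map_zero] at ht
  exact zero_ne_one ht

/-- `t * D (∑ a_i t^i) = ∑ i a_i t^i`. -/
theorem t_mul_D_sum (ht : D t = 1) (a : ℕ → K) (ha : ∀ i, a i ∈ Kp K p) (n : ℕ) :
    t * D (∑ i ∈ range n, a i * t ^ i) = ∑ i ∈ range n, (i : K) * a i * t ^ i := by
  rw [map_sum, Finset.mul_sum]
  refine Finset.sum_congr rfl fun i _ => ?_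
  rw [D.leibniz, D_Kp p D (ha i), D.leibniz_pow, ht]
  rcases i with _ | i
  · simp
  · simp only [smul_eq_mul, nsmul_eq_mul, Nat.add_sub_cancel, mul_one, mul_zero, add_zero]
    rw [pow_succ]; ring

/-- `D (∑_{i<n+1} a_i t^i) = ∑_{i<n} (i+1) a_{i+1} t^i`. -/
theorem D_sum_succ (ht : D t = 1) (a : ℕ → K) (ha : ∀ i, a i ∈ Kp K p) (n : ℕ) :
    D (∑ i ∈ range (n + 1), a i * t ^ i) = ∑ i ∈ range n, ((i + 1 : ℕ) : K) * a (i + 1) * t ^ i := by
  rw [Finset.sum_range_succ', map_add, map_sum]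
  have h0 : D (a 0 * t ^ 0) = 0 := by
    rw [pow_zero, mul_one]; exact D_Kp p D (ha 0)
  rw [h0, add_zero]
  refine Finset.sum_congr rfl fun i _ => ?_
  rw [D.leibniz, D_Kp p D (ha (i + 1)), D.leibniz_pow, ht]
  simp only [smul_eq_mul, nsmul_eq_mul, Nat.add_sub_cancel, mul_one, mul_zero, add_zero]
  ring

/-- Linear independence of `1, t, …, t^(p-1)` over `K^p` when `D t = 1`. -/
theorem indep (ht : D t = 1) : ∀ d, d ≤ p → ∀ a : ℕ → K, (∀ i, a i ∈ Kp K p) →
    ∑ i ∈ range d, a i * t ^ i = 0 → ∀ i, i < d → a i = 0 := by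
  intro d
  induction d with
  | zero => intro _ a _ _ i hi; exact absurd hi (Nat.not_lt_zero i)
  | succ d ih =>
    intro hd a ha h
    have hD : D (∑ i ∈ range (d + 1), a i * t ^ i) = 0 := by rw [h, map_zero]
    rw [D_sum_succ p D t ht a ha d] at hD
    have ih' := ih (Nat.le_of_succ_le hd) (fun i => ((i + 1 : ℕ) : K) * a (i + 1))
      (fun i => mul_mem (natCast_mem_Kp p _) (ha _)) hD
    have hs : ∀ i, i < d → a (i + 1) = 0 := by
      intro i hi
      have := ih' i hi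
      rcases mul_eq_zero.1 this with h1 | h1
      · exact absurd h1 (natCast_ne_zero_of_lt p (Nat.succ_pos i) (by omega))
      · exact h1
    intro i hi
    rcases i with _ | i
    · rw [Finset.sum_range_succ'] at h
      rw [Finset.sum_eq_zero (fun i hi => by rw [hs i (Finset.mem_range.1 hi), zero_mul])] at h
      simpa using h
    · exact hs i (by omega)

/-- `ker D ∩ K^p(t) = K^p` when `D t = 1`. -/
theorem mem_Kp_of_D_eq_zero (ht : D t = 1) {w : K} (hw : w ∈ adj p t) (hD : D w = 0) :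
    w ∈ Kp K p := by
  have hp : p.Prime := Fact.out
  obtain ⟨a, ha, rfl⟩ := exists_sum_of_mem_adj p t hw
  obtain ⟨q, hq⟩ : ∃ q, p = q + 1 := ⟨p - 1, (Nat.sub_add_cancel hp.one_le).symm⟩
  have hr : range p = range (q + 1) := by rw [hq]
  rw [hr] at hD ⊢
  rw [D_sum_succ p D t ht a ha q] at hD
  have h1 := indep p D t ht q (by omega) (fun i => ((i + 1 : ℕ) : K) * a (i + 1))
      (fun i => mul_mem (natCast_mem_Kp p _) (ha _)) hD
  have hs : ∀ i, i < q → a (i + 1) = 0 := by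
    intro i hi
    rcases mul_eq_zero.1 (h1 i hi) with h2 | h2
    · exact absurd h2 (natCast_ne_zero_of_lt p (Nat.succ_pos i) (by omega))
    · exact h2
  rw [Finset.sum_range_succ']
  rw [Finset.sum_eq_zero (fun i hi => by rw [hs i (Finset.mem_range.1 hi), zero_mul])]
  simpa using ha 0

/-- Eigenvectors of the Euler operator `t D` on `K^p(t)` with eigenvalue in `K^p` are monomials. -/
theorem eigen (ht : D t = 1) {w lam : K} (hw : w ∈ adj p t) (hw0 : w ≠ 0) (hlam : lam ∈ Kp K p)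
    (h : t * D w = lam * w) :
    ∃ m, m < p ∧ ∃ c ∈ Kp K p, w = c * t ^ m ∧ lam = (m : K) := by
  obtain ⟨a, ha, rfl⟩ := exists_sum_of_mem_adj p t hw
  rw [t_mul_D_sum p D t ht a ha p] at h
  have h0 : ∑ i ∈ range p, (((i : K) - lam) * a i) * t ^ i = 0 := by
    have : ∑ i ∈ range p, (((i : K) - lam) * a i) * t ^ i
        = ∑ i ∈ range p, (i : K) * a i * t ^ i - lam * ∑ i ∈ range p, a i * t ^ i := by
      rw [Finset.mul_sum, ← Finset.sum_sub_distrib]
      exact Finset.sum_congr rfl fun i _ => by ring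
    rw [this, h, sub_self]
  have h1 := indep p D t ht p le_rfl (fun i => ((i : K) - lam) * a i)
      (fun i => mul_mem (sub_mem (natCast_mem_Kp p _) hlam) (ha _)) h0
  obtain ⟨m, hm, ham⟩ : ∃ m, m < p ∧ a m ≠ 0 := by
    by_contra hcon
    push Not at hcon
    exact hw0 (Finset.sum_eq_zero fun i hi => by rw [hcon i (Finset.mem_range.1 hi), zero_mul])
  have hlm : lam = (m : K) := by
    rcases mul_eq_zero.1 (h1 m hm) with h2 | h2
    · exact (sub_eq_zero.1 h2).symm
    · exact absurd h2 ham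
  refine ⟨m, hm, a m, ha m, ?_, hlm⟩
  refine Finset.sum_eq_single m (fun i hi hne => ?_) (fun hmem => absurd (Finset.mem_range.2 hm) hmem)
  have hi' := Finset.mem_range.1 hi
  rcases mul_eq_zero.1 (h1 i hi') with h2 | h2
  · rw [hlm, sub_eq_zero] at h2
    exact absurd (natCast_inj_of_lt p hi' hm h2) hne
  · rw [h2, zero_mul]

/-- `D` maps `K^p(t)` into itself when `D t = 1`. -/
theorem D_mem_adj (ht : D t = 1) {w : K} (hw : w ∈ adj p t) : D w ∈ adj p t := by
  have hp : p.Prime := Fact.out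
  obtain ⟨a, ha, rfl⟩ := exists_sum_of_mem_adj p t hw
  obtain ⟨q, hq⟩ : ∃ q, p = q + 1 := ⟨p - 1, (Nat.sub_add_cancel hp.one_le).symm⟩
  have hr : range p = range (q + 1) := by rw [hq]
  rw [hr, D_sum_succ p D t ht a ha q]
  exact sum_mem_adj p t _ (fun i => mul_mem (natCast_mem_Kp p _) (ha _)) q

/-- The final integration step. -/
theorem final (ht : D t = 1) {u c : K} {n : ℕ} (hn0 : 0 < n) (hnp : n < p) (hu : u ∈ adj p t)
    (hc : c ∈ Kp K p) (h : u * t ^ (n - 1) = D u * (t ^ n - c)) :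
    t ^ n - c ≠ 0 ∧ u ^ n / (t ^ n - c) ∈ Kp K p := by
  have ht0 := ne_zero_of_D_eq_one D t ht
  have hn : (n : K) ≠ 0 := natCast_ne_zero_of_lt p hn0 hnp
  have hDtn : D (t ^ n - c) = (n : K) * t ^ (n - 1) := by
    rw [map_sub, D_Kp p D hc, D.leibniz_pow, ht]
    simp
  have hne : t ^ n - c ≠ 0 := by
    intro h0
    rw [h0, map_zero] at hDtn
    exact mul_ne_zero hn (pow_ne_zero _ ht0) hDtn.symm
  refine ⟨hne, ?_⟩
  have hmem : u ^ n / (t ^ n - c) ∈ adj p t :=
    div_mem (pow_mem hu n) (sub_mem (pow_mem (self_mem_adj p t) n) (Kp_le_adj p t hc))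
  refine mem_Kp_of_D_eq_zero p D t ht hmem ?_
  rw [D.leibniz_div, hDtn, D.leibniz_pow]
  have hun : u ^ n = u ^ (n - 1) * u := by
    rw [← pow_succ, Nat.sub_add_cancel hn0]
  simp only [smul_eq_mul, nsmul_eq_mul]
  have : (t ^ n - c) * ((n : K) * (u ^ (n - 1) * D u)) - u ^ n * ((n : K) * t ^ (n - 1)) = 0 := by
    rw [hun]
    linear_combination (-(n : K) * u ^ (n - 1)) * h
  rw [this, mul_zero]

/-- Consequences of `u ∈ K^p(t)` not being a monomial. -/
theorem nonmonomial (ht : D t = 1) {u : K} (hu : u ∈ adj p t)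
    (hum : ∀ j : ℕ, ∀ c ∈ Kp K p, u ≠ c * t ^ j) :
    u ≠ 0 ∧ D u ≠ 0 ∧ ∀ lam ∈ Kp K p, t - u / D u ≠ lam * t := by
  have ht0 := ne_zero_of_D_eq_one D t ht
  have hu0 : u ≠ 0 := by
    intro h
    exact hum 0 0 (zero_mem _) (by rw [h, zero_mul])
  have hDu : D u ≠ 0 := by
    intro h
    exact hum 0 u (mem_Kp_of_D_eq_zero p D t ht hu h) (by rw [pow_zero, mul_one])
  refine ⟨hu0, hDu, ?_⟩
  intro lam hlam h
  have h1 : u = (1 - lam) * (t * D u) := by
    field_simp at h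
    linear_combination -h
  by_cases hl : 1 - lam = 0
  · rw [hl, zero_mul] at h1; exact hu0 h1
  · have h2 : t * D u = (1 - lam)⁻¹ * u := by
      rw [eq_inv_mul_iff_mul_eq₀ hl]; exact h1.symm
    obtain ⟨m, -, c, hc, hcm, -⟩ := eigen p D t ht hu hu0
      (inv_mem (sub_mem (one_mem _) hlam)) h2
    exact hum m c hc hcm

/-- The twist exponent `n ≡ 1 - m (mod p)`, `0 < n < p` for `m ≠ 1`. -/
def twist (p m : ℕ) : ℕ := if m = 0 then 1 else p + 1 - m

theorem after (ht : D t = 1) {u : K} (hu : u ∈ adj p t) (hDu : D u ≠ 0)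
    {c : K} (hc : c ∈ Kp K p) (hc0 : c ≠ 0) {m : ℕ} (hm : m < p) (hm1 : m ≠ 1)
    (hP : t - u / D u = c * t ^ m) :
    0 < twist p m ∧ twist p m < p ∧
      ∃ c' ∈ Kp K p, c' ≠ 0 ∧ u ^ (twist p m) / (t ^ (twist p m) - c') ∈ Kp K p := by
  have hp : p.Prime := Fact.out
  have ht0 := ne_zero_of_D_eq_one D t ht
  have h1 : u = D u * (t - c * t ^ m) := by
    field_simp at hP
    linear_combination -hP
  by_cases hm0 : m = 0
  · subst hm0
    have htw : twist p 0 = 1 := by simp [twist]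
    rw [htw]
    refine ⟨Nat.one_pos, hp.one_lt, c, hc, hc0, ?_⟩
    refine (final p D t ht Nat.one_pos hp.one_lt hu hc ?_).2
    simpa using h1
  · have htw : twist p m = p + 1 - m := by simp [twist, hm0]
    rw [htw]
    have hn0 : 0 < p + 1 - m := by omega
    have hnp : p + 1 - m < p := by omega
    refine ⟨hn0, hnp, c * t ^ p, mul_mem hc (pow_mem_Kp p t),
      mul_ne_zero hc0 (pow_ne_zero _ ht0), ?_⟩
    refine (final p D t ht hn0 hnp hu (mul_mem hc (pow_mem_Kp p t)) ?_).2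
    have e1 : p + 1 - m - 1 = p - m := by omega
    have e2 : t ^ (p + 1 - m) = t * t ^ (p - m) := by
      rw [← pow_succ']; congr 1; omega
    have e3 : t ^ p = t ^ m * t ^ (p - m) := by
      rw [← pow_add]; congr 1; omega
    rw [e1, e2, e3]
    conv_lhs => rw [h1]
    ring

end onevar

section twovar

variable (p : ℕ) [Fact p.Prime] [CharP K p]
variable (δ ε : Derivation ℤ K K) (x y : K)

/-- KEY LEMMA (direction ⇒), for Mathlib derivations.  `x, y` are `p`-independent (witnessed by the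
dual derivations `δ, ε`), `u ∈ K^p(x)` and `v ∈ K^p(y)` are not monomials, and the "lines"
`y·K^p(x/y)` and `v·K^p(u/v)` have a common nonzero element `I`.  Then `u^n ~ x^n - c1` and
`v^n ~ y^n - c2` for a common `0 < n < p`. -/
theorem key_lemma_der (hδx : δ x = 1) (hδy : δ y = 0) (hεx : ε x = 0) (hεy : ε y = 1)
    {u v : K} (hu : u ∈ adj p x) (hv : v ∈ adj p y)
    (hum : ∀ j : ℕ, ∀ c ∈ Kp K p, u ≠ c * x ^ j) (hvm : ∀ j : ℕ, ∀ c ∈ Kp K p, v ≠ c * y ^ j)
    {I : K} (hI : I ≠ 0) (hI1 : I / y ∈ adj p (x / y)) (hI2 : I / v ∈ adj p (u / v)) :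
    ∃ n, 0 < n ∧ n < p ∧ ∃ c1 ∈ Kp K p, ∃ c2 ∈ Kp K p, c1 ≠ 0 ∧ c2 ≠ 0 ∧
      u ^ n / (x ^ n - c1) ∈ Kp K p ∧ v ^ n / (y ^ n - c2) ∈ Kp K p := by
  have hx0 := ne_zero_of_D_eq_one δ x hδx
  have hy0 := ne_zero_of_D_eq_one ε y hεy
  obtain ⟨hu0, hu', hPne⟩ := nonmonomial p δ x hδx hu hum
  obtain ⟨hv0, hv', hQne⟩ := nonmonomial p ε y hεy hv hvm
  have hεu : ε u = 0 := D_adj_of_D_eq_zero p ε hεx hu
  have hδv : δ v = 0 := D_adj_of_D_eq_zero p δ hδy hv
  obtain ⟨a, ha⟩ : ∃ a, a = δ I := ⟨_, rfl⟩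
  obtain ⟨b, hb⟩ : ∃ b, b = ε I := ⟨_, rfl⟩
  -- Euler identity for (x, y)
  have hE1 : x * a + y * b = I := by
    let E : Derivation ℤ K K := x • δ + y • ε
    have hE : ∀ w, E w = x * δ w + y * ε w := fun w => by simp [E]
    have hEx : E x = x := by rw [hE, hδx, hεx]; ring
    have hEy : E y = y := by rw [hE, hδy, hεy]; ring
    have hExy : E (x / y) = 0 := by
      rw [E.leibniz_div, hEx, hEy]; simp [mul_comm]
    have hEh : E (I / y) = 0 := D_adj_of_D_eq_zero p E hExy hI1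
    have hEI : E (y * (I / y)) = I := by
      rw [E.leibniz, hEh, hEy, smul_zero, zero_add, smul_eq_mul, div_mul_cancel₀ _ hy0]
    rw [mul_div_cancel₀ _ hy0, hE] at hEI
    rw [ha, hb]; exact hEI
  -- Euler identity for (u, v)
  have hE2 : u / δ u * a + v / ε v * b = I := by
    let E : Derivation ℤ K K := (u / δ u) • δ + (v / ε v) • ε
    have hE : ∀ w, E w = u / δ u * δ w + v / ε v * ε w := fun w => by simp [E]
    have hEu : E u = u := by rw [hE, hεu, mul_zero, add_zero, div_mul_cancel₀ _ hu']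
    have hEv : E v = v := by rw [hE, hδv, mul_zero, zero_add, div_mul_cancel₀ _ hv']
    have hEuv : E (u / v) = 0 := by
      rw [E.leibniz_div, hEu, hEv]; simp [mul_comm]
    have hEh : E (I / v) = 0 := D_adj_of_D_eq_zero p E hEuv hI2
    have hEI : E (v * (I / v)) = I := by
      rw [E.leibniz, hEh, hEv, smul_zero, zero_add, smul_eq_mul, div_mul_cancel₀ _ hv0]
    rw [mul_div_cancel₀ _ hv0, hE] at hEI
    rw [ha, hb]; exact hEI
  -- commutation of the two derivations on I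
  have hcomm : δ b = ε a := by
    let C : Derivation ℤ K K := ⁅δ, ε⁆
    have hC : ∀ w, C w = δ (ε w) - ε (δ w) := fun w => Derivation.commutator_apply w
    have hCx : C x = 0 := by rw [hC, hεx, hδx, map_zero, Derivation.map_one_eq_zero, sub_zero]
    have hCy : C y = 0 := by rw [hC, hεy, hδy, map_zero, Derivation.map_one_eq_zero, sub_zero]
    have hCxy : C (x / y) = 0 := by
      rw [C.leibniz_div, hCx, hCy]; simp
    have hCh : C (I / y) = 0 := D_adj_of_D_eq_zero p C hCxy hI1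
    have hCI : C (y * (I / y)) = 0 := by
      rw [C.leibniz, hCh, hCy]; simp
    rw [mul_div_cancel₀ _ hy0, hC] at hCI
    rw [ha, hb]; exact sub_eq_zero.1 hCI
  obtain ⟨P, hP⟩ : ∃ P, P = x - u / δ u := ⟨_, rfl⟩
  obtain ⟨Q, hQ⟩ : ∃ Q, Q = y - v / ε v := ⟨_, rfl⟩
  rw [← hP] at hPne
  rw [← hQ] at hQne
  have hPQ : P * a + Q * b = 0 := by
    rw [hP, hQ]; linear_combination hE1 - hE2
  have hPmem : P ∈ adj p x := by
    rw [hP]; exact sub_mem (self_mem_adj p x) (div_mem hu (D_mem_adj p δ x hδx hu))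
  have hQmem : Q ∈ adj p y := by
    rw [hQ]; exact sub_mem (self_mem_adj p y) (div_mem hv (D_mem_adj p ε y hεy hv))
  have hεP : ε P = 0 := D_adj_of_D_eq_zero p ε hεx hPmem
  have hδQ : δ Q = 0 := D_adj_of_D_eq_zero p δ hδy hQmem
  have hP0 : P ≠ 0 := fun h => hPne 0 (zero_mem _) (by rw [h, zero_mul])
  have hQ0 : Q ≠ 0 := fun h => hQne 0 (zero_mem _) (by rw [h, zero_mul])
  obtain ⟨W, hW⟩ : ∃ W, W = y * P - x * Q := ⟨_, rfl⟩
  have hW0 : W ≠ 0 := by
    intro h
    have h1 : P / x = Q / y := by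
      rw [div_eq_div_iff hx0 hy0]
      linear_combination hW.symm.trans h
    have hlmem : P / x ∈ adj p x := div_mem hPmem (self_mem_adj p x)
    have hl0 : δ (P / x) = 0 := by
      rw [h1]; exact D_adj_of_D_eq_zero p δ hδy (div_mem hQmem (self_mem_adj p y))
    have hlK : P / x ∈ Kp K p := mem_Kp_of_D_eq_zero p δ x hδx hlmem hl0
    exact hPne (P / x) hlK (by rw [div_mul_cancel₀ _ hx0])
  have hWa : W * a = -(Q * I) := by rw [hW]; linear_combination y * hPQ - Q * hE1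
  have hWb : W * b = P * I := by rw [hW]; linear_combination P * hE1 - x * hPQ
  have hδW : δ W = y * δ P - Q := by
    rw [hW, map_sub, δ.leibniz, δ.leibniz, hδy, hδQ, hδx]
    simp only [smul_eq_mul]; ring
  have hεW : ε W = P - x * ε Q := by
    rw [hW, map_sub, ε.leibniz, ε.leibniz, hεy, hεP, hεx]
    simp only [smul_eq_mul]; ring
  have h1 : δ W * b + W * δ b = δ P * I + P * a := by
    have := congrArg δ hWb
    rw [δ.leibniz, δ.leibniz, ← ha] at this
    simp only [smul_eq_mul] at this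
    linear_combination this
  have h2 : ε W * a + W * ε a = -(ε Q * I + Q * b) := by
    have := congrArg ε hWa
    rw [map_neg, ε.leibniz, ε.leibniz, ← hb] at this
    simp only [smul_eq_mul] at this
    linear_combination this
  have h3 : δ P * x * a + ε Q * y * b = 0 := by
    rw [hδW] at h1
    rw [hεW, ← hcomm] at h2
    linear_combination -h1 + h2 - 2 * hPQ + (δ P + ε Q) * hE1
  have h4 : y * P * ε Q = x * Q * δ P := by
    have : I * (y * P * ε Q - x * Q * δ P) = 0 := by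
      linear_combination W * h3 - δ P * x * hWa - ε Q * y * hWb
    exact sub_eq_zero.1 ((mul_eq_zero.1 this).resolve_left hI)
  obtain ⟨lam, hlam⟩ : ∃ lam, lam = x * δ P / P := ⟨_, rfl⟩
  have hlam2 : lam = y * ε Q / Q := by
    rw [hlam, div_eq_div_iff hP0 hQ0]; linear_combination -h4
  have hlmem : lam ∈ adj p x := by
    rw [hlam]
    exact div_mem (mul_mem (self_mem_adj p x) (D_mem_adj p δ x hδx hPmem)) hPmem
  have hl0 : δ lam = 0 := by
    rw [hlam2]
    exact D_adj_of_D_eq_zero p δ hδy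
      (div_mem (mul_mem (self_mem_adj p y) (D_mem_adj p ε y hεy hQmem)) hQmem)
  have hlK : lam ∈ Kp K p := mem_Kp_of_D_eq_zero p δ x hδx hlmem hl0
  have hPe : x * δ P = lam * P := by rw [hlam, div_mul_cancel₀ _ hP0]
  have hQe : y * ε Q = lam * Q := by rw [hlam2, div_mul_cancel₀ _ hQ0]
  obtain ⟨m, hm, c1, hc1, hPc, hlm⟩ := eigen p δ x hδx hPmem hP0 hlK hPe
  obtain ⟨m', hm', c2, hc2, hQc, hlm'⟩ := eigen p ε y hεy hQmem hQ0 hlK hQe
  have hmm : m = m' := natCast_inj_of_lt p hm hm' (hlm.symm.trans hlm')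
  subst hmm
  have hc10 : c1 ≠ 0 := by
    rintro rfl; exact hP0 (by rw [hPc, zero_mul])
  have hc20 : c2 ≠ 0 := by
    rintro rfl; exact hQ0 (by rw [hQc, zero_mul])
  have hm1 : m ≠ 1 := by
    rintro rfl
    exact hPne c1 hc1 (by rw [hPc, pow_one])
  rw [hP] at hPc
  rw [hQ] at hQc
  obtain ⟨hn0, hnp, c1', hc1', hc1'0, hU⟩ := after p δ x hδx hu hu' hc1 hc10 hm hm1 hPc
  obtain ⟨-, -, c2', hc2', hc2'0, hV⟩ := after p ε y hεy hv hv' hc2 hc20 hm hm1 hQc
  exact ⟨twist p m, hn0, hnp, c1', hc1', c2', hc2', hc1'0, hc2'0, hU, hV⟩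

end twovar

section extras

variable (p : ℕ) [Fact p.Prime] [CharP K p]
variable (D : Derivation ℤ K K) (t : K)

/-- `t^n ∉ K^p` translated: `t^n - c ≠ 0` for `0 < n < p`, `c ∈ K^p`. -/
theorem pow_sub_ne_zero (ht : D t = 1) {n : ℕ} (hn0 : 0 < n) (hnp : n < p) {c : K}
    (hc : c ∈ Kp K p) : t ^ n - c ≠ 0 := by
  have ht0 := ne_zero_of_D_eq_one D t ht
  have hn : (n : K) ≠ 0 := natCast_ne_zero_of_lt p hn0 hnp
  have hDtn : D (t ^ n - c) = (n : K) * t ^ (n - 1) := by
    rw [map_sub, D_Kp p D hc, D.leibniz_pow, ht]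
    simp
  intro h0
  rw [h0, map_zero] at hDtn
  exact mul_ne_zero hn (pow_ne_zero _ ht0) hDtn.symm

/-- Converse of `final`: `u^n ~ t^n - c` gives the logarithmic-derivative equation. -/
theorem logder_of_twisted (ht : D t = 1) {u c : K} {n : ℕ} (hn0 : 0 < n) (hnp : n < p)
    (hu0 : u ≠ 0) (hc : c ∈ Kp K p) (h : u ^ n / (t ^ n - c) ∈ Kp K p) :
    D u * (t ^ n - c) = u * t ^ (n - 1) := by
  have hne := pow_sub_ne_zero p D t ht hn0 hnp hc
  have hn : (n : K) ≠ 0 := natCast_ne_zero_of_lt p hn0 hnp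
  have hk : u ^ n = u ^ n / (t ^ n - c) * (t ^ n - c) := by rw [div_mul_cancel₀ _ hne]
  have hD := congrArg D hk
  rw [D.leibniz, D_Kp p D h, D.leibniz_pow, map_sub, D_Kp p D hc, D.leibniz_pow, ht] at hD
  simp only [smul_eq_mul, nsmul_eq_mul, mul_one, mul_zero, add_zero, sub_zero] at hD
  have hun : u ^ n = u ^ (n - 1) * u := by
    rw [← pow_succ, Nat.sub_add_cancel hn0]
  have h2 : (n : K) * u ^ (n - 1) * (D u * (t ^ n - c) - u * t ^ (n - 1)) = 0 := by
    have h3 : u ^ n / (t ^ n - c) * (t ^ n - c) = u ^ (n - 1) * u := by rw [← hk, hun]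
    linear_combination (t ^ n - c) * hD + (n : K) * t ^ (n - 1) * h3
  have h4 : (n : K) * u ^ (n - 1) ≠ 0 := mul_ne_zero hn (pow_ne_zero _ hu0)
  exact sub_eq_zero.1 ((mul_eq_zero.1 h2).resolve_left h4)

/-- Disjointness of the twisted lines: the twist `n` of a non-zero `u` is unique. -/
theorem twist_unique (ht : D t = 1) {u c1 c2 : K} {n m : ℕ} (hn0 : 0 < n) (hnp : n < p)
    (hm0 : 0 < m) (hmp : m < p) (hu0 : u ≠ 0) (hc1 : c1 ∈ Kp K p) (hc2 : c2 ∈ Kp K p)
    (hc10 : c1 ≠ 0) (h1 : u ^ n / (t ^ n - c1) ∈ Kp K p) (h2 : u ^ m / (t ^ m - c2) ∈ Kp K p) :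
    n = m := by
  by_contra hne
  have e1 := logder_of_twisted p D t ht hn0 hnp hu0 hc1 h1
  have e2 := logder_of_twisted p D t ht hm0 hmp hu0 hc2 h2
  have e3 : u * ((t ^ n - c1) * t ^ (m - 1) - (t ^ m - c2) * t ^ (n - 1)) = 0 := by
    linear_combination -(t ^ n - c1) * e2 + (t ^ m - c2) * e1
  have e4 := (mul_eq_zero.1 e3).resolve_left hu0
  have e5 : t ^ n * t ^ (m - 1) = t ^ m * t ^ (n - 1) := by
    rw [← pow_add, ← pow_add]; congr 1; omega
  have e6 : c2 * t ^ (n - 1) - c1 * t ^ (m - 1) = 0 := by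
    linear_combination e4 - e5
  have key := indep p D t ht p le_rfl
    (fun i => (if i = n - 1 then c2 else 0) - (if i = m - 1 then c1 else 0))
    (fun i => sub_mem (by split_ifs; exacts [hc2, zero_mem _]) (by split_ifs; exacts [hc1, zero_mem _]))
    (by
      simp only [sub_mul, Finset.sum_sub_distrib, ite_mul, zero_mul]
      rw [Finset.sum_ite_eq' (range p) (n - 1), Finset.sum_ite_eq' (range p) (m - 1),
        if_pos (Finset.mem_range.2 (by omega)), if_pos (Finset.mem_range.2 (by omega))]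
      exact e6)
    (m - 1) (by omega)
  have hnm : ¬ (m - 1 = n - 1) := by omega
  simp only [hnm, if_false, if_true, zero_sub, neg_eq_zero] at key
  exact hc10 key

end extras

section plain

variable (p : ℕ) [Fact p.Prime] [CharP K p]

/-- A plain additive Leibniz map `K → K` as a Mathlib derivation. -/
def toDer (D : K → K) (hadd : ∀ a b, D (a + b) = D a + D b)
    (hmul : ∀ a b, D (a * b) = a * D b + b * D a) : Derivation ℤ K K :=
  Derivation.mk' (AddMonoidHom.mk' D hadd).toIntLinearMap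
    (fun a b => by
      show D (a * b) = a • D b + b • D a
      rw [hmul, smul_eq_mul, smul_eq_mul])

@[simp] theorem toDer_apply (D : K → K) (hadd : ∀ a b, D (a + b) = D a + D b)
    (hmul : ∀ a b, D (a * b) = a * D b + b * D a) (a : K) : toDer D hadd hmul a = D a := rfl

/-- KEY LEMMA (direction ⇒), for plain-function derivations. -/
theorem key_lemma (D1 D2 : K → K)
    (add1 : ∀ a b, D1 (a + b) = D1 a + D1 b) (mul1 : ∀ a b, D1 (a * b) = a * D1 b + b * D1 a)
    (add2 : ∀ a b, D2 (a + b) = D2 a + D2 b) (mul2 : ∀ a b, D2 (a * b) = a * D2 b + b * D2 a)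
    (x y : K) (h1x : D1 x = 1) (h1y : D1 y = 0) (h2x : D2 x = 0) (h2y : D2 y = 1)
    {u v : K} (hu : u ∈ adj p x) (hv : v ∈ adj p y)
    (hum : ∀ j : ℕ, ∀ c ∈ Kp K p, u ≠ c * x ^ j) (hvm : ∀ j : ℕ, ∀ c ∈ Kp K p, v ≠ c * y ^ j)
    {I : K} (hI : I ≠ 0) (hI1 : I / y ∈ adj p (x / y)) (hI2 : I / v ∈ adj p (u / v)) :
    ∃ n, 0 < n ∧ n < p ∧ ∃ c1 ∈ Kp K p, ∃ c2 ∈ Kp K p, c1 ≠ 0 ∧ c2 ≠ 0 ∧
      u ^ n / (x ^ n - c1) ∈ Kp K p ∧ v ^ n / (y ^ n - c2) ∈ Kp K p :=
  key_lemma_der p (toDer D1 add1 mul1) (toDer D2 add2 mul2) x y h1x h1y h2x h2y hu hv hum hvm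
    hI hI1 hI2

end plain

end Crest.Agent.S0010.Key32
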