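import Mathlib
import Crest.Prelude.Def_MilnorK

/-!
# Row 9 (S0010), steps (1) and (3): the `1`-fields are intrinsic

`K0 = K^p`.  For units `u w` of `K` with `w = a u + b`, `a b ∈ K0`, the tensor `[u] ⊗ [w]` lies in
the Steinberg span (`tmul_affine_mem_steinberg`).  A compatible `Θ` maps the classes of
`K0(u)` onto the classes of `L0(u')` whenever `Θ[u] = [u']` (`mem_K0adj_iff`).
-/

set_option autoImplicit false
set_option linter.unusedSectionVars false
open Crest.NumberTheoryR.MilnorK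
open scoped TensorProduct

namespace Crest.Agent.S0010.OneField

variable {p : ℕ} [Fact p.Prime] {K : Type*} [Field K] [CharP K p]

/-- `K0 = K^p`, the subfield of `p`-th powers. -/
abbrev K0 (K : Type*) (p : ℕ) [Field K] [Fact p.Prime] [CharP K p] : Subfield K :=
  (frobenius K p).fieldRange

/-- `K0(u)`, the subfield generated by `K^p` and `u`. -/
abbrev K0adj (K : Type*) (p : ℕ) [Field K] [Fact p.Prime] [CharP K p] (u : K) : Subfield K :=
  Subfield.closure (((K0 K p : Subfield K) : Set K) ∪ {u})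

theorem mem_K0_iff {a : K} : a ∈ K0 K p ↔ ∃ b : K, b ^ p = a := by
  simp [K0, RingHom.mem_fieldRange, frobenius_def]

theorem K0_le_K0adj (u : K) : K0 K p ≤ K0adj K p u := fun _ hx =>
  Subfield.subset_closure (Or.inl hx)

theorem self_mem_K0adj (u : K) : u ∈ K0adj K p u :=
  Subfield.subset_closure (Or.inr rfl)

theorem K0adj_le {u : K} {S : Subfield K} (h0 : K0 K p ≤ S) (hu : u ∈ S) : K0adj K p u ≤ S := by
  apply Subfield.closure_le.mpr
  rintro x (hx | hx)
  · exact h0 hx
  · rw [Set.mem_singleton_iff] at hx; subst hx; exact hu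

theorem cls_mul (u v : Kˣ) : cls K p (u * v) = cls K p u + cls K p v := rfl

theorem cls_one : cls K p 1 = 0 := rfl

theorem cls_inv (u : Kˣ) : cls K p u⁻¹ = - cls K p u := rfl

theorem cls_surjective : Function.Surjective (cls K p) := by
  intro c
  obtain ⟨a, rfl⟩ := QuotientAddGroup.mk_surjective c
  exact ⟨Additive.toMul a, rfl⟩

theorem cls_eq_zero_iff (u : Kˣ) : cls K p u = 0 ↔ (u : K) ∈ K0 K p := by
  rw [mem_K0_iff]
  unfold cls
  rw [QuotientAddGroup.eq_zero_iff]
  unfold pMultiples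
  rw [AddMonoidHom.mem_range]
  constructor
  · rintro ⟨y, hy⟩
    refine ⟨((Additive.toMul y : Kˣ) : K), ?_⟩
    have : (Additive.toMul y) ^ p = u := by
      have := congrArg Additive.toMul hy
      simpa using this
    rw [← this]; simp
  · rintro ⟨b, hb⟩
    have hb0 : b ≠ 0 := by
      rintro rfl
      have hp : p ≠ 0 := (Fact.out : p.Prime).ne_zero
      rw [zero_pow hp] at hb
      exact u.ne_zero hb.symm
    refine ⟨Additive.ofMul (Units.mk0 b hb0), ?_⟩
    have : (Units.mk0 b hb0) ^ p = u := by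
      ext; simpa using hb
    simp [← this]

theorem cls_eq_cls_iff (u v : Kˣ) : cls K p u = cls K p v ↔ ((u : K) / v) ∈ K0 K p := by
  have h : cls K p u = cls K p v ↔ cls K p (u * v⁻¹) = 0 := by
    rw [cls_mul, cls_inv, ← sub_eq_add_neg, sub_eq_zero]
  rw [h, cls_eq_zero_iff]
  simp [div_eq_mul_inv]

/-- Classes of units with a prescribed value. -/
theorem cls_mk0_eq_zero {c : K} (hc : c ≠ 0) (h : c ∈ K0 K p) : cls K p (Units.mk0 c hc) = 0 :=
  (cls_eq_zero_iff _).mpr h

theorem cls_mk0_mul {x y : K} (hx : x ≠ 0) (hy : y ≠ 0) :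
    cls K p (Units.mk0 (x * y) (mul_ne_zero hx hy))
      = cls K p (Units.mk0 x hx) + cls K p (Units.mk0 y hy) := by
  rw [← cls_mul]; congr 1; ext; simp

theorem cls_mk0_inv {x : K} (hx : x ≠ 0) :
    cls K p (Units.mk0 x⁻¹ (inv_ne_zero hx)) = - cls K p (Units.mk0 x hx) := by
  rw [← cls_inv]; congr 1; ext; simp

theorem cls_mk0_congr {x y : K} (hx : x ≠ 0) (hy : y ≠ 0) (h : x = y) :
    cls K p (Units.mk0 x hx) = cls K p (Units.mk0 y hy) := by
  subst h; rfl

/-- Multiplying by a nonzero element of `K0` does not change the class. -/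
theorem cls_mk0_K0_mul {c x : K} (hc : c ≠ 0) (hcK : c ∈ K0 K p) (hx : x ≠ 0) :
    cls K p (Units.mk0 (c * x) (mul_ne_zero hc hx)) = cls K p (Units.mk0 x hx) := by
  rw [cls_mk0_mul hc hx, cls_mk0_eq_zero hc hcK]
  exact zero_add (cls K p (Units.mk0 x hx))

theorem cls_mk0_coe (u : Kˣ) : cls K p (Units.mk0 (u : K) u.ne_zero) = cls K p u := by
  congr 1; ext; simp

/-- The generators of the Steinberg span. -/
theorem gen_mem_steinberg {f : K} (hf : f ≠ 0) (hf1 : 1 - f ≠ 0) :
    cls K p (Units.mk0 f hf) ⊗ₜ[ZMod p] cls K p (Units.mk0 (1 - f) hf1) ∈ steinberg K p :=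
  Submodule.subset_span ⟨f, hf, hf1, rfl⟩

/-- `[x] ⊗ [x]` is a Steinberg element. -/
theorem tmul_self_mem_steinberg {x : K} (hx : x ≠ 0) :
    cls K p (Units.mk0 x hx) ⊗ₜ[ZMod p] cls K p (Units.mk0 x hx) ∈ steinberg K p := by
  by_cases h1 : x = 1
  · subst h1
    have : cls K p (Units.mk0 (1 : K) hx) = 0 := cls_mk0_eq_zero hx (one_mem _)
    rw [this, TensorProduct.zero_tmul]
    exact zero_mem _
  · have hx1 : 1 - x ≠ 0 := sub_ne_zero.mpr (Ne.symm h1)
    have hxi : x⁻¹ ≠ 0 := inv_ne_zero hx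
    have hxi1 : 1 - x⁻¹ ≠ 0 := by
      rw [sub_ne_zero]
      intro h
      apply h1
      have := congrArg (fun t => t * x) h
      simpa [hx] using this
    have g1 := gen_mem_steinberg (p := p) hx hx1
    have g2 := gen_mem_steinberg (p := p) hxi hxi1
    -- `1 - x⁻¹ = (-1) * ((1 - x) * x⁻¹)`
    have hm1 : (-1 : K) ≠ 0 := neg_ne_zero.mpr one_ne_zero
    have e1 : cls K p (Units.mk0 (1 - x⁻¹) hxi1)
        = cls K p (Units.mk0 (1 - x) hx1) - cls K p (Units.mk0 x hx) := by
      have hprod : (1 - x) * x⁻¹ ≠ 0 := mul_ne_zero hx1 hxi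
      have : cls K p (Units.mk0 (1 - x⁻¹) hxi1)
          = cls K p (Units.mk0 ((-1) * ((1 - x) * x⁻¹)) (mul_ne_zero hm1 hprod)) := by
        apply cls_mk0_congr
        field_simp
        ring
      rw [this, cls_mk0_K0_mul hm1 (neg_mem (one_mem _)) hprod, cls_mk0_mul hx1 hxi,
        cls_mk0_inv hx]
      exact (sub_eq_add_neg _ _).symm
    have e2 : cls K p (Units.mk0 x⁻¹ hxi) = - cls K p (Units.mk0 x hx) := cls_mk0_inv hx
    rw [e1, e2] at g2
    have : cls K p (Units.mk0 x hx) ⊗ₜ[ZMod p] cls K p (Units.mk0 x hx)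
        = (-cls K p (Units.mk0 x hx)) ⊗ₜ[ZMod p]
            (cls K p (Units.mk0 (1 - x) hx1) - cls K p (Units.mk0 x hx))
          + cls K p (Units.mk0 x hx) ⊗ₜ[ZMod p] cls K p (Units.mk0 (1 - x) hx1) := by
      rw [TensorProduct.neg_tmul, TensorProduct.tmul_sub]
      abel
    rw [this]
    exact add_mem g2 g1

/-- Step (1) / (B): `[x] ⊗ [a x + b]` is a Steinberg element for `a b ∈ K0`. -/
theorem tmul_affine_mem_steinberg' {x a b : K} (hx : x ≠ 0) (ha : a ∈ K0 K p) (hb : b ∈ K0 K p)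
    (hw : a * x + b ≠ 0) :
    cls K p (Units.mk0 x hx) ⊗ₜ[ZMod p] cls K p (Units.mk0 (a * x + b) hw) ∈ steinberg K p := by
  by_cases ha0 : a = 0
  · subst ha0
    have : cls K p (Units.mk0 (0 * x + b) hw) = 0 := by
      apply cls_mk0_eq_zero
      simpa using hb
    rw [this, TensorProduct.tmul_zero]
    exact zero_mem _
  by_cases hb0 : b = 0
  · subst hb0
    have : cls K p (Units.mk0 (a * x + 0) hw) = cls K p (Units.mk0 x hx) := by
      rw [← cls_mk0_K0_mul ha0 ha hx]
      apply cls_mk0_congr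
      ring
    rw [this]
    exact tmul_self_mem_steinberg hx
  · -- `f = -a x / b`
    have hc : -a / b ≠ 0 := div_ne_zero (neg_ne_zero.mpr ha0) hb0
    have hcK : -a / b ∈ K0 K p := div_mem (neg_mem ha) hb
    have hf : (-a / b) * x ≠ 0 := mul_ne_zero hc hx
    have hbi : b⁻¹ ≠ 0 := inv_ne_zero hb0
    have h1f : 1 - (-a / b) * x ≠ 0 := by
      have : 1 - (-a / b) * x = b⁻¹ * (a * x + b) := by field_simp; ring
      rw [this]; exact mul_ne_zero hbi hw
    have g := gen_mem_steinberg (p := p) hf h1f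
    have e1 : cls K p (Units.mk0 ((-a / b) * x) hf) = cls K p (Units.mk0 x hx) :=
      cls_mk0_K0_mul hc hcK hx
    have e2 : cls K p (Units.mk0 (1 - (-a / b) * x) h1f) = cls K p (Units.mk0 (a * x + b) hw) := by
      rw [← cls_mk0_K0_mul hbi (inv_mem hb) hw]
      apply cls_mk0_congr
      field_simp; ring
    rw [e1, e2] at g
    exact g

/-- Step (1) / (B), unit form. -/
theorem tmul_affine_mem_steinberg (u w : Kˣ) (a b : K) (ha : a ∈ K0 K p) (hb : b ∈ K0 K p)
    (hw : (w : K) = a * u + b) :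
    cls K p u ⊗ₜ[ZMod p] cls K p w ∈ steinberg K p := by
  have hw' : a * (u : K) + b ≠ 0 := hw ▸ w.ne_zero
  have h := tmul_affine_mem_steinberg' (p := p) u.ne_zero ha hb hw'
  have e : cls K p (Units.mk0 (a * (u : K) + b) hw') = cls K p w := by
    rw [← cls_mk0_coe w]
    exact cls_mk0_congr _ _ hw.symm
  rw [cls_mk0_coe, e] at h
  exact h

/-! ### The total class map -/

/-- The class of an element of `K`, with `[0] := 0`. -/
noncomputable def kc (K : Type*) (p : ℕ) [Field K] (x : K) : KOne K p :=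
  haveI := Classical.propDecidable (x = 0)
  if h : x = 0 then 0 else cls K p (Units.mk0 x h)

theorem kc_zero : kc K p 0 = 0 := by
  unfold kc; rw [dif_pos rfl]

theorem kc_of_ne {x : K} (hx : x ≠ 0) : kc K p x = cls K p (Units.mk0 x hx) := by
  unfold kc; rw [dif_neg hx]

theorem kc_coe (u : Kˣ) : kc K p (u : K) = cls K p u := by
  rw [kc_of_ne u.ne_zero, cls_mk0_coe]

theorem kc_of_mem_K0 {c : K} (hc : c ∈ K0 K p) : kc K p c = 0 := by
  by_cases h : c = 0
  · subst h; exact kc_zero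
  · rw [kc_of_ne h]; exact cls_mk0_eq_zero h hc

theorem kc_eq_zero_iff {x : K} : kc K p x = 0 ↔ x ∈ K0 K p := by
  constructor
  · intro h
    by_cases hx : x = 0
    · subst hx; exact zero_mem _
    · rw [kc_of_ne hx, cls_eq_zero_iff] at h
      simpa using h
  · exact kc_of_mem_K0

theorem kc_one : kc K p 1 = 0 := kc_of_mem_K0 (one_mem _)

theorem kc_mul {x y : K} (hx : x ≠ 0) (hy : y ≠ 0) : kc K p (x * y) = kc K p x + kc K p y := by
  rw [kc_of_ne hx, kc_of_ne hy, kc_of_ne (mul_ne_zero hx hy), cls_mk0_mul hx hy]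

theorem kc_inv (x : K) : kc K p x⁻¹ = - kc K p x := by
  by_cases hx : x = 0
  · subst hx; simp [kc_zero]
  · rw [kc_of_ne hx, kc_of_ne (inv_ne_zero hx), cls_mk0_inv hx]

theorem kc_K0_mul {c : K} (hc : c ≠ 0) (hcK : c ∈ K0 K p) (x : K) : kc K p (c * x) = kc K p x := by
  by_cases hx : x = 0
  · subst hx; simp
  · rw [kc_mul hc hx, kc_of_mem_K0 hcK]; exact zero_add (kc K p x)

theorem kc_neg (x : K) : kc K p (-x) = kc K p x := by
  have h := kc_K0_mul (p := p) (neg_ne_zero.mpr one_ne_zero) (neg_mem (one_mem _)) x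
  simpa using h

/-! ### Compatible maps and subfields -/

section Compat

variable {L : Type*} [Field L] [CharP L p]

theorem isCompatible_symm {Θ : KOne K p ≃ₗ[ZMod p] KOne L p} (hΘ : IsCompatible Θ) :
    IsCompatible Θ.symm := by
  unfold IsCompatible at *
  rw [← hΘ, ← Submodule.map_comp, ← TensorProduct.map_comp]
  simp

theorem map_tmul_mem_steinberg {Θ : KOne K p ≃ₗ[ZMod p] KOne L p} (hΘ : IsCompatible Θ)
    {a b : KOne K p} (h : a ⊗ₜ[ZMod p] b ∈ steinberg K p) :
    Θ a ⊗ₜ[ZMod p] Θ b ∈ steinberg L p := by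
  unfold IsCompatible at hΘ
  rw [← hΘ]
  exact ⟨a ⊗ₜ[ZMod p] b, h, by simp⟩

/-- The classes of the units of a subfield. -/
def clsSub (S : Subfield L) : AddSubgroup (KOne L p) where
  carrier := {c | ∃ w : Lˣ, (w : L) ∈ S ∧ cls L p w = c}
  zero_mem' := ⟨1, by simp, rfl⟩
  add_mem' := by
    rintro _ _ ⟨w1, h1, rfl⟩ ⟨w2, h2, rfl⟩
    exact ⟨w1 * w2, by simpa using mul_mem h1 h2, rfl⟩
  neg_mem' := by
    rintro _ ⟨w, h, rfl⟩
    exact ⟨w⁻¹, by simpa using inv_mem h, rfl⟩

theorem cls_mem_clsSub_iff {S : Subfield L} (hS : K0 L p ≤ S) (w : Lˣ) :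
    cls L p w ∈ clsSub (p := p) S ↔ (w : L) ∈ S := by
  constructor
  · rintro ⟨w', hw', h⟩
    rw [cls_eq_cls_iff] at h
    have h2 : (w : L) = (w' : L) / ((w' : L) / w) := by
      field_simp
    rw [h2]
    exact div_mem hw' (hS h)
  · intro h
    exact ⟨w, h, rfl⟩

/-- Non-membership statement of step (2) for a field, as used below. -/
def StepTwo (L : Type*) (p : ℕ) [Field L] [Fact p.Prime] [CharP L p] : Prop :=
  ∀ a b : Lˣ, (a : L) ∉ K0 L p → (b : L) ∉ K0adj L p (a : L) →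
    cls L p a ⊗ₜ[ZMod p] cls L p b ∉ steinberg L p

/-- Key closure property: if `[t]` is sent into the classes of `S`, so is `[t + 1]`. -/
theorem map_kc_add_one_mem {Θ : KOne K p ≃ₗ[ZMod p] KOne L p} (hΘ : IsCompatible Θ)
    (hAL : StepTwo L p) {S : Subfield L} (hS : K0 L p ≤ S) {t : K}
    (ht : Θ (kc K p t) ∈ clsSub (p := p) S) : Θ (kc K p (t + 1)) ∈ clsSub (p := p) S := by
  by_cases ht0 : t = 0
  · subst ht0
    rw [zero_add, kc_one, map_zero]; exact zero_mem _
  by_cases ht1 : t + 1 = 0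
  · rw [ht1, kc_zero, map_zero]; exact zero_mem _
  obtain ⟨t', ht'S, ht'⟩ := ht
  obtain ⟨s', hs'⟩ := cls_surjective (p := p) (Θ (kc K p (t + 1)))
  have hw : (1 : K) * t + 1 ≠ 0 := by simpa using ht1
  have hB := tmul_affine_mem_steinberg' (p := p) ht0 (one_mem _) (one_mem _) hw
  have hB' := map_tmul_mem_steinberg hΘ hB
  have e1 : Θ (cls K p (Units.mk0 t ht0)) = cls L p t' := by
    rw [ht', kc_of_ne ht0]
  have e2 : Θ (cls K p (Units.mk0 (1 * t + 1) hw)) = cls L p s' := by
    rw [hs', kc_of_ne ht1]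
    congr 1
    exact cls_mk0_congr _ _ (by ring)
  rw [e1, e2] at hB'
  by_cases h0 : (t' : L) ∈ K0 L p
  · have : Θ (kc K p t) = 0 := by rw [← ht']; exact (cls_eq_zero_iff t').mpr h0
    have hk : kc K p t = 0 := by simpa using this
    have htK : t ∈ K0 K p := kc_eq_zero_iff.mp hk
    rw [kc_of_mem_K0 (add_mem htK (one_mem _)), map_zero]
    exact zero_mem _
  · by_contra hcon
    have hs : (s' : L) ∉ K0adj L p (t' : L) := by
      intro hmem
      apply hcon
      rw [← hs']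
      exact ⟨s', K0adj_le hS ht'S hmem, rfl⟩
    exact hAL t' s' h0 hs hB'

/-- The preimage under a compatible `Θ` of (the classes of) a subfield containing `L0` is
(the set of classes of) a subfield containing `K0`. -/
noncomputable def pullback (Θ : KOne K p ≃ₗ[ZMod p] KOne L p) (hΘ : IsCompatible Θ)
    (hAL : StepTwo L p) (S : Subfield L) (hS : K0 L p ≤ S) : Subfield K where
  carrier := {w | Θ (kc K p w) ∈ clsSub (p := p) S}
  mul_mem' := by
    intro a b ha hb
    simp only [Set.mem_ofPred_eq] at ha hb ⊢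
    by_cases ha0 : a = 0
    · subst ha0; rw [zero_mul, kc_zero, map_zero]; exact zero_mem _
    by_cases hb0 : b = 0
    · subst hb0; rw [mul_zero, kc_zero, map_zero]; exact zero_mem _
    rw [kc_mul ha0 hb0, map_add]
    exact add_mem ha hb
  one_mem' := by
    simp only [Set.mem_ofPred_eq]
    rw [kc_one, map_zero]; exact zero_mem _
  add_mem' := by
    intro a b ha hb
    have hmul : ∀ x y : K, Θ (kc K p x) ∈ clsSub (p := p) S → Θ (kc K p y) ∈ clsSub (p := p) S →
        Θ (kc K p (x * y)) ∈ clsSub (p := p) S := by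
      intro x y hx hy
      by_cases hx0 : x = 0
      · subst hx0; rw [zero_mul, kc_zero, map_zero]; exact zero_mem _
      by_cases hy0 : y = 0
      · subst hy0; rw [mul_zero, kc_zero, map_zero]; exact zero_mem _
      rw [kc_mul hx0 hy0, map_add]
      exact add_mem hx hy
    simp only [Set.mem_ofPred_eq] at ha hb ⊢
    by_cases hb0 : b = 0
    · subst hb0; rw [add_zero]; exact ha
    have hinv : Θ (kc K p b⁻¹) ∈ clsSub (p := p) S := by
      rw [kc_inv, map_neg]; exact neg_mem hb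
    have ht : Θ (kc K p (a * b⁻¹)) ∈ clsSub (p := p) S := hmul _ _ ha hinv
    have ht1 := map_kc_add_one_mem hΘ hAL hS ht
    have := hmul _ _ hb ht1
    have e : b * (a * b⁻¹ + 1) = a + b := by field_simp
    rw [e] at this
    exact this
  zero_mem' := by
    simp only [Set.mem_ofPred_eq]
    rw [kc_zero, map_zero]; exact zero_mem _
  neg_mem' := by
    intro a ha
    simp only [Set.mem_ofPred_eq] at ha ⊢
    rw [kc_neg]; exact ha
  inv_mem' := by
    intro a ha
    simp only [Set.mem_ofPred_eq] at ha ⊢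
    rw [kc_inv, map_neg]; exact neg_mem ha

theorem mem_pullback_iff {Θ : KOne K p ≃ₗ[ZMod p] KOne L p} (hΘ : IsCompatible Θ)
    (hAL : StepTwo L p) {S : Subfield L} (hS : K0 L p ≤ S) (w : Kˣ) (w' : Lˣ)
    (h : Θ (cls K p w) = cls L p w') :
    (w : K) ∈ pullback Θ hΘ hAL S hS ↔ (w' : L) ∈ S := by
  change Θ (kc K p (w : K)) ∈ clsSub (p := p) S ↔ _
  rw [kc_coe, h, cls_mem_clsSub_iff hS]

theorem K0_le_pullback {Θ : KOne K p ≃ₗ[ZMod p] KOne L p} (hΘ : IsCompatible Θ)
    (hAL : StepTwo L p) {S : Subfield L} (hS : K0 L p ≤ S) :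
    K0 K p ≤ pullback Θ hΘ hAL S hS := by
  intro c hc
  change Θ (kc K p c) ∈ clsSub (p := p) S
  rw [kc_of_mem_K0 hc, map_zero]; exact zero_mem _

/-- Step (3), one direction: `w ∈ K0(u)` implies `w' ∈ L0(u')` for representatives. -/
theorem mem_K0adj_imp {Θ : KOne K p ≃ₗ[ZMod p] KOne L p} (hΘ : IsCompatible Θ)
    (hAL : StepTwo L p) (u w : Kˣ) (u' w' : Lˣ)
    (hu : Θ (cls K p u) = cls L p u') (hw : Θ (cls K p w) = cls L p w')
    (hmem : (w : K) ∈ K0adj K p (u : K)) : (w' : L) ∈ K0adj L p (u' : L) := by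
  have hS : K0 L p ≤ K0adj L p (u' : L) := K0_le_K0adj _
  have hu' : (u : K) ∈ pullback Θ hΘ hAL _ hS :=
    (mem_pullback_iff hΘ hAL hS u u' hu).mpr (self_mem_K0adj _)
  have hle : K0adj K p (u : K) ≤ pullback Θ hΘ hAL _ hS :=
    K0adj_le (K0_le_pullback hΘ hAL hS) hu'
  exact (mem_pullback_iff hΘ hAL hS w w' hw).mp (hle hmem)

/-- Step (3) / STEP 1: a compatible `Θ` maps the classes of `K0(u)` onto the classes of
`L0(u')`, for every choice of representatives. -/
theorem mem_K0adj_iff {Θ : KOne K p ≃ₗ[ZMod p] KOne L p} (hΘ : IsCompatible Θ)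
    (hAK : StepTwo K p) (hAL : StepTwo L p) (u w : Kˣ) (u' w' : Lˣ)
    (hu : Θ (cls K p u) = cls L p u') (hw : Θ (cls K p w) = cls L p w') :
    (w : K) ∈ K0adj K p (u : K) ↔ (w' : L) ∈ K0adj L p (u' : L) := by
  constructor
  · exact mem_K0adj_imp hΘ hAL u w u' w' hu hw
  · refine mem_K0adj_imp (isCompatible_symm hΘ) hAK u' w' u w ?_ ?_
    · rw [← hu]; simp
    · rw [← hw]; simp

end Compat

end Crest.Agent.S0010.OneField
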