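import Mathlib

/-!
# The perfect core of a finitely generated extension of an algebraically closed field

`K` a field of characteristic `p`, finitely generated over an algebraically closed subfield `k`.
Then `k` is exactly the set of elements of `K` having `p^n`-th roots for every `n`.

Method.  (G) If `K = K^p(W)` for a finite set `W`, then `K / k(W)` is formally unramified
(the universal derivation kills `K^p` and `k(W)`), hence separable algebraic, so
`trdeg_k K ≤ |W|`.  The perfect core `P` is a perfect intermediate field; `K / P` has a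
separating transcendence basis `s` (Mathlib), so `K = K^p(s)` and `trdeg_k K ≤ |s| = trdeg_P K`;
by additivity of `trdeg`, `trdeg_k P = 0`, i.e. `P` is algebraic over `k`, so `P = k`.
-/

namespace Crest.Agent.S0010.PerfCoreK

open IntermediateField

variable {p : ℕ} [Fact p.Prime] {K : Type*} [Field K] [CharP K p]

theorem essFiniteType_of_closure (k : Subfield K)
    (hK : ∃ s : Finset K, Subfield.closure ((k : Set K) ∪ (s : Set K)) = ⊤) :
    Algebra.EssFiniteType k K := by
  obtain ⟨s, hs⟩ := hK
  rw [← IntermediateField.fg_top_iff]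
  refine ⟨s, ?_⟩
  apply IntermediateField.toSubfield_injective
  rw [IntermediateField.adjoin_toSubfield]
  have : Set.range (algebraMap k K) = (k : Set K) := by
    ext x
    constructor
    · rintro ⟨y, rfl⟩; exact y.2
    · intro hx; exact ⟨⟨x, hx⟩, rfl⟩
  rw [this, hs]
  rfl

/-- (G): if `K = K^p(W)` with `W` finite and `K` is finitely generated over `k`, then
`trdeg_k K ≤ |W|`. -/
theorem trdeg_le_card_of_closure_eq_top (k : Subfield K)
    (hK : ∃ s : Finset K, Subfield.closure ((k : Set K) ∪ (s : Set K)) = ⊤)
    (W : Finset K)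
    (hW : Subfield.closure (((frobenius K p).fieldRange : Set K) ∪ (W : Set K)) = ⊤) :
    Algebra.trdeg k K ≤ W.card := by
  have hess : Algebra.EssFiniteType k K := essFiniteType_of_closure k hK
  let F : IntermediateField k K := IntermediateField.adjoin k (W : Set K)
  have hessF : Algebra.EssFiniteType F K := Algebra.EssFiniteType.of_comp k F K
  have hunr : Algebra.FormallyUnramified F K := by
    constructor
    let D := KaehlerDifferential.D F K
    let S : Subfield K :=
      { carrier := {x | D x = 0}
        mul_mem' := by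
          intro a b ha hb
          simp only [Set.mem_ofPred_eq] at ha hb ⊢
          rw [Derivation.leibniz, ha, hb, smul_zero, smul_zero, add_zero]
        one_mem' := by simp
        add_mem' := by
          intro a b ha hb
          simp only [Set.mem_ofPred_eq] at ha hb ⊢
          rw [map_add, ha, hb, add_zero]
        zero_mem' := by simp
        neg_mem' := by
          intro a ha
          simp only [Set.mem_ofPred_eq] at ha ⊢
          rw [map_neg, ha, neg_zero]
        inv_mem' := by
          intro a ha
          simp only [Set.mem_ofPred_eq] at ha ⊢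
          rw [Derivation.leibniz_inv, ha, smul_zero] }
    have hS : (⊤ : Subfield K) ≤ S := by
      rw [← hW, Subfield.closure_le]
      rintro x (hx | hx)
      · obtain ⟨a, rfl⟩ := hx
        show D (frobenius K p a) = 0
        rw [frobenius_def, Derivation.leibniz_pow]
        rw [← Nat.cast_smul_eq_nsmul K, CharP.cast_eq_zero, zero_smul]
      · have hxF : x ∈ F := IntermediateField.subset_adjoin k (W : Set K) hx
        show D x = 0
        have := Derivation.map_algebraMap D (⟨x, hxF⟩ : F)
        simpa using this
    have hD : ∀ x : K, D x = 0 := fun x => hS (Subfield.mem_top x)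
    have hspan := KaehlerDifferential.span_range_derivation F K
    have hbot : (⊤ : Submodule K (Ω[K⁄F])) = ⊥ := by
      rw [← hspan, Submodule.span_eq_bot]
      rintro _ ⟨x, rfl⟩
      exact hD x
    refine ⟨fun a b => ?_⟩
    have ha : a ∈ (⊥ : Submodule K (Ω[K⁄F])) := hbot ▸ Submodule.mem_top
    have hb : b ∈ (⊥ : Submodule K (Ω[K⁄F])) := hbot ▸ Submodule.mem_top
    rw [Submodule.mem_bot] at ha hb
    rw [ha, hb]
  have hsep : Algebra.IsSeparable F K := Algebra.FormallyUnramified.isSeparable F K
  have halg : Algebra.IsAlgebraic F K := inferInstance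
  have halg' : Algebra.IsAlgebraic (Algebra.adjoin k (W : Set K)) K :=
    IntermediateField.isAlgebraic_adjoin_iff_top.mp halg
  have h := Algebra.IsAlgebraic.trdeg_le_cardinalMk (R := k) (A := K) (W : Set K)
  simpa using h

/-- The perfect core of `K` as a subfield. -/
def coreSub (K : Type*) [Field K] (p : ℕ) [Fact p.Prime] [CharP K p] : Subfield K where
  carrier := {x | ∀ n : ℕ, ∃ y : K, y ^ (p ^ n) = x}
  mul_mem' := by
    intro a b ha hb n
    obtain ⟨y, hy⟩ := ha n
    obtain ⟨z, hz⟩ := hb n
    exact ⟨y * z, by rw [mul_pow, hy, hz]⟩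
  one_mem' := fun n => ⟨1, one_pow _⟩
  add_mem' := by
    intro a b ha hb n
    obtain ⟨y, hy⟩ := ha n
    obtain ⟨z, hz⟩ := hb n
    exact ⟨y + z, by rw [add_pow_char_pow, hy, hz]⟩
  zero_mem' := fun n => ⟨0, zero_pow (pow_ne_zero _ (Fact.out : p.Prime).ne_zero)⟩
  neg_mem' := by
    intro a ha n
    obtain ⟨y, hy⟩ := ha n
    refine ⟨0 - y, ?_⟩
    rw [sub_pow_char_pow, hy, zero_pow (pow_ne_zero _ (Fact.out : p.Prime).ne_zero), zero_sub]
  inv_mem' := by
    intro a ha n
    obtain ⟨y, hy⟩ := ha n
    exact ⟨y⁻¹, by rw [inv_pow, hy]⟩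

theorem mem_coreSub {x : K} : x ∈ coreSub K p ↔ ∀ n : ℕ, ∃ y : K, y ^ (p ^ n) = x := Iff.rfl

omit [CharP K p] in
/-- Elements of an algebraically closed subfield have all `p^n`-th roots. -/
theorem exists_root_of_mem (k : Subfield K) [IsAlgClosed k] {t : K} (ht : t ∈ k) (n : ℕ) :
    ∃ s : K, s ^ (p ^ n) = t := by
  obtain ⟨z, hz⟩ := IsAlgClosed.exists_pow_nat_eq (⟨t, ht⟩ : k)
    (pow_pos (Fact.out : p.Prime).pos n)
  refine ⟨(z : K), ?_⟩
  have := congrArg (Subtype.val) hz
  simpa using this

/-- An algebraically closed subfield consists of `p`-th powers. -/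
theorem subfield_le_fieldRange (k : Subfield K) [IsAlgClosed k] :
    k ≤ (frobenius K p).fieldRange := by
  intro t ht
  obtain ⟨s, hs⟩ := exists_root_of_mem (p := p) k ht 1
  exact ⟨s, by rw [frobenius_def, ← hs, pow_one]⟩

/-- `K` is finitely generated over `K^p`. -/
theorem fg_over_fieldRange (k : Subfield K) [IsAlgClosed k]
    (hK : ∃ s : Finset K, Subfield.closure ((k : Set K) ∪ (s : Set K)) = ⊤) :
    ∃ S : Finset K,
      Subfield.closure (((frobenius K p).fieldRange : Set K) ∪ (S : Set K)) = ⊤ := by
  obtain ⟨s, hs⟩ := hK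
  refine ⟨s, top_unique ?_⟩
  rw [← hs]
  apply Subfield.closure_mono
  exact Set.union_subset_union_left _ (subfield_le_fieldRange (p := p) k)

/-- **Perfect core.**  If `K` is finitely generated over the algebraically closed subfield `k`
and `t` has `p^n`-th roots in `K` for all `n`, then `t ∈ k`. -/
theorem mem_of_forall_root (k : Subfield K) [IsAlgClosed k]
    (hK : ∃ s : Finset K, Subfield.closure ((k : Set K) ∪ (s : Set K)) = ⊤) {t : K}
    (ht : ∀ n : ℕ, ∃ s : K, s ^ (p ^ n) = t) : t ∈ k := by
  -- the perfect core as an intermediate field of `K / k`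
  let P : IntermediateField k K :=
    (coreSub K p).toIntermediateField (fun x n => exists_root_of_mem (p := p) k x.2 n)
  have hPmem : ∀ x : K, x ∈ P ↔ ∀ n : ℕ, ∃ y : K, y ^ (p ^ n) = x := fun x => Iff.rfl
  -- `P` is perfect
  have hsurj : Function.Surjective (frobenius P p) := by
    rintro ⟨x, hx⟩
    obtain ⟨y, hy⟩ := (hPmem x).1 hx 1
    rw [pow_one] at hy
    have hyP : y ∈ P := by
      rw [hPmem]
      intro n
      obtain ⟨z, hz⟩ := (hPmem x).1 hx (n + 1)
      refine ⟨z, ?_⟩
      have : (z ^ p ^ n) ^ p = y ^ p := by rw [← pow_mul, ← pow_succ, hz, hy]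
      exact frobenius_inj K p this
    refine ⟨⟨y, hyP⟩, ?_⟩
    apply Subtype.ext
    simpa [frobenius_def] using hy
  have : PerfectRing P p := PerfectRing.ofSurjective P p hsurj
  have : PerfectField P := PerfectRing.toPerfectField P p
  have hess : Algebra.EssFiniteType k K := essFiniteType_of_closure k hK
  have hessP : Algebra.EssFiniteType P K := Algebra.EssFiniteType.of_comp k P K
  obtain ⟨s, hs, hsep⟩ := exists_isTranscendenceBasis_and_isSeparable_of_perfectField P K
  -- `K = K^p(s)`
  have hPle : ∀ x : K, x ∈ P → x ∈ (frobenius K p).fieldRange := by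
    intro x hx
    obtain ⟨y, hy⟩ := (hPmem x).1 hx 1
    exact ⟨y, by rw [frobenius_def, ← hy, pow_one]⟩
  have hW : Subfield.closure (((frobenius K p).fieldRange : Set K) ∪ (s : Set K)) = ⊤ := by
    refine top_unique fun x _ => ?_
    set M : IntermediateField P K := IntermediateField.adjoin P (s : Set K) with hM
    have hxsep : IsSeparable M x := Algebra.IsSeparable.isSeparable M x
    have hadj := IntermediateField.adjoin_simple_eq_adjoin_pow_expChar_pow_of_isSeparable
      (F := M) (E := K) hxsep p 1
    have hx1 : x ∈ M⟮x ^ p ^ 1⟯ := by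
      rw [← hadj]
      exact IntermediateField.mem_adjoin_simple_self M x
    have hx2 : x ∈ (M⟮x ^ p ^ 1⟯).toSubfield := hx1
    rw [IntermediateField.adjoin_toSubfield] at hx2
    refine (Subfield.closure_le.2 ?_) hx2
    rintro y (hy | hy)
    · obtain ⟨m, rfl⟩ := hy
      -- elements of `M = P(s)`
      have hm : (m : K) ∈ (IntermediateField.adjoin P (s : Set K)).toSubfield := m.2
      rw [IntermediateField.adjoin_toSubfield] at hm
      refine (Subfield.closure_le.2 ?_) hm
      rintro z (hz | hz)
      · obtain ⟨c, rfl⟩ := hz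
        exact Subfield.subset_closure (Or.inl (hPle _ c.2))
      · exact Subfield.subset_closure (Or.inr hz)
    · rw [Set.mem_singleton_iff] at hy
      subst hy
      exact Subfield.subset_closure (Or.inl ⟨x, by rw [frobenius_def, pow_one]⟩)
  have h1 : Algebra.trdeg k K ≤ s.card := trdeg_le_card_of_closure_eq_top k hK s hW
  have h2 : Algebra.trdeg P K = s.card := by
    rw [← hs.cardinalMk_eq_trdeg]
    simp
  have hf1 : FaithfulSMul k P :=
    (faithfulSMul_iff_algebraMap_injective k P).mpr (algebraMap k P).injective
  have hf2 : FaithfulSMul P K :=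
    (faithfulSMul_iff_algebraMap_injective P K).mpr (algebraMap P K).injective
  have h3 : Algebra.trdeg k P + Algebra.trdeg P K = Algebra.trdeg k K :=
    trdeg_add_eq k P (A := K)
  have h4 : Algebra.trdeg k P = 0 := by
    rw [h2] at h3
    rw [← h3] at h1
    by_contra hne
    have hpos : 1 ≤ Algebra.trdeg k P := Cardinal.one_le_iff_ne_zero.mpr hne
    have : (1 : Cardinal) + s.card ≤ s.card := (add_le_add_left hpos _).trans h1
    have h5 : ((1 + s.card : ℕ) : Cardinal) ≤ (s.card : Cardinal) := by
      simpa using this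
    have h6 := Nat.cast_le.mp h5
    omega
  have h5 : Algebra.IsAlgebraic k P := trdeg_eq_zero_iff.mp h4
  have hbot : P = ⊥ := IntermediateField.eq_bot_of_isAlgClosed_of_isAlgebraic P
  have htP : t ∈ P := (hPmem t).2 ht
  rw [hbot, IntermediateField.mem_bot] at htP
  obtain ⟨c, rfl⟩ := htP
  exact c.2

end Crest.Agent.S0010.PerfCoreK
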