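/-
S0010 (row 9), module RIGID (PLAN step 4, the key lemma, direction "=>").

Setting: `x, y` p-independent; `u ∈ K^p(x)`, `v ∈ K^p(y)`, neither a `K^p`-multiple of a power
of `x` (resp. `y`); `I ≠ 0` with `I / y ∈ K^p(x / y)` and `I / v ∈ K^p(u / v)`.
Claim: `u^n = κ₁ (x^n - c₁)`, `v^n = κ₂ (y^n - c₂)` for ONE `n ∈ [1, p-1]` and nonzero constants
in `K^p`.

Proof (all in `K`; `∂x ∂y` from `exists_dual_derivations`, toolkit `DerFacts`).
Write `u' = ∂x u`, `v' = ∂y v` (both `≠ 0` by `mem_K0_of_D_eq_zero`, as `u, v ∉ K^p`; `∂y u = 0`,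
`∂x v = 0`), `Ix = ∂x I`, `Iy = ∂y I`.
1. `E = x ∂x + y ∂y` kills `x / y`, hence `K^p(x / y)`, so `E I = I`:  `x Ix + y Iy = I`.
2. `E' = (u/u') ∂x + (v/v') ∂y` kills `u / v`, hence `K^p(u / v)`, so `E' I = I`:
   `(u/u') Ix + (v/v') Iy = I`.
3. `P := x - u/u' ∈ K^p(x)`, `Q := y - v/v' ∈ K^p(y)`; `P Ix + Q Iy = 0`.  `P ≠ 0`: else
   `∂x (u / x) = 0`, `u ∈ K^p x`.  Same for `Q`.
4. `W := y P - x Q`.  Then `W Iy = P I` and `W Ix = - Q I`; so `W ≠ 0`, `Iy / I = P / W`,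
   `Ix / I = - Q / W`.
5. `I ∈ K^p(x, y)` so `∂x ∂y I = ∂y ∂x I` (`D_comm`), whence `∂x (Iy / I) = ∂y (Ix / I)`, i.e.
   `∂x (P / W) = ∂y (- Q / W)`.  Expanding (`∂y P = 0 = ∂x Q`): `x Q ∂x P = y P ∂y Q`, i.e.
   `x ∂x P / P = y ∂y Q / Q =: lam ∈ K^p(x) ∩ K^p(y) = K^p` (`adj_inter`).
6. `euler_eigen`: `P = c₁ x^m`, `Q = c₂ y^m'`, `lam = m = m'` in `K`, `m, m' < p`, so `m = m'`.
7. `m = 1` is impossible: `u = (1 - c₁) x u'`, so `x ∂x u = μ u` with `μ ∈ K^p`, and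
   `euler_eigen` makes `u` a `K^p`-multiple of a power of `x`.
8. `m ≠ 1`: let `n ∈ [1, p-1]`, `n ≡ 1 - m (mod p)`; then `x^m = x^(1-n)` up to a factor
   `x^p ∈ K^p`, so `u = u' x^(1-n) (x^n - c)` with `c ∈ K^p`, `c ≠ 0`; `x^n - c ≠ 0`;
   `∂x (u^n / (x^n - c)) = 0`, so `u^n = κ (x^n - c)` with `κ ∈ K^p` (`mem_K0_of_D_eq_zero`).
   Same for `v` with the same `n`.
-/
import Crest.Agent.S0010.Basic
import Crest.Agent.S0010.Der
import Crest.Agent.S0010.DerFacts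

set_option autoImplicit false
open Crest.NumberTheoryR.MilnorK

namespace Crest.Agent.S0010lib

variable {K : Type*} [Field K] {p : ℕ} [Fact p.Prime] [CharP K p]

/-- Leibniz rule in product form. -/
private theorem rigid_D_mul (D : Derivation ℤ K K) (a b : K) :
    D (a * b) = D a * b + a * D b := by
  rw [D.leibniz]; simp only [smul_eq_mul]; ring

/-- If a derivation `E` kills `z`, fixes `b ≠ 0` (Euler-type) and `I / b ∈ K^p(z)`,
then `E I = I`. -/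
private theorem rigid_euler (E : Derivation ℤ K K) {z b I : K} (hz : E z = 0) (hb : b ≠ 0)
    (hEb : E b = b) (hI : I / b ∈ adj p z) : E I = I := by
  have h := D_adj_eq_zero E hz hI
  rw [D_div E I b hb, hEb] at h
  have hb2 : b ^ 2 ≠ 0 := pow_ne_zero 2 hb
  rcases div_eq_zero_iff.mp h with h | h
  · have h2 : (E I - I) * b = 0 := by linear_combination h
    rcases mul_eq_zero.mp h2 with h' | h'
    · exact sub_eq_zero.mp h'
    · exact absurd h' hb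
  · exact absurd h hb2

/-- Step 8 (one variable): from `x - u/u' = c x^m`, `m ≠ 1`, get `u^n = κ (x^n - c₁)`. -/
private theorem rigid_final (D : Derivation ℤ K K) {x u c : K} {m : ℕ} (hx : x ∉ K0 K p)
    (hDx : D x = 1) (hu : u ∈ adj p x) (hu0 : u ≠ 0) (hu' : D u ≠ 0) (hc : c ∈ K0 K p)
    (hc0 : c ≠ 0) (hm : m < p) (hm1 : m ≠ 1) (hP : x - u / D u = c * x ^ m) :
    ∃ c₁ ∈ K0 K p, ∃ κ₁ ∈ K0 K p, c₁ ≠ 0 ∧ κ₁ ≠ 0 ∧
      u ^ (if m = 0 then 1 else p + 1 - m) =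
        κ₁ * (x ^ (if m = 0 then 1 else p + 1 - m) - c₁) := by
  have hp2 : 2 ≤ p := (Fact.out : p.Prime).two_le
  have hx_ne : x ≠ 0 := fun h => hx (h ▸ (K0 K p).zero_mem)
  set n : ℕ := if m = 0 then 1 else p + 1 - m with hn
  have hn1 : 1 ≤ n := by
    rw [hn]; split_ifs with h0
    · exact le_refl 1
    · omega
  have hnp : n < p := by
    rw [hn]; split_ifs with h0
    · omega
    · omega
  -- the constant
  obtain ⟨c₁, hc₁, hc₁0, hc₁x⟩ : ∃ c₁ ∈ K0 K p, c₁ ≠ 0 ∧ x ^ n * (c * x ^ m) = c₁ * x := by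
    by_cases h0 : m = 0
    · refine ⟨c, hc, hc0, ?_⟩
      have : n = 1 := by rw [hn]; simp [h0]
      rw [this, h0]; ring
    · refine ⟨c * x ^ p, mul_mem hc (pow_mem_K0 x), mul_ne_zero hc0 (pow_ne_zero p hx_ne), ?_⟩
      have hnm : n + m = p + 1 := by
        rw [hn]; simp only [h0, if_false]; omega
      calc x ^ n * (c * x ^ m) = c * x ^ (n + m) := by rw [pow_add]; ring
        _ = c * x ^ (p + 1) := by rw [hnm]
        _ = c * x ^ p * x := by rw [pow_succ]; ring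
  -- `u = u' (x - c x^m)`
  have hu1 : u = D u * (x - c * x ^ m) := by
    rw [← hP]; field_simp; ring
  -- `u x^(n-1) = u' (x^n - c₁)`
  have hxn : x ^ n = x ^ (n - 1) * x := by
    rw [← pow_succ]; congr 1; omega
  have hu2 : u * x ^ (n - 1) = D u * (x ^ n - c₁) := by
    have h3 : (u * x ^ (n - 1)) * x = (D u * (x ^ n - c₁)) * x := by
      calc (u * x ^ (n - 1)) * x = u * x ^ n := by rw [hxn]; ring
        _ = D u * (x ^ n * x - x ^ n * (c * x ^ m)) := by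
            conv_lhs => rw [hu1]
            ring
        _ = (D u * (x ^ n - c₁)) * x := by rw [hc₁x]; ring
    exact mul_right_cancel₀ hx_ne h3
  -- `(n : K) ≠ 0`
  have hnK : (n : K) ≠ 0 := by
    intro h
    have hdvd : p ∣ n := (CharP.cast_eq_zero_iff K p n).mp h
    have := Nat.le_of_dvd (by omega) hdvd
    omega
  -- `x^n - c₁ ≠ 0`
  have hDxn : D (x ^ n - c₁) = n * x ^ (n - 1) := by
    rw [map_sub, D_pow, hDx, D_K0 D hc₁]; ring
  have hden : x ^ n - c₁ ≠ 0 := by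
    intro h
    have h2 : D (x ^ n - c₁) = 0 := by rw [h, map_zero]
    rw [hDxn] at h2
    exact mul_ne_zero hnK (pow_ne_zero _ hx_ne) h2
  -- `κ`
  have hκmem : u ^ n / (x ^ n - c₁) ∈ adj p x :=
    div_mem (pow_mem hu n) (sub_mem (pow_mem (self_mem_adj x) n) (K0_le_adj x hc₁))
  have hun : u ^ n = u ^ (n - 1) * u := by
    rw [← pow_succ]; congr 1; omega
  have hDκ : D (u ^ n / (x ^ n - c₁)) = 0 := by
    rw [D_div D _ _ hden, hDxn, D_pow]
    have hnum : (n : K) * u ^ (n - 1) * D u * (x ^ n - c₁) - u ^ n * (n * x ^ (n - 1)) = 0 := by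
      rw [hun]
      linear_combination (-(n : K) * u ^ (n - 1)) * hu2
    rw [hnum, zero_div]
  have hκ : u ^ n / (x ^ n - c₁) ∈ K0 K p := mem_K0_of_D_eq_zero D hx hDx hκmem hDκ
  refine ⟨c₁, hc₁, u ^ n / (x ^ n - c₁), hκ, hc₁0, div_ne_zero (pow_ne_zero n hu0) hden, ?_⟩
  field_simp

theorem rigidity (hfg : FG K p) {x y u v I : K} (hx : x ∉ K0 K p) (hy : y ∉ adj p x)
    (hu : u ∈ adj p x) (hv : v ∈ adj p y)
    (hux : ∀ j : ℕ, ∀ c ∈ K0 K p, u ≠ c * x ^ j) (hvy : ∀ j : ℕ, ∀ c ∈ K0 K p, v ≠ c * y ^ j)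
    (hI : I ≠ 0) (hI1 : I / y ∈ adj p (x / y)) (hI2 : I / v ∈ adj p (u / v)) :
    ∃ n : ℕ, 1 ≤ n ∧ n < p ∧ ∃ c₁ ∈ K0 K p, ∃ c₂ ∈ K0 K p, ∃ κ₁ ∈ K0 K p, ∃ κ₂ ∈ K0 K p,
      c₁ ≠ 0 ∧ c₂ ≠ 0 ∧ κ₁ ≠ 0 ∧ κ₂ ≠ 0 ∧
      u ^ n = κ₁ * (x ^ n - c₁) ∧ v ^ n = κ₂ * (y ^ n - c₂) := by
  have hp2 : 2 ≤ p := (Fact.out : p.Prime).two_le
  obtain ⟨D₁, D₂, h11, h12, h21, h22⟩ := exists_dual_derivations hfg hx hy
  have hy0 : y ∉ K0 K p := fun h => hy (K0_le_adj x h)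
  have hx_ne : x ≠ 0 := fun h => hx (h ▸ (K0 K p).zero_mem)
  have hy_ne : y ≠ 0 := fun h => hy0 (h ▸ (K0 K p).zero_mem)
  have hu_ne : u ≠ 0 := fun h => hux 0 0 (K0 K p).zero_mem (by simp [h])
  have hv_ne : v ≠ 0 := fun h => hvy 0 0 (K0 K p).zero_mem (by simp [h])
  have hu_K0 : u ∉ K0 K p := fun h => hux 0 u h (by simp)
  have hv_K0 : v ∉ K0 K p := fun h => hvy 0 v h (by simp)
  have hD2u : D₂ u = 0 := D_adj_eq_zero D₂ h21 hu
  have hD1v : D₁ v = 0 := D_adj_eq_zero D₁ h12 hv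
  have hu' : D₁ u ≠ 0 := fun h => hu_K0 (mem_K0_of_D_eq_zero D₁ hx h11 hu h)
  have hv' : D₂ v ≠ 0 := fun h => hv_K0 (mem_K0_of_D_eq_zero D₂ hy0 h22 hv h)
  -- Step 1: the Euler operator `E = x ∂x + y ∂y`.
  have eq1 : x * D₁ I + y * D₂ I = I := by
    have hE : ∀ a, (x • D₁ + y • D₂) a = x * D₁ a + y * D₂ a := fun a => by
      simp [smul_eq_mul]
    have hEz : (x • D₁ + y • D₂) (x / y) = 0 := by
      rw [hE, D_div D₁ x y hy_ne, D_div D₂ x y hy_ne, h11, h12, h21, h22]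
      field_simp; ring
    have hEy : (x • D₁ + y • D₂) y = y := by
      rw [hE, h12, h22]; ring
    have := rigid_euler (x • D₁ + y • D₂) hEz hy_ne hEy hI1
    rw [hE] at this
    exact this
  -- Step 2: the twisted Euler operator `E' = (u/u') ∂x + (v/v') ∂y`.
  have eq2 : (u / D₁ u) * D₁ I + (v / D₂ v) * D₂ I = I := by
    have hE : ∀ a, ((u / D₁ u) • D₁ + (v / D₂ v) • D₂) a
        = (u / D₁ u) * D₁ a + (v / D₂ v) * D₂ a := fun a => by
      simp [smul_eq_mul]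
    have hEz : ((u / D₁ u) • D₁ + (v / D₂ v) • D₂) (u / v) = 0 := by
      rw [hE, D_div D₁ u v hv_ne, D_div D₂ u v hv_ne, hD1v, hD2u]
      field_simp; ring
    have hEv : ((u / D₁ u) • D₁ + (v / D₂ v) • D₂) v = v := by
      rw [hE, hD1v]; field_simp; ring
    have := rigid_euler ((u / D₁ u) • D₁ + (v / D₂ v) • D₂) hEz hv_ne hEv hI2
    rw [hE] at this
    exact this
  -- Step 3: `P`, `Q`.
  obtain ⟨P, hPdef⟩ : ∃ P : K, P = x - u / D₁ u := ⟨_, rfl⟩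
  obtain ⟨Q, hQdef⟩ : ∃ Q : K, Q = y - v / D₂ v := ⟨_, rfl⟩
  have hP_mem : P ∈ adj p x := by
    rw [hPdef]; exact sub_mem (self_mem_adj x) (div_mem hu (D_mem_adj D₁ h11 hu))
  have hQ_mem : Q ∈ adj p y := by
    rw [hQdef]; exact sub_mem (self_mem_adj y) (div_mem hv (D_mem_adj D₂ h22 hv))
  have eq3 : P * D₁ I + Q * D₂ I = 0 := by
    rw [hPdef, hQdef]; linear_combination eq1 - eq2
  have hP0 : P ≠ 0 := by
    intro h
    have hux1 : u = x * D₁ u := by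
      have h' : x - u / D₁ u = 0 := by rw [← hPdef]; exact h
      have h'' : u / D₁ u = x := by linear_combination -h'
      rw [← h'']; field_simp
    have hmem : u / x ∈ adj p x := div_mem hu (self_mem_adj x)
    have hD : D₁ (u / x) = 0 := by
      rw [D_div D₁ u x hx_ne, h11]
      have : D₁ u * x - u * 1 = 0 := by linear_combination -hux1
      rw [this, zero_div]
    have hk := mem_K0_of_D_eq_zero D₁ hx h11 hmem hD
    exact hux 1 (u / x) hk (by field_simp)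
  have hQ0 : Q ≠ 0 := by
    intro h
    have hvy1 : v = y * D₂ v := by
      have h' : y - v / D₂ v = 0 := by rw [← hQdef]; exact h
      have h'' : v / D₂ v = y := by linear_combination -h'
      rw [← h'']; field_simp
    have hmem : v / y ∈ adj p y := div_mem hv (self_mem_adj y)
    have hD : D₂ (v / y) = 0 := by
      rw [D_div D₂ v y hy_ne, h22]
      have : D₂ v * y - v * 1 = 0 := by linear_combination -hvy1
      rw [this, zero_div]
    have hk := mem_K0_of_D_eq_zero D₂ hy0 h22 hmem hD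
    exact hvy 1 (v / y) hk (by field_simp)
  -- Step 4: `W`.
  have hWy : (y * P - x * Q) * D₂ I = P * I := by
    linear_combination (-x) * eq3 + P * eq1
  have hWx : (y * P - x * Q) * D₁ I = -Q * I := by
    linear_combination y * eq3 - Q * eq1
  -- Step 5: integrability.
  have hIcl : I ∈ Subfield.closure ((K0 K p : Set K) ∪ {x, y}) := by
    have hxm : x ∈ Subfield.closure ((K0 K p : Set K) ∪ {x, y}) :=
      Subfield.subset_closure (Or.inr (by simp))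
    have hym : y ∈ Subfield.closure ((K0 K p : Set K) ∪ {x, y}) :=
      Subfield.subset_closure (Or.inr (by simp))
    have hz : x / y ∈ Subfield.closure ((K0 K p : Set K) ∪ {x, y}) := div_mem hxm hym
    have h1 := adj_le_closure_pair (p := p) hz hI1
    have h2 := mul_mem h1 hym
    rwa [div_mul_cancel₀ I hy_ne] at h2
  have hcomm : D₁ (D₂ I) = D₂ (D₁ I) := D_comm D₁ D₂ h11 h12 h21 h22 hIcl
  have hD2P : D₂ P = 0 := D_adj_eq_zero D₂ h21 hP_mem
  have hD1Q : D₁ Q = 0 := D_adj_eq_zero D₁ h12 hQ_mem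
  have hA : (y * D₁ P - Q) * D₂ I + (y * P - x * Q) * D₁ (D₂ I) = D₁ P * I + P * D₁ I := by
    have h := congrArg D₁ hWy
    rw [rigid_D_mul, rigid_D_mul D₁ P I, map_sub, rigid_D_mul, rigid_D_mul, h11, h12, hD1Q] at h
    linear_combination h
  have hB : (P - x * D₂ Q) * D₁ I + (y * P - x * Q) * D₂ (D₁ I) = -(D₂ Q * I + Q * D₂ I) := by
    have h := congrArg D₂ hWx
    rw [rigid_D_mul, rigid_D_mul D₂ (-Q) I, map_sub, rigid_D_mul, rigid_D_mul, map_neg,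
      h21, h22, hD2P] at h
    linear_combination h
  have key : D₁ P * x * D₁ I + D₂ Q * y * D₂ I = 0 := by
    linear_combination (-1 : K) * hA + hB + (y * P - x * Q) * hcomm
      + (D₁ P + D₂ Q) * eq1 - 2 * eq3
  have key2 : x * Q * D₁ P = y * P * D₂ Q := by
    have h : I * (y * P * D₂ Q - x * Q * D₁ P) = 0 := by
      linear_combination (y * P - x * Q) * key - D₁ P * x * hWx - D₂ Q * y * hWy
    rcases mul_eq_zero.mp h with h' | h'
    · exact absurd h' hI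
    · linear_combination -h'
  -- Step 6: the common eigenvalue.
  have hlam1 : x * D₁ P / P ∈ adj p x :=
    div_mem (mul_mem (self_mem_adj x) (D_mem_adj D₁ h11 hP_mem)) hP_mem
  have hlam_eq : x * D₁ P / P = y * D₂ Q / Q := by
    field_simp
    linear_combination key2
  have hlam2 : x * D₁ P / P ∈ adj p y := by
    rw [hlam_eq]
    exact div_mem (mul_mem (self_mem_adj y) (D_mem_adj D₂ h22 hQ_mem)) hQ_mem
  have hlam : x * D₁ P / P ∈ K0 K p := adj_inter hy hlam1 hlam2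
  have hE1 : x * D₁ P = (x * D₁ P / P) * P := by field_simp
  have hE2 : y * D₂ Q = (x * D₁ P / P) * Q := by rw [hlam_eq]; field_simp
  obtain ⟨m, hm, hlm, c₁, hc₁, hc₁0, hPm⟩ := euler_eigen D₁ hx h11 hP_mem hP0 hlam hE1
  obtain ⟨m', hm', hlm', c₂, hc₂, hc₂0, hQm⟩ := euler_eigen D₂ hy0 h22 hQ_mem hQ0 hlam hE2
  have hmm : m = m' := by
    have h : (m : K) = (m' : K) := by rw [← hlm, ← hlm']
    have h2 : m ≡ m' [MOD p] := (CharP.natCast_eq_natCast K p).mp h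
    exact Nat.ModEq.eq_of_lt_of_lt h2 hm hm'
  subst hmm
  -- Step 7: `m ≠ 1`.
  have hm1 : m ≠ 1 := by
    intro h1
    rw [h1, pow_one] at hPm
    have hu1 : u = (1 - c₁) * (x * D₁ u) := by
      have h' : x - u / D₁ u = c₁ * x := by rw [← hPdef]; exact hPm
      have h'' : u / D₁ u = (1 - c₁) * x := by linear_combination -h'
      have h3 : u = (u / D₁ u) * D₁ u := by field_simp
      calc u = (u / D₁ u) * D₁ u := h3
        _ = (1 - c₁) * (x * D₁ u) := by rw [h'']; ring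
    have hc1 : 1 - c₁ ≠ 0 := by
      intro h0
      rw [h0, zero_mul] at hu1
      exact hu_ne hu1
    have hμ : (1 - c₁)⁻¹ ∈ K0 K p := inv_mem (sub_mem (one_mem _) hc₁)
    have hEu : x * D₁ u = (1 - c₁)⁻¹ * u := by
      conv_rhs => rw [hu1]
      field_simp
    obtain ⟨m₂, -, -, c, hc, -, huc⟩ := euler_eigen D₁ hx h11 hu hu_ne hμ hEu
    exact hux m₂ c hc huc
  -- Step 8.
  obtain ⟨a₁, ha₁, κ₁, hκ₁, ha₁0, hκ₁0, e₁⟩ :=
    rigid_final D₁ hx h11 hu hu_ne hu' hc₁ hc₁0 hm hm1 (hPdef ▸ hPm)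
  obtain ⟨a₂, ha₂, κ₂, hκ₂, ha₂0, hκ₂0, e₂⟩ :=
    rigid_final D₂ hy0 h22 hv hv_ne hv' hc₂ hc₂0 hm hm1 (hQdef ▸ hQm)
  refine ⟨if m = 0 then 1 else p + 1 - m, ?_, ?_, a₁, ha₁, a₂, ha₂, κ₁, hκ₁, κ₂, hκ₂,
    ha₁0, ha₂0, hκ₁0, hκ₂0, e₁, e₂⟩
  · split_ifs with h0
    · exact le_refl 1
    · omega
  · split_ifs with h0
    · omega
    · omega

end Crest.Agent.S0010lib
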