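import Mathlib
import Crest.Agent.S0010.Defs

/-!
# Row 9 (S0010): the rigidity ("twisted line") lemma — alternative, self-contained proof (helper62)

`K` a field of characteristic `p`, `K0 = K^p`, `D₁ D₂` two derivations of `K` dual to a pair
`x, y` (`D₁ x = 1, D₁ y = 0, D₂ x = 0, D₂ y = 1`).  Main result `rigidity_of_der`: the statement of
`Crest.Agent.S0010lib.rigidity` (module RIGID) with the dual derivations as explicit arguments.
Everything lives in the namespace `Crest.Agent.S0010lib.RigidAlt`; no `sorry`, imports only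
`Mathlib` and the definitions file.
-/

set_option autoImplicit false

open Polynomial IntermediateField

namespace Crest.Agent.S0010lib.RigidAlt

variable {K : Type*} [Field K] {p : ℕ} [hp : Fact p.Prime] [CharP K p]

theorem mem_K0 {c : K} : c ∈ K0 K p ↔ ∃ a : K, a ^ p = c := by
  simp [K0, RingHom.mem_fieldRange, frobenius_def]

theorem pow_mem_K0 (z : K) : z ^ p ∈ K0 K p := mem_K0.2 ⟨z, rfl⟩

instance K0.charP : CharP (K0 K p) p :=
  RingHom.charP (K0 K p).subtype Subtype.coe_injective p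

@[simp] theorem algebraMap_K0 (c : K0 K p) : algebraMap (K0 K p) K c = (c : K) := rfl

theorem D_aeval (D : Derivation (K0 K p) K K) (w : K) (f : (K0 K p)[X]) :
    D (aeval w f) = aeval w (derivative f) * D w := by
  rw [D.map_aeval]; rfl

theorem D_coe (D : Derivation (K0 K p) K K) (c : K0 K p) : D (c : K) = 0 :=
  D.map_algebraMap c

theorem eq_C_of_derivative_eq_zero {f : (K0 K p)[X]} (hf : ∀ m, p ≤ m → f.coeff m = 0)
    (h : derivative f = 0) : f = C (f.coeff 0) := by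
  apply Polynomial.ext
  intro m
  rcases m with _ | m
  · simp
  · rw [coeff_C_succ]
    by_cases hm : p ≤ m + 1
    · exact hf _ hm
    · have h1 : (derivative f).coeff m = 0 := by rw [h]; simp
      rw [coeff_derivative] at h1
      have h2 : ((m : K0 K p) + 1) ≠ 0 := by
        have h3 : ((m + 1 : ℕ) : K0 K p) ≠ 0 := by
          rw [Ne, CharP.cast_eq_zero_iff (K0 K p) p]
          intro hdvd
          exact hm (Nat.le_of_dvd (Nat.succ_pos m) hdvd)
        simpa using h3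
      exact (mul_eq_zero.1 h1).resolve_right h2

theorem aeval_eq_zero_imp (D : Derivation (K0 K p) K K) (x : K) (hx : D x = 1) :
    ∀ n : ℕ, ∀ f : (K0 K p)[X], (∀ m, n ≤ m → f.coeff m = 0) → n ≤ p → aeval x f = 0 →
      f = 0 := by
  intro n
  induction n with
  | zero =>
    intro f hf _ _
    apply Polynomial.ext
    intro m
    simpa using hf m (Nat.zero_le m)
  | succ n ih =>
    intro f hf hn h0
    have hd : aeval x (derivative f) = 0 := by
      have h1 := congrArg D h0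
      rw [D_aeval, hx, mul_one, map_zero] at h1
      exact h1
    have hf' : ∀ m, n ≤ m → (derivative f).coeff m = 0 := by
      intro m hm
      rw [coeff_derivative, hf (m + 1) (by omega), zero_mul]
    have hder : derivative f = 0 := ih _ hf' (by omega) hd
    have hC := eq_C_of_derivative_eq_zero (f := f) (fun m hm => hf m (by omega)) hder
    rw [hC, aeval_C, algebraMap_K0] at h0
    have h2 : f.coeff 0 = 0 := by exact_mod_cast h0
    rw [hC, h2, C_0]

theorem exists_reduce (x : K) (f : (K0 K p)[X]) :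
    ∃ r : (K0 K p)[X], (∀ m, p ≤ m → r.coeff m = 0) ∧ aeval x r = aeval x f := by
  set a : K0 K p := ⟨x ^ p, pow_mem_K0 x⟩ with ha
  have hq : (X ^ p - C a : (K0 K p)[X]).Monic := monic_X_pow_sub_C a hp.out.ne_zero
  have hq1 : (X ^ p - C a : (K0 K p)[X]) ≠ 1 := by
    intro h
    have h1 := congrArg natDegree h
    rw [natDegree_X_pow_sub_C, natDegree_one] at h1
    exact hp.out.ne_zero h1
  refine ⟨f %ₘ (X ^ p - C a), ?_, ?_⟩
  · intro m hm
    apply coeff_eq_zero_of_natDegree_lt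
    have h1 := natDegree_modByMonic_lt f hq hq1
    rw [natDegree_X_pow_sub_C] at h1
    omega
  · have h := modByMonic_add_div f (X ^ p - C a)
    have hz : aeval x (X ^ p - C a : (K0 K p)[X]) = 0 := by simp [ha]
    conv_rhs => rw [← h]
    simp [hz]

theorem exists_K0_of_D_eq_zero (D : Derivation (K0 K p) K K) (x : K) (hx : D x = 1)
    (f : (K0 K p)[X]) (h : D (aeval x f) = 0) : ∃ c : K0 K p, aeval x f = c := by
  obtain ⟨r, hr, hrf⟩ := exists_reduce x f
  rw [← hrf] at h ⊢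
  rw [D_aeval, hx, mul_one] at h
  have hder : derivative r = 0 := by
    apply aeval_eq_zero_imp D x hx p _ _ le_rfl h
    intro m hm
    rw [coeff_derivative, hr (m + 1) (by omega), zero_mul]
  have hC := eq_C_of_derivative_eq_zero hr hder
  refine ⟨r.coeff 0, ?_⟩
  conv_lhs => rw [hC]
  simp

theorem coeff_X_mul_derivative (r : (K0 K p)[X]) (m : ℕ) :
    (X * derivative r).coeff m = (m : K0 K p) * r.coeff m := by
  rcases m with _ | m
  · simp
  · rw [coeff_X_mul, coeff_derivative]; push_cast; ring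

theorem eigen (D : Derivation (K0 K p) K K) (x : K) (hx : D x = 1)
    (f : (K0 K p)[X]) (hz : aeval x f ≠ 0) (lam : K0 K p)
    (h : x * D (aeval x f) = lam * aeval x f) :
    ∃ m : ℕ, m < p ∧ ∃ c : K0 K p, c ≠ 0 ∧ aeval x f = c * x ^ m ∧ lam = (m : K0 K p) := by
  obtain ⟨r, hr, hrf⟩ := exists_reduce x f
  rw [← hrf] at h hz ⊢
  rw [D_aeval, hx, mul_one] at h
  have hg : aeval x (X * derivative r - C lam * r) = 0 := by
    simp [h]
  have hg0 : X * derivative r - C lam * r = 0 := by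
    apply aeval_eq_zero_imp D x hx p _ _ le_rfl hg
    intro m hm
    rw [coeff_sub, coeff_X_mul_derivative, coeff_C_mul, hr m hm]; simp
  have hcoef : ∀ m : ℕ, ((m : K0 K p) - lam) * r.coeff m = 0 := by
    intro m
    have h1 := congrArg (fun q => q.coeff m) hg0
    simp only [coeff_sub, coeff_X_mul_derivative, coeff_C_mul, coeff_zero] at h1
    linear_combination h1
  have hr0 : r ≠ 0 := by
    rintro rfl
    simp at hz
  obtain ⟨m₀, hm₀⟩ : ∃ m, r.coeff m ≠ 0 := by
    by_contra hcon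
    simp only [not_exists, not_not] at hcon
    exact hr0 (Polynomial.ext (by simpa using hcon))
  have hm₀p : m₀ < p := by
    by_contra hh
    exact hm₀ (hr m₀ (by omega))
  have hlam : lam = (m₀ : K0 K p) := by
    have h1 := (mul_eq_zero.1 (hcoef m₀)).resolve_right hm₀
    exact (sub_eq_zero.1 h1).symm
  have hrest : ∀ m, m ≠ m₀ → r.coeff m = 0 := by
    intro m hm
    by_cases hmp : p ≤ m
    · exact hr m hmp
    · have h1 := hcoef m
      rw [hlam] at h1
      refine (mul_eq_zero.1 h1).resolve_left ?_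
      intro h2
      have h3 : (m : K0 K p) = (m₀ : K0 K p) := sub_eq_zero.1 h2
      exact hm (CharP.natCast_injOn_Iio (K0 K p) p (Set.mem_Iio.2 (Nat.lt_of_not_le hmp))
        (Set.mem_Iio.2 hm₀p) h3)
  refine ⟨m₀, hm₀p, r.coeff m₀, hm₀, ?_, hlam⟩
  have hrm : r = C (r.coeff m₀) * X ^ m₀ := by
    apply Polynomial.ext
    intro m
    rw [coeff_C_mul, coeff_X_pow]
    by_cases hm : m = m₀
    · subst hm; simp
    · rw [hrest m hm]; simp [hm]
  conv_lhs => rw [hrm]
  simp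

theorem mem_adjoin_simple_iff_aeval (w z : K) :
    z ∈ (K0 K p)⟮w⟯ ↔ ∃ f : (K0 K p)[X], z = aeval w f := by
  constructor
  · intro hz
    have inv_mem : ∀ t ∈ (aeval w : (K0 K p)[X] →ₐ[K0 K p] K).range,
        t⁻¹ ∈ (aeval w : (K0 K p)[X] →ₐ[K0 K p] K).range := by
      intro t ht
      have h1 : t⁻¹ = t ^ (p - 1) * algebraMap (K0 K p) K ⟨(t⁻¹) ^ p, pow_mem_K0 _⟩ := by
        rw [algebraMap_K0]
        by_cases h0 : t = 0
        · subst h0
          simp [hp.out.ne_zero]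
        · have hpp : p = (p - 1) + 1 := (Nat.sub_add_cancel hp.out.one_le).symm
          show t⁻¹ = t ^ (p - 1) * (t⁻¹) ^ p
          conv_rhs => rw [hpp, Nat.add_sub_cancel, pow_succ, ← mul_assoc, ← mul_pow,
            mul_inv_cancel₀ h0, one_pow, one_mul]
      rw [h1]
      exact Subalgebra.mul_mem _ (Subalgebra.pow_mem _ ht _) (Subalgebra.algebraMap_mem _ _)
    have hle : (K0 K p)⟮w⟯ ≤
        ((aeval w : (K0 K p)[X] →ₐ[K0 K p] K).range).toIntermediateField inv_mem := by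
      rw [IntermediateField.adjoin_le_iff]
      rintro _ rfl
      exact ⟨X, by simp⟩
    obtain ⟨f, hf⟩ := hle hz
    exact ⟨f, hf.symm⟩
  · rintro ⟨f, rfl⟩
    exact IntermediateField.algebra_adjoin_le_adjoin _ _ (aeval_mem_adjoin_singleton _ _)


omit hp in
theorem natCast_ne_zero_of_lt {n : ℕ} (h0 : 0 < n) (hn : n < p) : (n : K) ≠ 0 := by
  rw [Ne, CharP.cast_eq_zero_iff K p]
  intro hdvd
  exact absurd (Nat.le_of_dvd h0 hdvd) (by omega)

/-- One-variable step: from `x - u / D u = c₁ x ^ m` to `u ^ n = k (x ^ n - c)`. -/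
theorem one_var (D : Derivation (K0 K p) K K) (x : K) (hx : D x = 1) (fu : (K0 K p)[X])
    (hux : ∀ (j : ℕ) (c : K0 K p), aeval x fu ≠ c * x ^ j)
    (m : ℕ) (hm : m < p) (c₁ : K0 K p) (hc₁ : c₁ ≠ 0)
    (hP : x - aeval x fu / D (aeval x fu) = c₁ * x ^ m) :
    m ≠ 1 ∧ ∃ c k : K0 K p, c ≠ 0 ∧ k ≠ 0 ∧
      aeval x fu ^ (if m = 0 then 1 else p + 1 - m) =
        k * (x ^ (if m = 0 then 1 else p + 1 - m) - c) := by
  set u := aeval x fu with hu
  set u' := D u with hu'
  have hu0 : u ≠ 0 := by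
    have h1 := hux 0 0
    simpa using h1
  have hx0 : x ≠ 0 := by
    rintro rfl
    simp at hx
  have hu'0 : u' ≠ 0 := by
    intro h
    obtain ⟨c, hc⟩ := exists_K0_of_D_eq_zero D x hx fu h
    exact hux 0 c (by simpa using hc)
  have huP : u = u' * (x - c₁ * x ^ m) := by
    have h1 : u / u' = x - c₁ * x ^ m := by linear_combination -hP
    field_simp at h1
    linear_combination h1
  have hm1 : m ≠ 1 := by
    rintro rfl
    by_cases hc1 : c₁ = 1
    · apply hu0
      rw [huP, hc1]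
      push_cast
      ring
    · have h1c : (1 - (c₁ : K)) ≠ 0 := by
        intro h
        apply hc1
        have h2 : (c₁ : K) = 1 := by linear_combination -h
        exact_mod_cast h2
      have heig : x * D (aeval x fu) = ((1 - c₁)⁻¹ : K0 K p) * aeval x fu := by
        show x * u' = ((1 - c₁)⁻¹ : K0 K p) * u
        push_cast
        rw [huP]
        field_simp
      obtain ⟨j, _, c, _, hc, _⟩ := eigen D x hx fu hu0 _ heig
      exact hux j c hc
  refine ⟨hm1, ?_⟩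
  -- the exponent
  set n := (if m = 0 then 1 else p + 1 - m) with hn
  have hp2 : 2 ≤ p := hp.out.two_le
  have hn1 : 1 ≤ n := by
    rw [hn]; split_ifs <;> omega
  have hnp : n < p := by
    rw [hn]; split_ifs with h0
    · omega
    · omega
  -- `x ^ (m + n - 1)` lies in `K0`
  obtain ⟨e, he⟩ : ∃ e : K0 K p, (e : K) = x ^ (m + n - 1) := by
    by_cases h0 : m = 0
    · refine ⟨1, ?_⟩
      have : m + n - 1 = 0 := by rw [hn, if_pos h0, h0]
      rw [this]; simp
    · refine ⟨⟨x ^ p, pow_mem_K0 x⟩, ?_⟩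
      have : m + n - 1 = p := by rw [hn, if_neg h0]; omega
      rw [this]
  have he0 : e ≠ 0 := by
    intro h
    rw [h] at he
    exact pow_ne_zero _ hx0 he.symm
  have hkey : u * x ^ (n - 1) = u' * (x ^ n - (c₁ * e : K0 K p)) := by
    push_cast
    rw [he, huP]
    have h1 : x ^ n = x * x ^ (n - 1) := by
      rw [← pow_succ']; congr 1; omega
    have h2 : x ^ (m + n - 1) = x ^ m * x ^ (n - 1) := by
      rw [← pow_add]; congr 1; omega
    rw [h1, h2]; ring
  have hnK : (n : K) ≠ 0 := natCast_ne_zero_of_lt (by omega) hnp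
  have hne : x ^ n - ((c₁ * e : K0 K p) : K) ≠ 0 := by
    intro h
    have h1 := congrArg D h
    rw [map_sub, D_coe, map_zero, sub_zero, D.leibniz_pow, hx] at h1
    simp only [nsmul_eq_mul, smul_eq_mul, mul_one] at h1
    exact (mul_ne_zero hnK (pow_ne_zero _ hx0)) h1
  have hDz : D (u ^ n / (x ^ n - ((c₁ * e : K0 K p) : K))) = 0 := by
    rw [D.leibniz_div, map_sub, D_coe, sub_zero, D.leibniz_pow, D.leibniz_pow, hx, ← hu']
    simp only [nsmul_eq_mul, smul_eq_mul, mul_one]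
    have h1 : u ^ n = u ^ (n - 1) * u := by
      rw [← pow_succ]; congr 1; omega
    have h2 : (x ^ n - ((c₁ * e : K0 K p) : K)) * (n * (u ^ (n - 1) * u')) -
        u ^ n * (n * x ^ (n - 1)) = 0 := by
      rw [h1]; linear_combination (-(n : K) * u ^ (n - 1)) * hkey
    rw [h2, mul_zero]
  have hzmem : u ^ n / (x ^ n - ((c₁ * e : K0 K p) : K)) ∈ (K0 K p)⟮x⟯ := by
    have hxm : x ∈ (K0 K p)⟮x⟯ := mem_adjoin_simple_self _ x
    have hum : u ∈ (K0 K p)⟮x⟯ := (mem_adjoin_simple_iff_aeval x u).2 ⟨fu, rfl⟩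
    exact div_mem (pow_mem hum n) (sub_mem (pow_mem hxm n)
      (IntermediateField.algebraMap_mem (K0 K p)⟮x⟯ (c₁ * e)))
  obtain ⟨fz, hfz⟩ := (mem_adjoin_simple_iff_aeval x _).1 hzmem
  rw [hfz] at hDz
  obtain ⟨k, hk⟩ := exists_K0_of_D_eq_zero D x hx fz hDz
  rw [← hfz] at hk
  have hk0 : k ≠ 0 := by
    intro h
    rw [h] at hk
    have h1 : u ^ n = 0 := by
      have h2 := (div_eq_iff hne).1 hk
      simpa using h2
    exact pow_ne_zero _ hu0 h1
  refine ⟨c₁ * e, k, mul_ne_zero hc₁ he0, hk0, ?_⟩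
  exact (div_eq_iff hne).1 hk


/-- Pure derivation algebra: the two Euler equations and the symmetry of the mixed second
derivatives force `x ∂x P · Q = y ∂y Q · P` for `P = x - u/u'`, `Q = y - v/v'`. -/
theorem rigid_core (D₁ D₂ : Derivation (K0 K p) K K) (x y u v I : K)
    (h11 : D₁ x = 1) (h12 : D₁ y = 0) (h21 : D₂ x = 0) (h22 : D₂ y = 1)
    (hD2u : D₂ u = 0) (hD1v : D₁ v = 0)
    (hD2u' : D₂ (D₁ u) = 0) (hD1v' : D₁ (D₂ v) = 0)
    (hI : I ≠ 0) (e1 : x * D₁ I + y * D₂ I = I)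
    (e2 : u / D₁ u * D₁ I + v / D₂ v * D₂ I = I)
    (hcomm : D₂ (D₁ I) = D₁ (D₂ I)) :
    x * D₁ (x - u / D₁ u) * (y - v / D₂ v) = y * D₂ (y - v / D₂ v) * (x - u / D₁ u) := by
  have hD1Q : D₁ (y - v / D₂ v) = 0 := by
    rw [map_sub, D₁.leibniz_div, h12, hD1v, hD1v']; simp
  have hD2P : D₂ (x - u / D₁ u) = 0 := by
    rw [map_sub, D₂.leibniz_div, h21, hD2u, hD2u']; simp
  generalize hP : x - u / D₁ u = P at hD2P ⊢
  generalize hQ : y - v / D₂ v = Q at hD1Q ⊢
  have e2'' : P * D₁ I + Q * D₂ I = 0 := by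
    rw [← hP, ← hQ]; linear_combination e1 - e2
  have f1 : x * D₁ (D₁ I) + y * D₁ (D₂ I) = 0 := by
    have h := congrArg D₁ e1
    rw [map_add, D₁.leibniz, D₁.leibniz, h11, h12] at h
    simp only [smul_eq_mul, mul_one, mul_zero, add_zero] at h
    linear_combination h
  have f2 : x * D₂ (D₁ I) + y * D₂ (D₂ I) = 0 := by
    have h := congrArg D₂ e1
    rw [map_add, D₂.leibniz, D₂.leibniz, h21, h22] at h
    simp only [smul_eq_mul, mul_one, mul_zero, add_zero] at h
    linear_combination h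
  have f3 : P * D₁ (D₁ I) + D₁ I * D₁ P + Q * D₁ (D₂ I) = 0 := by
    have h := congrArg D₁ e2''
    rw [map_add, D₁.leibniz, D₁.leibniz, hD1Q, map_zero] at h
    simp only [smul_eq_mul, mul_zero, add_zero] at h
    linear_combination h
  have f4 : P * D₂ (D₁ I) + Q * D₂ (D₂ I) + D₂ I * D₂ Q = 0 := by
    have h := congrArg D₂ e2''
    rw [map_add, D₂.leibniz, D₂.leibniz, hD2P, map_zero] at h
    simp only [smul_eq_mul, mul_zero, add_zero] at h
    linear_combination h
  have hss : x * D₁ P * D₁ I + y * D₂ Q * D₂ I = 0 := by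
    linear_combination x * f3 + y * f4 - P * f1 - Q * f2 + (x * Q - y * P) * hcomm
  by_contra hne
  have hdet : y * D₂ Q * P - x * D₁ P * Q ≠ 0 := by
    intro h
    exact hne (by linear_combination -h)
  have ha : D₁ I = 0 := by
    have h : D₁ I * (y * D₂ Q * P - x * D₁ P * Q) = 0 := by
      linear_combination (y * D₂ Q) * e2'' - Q * hss
    exact (mul_eq_zero.1 h).resolve_right hdet
  have hb : D₂ I = 0 := by
    have h : D₂ I * (y * D₂ Q * P - x * D₁ P * Q) = 0 := by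
      linear_combination P * hss - (x * D₁ P) * e2''
    exact (mul_eq_zero.1 h).resolve_right hdet
  apply hI
  rw [← e1, ha, hb]; ring

/-- Euler equation and symmetry of mixed derivatives for `I = y * g(x / y)`. -/
theorem euler_one (D₁ D₂ : Derivation (K0 K p) K K) (x y : K)
    (h11 : D₁ x = 1) (h12 : D₁ y = 0) (h21 : D₂ x = 0) (h22 : D₂ y = 1) (hy0 : y ≠ 0)
    (g : (K0 K p)[X]) :
    x * D₁ (y * aeval (x / y) g) + y * D₂ (y * aeval (x / y) g) = y * aeval (x / y) g ∧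
    D₂ (D₁ (y * aeval (x / y) g)) = D₁ (D₂ (y * aeval (x / y) g)) := by
  have hD1w : D₁ (x / y) = 1 / y := by
    rw [D₁.leibniz_div, h11, h12]; simp only [smul_eq_mul]; field_simp; try ring
  have hD2w : D₂ (x / y) = -x / y ^ 2 := by
    rw [D₂.leibniz_div, h21, h22]; simp only [smul_eq_mul]; field_simp; try ring
  have hI1 : D₁ (y * aeval (x / y) g) = aeval (x / y) (derivative g) := by
    rw [D₁.leibniz, D_aeval, hD1w, h12]; simp only [smul_eq_mul]; field_simp; try ring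
  have hI2 : D₂ (y * aeval (x / y) g) =
      aeval (x / y) g - x / y * aeval (x / y) (derivative g) := by
    rw [D₂.leibniz, D_aeval, hD2w, h22]; simp only [smul_eq_mul]; field_simp; try ring
  refine ⟨?_, ?_⟩
  · rw [hI1, hI2]; field_simp; ring
  · rw [hI1, hI2, D_aeval, hD2w, map_sub, D_aeval, hD1w, D₁.leibniz, D_aeval, hD1w]
    simp only [smul_eq_mul]; field_simp; try ring

/-- Euler equation for `I = v * h(u / v)` with respect to the pair `u, v`. -/
theorem euler_two (D₁ D₂ : Derivation (K0 K p) K K) (u v : K)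
    (hD2u : D₂ u = 0) (hD1v : D₁ v = 0) (hu' : D₁ u ≠ 0) (hv' : D₂ v ≠ 0) (hv0 : v ≠ 0)
    (h : (K0 K p)[X]) :
    u / D₁ u * D₁ (v * aeval (u / v) h) + v / D₂ v * D₂ (v * aeval (u / v) h) =
      v * aeval (u / v) h := by
  have hD1t : D₁ (u / v) = D₁ u / v := by
    rw [D₁.leibniz_div, hD1v]; simp only [smul_eq_mul]; field_simp; try ring
  have hD2t : D₂ (u / v) = -u * D₂ v / v ^ 2 := by
    rw [D₂.leibniz_div, hD2u]; simp only [smul_eq_mul]; field_simp; try ring
  have hI1 : D₁ (v * aeval (u / v) h) = aeval (u / v) (derivative h) * D₁ u := by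
    rw [D₁.leibniz, D_aeval, hD1t, hD1v]; simp only [smul_eq_mul]; field_simp; try ring
  have hI2 : D₂ (v * aeval (u / v) h) =
      D₂ v * aeval (u / v) h - u * D₂ v / v * aeval (u / v) (derivative h) := by
    rw [D₂.leibniz, D_aeval, hD2t]; simp only [smul_eq_mul]; field_simp; try ring
  rw [hI1, hI2]; field_simp; ring


/-- The key lemma in polynomial form. -/
theorem key_forward_poly (D₁ D₂ : Derivation (K0 K p) K K) (x y : K)
    (h11 : D₁ x = 1) (h12 : D₁ y = 0) (h21 : D₂ x = 0) (h22 : D₂ y = 1)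
    (fu fv g h : (K0 K p)[X])
    (hux : ∀ (j : ℕ) (c : K0 K p), aeval x fu ≠ c * x ^ j)
    (hvy : ∀ (j : ℕ) (c : K0 K p), aeval y fv ≠ c * y ^ j)
    (I : K) (hI : I ≠ 0) (hI1 : I = y * aeval (x / y) g)
    (hI2 : I = aeval y fv * aeval (aeval x fu / aeval y fv) h) :
    ∃ n : ℕ, 1 ≤ n ∧ n < p ∧ ∃ c₁ c₂ k₁ k₂ : K0 K p, c₁ ≠ 0 ∧ c₂ ≠ 0 ∧ k₁ ≠ 0 ∧ k₂ ≠ 0 ∧
      aeval x fu ^ n = k₁ * (x ^ n - c₁) ∧ aeval y fv ^ n = k₂ * (y ^ n - c₂) := by
  have hy0 : y ≠ 0 := by
    rintro rfl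
    simp at h22
  have hu0 : aeval x fu ≠ 0 := by
    have h1 := hux 0 0
    simpa using h1
  have hv0 : aeval y fv ≠ 0 := by
    have h1 := hvy 0 0
    simpa using h1
  have hD2u : D₂ (aeval x fu) = 0 := by rw [D_aeval, h21, mul_zero]
  have hD1v : D₁ (aeval y fv) = 0 := by rw [D_aeval, h12, mul_zero]
  have hu'a : D₁ (aeval x fu) = aeval x (derivative fu) := by rw [D_aeval, h11, mul_one]
  have hv'a : D₂ (aeval y fv) = aeval y (derivative fv) := by rw [D_aeval, h22, mul_one]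
  have hD2u' : D₂ (D₁ (aeval x fu)) = 0 := by rw [hu'a, D_aeval, h21, mul_zero]
  have hD1v' : D₁ (D₂ (aeval y fv)) = 0 := by rw [hv'a, D_aeval, h12, mul_zero]
  have hu'0 : D₁ (aeval x fu) ≠ 0 := by
    intro h0
    obtain ⟨c, hc⟩ := exists_K0_of_D_eq_zero D₁ x h11 fu h0
    exact hux 0 c (by simpa using hc)
  have hv'0 : D₂ (aeval y fv) ≠ 0 := by
    intro h0
    obtain ⟨c, hc⟩ := exists_K0_of_D_eq_zero D₂ y h22 fv h0
    exact hvy 0 c (by simpa using hc)
  -- the two Euler equations and the symmetry of second derivatives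
  obtain ⟨e1, hcomm⟩ := euler_one D₁ D₂ x y h11 h12 h21 h22 hy0 g
  rw [← hI1] at e1 hcomm
  have e2 := euler_two D₁ D₂ (aeval x fu) (aeval y fv) hD2u hD1v hu'0 hv'0 hv0 h
  rw [← hI2] at e2
  have hstar := rigid_core D₁ D₂ x y (aeval x fu) (aeval y fv) I h11 h12 h21 h22 hD2u hD1v
    hD2u' hD1v' hI e1 e2 hcomm
  -- membership of `P`, `Q` in `K0(x)`, `K0(y)`
  have hxm : x ∈ (K0 K p)⟮x⟯ := mem_adjoin_simple_self _ x
  have hym : y ∈ (K0 K p)⟮y⟯ := mem_adjoin_simple_self _ y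
  have hum : aeval x fu ∈ (K0 K p)⟮x⟯ := (mem_adjoin_simple_iff_aeval x _).2 ⟨fu, rfl⟩
  have hvm : aeval y fv ∈ (K0 K p)⟮y⟯ := (mem_adjoin_simple_iff_aeval y _).2 ⟨fv, rfl⟩
  have hu'm : D₁ (aeval x fu) ∈ (K0 K p)⟮x⟯ := by
    rw [hu'a]; exact (mem_adjoin_simple_iff_aeval x _).2 ⟨_, rfl⟩
  have hv'm : D₂ (aeval y fv) ∈ (K0 K p)⟮y⟯ := by
    rw [hv'a]; exact (mem_adjoin_simple_iff_aeval y _).2 ⟨_, rfl⟩
  obtain ⟨fP, hfP⟩ := (mem_adjoin_simple_iff_aeval x _).1 (sub_mem hxm (div_mem hum hu'm))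
  obtain ⟨fQ, hfQ⟩ := (mem_adjoin_simple_iff_aeval y _).1 (sub_mem hym (div_mem hvm hv'm))
  rw [hfP, hfQ] at hstar
  -- `P ≠ 0`, `Q ≠ 0`
  have hP0 : aeval x fP ≠ 0 := by
    intro h0
    rw [← hfP] at h0
    have h1 : x * D₁ (aeval x fu) = ((1 : K0 K p) : K) * aeval x fu := by
      have h2 : aeval x fu / D₁ (aeval x fu) = x := by linear_combination -h0
      rw [div_eq_iff hu'0] at h2
      push_cast
      rw [one_mul]
      exact h2.symm
    obtain ⟨j, _, c, _, hc, _⟩ := eigen D₁ x h11 fu hu0 1 h1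
    exact hux j c hc
  have hQ0 : aeval y fQ ≠ 0 := by
    intro h0
    rw [← hfQ] at h0
    have h1 : y * D₂ (aeval y fv) = ((1 : K0 K p) : K) * aeval y fv := by
      have h2 : aeval y fv / D₂ (aeval y fv) = y := by linear_combination -h0
      rw [div_eq_iff hv'0] at h2
      push_cast
      rw [one_mul]
      exact h2.symm
    obtain ⟨j, _, c, _, hc, _⟩ := eigen D₂ y h22 fv hv0 1 h1
    exact hvy j c hc
  -- the common eigenvalue lies in `K0`
  have hDP : D₁ (aeval x fP) = aeval x (derivative fP) := by rw [D_aeval, h11, mul_one]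
  have hDQ : D₂ (aeval y fQ) = aeval y (derivative fQ) := by rw [D_aeval, h22, mul_one]
  have hlm : x * D₁ (aeval x fP) / aeval x fP ∈ (K0 K p)⟮x⟯ := by
    refine div_mem (mul_mem hxm ?_) ((mem_adjoin_simple_iff_aeval x _).2 ⟨fP, rfl⟩)
    rw [hDP]; exact (mem_adjoin_simple_iff_aeval x _).2 ⟨_, rfl⟩
  obtain ⟨fl, hfl⟩ := (mem_adjoin_simple_iff_aeval x _).1 hlm
  have hlam2 : x * D₁ (aeval x fP) / aeval x fP = y * D₂ (aeval y fQ) / aeval y fQ := by
    rw [div_eq_div_iff hP0 hQ0]; linear_combination hstar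
  have hDl : D₁ (aeval x fl) = 0 := by
    rw [← hfl, hlam2, hDQ, D₁.leibniz_div, D₁.leibniz, D_aeval, D_aeval, h12]
    simp
  obtain ⟨lam, hlam⟩ := exists_K0_of_D_eq_zero D₁ x h11 fl hDl
  rw [← hfl] at hlam
  have hxP : x * D₁ (aeval x fP) = lam * aeval x fP := by
    rw [← hlam]; field_simp
  have hyQ : y * D₂ (aeval y fQ) = lam * aeval y fQ := by
    rw [← hlam, hlam2]; field_simp
  obtain ⟨m, hm, c₁, hc₁, hPm, hlm1⟩ := eigen D₁ x h11 fP hP0 lam hxP
  obtain ⟨m', hm', c₂, hc₂, hQm, hlm2⟩ := eigen D₂ y h22 fQ hQ0 lam hyQ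
  have hmm : m = m' := by
    apply CharP.natCast_injOn_Iio (K0 K p) p (Set.mem_Iio.2 hm) (Set.mem_Iio.2 hm')
    rw [← hlm1, ← hlm2]
  subst hmm
  obtain ⟨hm1, c, k, hc, hk, hueq⟩ := one_var D₁ x h11 fu hux m hm c₁ hc₁ (by rw [hfP, hPm])
  obtain ⟨_, c', k', hc', hk', hveq⟩ := one_var D₂ y h22 fv hvy m hm c₂ hc₂ (by rw [hfQ, hQm])
  have hp2 : 2 ≤ p := hp.out.two_le
  refine ⟨if m = 0 then 1 else p + 1 - m, ?_, ?_, c, c', k, k', hc, hc', hk, hk', hueq, hveq⟩
  · split_ifs <;> omega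
  · split_ifs with h0
    · omega
    · omega


/-- A derivation of `K` kills `K^p`. -/
theorem der_K0 (D : Derivation ℤ K K) {c : K} (hc : c ∈ K0 K p) : D c = 0 := by
  obtain ⟨a, rfl⟩ := mem_K0.1 hc
  rw [D.leibniz_pow]
  simp

/-- Every derivation of `K` is `K^p`-linear. -/
def toK0Der (D : Derivation ℤ K K) : Derivation (K0 K p) K K :=
  Derivation.mk'
    { toFun := fun a => D a
      map_add' := fun a b => D.map_add a b
      map_smul' := fun c a => by
        show D (c • a) = c • D a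
        rw [Algebra.smul_def, Algebra.smul_def, D.leibniz, algebraMap_K0, der_K0 D c.2]
        simp }
    (fun a b => D.leibniz a b)

@[simp] theorem toK0Der_apply (D : Derivation ℤ K K) (a : K) :
    (toK0Der (p := p) D) a = D a := rfl

/-- Elements of `K^p(w)` (as a `Subfield.closure`) are polynomials in `w` over `K^p`. -/
theorem exists_aeval_of_mem_adj {w z : K} (hz : z ∈ adj p w) :
    ∃ f : (K0 K p)[X], z = aeval w f := by
  have hle : adj p w ≤ ((K0 K p)⟮w⟯).toSubfield := by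
    unfold adj
    rw [Subfield.closure_le]
    rintro c (hc | hc)
    · exact IntermediateField.algebraMap_mem (K0 K p)⟮w⟯ (⟨c, hc⟩ : K0 K p)
    · rw [Set.mem_singleton_iff] at hc
      subst hc
      exact mem_adjoin_simple_self _ _
  exact (mem_adjoin_simple_iff_aeval w z).1 (hle hz)

/-- **Rigidity (key lemma, direction `⇒`)**, with the dual derivations as explicit arguments.
Same statement as `Crest.Agent.S0010lib.rigidity` (module RIGID) otherwise. -/
theorem rigidity_of_der (D₁ D₂ : Derivation ℤ K K) {x y u v I : K}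
    (h11 : D₁ x = 1) (h12 : D₁ y = 0) (h21 : D₂ x = 0) (h22 : D₂ y = 1)
    (hu : u ∈ adj p x) (hv : v ∈ adj p y)
    (hux : ∀ j : ℕ, ∀ c ∈ K0 K p, u ≠ c * x ^ j) (hvy : ∀ j : ℕ, ∀ c ∈ K0 K p, v ≠ c * y ^ j)
    (hI : I ≠ 0) (hI1 : I / y ∈ adj p (x / y)) (hI2 : I / v ∈ adj p (u / v)) :
    ∃ n : ℕ, 1 ≤ n ∧ n < p ∧ ∃ c₁ ∈ K0 K p, ∃ c₂ ∈ K0 K p, ∃ κ₁ ∈ K0 K p, ∃ κ₂ ∈ K0 K p,
      c₁ ≠ 0 ∧ c₂ ≠ 0 ∧ κ₁ ≠ 0 ∧ κ₂ ≠ 0 ∧
      u ^ n = κ₁ * (x ^ n - c₁) ∧ v ^ n = κ₂ * (y ^ n - c₂) := by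
  obtain ⟨fu, rfl⟩ := exists_aeval_of_mem_adj hu
  obtain ⟨fv, rfl⟩ := exists_aeval_of_mem_adj hv
  obtain ⟨g, hg⟩ := exists_aeval_of_mem_adj hI1
  obtain ⟨h, hh⟩ := exists_aeval_of_mem_adj hI2
  have hy0 : y ≠ 0 := by
    rintro rfl
    simp at h22
  have hv0 : aeval y fv ≠ 0 := by
    have h1 := hvy 0 0 (zero_mem _)
    simpa using h1
  have hI1' : I = y * aeval (x / y) g := by
    rw [div_eq_iff hy0] at hg
    rw [hg, mul_comm]
  have hI2' : I = aeval y fv * aeval (aeval x fu / aeval y fv) h := by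
    rw [div_eq_iff hv0] at hh
    rw [hh, mul_comm]
  obtain ⟨n, hn1, hnp, c₁, c₂, k₁, k₂, hc₁, hc₂, hk₁, hk₂, e1, e2⟩ :=
    key_forward_poly (toK0Der (p := p) D₁) (toK0Der (p := p) D₂) x y
      (by simpa using h11) (by simpa using h12) (by simpa using h21) (by simpa using h22)
      fu fv g h (fun j c => hux j c c.2) (fun j c => hvy j c c.2) I hI hI1' hI2'
  have hne : ∀ c : K0 K p, c ≠ 0 → (c : K) ≠ 0 := by
    intro c hc h0
    exact hc (by exact_mod_cast h0)
  exact ⟨n, hn1, hnp, c₁, c₁.2, c₂, c₂.2, k₁, k₁.2, k₂, k₂.2, hne _ hc₁, hne _ hc₂, hne _ hk₁,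
    hne _ hk₂, e1, e2⟩

end Crest.Agent.S0010lib.RigidAlt
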