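/-
S0010 (row 9), module RIGIDCONV (PLAN step 4, direction "<=", and uniqueness of the twist).
-/
import Crest.Agent.S0010.Basic
import Crest.Agent.S0010.Der
import Crest.Agent.S0010.DerFacts

set_option autoImplicit false
open Crest.NumberTheoryR.MilnorK

namespace Crest.Agent.S0010lib

variable {K : Type*} [Field K] {p : ℕ} [Fact p.Prime] [CharP K p]

/-- `n a = p b + 1` has a solution for `1 ≤ n < p`. -/
private theorem RigidConv_bezout {n : ℕ} (hn : 1 ≤ n) (hn' : n < p) :
    ∃ a b : ℕ, n * a = p * b + 1 := by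
  have hp : p.Prime := Fact.out
  have hcop : Nat.Coprime n p :=
    Nat.Coprime.symm ((Nat.Prime.coprime_iff_not_dvd hp).mpr
      (fun h => absurd (Nat.le_of_dvd (by omega) h) (by omega)))
  obtain ⟨a, -, ha⟩ := Nat.exists_mul_mod_eq_one_of_coprime hcop hp.one_lt
  refine ⟨a, n * a / p, ?_⟩
  have h := Nat.div_add_mod (n * a) p
  rw [ha] at h
  exact h.symm

/-- A sparse sum over `range p`. -/
private theorem RigidConv_sum_single (x a : K) {j : ℕ} (hj : j < p) :
    ∑ i ∈ Finset.range p, (if i = j then a else 0) * x ^ i = a * x ^ j := by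
  rw [Finset.sum_eq_single j]
  · simp
  · intro b _ hb
    simp [hb]
  · intro h
    exact absurd (Finset.mem_range.mpr hj) h

/-- `(n : K) ≠ 0` for `1 ≤ n < p`. -/
private theorem RigidConv_cast_ne_zero {n : ℕ} (hn : 1 ≤ n) (hn' : n < p) : (n : K) ≠ 0 := by
  intro h
  rw [CharP.cast_eq_zero_iff K p n] at h
  exact absurd (Nat.le_of_dvd (by omega) h) (by omega)

/-- `x^n ∉ K^p` for `x ∉ K^p`, `1 ≤ n < p`. -/
theorem pow_not_mem_K0 {x : K} (hx : x ∉ K0 K p) {n : ℕ} (hn : 1 ≤ n) (hn' : n < p) :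
    x ^ n ∉ K0 K p := by
  intro h
  have hp : p.Prime := Fact.out
  have hsum : ∑ i ∈ Finset.range p,
      ((if i = 0 then x ^ n else 0) + (if i = n then (-1 : K) else 0)) * x ^ i = 0 := by
    simp only [add_mul, Finset.sum_add_distrib]
    rw [RigidConv_sum_single x (x ^ n) hp.pos, RigidConv_sum_single x (-1 : K) hn']
    ring
  have key := adj_indep (p := p) hx
    (c := fun i => (if i = 0 then x ^ n else 0) + (if i = n then (-1 : K) else 0))
    (by
      intro i
      apply Subfield.add_mem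
      · split_ifs
        · exact h
        · exact Subfield.zero_mem _
      · split_ifs
        · exact Subfield.neg_mem _ (Subfield.one_mem _)
        · exact Subfield.zero_mem _)
    hsum n hn'
  have hn0 : n ≠ 0 := by omega
  simp only [hn0, if_false, if_true, zero_add] at key
  exact one_ne_zero (neg_eq_zero.mp key)

/-- `u^n ∈ K^p(x)`, `1 ≤ n < p`, `u ≠ 0` implies `u ∈ K^p(x)` (as `u = (u^n)^a / (u^p)^b`). -/
theorem mem_adj_of_pow_mem {x u : K} {n : ℕ} (hn : 1 ≤ n) (hn' : n < p)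
    (h : u ^ n ∈ adj p x) : u ∈ adj p x := by
  by_cases hu : u = 0
  · rw [hu]
    exact Subfield.zero_mem _
  obtain ⟨a, b, hab⟩ := RigidConv_bezout (p := p) hn hn'
  have h1 : u = (u ^ n) ^ a / (u ^ p) ^ b := by
    rw [← pow_mul, ← pow_mul, hab, pow_succ]
    field_simp
  rw [h1]
  exact Subfield.div_mem _ (Subfield.pow_mem _ h a)
    (Subfield.pow_mem _ (K0_le_adj x (pow_mem_K0 u)) b)

/-- Converse of `rigidity`: two points on `n`-twisted lines (same `n`) give meeting blocks.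
With `J = c₂ x^n - c₁ y^n`:  `J = y^n (c₂ (x/y)^n - c₁)` and, since `x^n = u^n/κ₁ + c₁`,
`y^n = v^n/κ₂ + c₂`, also `J = v^n ((c₂/κ₁) (u/v)^n - c₁/κ₂)`.  `J ≠ 0` because
`(x/y)^n ∉ K^p` (`x/y ∉ K^p`, `1 ≤ n < p`, and `(x/y)^p ∈ K^p`). -/
theorem rigidity_conv {x y u v : K} (hx : x ∉ K0 K p) (hy : y ∉ adj p x)
    {n : ℕ} (hn : 1 ≤ n) (hn' : n < p) {c₁ c₂ κ₁ κ₂ : K}
    (hc₁ : c₁ ∈ K0 K p) (hc₂ : c₂ ∈ K0 K p) (hκ₁ : κ₁ ∈ K0 K p) (hκ₂ : κ₂ ∈ K0 K p)
    (hc₁0 : c₁ ≠ 0) (hc₂0 : c₂ ≠ 0) (hκ₁0 : κ₁ ≠ 0) (hκ₂0 : κ₂ ≠ 0)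
    (hu : u ^ n = κ₁ * (x ^ n - c₁)) (hv : v ^ n = κ₂ * (y ^ n - c₂)) :
    ∃ J : K, J ≠ 0 ∧ J / y ^ n ∈ adj p (x / y) ∧ J / v ^ n ∈ adj p (u / v) := by
  have hy0 : y ≠ 0 := by
    intro h
    apply hy
    rw [h]
    exact Subfield.zero_mem _
  have hxy : x ∉ adj p y := not_mem_adj_symm hx hy
  refine ⟨c₂ * x ^ n - c₁ * y ^ n, ?_, ?_, ?_⟩
  · intro hJ
    apply hxy
    apply mem_adj_of_pow_mem hn hn'
    have h1 : x ^ n = c₁ / c₂ * y ^ n := by
      field_simp
      linear_combination hJ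
    rw [h1]
    exact Subfield.mul_mem _ (K0_le_adj y (Subfield.div_mem _ hc₁ hc₂))
      (Subfield.pow_mem _ (self_mem_adj y) n)
  · have h1 : (c₂ * x ^ n - c₁ * y ^ n) / y ^ n = c₂ * (x / y) ^ n - c₁ := by
      rw [div_pow]
      field_simp
    rw [h1]
    exact Subfield.sub_mem _ (Subfield.mul_mem _ (K0_le_adj _ hc₂)
      (Subfield.pow_mem _ (self_mem_adj _) n)) (K0_le_adj _ hc₁)
  · by_cases hv0 : v = 0
    · rw [hv0, zero_pow (M₀ := K) (show n ≠ 0 by omega), div_zero, div_zero]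
      exact Subfield.zero_mem _
    · have h1 : (c₂ * x ^ n - c₁ * y ^ n) / v ^ n = c₂ / κ₁ * (u / v) ^ n - c₁ / κ₂ := by
        have hx' : x ^ n = u ^ n / κ₁ + c₁ := by
          rw [hu]
          field_simp
          ring
        have hy' : y ^ n = v ^ n / κ₂ + c₂ := by
          rw [hv]
          field_simp
          ring
        rw [hx', hy', div_pow]
        field_simp
        ring
      rw [h1]
      exact Subfield.sub_mem _ (Subfield.mul_mem _ (K0_le_adj _ (Subfield.div_mem _ hc₂ hκ₁))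
        (Subfield.pow_mem _ (self_mem_adj _) n)) (K0_le_adj _ (Subfield.div_mem _ hc₁ hκ₂))

/-- Logarithmic derivative along a twisted line: `(x^n - c) D u = x^(n-1) u`. -/
private theorem RigidConv_logder (D : Derivation ℤ K K) {x u : K} (hDx : D x = 1) {n : ℕ}
    (hn : 1 ≤ n) (hn' : n < p) {c κ : K} (hc : c ∈ K0 K p) (hκ : κ ∈ K0 K p) (hκ0 : κ ≠ 0)
    (h1 : u ^ n = κ * (x ^ n - c)) : (x ^ n - c) * D u = x ^ (n - 1) * u := by
  have hn0 : (n : K) ≠ 0 := RigidConv_cast_ne_zero (p := p) hn hn'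
  have h2 : D (u ^ n) = D (κ * (x ^ n - c)) := by rw [h1]
  rw [D_pow D u n, D_K0_mul D hκ, map_sub, D_pow D x n, hDx, D_K0 D hc] at h2
  have h3 : u ^ (n - 1) * u = u ^ n := pow_sub_one_mul (by omega) u
  have h4 : (n : K) * (κ * ((x ^ n - c) * D u)) = (n : K) * (κ * (x ^ (n - 1) * u)) := by
    calc (n : K) * (κ * ((x ^ n - c) * D u)) = (n : K) * (u ^ n * D u) := by rw [h1]; ring
      _ = ((n : K) * u ^ (n - 1) * D u) * u := by rw [← h3]; ring
      _ = (κ * ((n : K) * x ^ (n - 1) * 1 - 0)) * u := by rw [h2]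
      _ = (n : K) * (κ * (x ^ (n - 1) * u)) := by ring
  exact mul_left_cancel₀ hκ0 (mul_left_cancel₀ hn0 h4)

/-- A point of `K^p(x)` lies on at most one twisted line.  Proof: take `D` with `D x = 1`
(`exists_derivation`).  From `u^n = κ (x^n - c)`: `n u^(n-1) D u = κ n x^(n-1)`, so
`D u / u = x^(n-1) / (x^n - c)` (`n ≠ 0` in `K`); likewise `D u / u = x^(m-1) / (x^m - c')`.
Cross-multiplying, `c' x^(n-1) = c x^(m-1)`, and `adj_indep` forces `n = m` (else `c = c' = 0`). -/
theorem twist_unique (hfg : FG K p) {x u : K} (hx : x ∉ K0 K p) {n m : ℕ}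
    (hn : 1 ≤ n) (hn' : n < p) (hm : 1 ≤ m) (hm' : m < p) {c c' κ κ' : K}
    (hc : c ∈ K0 K p) (hc' : c' ∈ K0 K p) (hκ : κ ∈ K0 K p) (hκ' : κ' ∈ K0 K p)
    (hc0 : c ≠ 0) (hc'0 : c' ≠ 0) (hκ0 : κ ≠ 0) (hκ'0 : κ' ≠ 0)
    (h1 : u ^ n = κ * (x ^ n - c)) (h2 : u ^ m = κ' * (x ^ m - c')) : n = m := by
  by_contra hnm
  obtain ⟨D, hDx⟩ := exists_derivation hfg hx
  have e1 := RigidConv_logder D hDx hn hn' hc hκ hκ0 h1
  have e2 := RigidConv_logder D hDx hm hm' hc' hκ' hκ'0 h2
  have hu0 : u ≠ 0 := by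
    intro hu
    rw [hu, zero_pow (M₀ := K) (show n ≠ 0 by omega)] at h1
    have h3 : x ^ n - c = 0 := by
      rcases mul_eq_zero.mp h1.symm with h | h
      · exact absurd h hκ0
      · exact h
    apply pow_not_mem_K0 hx hn hn'
    rw [sub_eq_zero.mp h3]
    exact hc
  have e3 : (x ^ n - c) * x ^ (m - 1) = (x ^ m - c') * x ^ (n - 1) := by
    apply mul_right_cancel₀ hu0
    calc (x ^ n - c) * x ^ (m - 1) * u = (x ^ n - c) * (x ^ (m - 1) * u) := by ring
      _ = (x ^ n - c) * ((x ^ m - c') * D u) := by rw [e2]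
      _ = (x ^ m - c') * ((x ^ n - c) * D u) := by ring
      _ = (x ^ m - c') * (x ^ (n - 1) * u) := by rw [e1]
      _ = (x ^ m - c') * x ^ (n - 1) * u := by ring
  have hxn : x ^ (n - 1) * x = x ^ n := pow_sub_one_mul (by omega) x
  have hxm : x ^ (m - 1) * x = x ^ m := pow_sub_one_mul (by omega) x
  have e4 : c * x ^ (m - 1) + (-c') * x ^ (n - 1) = 0 := by
    rw [← hxn, ← hxm] at e3
    linear_combination -e3
  have hsum : ∑ i ∈ Finset.range p,
      ((if i = m - 1 then c else 0) + (if i = n - 1 then (-c') else 0)) * x ^ i = 0 := by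
    simp only [add_mul, Finset.sum_add_distrib]
    rw [RigidConv_sum_single x c (show m - 1 < p by omega),
      RigidConv_sum_single x (-c') (show n - 1 < p by omega)]
    exact e4
  have key := adj_indep (p := p) hx
    (c := fun i => (if i = m - 1 then c else 0) + (if i = n - 1 then (-c') else 0))
    (by
      intro i
      apply Subfield.add_mem
      · split_ifs
        · exact hc
        · exact Subfield.zero_mem _
      · split_ifs
        · exact Subfield.neg_mem _ hc'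
        · exact Subfield.zero_mem _)
    hsum (m - 1) (by omega)
  have hne : m - 1 ≠ n - 1 := by omega
  simp only [hne, if_false, if_true, add_zero] at key
  exact hc0 key

/-- A point of a twisted line is not a `K^p`-multiple of a power of `x`
(`1, x^n, x^(nj mod p)` independent over `K^p`). -/
theorem twist_not_monomial {x u : K} (hx : x ∉ K0 K p) {n : ℕ} (hn : 1 ≤ n) (hn' : n < p)
    {c κ : K} (hc : c ∈ K0 K p) (hκ : κ ∈ K0 K p) (hc0 : c ≠ 0) (hκ0 : κ ≠ 0)
    (h1 : u ^ n = κ * (x ^ n - c)) : ∀ j : ℕ, ∀ e ∈ K0 K p, u ≠ e * x ^ j := by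
  intro j e he hu
  have hp : p.Prime := Fact.out
  have hr : j * n % p < p := Nat.mod_lt _ hp.pos
  have hxj : x ^ (j * n) = (x ^ p) ^ (j * n / p) * x ^ (j * n % p) := by
    rw [← pow_mul, ← pow_add, Nat.div_add_mod]
  have ha : e ^ n * (x ^ p) ^ (j * n / p) ∈ K0 K p :=
    Subfield.mul_mem _ (Subfield.pow_mem _ he n) (Subfield.pow_mem _ (pow_mem_K0 x) _)
  have e1 : e ^ n * (x ^ p) ^ (j * n / p) * x ^ (j * n % p) + (-κ) * x ^ n + κ * c * x ^ 0 = 0 := by
    have h2 : u ^ n = e ^ n * ((x ^ p) ^ (j * n / p) * x ^ (j * n % p)) := by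
      rw [hu, mul_pow, ← pow_mul, hxj]
    rw [h2] at h1
    rw [pow_zero]
    linear_combination h1
  have hsum : ∑ i ∈ Finset.range p,
      ((if i = j * n % p then e ^ n * (x ^ p) ^ (j * n / p) else 0) +
        (if i = n then (-κ) else 0) + (if i = 0 then κ * c else 0)) * x ^ i = 0 := by
    simp only [add_mul, Finset.sum_add_distrib]
    rw [RigidConv_sum_single x _ hr, RigidConv_sum_single x (-κ) hn',
      RigidConv_sum_single x (κ * c) hp.pos]
    exact e1
  have key := adj_indep (p := p) hx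
    (c := fun i => (if i = j * n % p then e ^ n * (x ^ p) ^ (j * n / p) else 0) +
        (if i = n then (-κ) else 0) + (if i = 0 then κ * c else 0))
    (by
      intro i
      apply Subfield.add_mem
      · apply Subfield.add_mem
        · split_ifs
          · exact ha
          · exact Subfield.zero_mem _
        · split_ifs
          · exact Subfield.neg_mem _ hκ
          · exact Subfield.zero_mem _
      · split_ifs
        · exact Subfield.mul_mem _ hκ hc
        · exact Subfield.zero_mem _)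
    hsum
  have hn0 : n ≠ 0 := by omega
  by_cases hr0 : j * n % p = 0
  · have k1 := key n hn'
    have hne : n ≠ j * n % p := by omega
    simp only [hne, hn0, if_false, if_true, zero_add, add_zero] at k1
    exact hκ0 (neg_eq_zero.mp k1)
  · have k0 := key 0 hp.pos
    have hne : (0 : ℕ) ≠ j * n % p := fun h => hr0 h.symm
    have hne' : (0 : ℕ) ≠ n := fun h => hn0 h.symm
    simp only [hne, hne', if_false, if_true, zero_add] at k0
    exact mul_ne_zero hκ0 hc0 k0

end Crest.Agent.S0010lib
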