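import Mathlib
import Crest.Prelude.Def_MilnorK

/-!
# Row 9 (S0010), STEP 1 (helper76)

`K0 = K^p`; classes in `KOne K p` vs. `K0`; Steinberg membership of `[f] ⊗ [c + e f]`
(`c, e ∈ K0`); and the transfer of `p`-dependence under a compatible `Θ`, given the
non-membership fact `NonSt` (proved elsewhere via derivations) as a hypothesis.
-/

set_option autoImplicit false
set_option linter.unusedSectionVars false
open Crest.NumberTheoryR.MilnorK
open scoped TensorProduct

namespace Crest.Agent.S0010.Step1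

variable {p : ℕ} [Fact p.Prime] {K : Type*} [Field K] [CharP K p]
variable {L : Type*} [Field L] [CharP L p]

/-- `K0 = K^p`, the subfield of `p`-th powers. -/
def K0 (K : Type*) [Field K] (p : ℕ) [Fact p.Prime] [CharP K p] : Subfield K :=
  (frobenius K p).fieldRange

theorem mem_K0 {a : K} : a ∈ K0 K p ↔ ∃ b : K, b ^ p = a := by
  simp [K0, RingHom.mem_fieldRange, frobenius_def]

theorem K0_eq : K0 K p = (frobenius K p).fieldRange := rfl

theorem pow_mem_K0 (b : K) : b ^ p ∈ K0 K p := mem_K0.2 ⟨b, rfl⟩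

/-- `K0(u)`, the subfield generated by `K0` and `u`. -/
def adj (p : ℕ) [Fact p.Prime] {K : Type*} [Field K] [CharP K p] (u : K) : Subfield K :=
  Subfield.closure ((K0 K p : Set K) ∪ {u})

theorem adj_eq (u : K) : adj p u = Subfield.closure ((K0 K p : Set K) ∪ {u}) := rfl

theorem K0_le_adj (u : K) : K0 K p ≤ adj p u := fun _ ha =>
  Subfield.subset_closure (Or.inl ha)

theorem self_mem_adj (u : K) : u ∈ adj p u :=
  Subfield.subset_closure (Or.inr rfl)

theorem adj_le {u : K} {E : Subfield K} (h0 : K0 K p ≤ E) (hu : u ∈ E) : adj p u ≤ E := by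
  rw [adj, Subfield.closure_le]
  rintro x (hx | hx)
  · exact h0 hx
  · rw [Set.mem_singleton_iff] at hx; rw [hx]; exact hu

/-! ### classes -/

theorem cls_mul (u v : Kˣ) : cls K p (u * v) = cls K p u + cls K p v := rfl

theorem cls_one : cls K p (1 : Kˣ) = 0 := rfl

theorem cls_inv (u : Kˣ) : cls K p u⁻¹ = - cls K p u := rfl

theorem cls_surjective : Function.Surjective (cls K p) := by
  intro a
  obtain ⟨x, rfl⟩ := QuotientAddGroup.mk_surjective a
  exact ⟨Additive.toMul x, rfl⟩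

theorem cls_eq_zero_iff (u : Kˣ) : cls K p u = 0 ↔ (u : K) ∈ K0 K p := by
  rw [cls, QuotientAddGroup.eq_zero_iff, pMultiples, AddMonoidHom.mem_range, mem_K0]
  constructor
  · rintro ⟨v, hv⟩
    refine ⟨((Additive.toMul v : Kˣ) : K), ?_⟩
    have : (Additive.toMul v) ^ p = u := by
      have := congrArg Additive.toMul hv
      simpa using this
    rw [← Units.val_pow_eq_pow_val, this]
  · rintro ⟨b, hb⟩
    have hb0 : b ≠ 0 := by
      rintro rfl
      have hp : p ≠ 0 := (Fact.out : p.Prime).ne_zero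
      rw [zero_pow hp] at hb
      exact u.ne_zero hb.symm
    refine ⟨Additive.ofMul (Units.mk0 b hb0), ?_⟩
    have : (Units.mk0 b hb0) ^ p = u := by
      ext; simp [hb]
    simp [← ofMul_pow, this]

theorem cls_eq_iff (u v : Kˣ) :
    cls K p u = cls K p v ↔ ∃ c ∈ K0 K p, (u : K) = c * v := by
  constructor
  · intro h
    have h1 : cls K p (u * v⁻¹) = 0 := by rw [cls_mul, cls_inv, h, add_neg_cancel]
    rw [cls_eq_zero_iff] at h1
    refine ⟨_, h1, ?_⟩
    simp
  · rintro ⟨c, hc, hcu⟩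
    have hc0 : c ≠ 0 := by
      rintro rfl; simp at hcu
    have h1 : u = Units.mk0 c hc0 * v := by ext; simp [hcu]
    have h2 : cls K p (Units.mk0 c hc0) = 0 := (cls_eq_zero_iff _).2 hc
    rw [h1, cls_mul, h2]; exact zero_add (cls K p v)

theorem neg_one_mem_K0 : (-1 : K) ∈ K0 K p := neg_mem (one_mem _)

theorem cls_eq_of_eq_mul {u v : Kˣ} {c : K} (hc : c ∈ K0 K p) (h : (u : K) = c * v) :
    cls K p u = cls K p v :=
  (cls_eq_iff u v).2 ⟨c, hc, h⟩

theorem cls_mk0_val (u : Kˣ) (h : (u : K) ≠ 0) : cls K p (Units.mk0 (u : K) h) = cls K p u := by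
  congr 1; ext; rfl

/-! ### Step (1): Steinberg membership -/

theorem steinberg_gen_mem (f : K) (hf : f ≠ 0) (hf1 : 1 - f ≠ 0) :
    cls K p (Units.mk0 f hf) ⊗ₜ[ZMod p] cls K p (Units.mk0 (1 - f) hf1) ∈ steinberg K p :=
  Submodule.subset_span ⟨f, hf, hf1, rfl⟩

theorem tmul_self_mem_steinberg (f : Kˣ) :
    cls K p f ⊗ₜ[ZMod p] cls K p f ∈ steinberg K p := by
  by_cases h1 : (1 : K) - f = 0
  · have h0 : cls K p f = 0 := by
      rw [cls_eq_zero_iff]
      have : (f : K) = 1 := by linear_combination -h1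
      rw [this]; exact one_mem _
    rw [h0, TensorProduct.zero_tmul]
    exact zero_mem _
  · have hf : (f : K) ≠ 0 := f.ne_zero
    have hinv : (f : K)⁻¹ ≠ 0 := inv_ne_zero hf
    have h2 : (1 : K) - (f : K)⁻¹ ≠ 0 := by
      intro h
      apply h1
      have h3 : (f : K)⁻¹ = 1 := by linear_combination -h
      have h4 : (f : K) = 1 := by
        have := inv_inv (f : K)
        rw [h3, inv_one] at this
        exact this.symm
      rw [h4, sub_self]
    have e1 := steinberg_gen_mem (p := p) (f : K) hf h1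
    have e2 := steinberg_gen_mem (p := p) (f : K)⁻¹ hinv h2
    have c1 : cls K p (Units.mk0 (f : K) hf) = cls K p f := cls_mk0_val f hf
    have c2 : cls K p (Units.mk0 (f : K)⁻¹ hinv) = - cls K p f := by
      rw [← cls_inv]; congr 1; ext; simp
    have hm1 : (-1 : K) ≠ 0 := by simp
    have c3 : cls K p (Units.mk0 (1 - (f : K)⁻¹) h2)
        = cls K p (Units.mk0 (1 - (f : K)) h1) - cls K p f := by
      have h5 : Units.mk0 (1 - (f : K)⁻¹) h2
          = Units.mk0 (-1 : K) hm1 * (Units.mk0 (1 - (f : K)) h1 * f⁻¹) := by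
        ext
        simp only [Units.val_mk0, Units.val_mul, Units.val_inv_eq_inv_val]
        field_simp
        ring
      have h6 : cls K p (Units.mk0 (-1 : K) hm1) = 0 :=
        (cls_eq_zero_iff _).2 (by simp)
      rw [h5, cls_mul, cls_mul, cls_inv, h6]
      abel
    rw [c1] at e1
    rw [c2, c3, TensorProduct.neg_tmul, TensorProduct.tmul_sub] at e2
    have h7 := add_mem e1 e2
    convert h7 using 1
    abel

/-- Step (1): `[f] ⊗ [c + e f] ∈ St` for `c, e ∈ K0`. -/
theorem tmul_mem_steinberg (f w : Kˣ) {c e : K} (hc : c ∈ K0 K p) (he : e ∈ K0 K p)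
    (hw : (w : K) = c + e * f) : cls K p f ⊗ₜ[ZMod p] cls K p w ∈ steinberg K p := by
  by_cases he0 : e = 0
  · have h0 : cls K p w = 0 := by
      rw [cls_eq_zero_iff, hw, he0]; simpa using hc
    rw [h0, TensorProduct.tmul_zero]; exact zero_mem _
  by_cases hc0 : c = 0
  · have h0 : cls K p w = cls K p f := cls_eq_of_eq_mul he (by rw [hw, hc0, zero_add])
    rw [h0]; exact tmul_self_mem_steinberg f
  have hf : (f : K) ≠ 0 := f.ne_zero
  have hg0 : -(e * (f : K) / c) ≠ 0 := neg_ne_zero.2 (div_ne_zero (mul_ne_zero he0 hf) hc0)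
  have hg1 : 1 - -(e * (f : K) / c) = (w : K) / c := by rw [hw]; field_simp; ring
  have hg1' : 1 - -(e * (f : K) / c) ≠ 0 := by rw [hg1]; exact div_ne_zero w.ne_zero hc0
  have e1 := steinberg_gen_mem (p := p) (-(e * (f : K) / c)) hg0 hg1'
  have c1 : cls K p (Units.mk0 (-(e * (f : K) / c)) hg0) = cls K p f :=
    cls_eq_of_eq_mul (c := -(e / c)) (neg_mem (div_mem he hc)) (by
      simp only [Units.val_mk0]; ring)
  have c2 : cls K p (Units.mk0 (1 - -(e * (f : K) / c)) hg1') = cls K p w :=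
    cls_eq_of_eq_mul (c := c⁻¹) (inv_mem hc) (by
      simp only [Units.val_mk0]; rw [hg1]; ring)
  rw [c1, c2] at e1; exact e1

/-! ### Step (3): `p`-dependence is intrinsic -/

/-- The non-membership statement (2)/(A): for a `p`-independent pair `f, g` the tensor
`[f] ⊗ [g]` is not in the Steinberg subspace. (Proved elsewhere, via derivations.) -/
def NonSt (K : Type*) [Field K] (p : ℕ) [Fact p.Prime] [CharP K p] : Prop :=
  ∀ f g : Kˣ, (f : K) ∉ K0 K p → (g : K) ∉ adj p (f : K) →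
    cls K p f ⊗ₜ[ZMod p] cls K p g ∉ steinberg K p

theorem map_mem_of_isCompatible {Θ : KOne K p ≃ₗ[ZMod p] KOne L p} (hΘ : IsCompatible Θ)
    {t : KOne K p ⊗[ZMod p] KOne K p} (ht : t ∈ steinberg K p) :
    TensorProduct.map Θ.toLinearMap Θ.toLinearMap t ∈ steinberg L p := by
  rw [← hΘ]; exact Submodule.mem_map_of_mem ht

theorem tmul_map_mem_of_isCompatible {Θ : KOne K p ≃ₗ[ZMod p] KOne L p} (hΘ : IsCompatible Θ)
    {a b : KOne K p} (ht : a ⊗ₜ[ZMod p] b ∈ steinberg K p) :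
    Θ a ⊗ₜ[ZMod p] Θ b ∈ steinberg L p := by
  have := map_mem_of_isCompatible hΘ ht
  rwa [TensorProduct.map_tmul] at this

theorem isCompatible_symm {Θ : KOne K p ≃ₗ[ZMod p] KOne L p} (hΘ : IsCompatible Θ) :
    IsCompatible Θ.symm := by
  unfold IsCompatible at hΘ ⊢
  rw [← hΘ, ← Submodule.map_comp, ← TensorProduct.map_comp]
  simp

/-- The classes of the nonzero elements of a subfield, as an additive subgroup of `KOne`. -/
def clsSet (p : ℕ) [Fact p.Prime] {L : Type*} [Field L] [CharP L p] (E : Subfield L) :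
    AddSubgroup (KOne L p) where
  carrier := {a | ∃ z : Lˣ, (z : L) ∈ E ∧ cls L p z = a}
  zero_mem' := ⟨1, by simp [one_mem], rfl⟩
  add_mem' := by
    rintro a b ⟨z, hz, rfl⟩ ⟨t, ht, rfl⟩
    exact ⟨z * t, by simpa using mul_mem hz ht, rfl⟩
  neg_mem' := by
    rintro a ⟨z, hz, rfl⟩
    exact ⟨z⁻¹, by simpa using inv_mem hz, rfl⟩

theorem mem_clsSet {E : Subfield L} {a : KOne L p} :
    a ∈ clsSet p E ↔ ∃ z : Lˣ, (z : L) ∈ E ∧ cls L p z = a := Iff.rfl

/-- If `K0 ≤ E` and `[w'] ∈ clsSet E` then `w' ∈ E`. -/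
theorem mem_of_cls_mem_clsSet {E : Subfield L} (hE : K0 L p ≤ E) {w' : Lˣ}
    (h : cls L p w' ∈ clsSet p E) : (w' : L) ∈ E := by
  obtain ⟨z, hz, hzw⟩ := h
  obtain ⟨c, hc, hcz⟩ := (cls_eq_iff _ _).1 hzw.symm
  rw [hcz]
  exact mul_mem (hE hc) hz

theorem step_one_add (Θ : KOne K p ≃ₗ[ZMod p] KOne L p) (hΘ : IsCompatible Θ) (hL : NonSt L p)
    (E : Subfield L) (hE : K0 L p ≤ E) (w : K) (hw : w ≠ 0) (hw1 : 1 + w ≠ 0)
    (h : Θ (cls K p (Units.mk0 w hw)) ∈ clsSet p E) :
    Θ (cls K p (Units.mk0 (1 + w) hw1)) ∈ clsSet p E := by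
  obtain ⟨z, hz, hzw⟩ := h
  obtain ⟨t, ht⟩ := cls_surjective (Θ (cls K p (Units.mk0 (1 + w) hw1)))
  have hst : cls K p (Units.mk0 w hw) ⊗ₜ[ZMod p] cls K p (Units.mk0 (1 + w) hw1)
      ∈ steinberg K p :=
    tmul_mem_steinberg _ _ (one_mem _) (one_mem _) (by simp)
  have hst' := tmul_map_mem_of_isCompatible hΘ hst
  rw [← hzw, ← ht] at hst'
  by_cases hz0 : (z : L) ∈ K0 L p
  · have h1 : cls L p z = 0 := (cls_eq_zero_iff z).2 hz0
    rw [h1] at hzw
    have h2 : cls K p (Units.mk0 w hw) = 0 :=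
      Θ.injective (hzw.symm.trans (map_zero Θ).symm)
    have h3 : w ∈ K0 K p := by simpa using (cls_eq_zero_iff _).1 h2
    have h4 : cls K p (Units.mk0 (1 + w) hw1) = 0 :=
      (cls_eq_zero_iff _).2 (by simpa using add_mem (one_mem _) h3)
    rw [h4, map_zero]; exact zero_mem _
  · by_contra hcon
    have htE : (t : L) ∉ adj p (z : L) := fun h' => hcon ⟨t, adj_le hE hz h', ht⟩
    exact hL z t hz0 htE hst'

/-- The set of `w ∈ K` whose class is sent by `Θ` into the classes of `E` (together with `0`)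
is a subfield of `K`, as soon as `K0(L) ≤ E`. -/
def transferSubfield (Θ : KOne K p ≃ₗ[ZMod p] KOne L p) (hΘ : IsCompatible Θ) (hL : NonSt L p)
    (E : Subfield L) (hE : K0 L p ≤ E) : Subfield K where
  carrier := {w | ∀ hw : w ≠ 0, Θ (cls K p (Units.mk0 w hw)) ∈ clsSet p E}
  mul_mem' := by
    intro a b ha hb hab
    have ha0 : a ≠ 0 := left_ne_zero_of_mul hab
    have hb0 : b ≠ 0 := right_ne_zero_of_mul hab
    have h1 : Units.mk0 (a * b) hab = Units.mk0 a ha0 * Units.mk0 b hb0 := by ext; simp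
    rw [h1, cls_mul, map_add]
    exact add_mem (ha ha0) (hb hb0)
  one_mem' := by
    intro h1
    have : cls K p (Units.mk0 (1 : K) h1) = 0 := (cls_eq_zero_iff _).2 (by simp)
    rw [this, map_zero]; exact zero_mem _
  add_mem' := by
    intro a b ha hb hab
    by_cases hb0 : b = 0
    · subst hb0
      have h1 : Units.mk0 (a + 0) hab = Units.mk0 a (by simpa using hab) := by ext; simp
      rw [h1]; exact ha _
    by_cases ha0 : a = 0
    · subst ha0
      have h1 : Units.mk0 (0 + b) hab = Units.mk0 b hb0 := by ext; simp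
      rw [h1]; exact hb _
    have hq : a / b ≠ 0 := div_ne_zero ha0 hb0
    have hq1 : 1 + a / b ≠ 0 := by
      intro h
      apply hab
      have : a + b = b * (1 + a / b) := by field_simp; ring
      rw [this, h, mul_zero]
    have h1 : Units.mk0 (a + b) hab = Units.mk0 b hb0 * Units.mk0 (1 + a / b) hq1 := by
      ext; simp; field_simp; ring
    have h2 : Units.mk0 (a / b) hq = Units.mk0 a ha0 * (Units.mk0 b hb0)⁻¹ := by
      ext; simp [div_eq_mul_inv]
    have h3 : Θ (cls K p (Units.mk0 (a / b) hq)) ∈ clsSet p E := by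
      rw [h2, cls_mul, cls_inv, map_add, map_neg]
      exact add_mem (ha ha0) (neg_mem (hb hb0))
    rw [h1, cls_mul, map_add]
    exact add_mem (hb hb0) (step_one_add Θ hΘ hL E hE _ hq hq1 h3)
  zero_mem' := fun h => absurd rfl h
  neg_mem' := by
    intro a ha hna
    have ha0 : a ≠ 0 := by simpa using hna
    have hm1 : (-1 : K) ≠ 0 := by simp
    have h1 : Units.mk0 (-a) hna = Units.mk0 (-1 : K) hm1 * Units.mk0 a ha0 := by ext; simp
    have h2 : cls K p (Units.mk0 (-1 : K) hm1) = 0 := (cls_eq_zero_iff _).2 (by simp)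
    rw [h1, cls_mul, map_add, h2, map_zero]
    exact add_mem (zero_mem _) (ha ha0)
  inv_mem' := by
    intro a ha hia
    have ha0 : a ≠ 0 := by simpa using hia
    have h1 : Units.mk0 a⁻¹ hia = (Units.mk0 a ha0)⁻¹ := by ext; simp
    rw [h1, cls_inv, map_neg]
    exact neg_mem (ha ha0)

theorem mem_transferSubfield {Θ : KOne K p ≃ₗ[ZMod p] KOne L p} {hΘ : IsCompatible Θ}
    {hL : NonSt L p} {E : Subfield L} {hE : K0 L p ≤ E} {w : K} :
    w ∈ transferSubfield Θ hΘ hL E hE ↔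
      ∀ hw : w ≠ 0, Θ (cls K p (Units.mk0 w hw)) ∈ clsSet p E := Iff.rfl

theorem K0_le_transferSubfield (Θ : KOne K p ≃ₗ[ZMod p] KOne L p) (hΘ : IsCompatible Θ)
    (hL : NonSt L p) (E : Subfield L) (hE : K0 L p ≤ E) :
    K0 K p ≤ transferSubfield Θ hΘ hL E hE := by
  intro c hc hc0
  have : cls K p (Units.mk0 c hc0) = 0 := (cls_eq_zero_iff _).2 hc
  rw [this, map_zero]; exact zero_mem _

/-- General form of Step (3), forward direction: if `Θ[u] ∈ classes of E` (with `K0(L) ≤ E`)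
then `Θ` maps the classes of `K0(u)` into the classes of `E`. -/
theorem adj_le_transferSubfield (Θ : KOne K p ≃ₗ[ZMod p] KOne L p) (hΘ : IsCompatible Θ)
    (hL : NonSt L p) (E : Subfield L) (hE : K0 L p ≤ E) (u : Kˣ)
    (hu : Θ (cls K p u) ∈ clsSet p E) :
    adj p (u : K) ≤ transferSubfield Θ hΘ hL E hE := by
  apply adj_le (K0_le_transferSubfield Θ hΘ hL E hE)
  intro hu0
  rw [cls_mk0_val]; exact hu

/-- Step (3), forward direction. -/
theorem dep_forward (Θ : KOne K p ≃ₗ[ZMod p] KOne L p) (hΘ : IsCompatible Θ) (hL : NonSt L p)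
    (u w : Kˣ) (u' w' : Lˣ) (hu : Θ (cls K p u) = cls L p u') (hw : Θ (cls K p w) = cls L p w')
    (hwu : (w : K) ∈ adj p (u : K)) : (w' : L) ∈ adj p (u' : L) := by
  have hle := adj_le_transferSubfield Θ hΘ hL (adj p (u' : L)) (K0_le_adj _) u
    (by rw [hu]; exact ⟨u', self_mem_adj _, rfl⟩)
  have h1 := hle hwu w.ne_zero
  rw [cls_mk0_val, hw] at h1
  exact mem_of_cls_mem_clsSet (K0_le_adj _) h1

/-- Step (3): `p`-dependence is intrinsic. If `Θ[u] = [u']` and `Θ[w] = [w']` then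
`w ∈ K0(u) ↔ w' ∈ L0(u')`. -/
theorem dep_transfer (Θ : KOne K p ≃ₗ[ZMod p] KOne L p) (hΘ : IsCompatible Θ)
    (hK : NonSt K p) (hL : NonSt L p)
    (u w : Kˣ) (u' w' : Lˣ) (hu : Θ (cls K p u) = cls L p u') (hw : Θ (cls K p w) = cls L p w') :
    (w : K) ∈ adj p (u : K) ↔ (w' : L) ∈ adj p (u' : L) := by
  refine ⟨dep_forward Θ hΘ hL u w u' w' hu hw, ?_⟩
  refine dep_forward Θ.symm (isCompatible_symm hΘ) hK u' w' u w ?_ ?_
  · rw [← hu, LinearEquiv.symm_apply_apply]
  · rw [← hw, LinearEquiv.symm_apply_apply]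

/-- `Θ` preserves "being a `p`-th power". -/
theorem mem_K0_transfer (Θ : KOne K p ≃ₗ[ZMod p] KOne L p) (u : Kˣ) (u' : Lˣ)
    (hu : Θ (cls K p u) = cls L p u') : (u : K) ∈ K0 K p ↔ (u' : L) ∈ K0 L p := by
  rw [← cls_eq_zero_iff, ← cls_eq_zero_iff, ← hu]
  exact (LinearEquiv.map_eq_zero_iff Θ).symm

/-- `p`-independent pairs go to `p`-independent pairs. -/
theorem pIndep_transfer (Θ : KOne K p ≃ₗ[ZMod p] KOne L p) (hΘ : IsCompatible Θ)
    (hK : NonSt K p) (hL : NonSt L p)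
    (x y : Kˣ) (x' y' : Lˣ) (hx : Θ (cls K p x) = cls L p x') (hy : Θ (cls K p y) = cls L p y')
    (hx0 : (x : K) ∉ K0 K p) (hy0 : (y : K) ∉ adj p (x : K)) :
    (x' : L) ∉ K0 L p ∧ (y' : L) ∉ adj p (x' : L) :=
  ⟨fun h => hx0 ((mem_K0_transfer Θ x x' hx).2 h),
    fun h => hy0 ((dep_transfer Θ hΘ hK hL x y x' y' hx hy).2 h)⟩

end Crest.Agent.S0010.Step1
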