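import Crest.Agent.S0010.Defs
import Crest.Agent.S0010.Step1

/-!
# Row 9 (S0010): adapters from `Step1.lean` (helper76) to the skeleton's `Defs.lean`

Sorry-free; imports only `Defs` and `Step1` (no other skeleton module).  The statements are the
skeleton statements of `Steinberg.lean` and `GIntr.lean`, with the non-membership fact of
`Symbol.lean` entering as a hypothesis (`lib_nonSt_of` converts it).
All names are prefixed `lib_` and live in `Crest.Agent.S0010.Step1`.
-/

set_option autoImplicit false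
set_option linter.unusedSectionVars false
open Crest.NumberTheoryR.MilnorK
open scoped TensorProduct

namespace Crest.Agent.S0010.Step1

open Crest.Agent.S0010lib (cl G FG)

variable {p : ℕ} [Fact p.Prime] {K : Type*} [Field K] [CharP K p]
variable {L : Type*} [Field L] [CharP L p]

theorem lib_K0_eq : Crest.Agent.S0010lib.K0 K p = K0 K p := rfl

theorem lib_adj_eq (f : K) : Crest.Agent.S0010lib.adj p f = adj p f := rfl

theorem lib_cl_ne {x : K} (hx : x ≠ 0) : cl p x = cls K p (Units.mk0 x hx) := by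
  simp [cl, hx]

theorem lib_cl_zero : cl p (0 : K) = 0 := by
  simp [cl]

theorem lib_cl_unit (u : Kˣ) : cl p (u : K) = cls K p u := by
  rw [lib_cl_ne u.ne_zero, cls_mk0_val]

/-- Statement of `Steinberg.lean` (PLAN step 1). -/
theorem lib_tmul_line_mem_steinberg (f : K) {c e : K}
    (hc : c ∈ Crest.Agent.S0010lib.K0 K p) (he : e ∈ Crest.Agent.S0010lib.K0 K p) :
    cl p f ⊗ₜ[ZMod p] cl p (c + e * f) ∈ steinberg K p := by
  by_cases hf : f = 0
  · subst hf
    rw [lib_cl_zero, TensorProduct.zero_tmul]; exact zero_mem _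
  by_cases hw : c + e * f = 0
  · rw [hw, lib_cl_zero, TensorProduct.tmul_zero]; exact zero_mem _
  rw [lib_cl_ne hf, lib_cl_ne hw]
  exact tmul_mem_steinberg (Units.mk0 f hf) (Units.mk0 (c + e * f) hw) hc he rfl

/-- First statement of `GIntr.lean`. -/
theorem lib_tmul_mem_steinberg_iff (Θ : KOne K p ≃ₗ[ZMod p] KOne L p) (hΘ : IsCompatible Θ)
    (a b : KOne K p) :
    Θ a ⊗ₜ[ZMod p] Θ b ∈ steinberg L p ↔ a ⊗ₜ[ZMod p] b ∈ steinberg K p := by
  constructor
  · intro h
    have := tmul_map_mem_of_isCompatible (isCompatible_symm hΘ) h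
    simpa using this
  · exact tmul_map_mem_of_isCompatible hΘ

/-- Second statement of `GIntr.lean`. -/
theorem lib_isCompatible_symm (Θ : KOne K p ≃ₗ[ZMod p] KOne L p) (hΘ : IsCompatible Θ) :
    IsCompatible Θ.symm := isCompatible_symm hΘ

/-- The statement of `Symbol.lean` gives `NonSt`. -/
theorem lib_nonSt_of
    (h : ∀ f g : K, f ∉ Crest.Agent.S0010lib.K0 K p → g ≠ 0 →
      cl p f ⊗ₜ[ZMod p] cl p g ∈ steinberg K p → g ∈ Crest.Agent.S0010lib.adj p f) :
    NonSt K p := by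
  intro f g hf hg hst
  apply hg
  have := h (f : K) (g : K) hf g.ne_zero (by rw [lib_cl_unit, lib_cl_unit]; exact hst)
  exact this

theorem lib_mem_G {a b : KOne K p} :
    b ∈ G p a ↔ ∃ u w : Kˣ, cls K p u = a ∧ cls K p w = b ∧ (w : K) ∈ adj p (u : K) := by
  constructor
  · rintro ⟨f, g, hf, hg, rfl, rfl, hgf⟩
    exact ⟨Units.mk0 f hf, Units.mk0 g hg, (lib_cl_ne hf).symm, (lib_cl_ne hg).symm, hgf⟩
  · rintro ⟨u, w, rfl, rfl, hwu⟩
    exact ⟨u, w, u.ne_zero, w.ne_zero, lib_cl_unit u, lib_cl_unit w, hwu⟩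

/-- `b ∈ G(a)` does not depend on the representatives. -/
theorem lib_mem_G_cls {u w : Kˣ} :
    cls K p w ∈ G p (cls K p u) ↔ (w : K) ∈ adj p (u : K) := by
  rw [lib_mem_G]
  constructor
  · rintro ⟨u1, w1, hu, hw, h⟩
    obtain ⟨c, hc, hcu⟩ := (cls_eq_iff _ _).1 hu
    obtain ⟨d, hd, hdw⟩ := (cls_eq_iff _ _).1 hw.symm
    have hc0 : c ≠ 0 := by
      rintro rfl
      rw [zero_mul] at hcu
      exact u1.ne_zero hcu
    have hle : adj p (u1 : K) ≤ adj p (u : K) := by
      apply adj_le (K0_le_adj _)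
      rw [hcu]
      exact mul_mem (K0_le_adj _ hc) (self_mem_adj _)
    rw [hdw]
    exact mul_mem (K0_le_adj _ hd) (hle h)
  · intro h
    exact ⟨u, w, rfl, rfl, h⟩

/-- Third statement of `GIntr.lean` (with `NonSt` in place of `FG`). -/
theorem lib_mem_G_map_iff (hK : NonSt K p) (hL : NonSt L p) (Θ : KOne K p ≃ₗ[ZMod p] KOne L p)
    (hΘ : IsCompatible Θ) (a b : KOne K p) : Θ b ∈ G p (Θ a) ↔ b ∈ G p a := by
  obtain ⟨u, rfl⟩ := cls_surjective (K := K) (p := p) a
  obtain ⟨w, rfl⟩ := cls_surjective (K := K) (p := p) b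
  obtain ⟨u', hu⟩ := cls_surjective (K := L) (p := p) (Θ (cls K p u))
  obtain ⟨w', hw⟩ := cls_surjective (K := L) (p := p) (Θ (cls K p w))
  rw [← hu, ← hw, lib_mem_G_cls, lib_mem_G_cls]
  exact (dep_transfer Θ hΘ hK hL u w u' w' hu.symm hw.symm).symm

/-- Fourth statement of `GIntr.lean` (with `NonSt` in place of `FG`). -/
theorem lib_map_G (hK : NonSt K p) (hL : NonSt L p) (Θ : KOne K p ≃ₗ[ZMod p] KOne L p)
    (hΘ : IsCompatible Θ) (a : KOne K p) : Θ '' G p a = G p (Θ a) := by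
  ext c
  constructor
  · rintro ⟨b, hb, rfl⟩
    exact (lib_mem_G_map_iff hK hL Θ hΘ a b).2 hb
  · intro hc
    refine ⟨Θ.symm c, ?_, by simp⟩
    apply (lib_mem_G_map_iff hK hL Θ hΘ a (Θ.symm c)).1
    simpa using hc

end Crest.Agent.S0010.Step1
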