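import Mathlib
import Crest.Prelude.Def_MilnorK

/-!
# S0010 (row 9), step (5): the global twist

`K`, `L` fields of characteristic `p`; `K0 = K^p = (frobenius K p).fieldRange`,
`K0(x) = Subfield.closure (K0 ∪ {x})`.  For a compatible `Θ : KOne K p ≃ₗ KOne L p` we show:
there is one `n ∈ {1, …, p-1}` such that `Φ := n • Θ` maps every "line through `[1]`"
`{[x + c] : c ∈ K0}` (`x ∉ K0`) into a line through `[1]` of `L`, and the same holds for
`Φ⁻¹ = Θ⁻¹ ∘ n⁻¹`.

The inputs from the other modules enter as hypotheses: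
* `hS1` (step (3): `p`-dependence is intrinsic),
* `hKL` (step (4), the key rigidity lemma, composed with the existence of dual derivations),
* `hpair` (existence of a `p`-independent pair).
-/

set_option autoImplicit false
set_option linter.unusedSectionVars false
open Polynomial
open Crest.NumberTheoryR.MilnorK

namespace Crest.Agent.S0010.Twist

/-- `K^p` as a subfield. -/
abbrev pth (K : Type*) [Field K] (p : ℕ) [Fact p.Prime] [CharP K p] : Subfield K :=
  (frobenius K p).fieldRange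

/-- `K^p(x)`. -/
abbrev adj (p : ℕ) [Fact p.Prime] {K : Type*} [Field K] [CharP K p] (x : K) : Subfield K :=
  Subfield.closure ((pth K p : Set K) ∪ {x})

section Basic

variable {p : ℕ} [hp : Fact p.Prime] {K : Type*} [Field K] [CharP K p]

theorem mem_pth_iff {a : K} : a ∈ pth K p ↔ ∃ b : K, b ^ p = a := by
  simp [pth, RingHom.mem_fieldRange, frobenius_def]

theorem pow_mem_pth (a : K) : a ^ p ∈ pth K p := mem_pth_iff.2 ⟨a, rfl⟩

theorem pth_le_adj (x : K) : pth K p ≤ adj p x :=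
  fun _ ha => Subfield.subset_closure (Or.inl ha)

theorem self_mem_adj (x : K) : x ∈ adj p x := Subfield.subset_closure (Or.inr rfl)

theorem adj_le {x : K} {E : Subfield K} (h0 : pth K p ≤ E) (hx : x ∈ E) : adj p x ≤ E := by
  rw [Subfield.closure_le]
  rintro y (hy | hy)
  · exact h0 hy
  · rw [Set.mem_singleton_iff] at hy
    rw [hy]
    exact hx

theorem adj_mono {x y : K} (h : x ∈ adj p y) : adj p x ≤ adj p y := adj_le (pth_le_adj y) h

theorem mem_adj_of_pth {x a : K} (ha : a ∈ pth K p) : a ∈ adj p x := pth_le_adj x ha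

/-! ### Classes -/

theorem cls_mul (u v : Kˣ) : cls K p (u * v) = cls K p u + cls K p v := rfl

theorem cls_one : cls K p 1 = 0 := rfl

theorem cls_inv (u : Kˣ) : cls K p u⁻¹ = - cls K p u := rfl

theorem cls_div (u v : Kˣ) : cls K p (u / v) = cls K p u - cls K p v := by
  rw [div_eq_mul_inv, cls_mul, cls_inv, sub_eq_add_neg]

theorem cls_pow (u : Kˣ) (n : ℕ) : cls K p (u ^ n) = n • cls K p u := by
  induction n with
  | zero => simp [cls_one]
  | succ n ih => rw [pow_succ, cls_mul, ih, succ_nsmul]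

theorem natCast_smul_cls (u : Kˣ) (n : ℕ) : (n : ZMod p) • cls K p u = cls K p (u ^ n) := by
  rw [Nat.cast_smul_eq_nsmul, cls_pow]

theorem cls_surjective (a : KOne K p) : ∃ u : Kˣ, cls K p u = a := by
  obtain ⟨v, hv⟩ := QuotientAddGroup.mk_surjective a
  exact ⟨Additive.toMul v, hv⟩

theorem cls_eq_zero_iff (u : Kˣ) : cls K p u = 0 ↔ (u : K) ∈ pth K p := by
  unfold cls
  rw [QuotientAddGroup.eq_zero_iff]
  constructor
  · rintro ⟨v, hv⟩
    refine mem_pth_iff.2 ⟨((Additive.toMul v : Kˣ) : K), ?_⟩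
    have h1 : (Additive.toMul v) ^ p = u := by
      have := congrArg Additive.toMul hv
      simpa using this
    rw [← Units.val_pow_eq_pow_val, h1]
  · intro h
    obtain ⟨b, hb⟩ := mem_pth_iff.1 h
    have hb0 : b ≠ 0 := by
      rintro rfl
      rw [zero_pow hp.out.ne_zero] at hb
      exact u.ne_zero hb.symm
    refine ⟨Additive.ofMul (Units.mk0 b hb0), ?_⟩
    change Additive.ofMul ((Units.mk0 b hb0) ^ p) = Additive.ofMul u
    congr 1
    ext
    simpa using hb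

theorem cls_eq_iff (u v : Kˣ) :
    cls K p u = cls K p v ↔ ∃ c ∈ pth K p, (u : K) = c * v := by
  rw [← sub_eq_zero, ← cls_div, cls_eq_zero_iff]
  constructor
  · intro h
    refine ⟨_, h, ?_⟩
    rw [Units.val_div_eq_div_val]
    field_simp
  · rintro ⟨c, hc, h⟩
    rw [Units.val_div_eq_div_val, h]
    have : c * (v : K) / v = c := by field_simp
    rw [this]
    exact hc

theorem not_mem_pth_of_cls_ne_zero {u : Kˣ} (h : cls K p u ≠ 0) : (u : K) ∉ pth K p :=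
  fun h' => h ((cls_eq_zero_iff u).2 h')

theorem cls_ne_zero_of_not_mem {u : Kˣ} (h : (u : K) ∉ pth K p) : cls K p u ≠ 0 :=
  fun h' => h ((cls_eq_zero_iff u).1 h')

end Basic

section Poly

variable {p : ℕ} [hp : Fact p.Prime] {K : Type*} [Field K] [CharP K p]

theorem algebraMap_pth (a : ↥(pth K p)) : algebraMap (↥(pth K p)) K a = (a : K) := rfl

/-- The minimal polynomial `X^p - x^p` of `x ∉ K0` over `K0`. -/
noncomputable def mp (p : ℕ) [Fact p.Prime] {K : Type*} [Field K] [CharP K p] (x : K) :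
    (↥(pth K p))[X] :=
  X ^ p - C (⟨x ^ p, pow_mem_pth x⟩ : ↥(pth K p))

theorem aeval_mp (x : K) : aeval x (mp p x) = 0 := by
  simp [mp, algebraMap_pth]

theorem mp_irreducible {x : K} (hx : x ∉ pth K p) : Irreducible (mp p x) := by
  refine X_pow_sub_C_irreducible_of_prime hp.out (fun b hb => hx ?_)
  have hb' : (b : K) ^ p = x ^ p := by
    have := congrArg (fun z : ↥(pth K p) => (z : K)) hb
    simpa using this
  have h1 : (b : K) = x := by
    apply frobenius_inj K p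
    simpa [frobenius_def] using hb'
  rw [← h1]
  exact b.2

theorem mp_dvd {x : K} (hx : x ∉ pth K p) {P : (↥(pth K p))[X]} (h : aeval x P = 0) :
    mp p x ∣ P := by
  have hmonic : (mp p x).Monic := monic_X_pow_sub_C _ hp.out.ne_zero
  have h1 : mp p x = minpoly (↥(pth K p)) x :=
    minpoly.eq_of_irreducible_of_monic (mp_irreducible hx) (aeval_mp x) hmonic
  rw [h1]
  exact minpoly.dvd _ x h

/-- `1, x, …, x^(p-1)` are linearly independent over `K0` when `x ∉ K0`. -/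
theorem poly_eq_zero {x : K} (hx : x ∉ pth K p) {P : (↥(pth K p))[X]}
    (hdeg : P.natDegree < p) (h : aeval x P = 0) : P = 0 := by
  by_contra hP
  have h1 := natDegree_le_of_dvd (mp_dvd hx h) hP
  have h2 : (mp p x).natDegree = p := natDegree_X_pow_sub_C
  omega

/-- The formal derivative descends to `K0(x)`. -/
theorem aeval_derivative_eq_zero {x : K} (hx : x ∉ pth K p) {P : (↥(pth K p))[X]}
    (h : aeval x P = 0) : aeval x (derivative P) = 0 := by
  obtain ⟨R, rfl⟩ := mp_dvd hx h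
  have hd : derivative (mp p x) = 0 := by
    simp [mp, derivative_X_pow]
  rw [derivative_mul, hd, zero_mul, zero_add, map_mul, aeval_mp, zero_mul]

end Poly

section Rigid

variable {p : ℕ} [hp : Fact p.Prime] {K : Type*} [Field K] [CharP K p]

theorem natCast_ne_zero_of_lt {n : ℕ} (hn : 0 < n) (hnp : n < p) : (n : K) ≠ 0 := by
  rw [Ne, CharP.cast_eq_zero_iff K p]
  exact Nat.not_dvd_of_pos_of_lt hn hnp

theorem pow_sub_ne_zero {x : K} (hx : x ∉ pth K p) {n : ℕ} (hn : 0 < n) (hnp : n < p) {a : K}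
    (ha : a ∈ pth K p) : x ^ n - a ≠ 0 := by
  intro h
  have h1 : aeval x (X ^ n - C (⟨a, ha⟩ : ↥(pth K p))) = 0 := by
    simpa [algebraMap_pth] using h
  have h2 := poly_eq_zero hx (by rw [natDegree_X_pow_sub_C]; exact hnp) h1
  have h3 : (X ^ n - C (⟨a, ha⟩ : ↥(pth K p))).natDegree = n := natDegree_X_pow_sub_C
  rw [h2, natDegree_zero] at h3
  omega

/-- `(x^n - a)^m ~ (x^m - b)^n` forces `n = m`. -/
theorem twist_unique_aux {x : K} (hx : x ∉ pth K p) {n m : ℕ} (hn : 0 < n) (hnp : n < p)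
    (hm : 0 < m) (hmp : m < p) {a b d : K} (ha : a ∈ pth K p) (hb : b ∈ pth K p)
    (hd : d ∈ pth K p) (hb0 : b ≠ 0)
    (h : (x ^ n - a) ^ m = d * (x ^ m - b) ^ n) : n = m := by
  by_contra hnm
  have hP : aeval x ((X ^ n - C (⟨a, ha⟩ : ↥(pth K p))) ^ m
      - C (⟨d, hd⟩ : ↥(pth K p)) * (X ^ m - C (⟨b, hb⟩ : ↥(pth K p))) ^ n) = 0 := by
    simp [algebraMap_pth, h]
  have hP' := aeval_derivative_eq_zero hx hP
  have hder : aeval x (derivative ((X ^ n - C (⟨a, ha⟩ : ↥(pth K p))) ^ m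
      - C (⟨d, hd⟩ : ↥(pth K p)) * (X ^ m - C (⟨b, hb⟩ : ↥(pth K p))) ^ n))
      = (m : K) * (x ^ n - a) ^ (m - 1) * ((n : K) * x ^ (n - 1))
        - d * ((n : K) * (x ^ m - b) ^ (n - 1) * ((m : K) * x ^ (m - 1))) := by
    simp [derivative_pow, algebraMap_pth]
  rw [hder] at hP'
  have hA : x ^ n - a ≠ 0 := pow_sub_ne_zero hx hn hnp ha
  have hn0 : (n : K) ≠ 0 := natCast_ne_zero_of_lt hn hnp
  have hm0 : (m : K) ≠ 0 := natCast_ne_zero_of_lt hm hmp
  have e1 : (x ^ n - a) ^ (m - 1) * (x ^ n - a) = (x ^ n - a) ^ m := by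
    rw [← pow_succ, Nat.sub_add_cancel hm]
  have e2 : (x ^ m - b) ^ (n - 1) * (x ^ m - b) = (x ^ m - b) ^ n := by
    rw [← pow_succ, Nat.sub_add_cancel hn]
  have e3 : x ^ (n - 1) * x = x ^ n := by rw [← pow_succ, Nat.sub_add_cancel hn]
  have e4 : x ^ (m - 1) * x = x ^ m := by rw [← pow_succ, Nat.sub_add_cancel hm]
  have h1 : (x ^ n - a) ^ (m - 1) * x ^ (n - 1)
      = d * ((x ^ m - b) ^ (n - 1) * x ^ (m - 1)) := by
    have h0 : (m : K) * (n : K) * ((x ^ n - a) ^ (m - 1) * x ^ (n - 1)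
        - d * ((x ^ m - b) ^ (n - 1) * x ^ (m - 1))) = 0 := by linear_combination hP'
    exact sub_eq_zero.1 ((mul_eq_zero.1 h0).resolve_left (mul_ne_zero hm0 hn0))
  have h2 : (x ^ n - a) ^ m * (x ^ (n - 1) * (x ^ m - b) - x ^ (m - 1) * (x ^ n - a)) = 0 := by
    have h3 : (x ^ n - a) ^ m * (x ^ (n - 1) * (x ^ m - b))
        = (x ^ n - a) ^ (m - 1) * x ^ (n - 1) * ((x ^ n - a) * (x ^ m - b)) := by
      rw [← e1]; ring
    have h4 : (x ^ n - a) ^ m * (x ^ (m - 1) * (x ^ n - a))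
        = d * ((x ^ m - b) ^ (n - 1) * x ^ (m - 1)) * ((x ^ n - a) * (x ^ m - b)) := by
      rw [h, ← e2]; ring
    rw [mul_sub, h3, h4, h1]; ring
  have h5 := (mul_eq_zero.1 h2).resolve_left (pow_ne_zero _ hA)
  have h6 : x ^ (n - 1) * x ^ m = x ^ (m - 1) * x ^ n := by rw [← e3, ← e4]; ring
  have key : b * x ^ (n - 1) = a * x ^ (m - 1) := by
    linear_combination (-1 : K) * h5 + h6
  have hQ : aeval x (C (⟨b, hb⟩ : ↥(pth K p)) * X ^ (n - 1)
      - C (⟨a, ha⟩ : ↥(pth K p)) * X ^ (m - 1)) = 0 := by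
    simp [algebraMap_pth, key]
  have hdeg : (C (⟨b, hb⟩ : ↥(pth K p)) * X ^ (n - 1)
      - C (⟨a, ha⟩ : ↥(pth K p)) * X ^ (m - 1)).natDegree < p := by
    refine lt_of_le_of_lt (natDegree_sub_le _ _) ?_
    rw [max_lt_iff]
    exact ⟨lt_of_le_of_lt (natDegree_C_mul_X_pow_le _ _) (by omega),
      lt_of_le_of_lt (natDegree_C_mul_X_pow_le _ _) (by omega)⟩
  have hQ0 := poly_eq_zero hx hdeg hQ
  have hne : n - 1 ≠ m - 1 := by omega
  have hcoef := congrArg (fun P => P.coeff (n - 1)) hQ0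
  simp [coeff_X_pow, hne] at hcoef
  exact hb0 (by simpa using congrArg (fun z : ↥(pth K p) => (z : K)) hcoef)

/-- `e x^N + c = d (x+1)^N` with `0 < N < p` forces `N = 1`. -/
theorem pow_eq_one_of_affine {x : K} (hx : x ∉ pth K p) {N : ℕ} (hN : 0 < N) (hNp : N < p)
    {e c d : K} (he : e ∈ pth K p) (hc : c ∈ pth K p) (hd : d ∈ pth K p) (hd0 : d ≠ 0)
    (h : e * x ^ N + c = d * (x + 1) ^ N) : N = 1 := by
  by_contra hN1
  have hQ : aeval x (C (⟨e, he⟩ : ↥(pth K p)) * X ^ N + C (⟨c, hc⟩ : ↥(pth K p))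
      - C (⟨d, hd⟩ : ↥(pth K p)) * (X + 1) ^ N) = 0 := by
    simp [algebraMap_pth, h]
  have hdeg : (C (⟨e, he⟩ : ↥(pth K p)) * X ^ N + C (⟨c, hc⟩ : ↥(pth K p))
      - C (⟨d, hd⟩ : ↥(pth K p)) * (X + 1) ^ N).natDegree < p := by
    refine lt_of_le_of_lt ?_ hNp
    compute_degree
  have hQ0 := poly_eq_zero hx hdeg hQ
  have hcoef := congrArg (fun P => P.coeff 1) hQ0
  have h1N : (1 : ℕ) ≠ N := fun h => hN1 h.symm
  simp [coeff_X_pow, coeff_X_add_one_pow, h1N] at hcoef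
  rcases hcoef with h2 | h2
  · exact hd0 (by simpa using congrArg (fun z : ↥(pth K p) => (z : K)) h2)
  · exact natCast_ne_zero_of_lt hN hNp (by simpa using congrArg (fun z : ↥(pth K p) => (z : K)) h2)

end Rigid

section Main

variable {p : ℕ} [hp : Fact p.Prime] {K L : Type*} [Field K] [Field L] [CharP K p] [CharP L p]

/-- The one-variable conclusion of the key lemma: `u^n ~ x^n - a` for some `a ∈ L0ˣ`. -/
def TwAt (p : ℕ) [Fact p.Prime] {L : Type*} [Field L] [CharP L p] (n : ℕ) (x u : L) : Prop :=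
  ∃ a ∈ pth L p, a ≠ 0 ∧ u ^ n / (x ^ n - a) ∈ pth L p

/-- Step (3): `p`-dependence is intrinsic (output of the `Step1` / `OneField` module). -/
def DepTransfer (Θ : KOne K p ≃ₗ[ZMod p] KOne L p) : Prop :=
  ∀ (u w : Kˣ) (u' w' : Lˣ), Θ (cls K p u) = cls L p u' → Θ (cls K p w) = cls L p w' →
    (u : K) ∉ pth K p → ((w : K) ∈ adj p (u : K) ↔ (w' : L) ∈ adj p (u' : L))

/-- Step (4): the key rigidity lemma (output of the `KeyLemma` module composed with the existence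
of dual derivations). -/
def KeyProp (p : ℕ) [Fact p.Prime] (L : Type*) [Field L] [CharP L p] : Prop :=
  ∀ x y u v I : L, x ∉ pth L p → y ∉ adj p x → u ∈ adj p x → v ∈ adj p y →
    (∀ j : ℕ, ∀ c ∈ pth L p, u ≠ c * x ^ j) → (∀ j : ℕ, ∀ c ∈ pth L p, v ≠ c * y ^ j) →
    I ≠ 0 → I / y ∈ adj p (x / y) → I / v ∈ adj p (u / v) →
    ∃ n, 0 < n ∧ n < p ∧ ∃ c1 ∈ pth L p, ∃ c2 ∈ pth L p, c1 ≠ 0 ∧ c2 ≠ 0 ∧
      u ^ n / (x ^ n - c1) ∈ pth L p ∧ v ^ n / (y ^ n - c2) ∈ pth L p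

/-- `Φ` maps every line through `[1]` minus nothing, `{[x + c] : c ∈ K0}` (`x ∉ K0`), into a line
through `[1]`. -/
def LinesTo (Φ : KOne K p → KOne L p) : Prop :=
  ∀ x : Kˣ, (x : K) ∉ pth K p → ∀ c ∈ pth K p, ∀ z : Kˣ, (z : K) = x + c →
    ∃ (x' z' : Lˣ), ∃ c' ∈ pth L p, (z' : L) = x' + c' ∧
      Φ (cls K p x) = cls L p x' ∧ Φ (cls K p z) = cls L p z'

/-- A chosen representative of a class. -/
noncomputable def rep (a : KOne L p) : Lˣ := Classical.choose (cls_surjective a)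

theorem cls_rep (a : KOne L p) : cls L p (rep a) = a := Classical.choose_spec (cls_surjective a)

theorem twAt_unique {x u : L} (hx : x ∉ pth L p) (hu : u ≠ 0) {n m : ℕ} (hn : 0 < n)
    (hnp : n < p) (hm : 0 < m) (hmp : m < p) (h1 : TwAt p n x u) (h2 : TwAt p m x u) : n = m := by
  obtain ⟨a, ha, -, he1⟩ := h1
  obtain ⟨b, hb, hb0, he2⟩ := h2
  have hA := pow_sub_ne_zero hx hn hnp ha
  have hB := pow_sub_ne_zero hx hm hmp hb
  have hu1 : u ^ n = u ^ n / (x ^ n - a) * (x ^ n - a) := by field_simp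
  have hu2 : u ^ m = u ^ m / (x ^ m - b) * (x ^ m - b) := by field_simp
  have e1ne : u ^ n / (x ^ n - a) ≠ 0 := div_ne_zero (pow_ne_zero _ hu) hA
  refine twist_unique_aux hx hn hnp hm hmp ha hb
    (d := (u ^ m / (x ^ m - b)) ^ n / (u ^ n / (x ^ n - a)) ^ m)
    (Subfield.div_mem _ (Subfield.pow_mem _ he2 n) (Subfield.pow_mem _ he1 m)) hb0 ?_
  have h3 : (u ^ n / (x ^ n - a)) ^ m * (x ^ n - a) ^ m
      = (u ^ m / (x ^ m - b)) ^ n * (x ^ m - b) ^ n := by
    rw [← mul_pow, ← mul_pow, ← hu1, ← hu2, ← pow_mul, ← pow_mul, mul_comm]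
  rw [div_mul_eq_mul_div, eq_div_iff (pow_ne_zero _ e1ne), ← h3]
  ring

/-- `x - c1` is not a monomial `c x^j` (at the level of classes). -/
theorem affine_cls_ne {x u : Kˣ} {c1 : K} (hx : (x : K) ∉ pth K p) (hc1 : c1 ∈ pth K p)
    (hc10 : c1 ≠ 0) (hu : (u : K) = x - c1) (j : ℕ) : cls K p u ≠ j • cls K p x := by
  intro h
  rw [← cls_pow, cls_eq_iff] at h
  obtain ⟨c0, hc0, h⟩ := h
  rw [hu, Units.val_pow_eq_pow_val] at h
  have hj : (x : K) ^ j = ((x : K) ^ p) ^ (j / p) * (x : K) ^ (j % p) := by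
    rw [← pow_mul, ← pow_add, Nat.div_add_mod]
  have ht : c0 * ((x : K) ^ p) ^ (j / p) ∈ pth K p :=
    Subfield.mul_mem _ hc0 (Subfield.pow_mem _ (pow_mem_pth _) _)
  have h' : (x : K) - c1 - c0 * ((x : K) ^ p) ^ (j / p) * (x : K) ^ (j % p) = 0 := by
    rw [h, hj]; ring
  have hr : j % p < p := Nat.mod_lt _ hp.out.pos
  have h2 : 2 ≤ p := hp.out.two_le
  have hQ : aeval (x : K) (X - C (⟨c1, hc1⟩ : ↥(pth K p))
      - C (⟨_, ht⟩ : ↥(pth K p)) * X ^ (j % p)) = 0 := by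
    simpa [algebraMap_pth] using h'
  have hdeg : (X - C (⟨c1, hc1⟩ : ↥(pth K p))
      - C (⟨_, ht⟩ : ↥(pth K p)) * X ^ (j % p)).natDegree < p := by
    have h3 : (X - C (⟨c1, hc1⟩ : ↥(pth K p))
      - C (⟨_, ht⟩ : ↥(pth K p)) * X ^ (j % p)).natDegree ≤ p - 1 := by
      compute_degree
      all_goals omega
    omega
  have hQ0 := poly_eq_zero hx hdeg hQ
  by_cases hr0 : j % p = 0
  · have hcoef := congrArg (fun P => P.coeff 1) hQ0
    simp [hr0, coeff_X] at hcoef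
  · have hcoef := congrArg (fun P => P.coeff 0) hQ0
    have hr0' : (0 : ℕ) ≠ j % p := fun h => hr0 h.symm
    simp [coeff_X_pow, hr0'] at hcoef
    exact hc10 (by simpa using congrArg (fun z : ↥(pth K p) => (z : K)) hcoef)

theorem theta_cls_ne_zero (Θ : KOne K p ≃ₗ[ZMod p] KOne L p) {x : Kˣ} {x' : Lˣ}
    (hx : (x : K) ∉ pth K p) (hx' : Θ (cls K p x) = cls L p x') : (x' : L) ∉ pth L p := by
  apply not_mem_pth_of_cls_ne_zero
  rw [← hx']
  intro h
  exact cls_ne_zero_of_not_mem hx (by simpa using h)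

/-- The key lemma transported: for a `p`-independent pair `x, y` and `c1, c2 ∈ K0ˣ` there is one
`n` twisting both `Θ[x - c1]` and `Θ[y - c2]`. -/
theorem core1 (Θ : KOne K p ≃ₗ[ZMod p] KOne L p) (hS1 : DepTransfer Θ) (hKL : KeyProp p L)
    (x y u v : Kˣ) (c1 c2 : K) (hc1 : c1 ∈ pth K p) (hc2 : c2 ∈ pth K p) (hc10 : c1 ≠ 0)
    (hc20 : c2 ≠ 0) (hx : (x : K) ∉ pth K p) (hy : (y : K) ∉ adj p (x : K))
    (hu : (u : K) = x - c1) (hv : (v : K) = y - c2) (x' y' u' v' : Lˣ)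
    (hx' : Θ (cls K p x) = cls L p x') (hy' : Θ (cls K p y) = cls L p y')
    (hu' : Θ (cls K p u) = cls L p u') (hv' : Θ (cls K p v) = cls L p v') :
    ∃ n, 0 < n ∧ n < p ∧ TwAt p n (x' : L) (u' : L) ∧ TwAt p n (y' : L) (v' : L) := by
  have hy0 : (y : K) ∉ pth K p := fun h => hy (pth_le_adj _ h)
  have hx'0 : (x' : L) ∉ pth L p := theta_cls_ne_zero Θ hx hx'
  have hy'0 : (y' : L) ∉ pth L p := theta_cls_ne_zero Θ hy0 hy'
  -- the common point `I = c2 x - c1 y`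
  have hI0 : c2 * (x : K) - c1 * (y : K) ≠ 0 := by
    intro h
    apply hy
    have h1 : (y : K) = c1⁻¹ * c2 * x := by
      field_simp
      linear_combination -h
    rw [h1]
    exact Subfield.mul_mem _ (mem_adj_of_pth (Subfield.mul_mem _ (Subfield.inv_mem _ hc1) hc2))
      (self_mem_adj _)
  obtain ⟨I', hI'⟩ := cls_surjective (Θ (cls K p (Units.mk0 _ hI0)))
  -- `x / y ∉ K0`, `u / v ∉ K0`
  have hxy : ((x / y : Kˣ) : K) ∉ pth K p := by
    intro h
    apply hy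
    have h1 : (y : K) = ((x / y : Kˣ) : K)⁻¹ * x := by
      rw [Units.val_div_eq_div_val]
      field_simp
    rw [h1]
    exact Subfield.mul_mem _ (mem_adj_of_pth (Subfield.inv_mem _ h)) (self_mem_adj _)
  have huv : ((u / v : Kˣ) : K) ∉ pth K p := by
    intro h
    apply hy
    have h1 : (y : K) = ((u / v : Kˣ) : K)⁻¹ * (x - c1) + c2 := by
      rw [Units.val_div_eq_div_val, hu, hv]
      have hv0 : (y : K) - c2 ≠ 0 := by rw [← hv]; exact v.ne_zero
      have hu0 : (x : K) - c1 ≠ 0 := by rw [← hu]; exact u.ne_zero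
      field_simp
      ring
    rw [h1]
    exact Subfield.add_mem _ (Subfield.mul_mem _ (mem_adj_of_pth (Subfield.inv_mem _ h))
      (Subfield.sub_mem _ (self_mem_adj _) (mem_adj_of_pth hc1))) (mem_adj_of_pth hc2)
  have hKL' := hKL (x' : L) (y' : L) (u' : L) (v' : L) (I' : L) hx'0
    ((hS1 x y x' y' hx' hy' hx).not.1 hy)
    ((hS1 x u x' u' hx' hu' hx).1 (by
      rw [hu]; exact Subfield.sub_mem _ (self_mem_adj _) (mem_adj_of_pth hc1)))
    ((hS1 y v y' v' hy' hv' hy0).1 (by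
      rw [hv]; exact Subfield.sub_mem _ (self_mem_adj _) (mem_adj_of_pth hc2)))
    (by
      intro j c hc h
      apply affine_cls_ne hx hc1 hc10 hu j
      apply Θ.injective
      rw [map_nsmul, hu', hx', ← cls_pow, cls_eq_iff]
      exact ⟨c, hc, by rw [h, Units.val_pow_eq_pow_val]⟩)
    (by
      intro j c hc h
      apply affine_cls_ne hy0 hc2 hc20 hv j
      apply Θ.injective
      rw [map_nsmul, hv', hy', ← cls_pow, cls_eq_iff]
      exact ⟨c, hc, by rw [h, Units.val_pow_eq_pow_val]⟩)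
    I'.ne_zero
    (by
      have h1 := (hS1 (x / y) (Units.mk0 _ hI0 / y) (x' / y') (I' / y')
        (by rw [cls_div, map_sub, hx', hy', cls_div])
        (by rw [cls_div, map_sub, ← hI', hy', cls_div]) hxy).1 (by
          have h2 : ((Units.mk0 _ hI0 / y : Kˣ) : K) = c2 * ((x / y : Kˣ) : K) - c1 := by
            rw [Units.val_div_eq_div_val, Units.val_div_eq_div_val, Units.val_mk0]
            field_simp
          rw [h2]
          exact Subfield.sub_mem _ (Subfield.mul_mem _ (mem_adj_of_pth hc2) (self_mem_adj _))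
            (mem_adj_of_pth hc1))
      rwa [Units.val_div_eq_div_val, Units.val_div_eq_div_val] at h1)
    (by
      have h1 := (hS1 (u / v) (Units.mk0 _ hI0 / v) (u' / v') (I' / v')
        (by rw [cls_div, map_sub, hu', hv', cls_div])
        (by rw [cls_div, map_sub, ← hI', hv', cls_div]) huv).1 (by
          have h2 : ((Units.mk0 _ hI0 / v : Kˣ) : K) = c2 * ((u / v : Kˣ) : K) - c1 := by
            rw [Units.val_div_eq_div_val, Units.val_div_eq_div_val, Units.val_mk0, hu, hv]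
            have hv0 : (y : K) - c2 ≠ 0 := by rw [← hv]; exact v.ne_zero
            field_simp
            ring
          rw [h2]
          exact Subfield.sub_mem _ (Subfield.mul_mem _ (mem_adj_of_pth hc2) (self_mem_adj _))
            (mem_adj_of_pth hc1))
      rwa [Units.val_div_eq_div_val, Units.val_div_eq_div_val] at h1)
  obtain ⟨n, hn, hnp, a, ha, b, hb, ha0, hb0, h1, h2⟩ := hKL'
  exact ⟨n, hn, hnp, ⟨a, ha, ha0, h1⟩, ⟨b, hb, hb0, h2⟩⟩

end Main

section Global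

variable {p : ℕ} [hp : Fact p.Prime] {K L : Type*} [Field K] [Field L] [CharP K p] [CharP L p]

theorem rep_not_mem (Θ : KOne K p ≃ₗ[ZMod p] KOne L p) {x : Kˣ} (hx : (x : K) ∉ pth K p) :
    ((rep (Θ (cls K p x)) : Lˣ) : L) ∉ pth L p :=
  theta_cls_ne_zero Θ hx (cls_rep _).symm

/-- The twist exponent is global. -/
theorem exists_twist (Θ : KOne K p ≃ₗ[ZMod p] KOne L p) (hS1 : DepTransfer Θ)
    (hKL : KeyProp p L) (hpair : ∃ f g : K, f ∉ pth K p ∧ g ∉ adj p f) :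
    ∃ n, 0 < n ∧ n < p ∧ ∀ (x u : Kˣ) (c : K), (x : K) ∉ pth K p → c ∈ pth K p → c ≠ 0 →
      (u : K) = x - c →
      TwAt p n ((rep (Θ (cls K p x)) : Lˣ) : L) ((rep (Θ (cls K p u)) : Lˣ) : L) := by
  obtain ⟨f, g, hf, hg⟩ := hpair
  have hg' : g ∉ pth K p := fun h => hg (pth_le_adj _ h)
  have hf0 : f ≠ 0 := fun h => hf (h ▸ Subfield.zero_mem _)
  have hg0 : g ≠ 0 := fun h => hg' (h ▸ Subfield.zero_mem _)
  have hf1 : f - 1 ≠ 0 := fun h => hf (by
    rw [sub_eq_zero.1 h]; exact Subfield.one_mem _)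
  have hg1 : g - 1 ≠ 0 := fun h => hg' (by
    rw [sub_eq_zero.1 h]; exact Subfield.one_mem _)
  have one_mem' : (1 : K) ∈ pth K p := Subfield.one_mem _
  obtain ⟨n0, hn0, hn0p, hT1, hT2⟩ := core1 Θ hS1 hKL (Units.mk0 f hf0) (Units.mk0 g hg0)
    (Units.mk0 _ hf1) (Units.mk0 _ hg1) 1 1 one_mem' one_mem' one_ne_zero one_ne_zero hf hg rfl rfl
    (rep _) (rep _) (rep _) (rep _) (cls_rep _).symm (cls_rep _).symm (cls_rep _).symm
    (cls_rep _).symm
  refine ⟨n0, hn0, hn0p, ?_⟩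
  intro x u c hx hc hc0 hu
  by_cases hgx : g ∈ adj p (x : K)
  · have hxf : (x : K) ∉ adj p f := fun h => hg (adj_mono h hgx)
    obtain ⟨n, hn, hnp, hT3, hT4⟩ := core1 Θ hS1 hKL (Units.mk0 f hf0) x
      (Units.mk0 _ hf1) u 1 c one_mem' hc one_ne_zero hc0 hf hxf rfl hu
      (rep _) (rep _) (rep _) (rep _) (cls_rep _).symm (cls_rep _).symm (cls_rep _).symm
      (cls_rep _).symm
    have hnn : n = n0 := twAt_unique (rep_not_mem Θ (x := Units.mk0 f hf0) hf)
      (Units.ne_zero _) hn hnp hn0 hn0p hT3 hT1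
    rw [← hnn]
    exact hT4
  · obtain ⟨n, hn, hnp, hT3, hT4⟩ := core1 Θ hS1 hKL x (Units.mk0 g hg0)
      u (Units.mk0 _ hg1) c 1 hc one_mem' hc0 one_ne_zero hx hgx hu rfl
      (rep _) (rep _) (rep _) (rep _) (cls_rep _).symm (cls_rep _).symm (cls_rep _).symm
      (cls_rep _).symm
    have hnn : n = n0 := twAt_unique (rep_not_mem Θ (x := Units.mk0 g hg0) hg')
      (Units.ne_zero _) hn hnp hn0 hn0p hT4 hT2
    rw [← hnn]
    exact hT3

/-- With the global twist `n`, the map `n • Θ` sends lines through `[1]` into lines through `[1]`. -/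
theorem linesTo_of_twist (Θ : KOne K p ≃ₗ[ZMod p] KOne L p) (n : ℕ) (hn : 0 < n) (hnp : n < p)
    (hT : ∀ (x u : Kˣ) (c : K), (x : K) ∉ pth K p → c ∈ pth K p → c ≠ 0 → (u : K) = x - c →
      TwAt p n ((rep (Θ (cls K p x)) : Lˣ) : L) ((rep (Θ (cls K p u)) : Lˣ) : L)) :
    LinesTo (fun a => (n : ZMod p) • Θ a) := by
  intro x hx c hc z hz
  by_cases hc0 : c = 0
  · have hzx : z = x := Units.ext (by rw [hz, hc0, add_zero])
    rw [hzx]
    obtain ⟨x', hx'⟩ := cls_surjective ((n : ZMod p) • Θ (cls K p x))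
    exact ⟨x', x', 0, Subfield.zero_mem _, by simp, hx'.symm, hx'.symm⟩
  · obtain ⟨a, ha, -, he⟩ := hT x z (-c) hx (Subfield.neg_mem _ hc) (neg_ne_zero.2 hc0)
      (by rw [hz]; ring)
    have hx1 := rep_not_mem Θ hx
    have hA := pow_sub_ne_zero hx1 hn hnp ha
    refine ⟨rep (Θ (cls K p x)) ^ n, Units.mk0 _ hA, -a, Subfield.neg_mem _ ha, ?_, ?_, ?_⟩
    · rw [Units.val_mk0, Units.val_pow_eq_pow_val]; ring
    · change (n : ZMod p) • Θ (cls K p x) = _
      rw [← natCast_smul_cls, cls_rep]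
    · change (n : ZMod p) • Θ (cls K p z) = _
      rw [← cls_rep (Θ (cls K p z)), natCast_smul_cls, cls_eq_iff]
      refine ⟨_, he, ?_⟩
      rw [Units.val_mk0, Units.val_pow_eq_pow_val]
      field_simp

theorem depTransfer_symm (Θ : KOne K p ≃ₗ[ZMod p] KOne L p) (hS1 : DepTransfer Θ) :
    DepTransfer Θ.symm := by
  intro u' w' u w hu hw hu0
  have hu2 : Θ (cls K p u) = cls L p u' := by rw [← hu]; simp
  have hw2 : Θ (cls K p w) = cls L p w' := by rw [← hw]; simp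
  have hu3 : (u : K) ∉ pth K p := theta_cls_ne_zero Θ.symm hu0 hu
  exact (hS1 u w u' w' hu2 hw2 hu3).symm

theorem pair_transfer (Θ : KOne K p ≃ₗ[ZMod p] KOne L p) (hS1 : DepTransfer Θ)
    (hpair : ∃ f g : K, f ∉ pth K p ∧ g ∉ adj p f) : ∃ f g : L, f ∉ pth L p ∧ g ∉ adj p f := by
  obtain ⟨f, g, hf, hg⟩ := hpair
  have hg' : g ∉ pth K p := fun h => hg (pth_le_adj _ h)
  have hf0 : f ≠ 0 := fun h => hf (h ▸ Subfield.zero_mem _)
  have hg0 : g ≠ 0 := fun h => hg' (h ▸ Subfield.zero_mem _)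
  refine ⟨(rep (Θ (cls K p (Units.mk0 f hf0))) : Lˣ), (rep (Θ (cls K p (Units.mk0 g hg0))) : Lˣ),
    rep_not_mem Θ (x := Units.mk0 f hf0) hf, ?_⟩
  exact (hS1 (Units.mk0 f hf0) (Units.mk0 g hg0) _ _ (cls_rep _).symm (cls_rep _).symm hf).not.1 hg

theorem natCast_zmod_ne_zero {n : ℕ} (hn : 0 < n) (hnp : n < p) : (n : ZMod p) ≠ 0 := by
  rw [Ne, ZMod.natCast_eq_zero_iff]
  exact Nat.not_dvd_of_pos_of_lt hn hnp

/-- If `n0 • Θ` and `n1 • Θ⁻¹` both map lines through `[1]` into lines through `[1]`, then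
`n1 n0 = 1` in `ZMod p`. -/
theorem twist_mul_eq_one (Θ : KOne K p ≃ₗ[ZMod p] KOne L p) {n0 n1 : ℕ} (hn0 : 0 < n0)
    (hn0p : n0 < p) (hn1 : 0 < n1) (hn1p : n1 < p)
    (hL0 : LinesTo (fun a => (n0 : ZMod p) • Θ a))
    (hL1 : LinesTo (fun b => (n1 : ZMod p) • Θ.symm b))
    (hx : ∃ f : K, f ∉ pth K p) : (n1 : ZMod p) * (n0 : ZMod p) = 1 := by
  obtain ⟨f, hf⟩ := hx
  have hf0 : f ≠ 0 := fun h => hf (h ▸ Subfield.zero_mem _)
  have hf1 : f + 1 ≠ 0 := fun h => hf (by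
    rw [eq_neg_of_add_eq_zero_left h]; exact Subfield.neg_mem _ (Subfield.one_mem _))
  obtain ⟨x', z', c', hc', hz', hx', hzz'⟩ := hL0 (Units.mk0 f hf0) hf 1 (Subfield.one_mem _)
    (Units.mk0 _ hf1) rfl
  have hx'0 : (x' : L) ∉ pth L p := by
    apply not_mem_pth_of_cls_ne_zero
    rw [← hx']
    intro h
    rcases smul_eq_zero.1 h with h | h
    · exact natCast_zmod_ne_zero hn0 hn0p h
    · exact cls_ne_zero_of_not_mem (u := Units.mk0 f hf0) hf (by simpa using h)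
  obtain ⟨x'', z'', c'', hc'', hz'', hx'', hzz''⟩ := hL1 x' hx'0 c' hc' z' hz'
  beta_reduce at hx' hzz' hx'' hzz''
  -- the composite is multiplication by `N = n1 n0 mod p`
  have hN0 : 0 < (n1 * n0) % p := by
    rw [Nat.pos_iff_ne_zero, Ne, ← Nat.dvd_iff_mod_eq_zero, hp.out.dvd_mul]
    rintro (h | h)
    · exact Nat.not_dvd_of_pos_of_lt hn1 hn1p h
    · exact Nat.not_dvd_of_pos_of_lt hn0 hn0p h
  have hNp : (n1 * n0) % p < p := Nat.mod_lt _ hp.out.pos
  have hcomp : ∀ w : Kˣ, (n1 : ZMod p) • Θ.symm ((n0 : ZMod p) • Θ (cls K p w))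
      = cls K p (w ^ ((n1 * n0) % p)) := by
    intro w
    rw [map_smul, LinearEquiv.symm_apply_apply, smul_smul, ← natCast_smul_cls, ZMod.natCast_mod,
      Nat.cast_mul]
  have h1 : cls K p x'' = cls K p (Units.mk0 f hf0 ^ ((n1 * n0) % p)) := by
    rw [← hx'', ← hx', hcomp]
  have h2 : cls K p z'' = cls K p (Units.mk0 _ hf1 ^ ((n1 * n0) % p)) := by
    rw [← hzz'', ← hzz', hcomp]
  obtain ⟨e, he, h1⟩ := (cls_eq_iff _ _).1 h1
  obtain ⟨d, hd, h2⟩ := (cls_eq_iff _ _).1 h2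
  rw [Units.val_pow_eq_pow_val, Units.val_mk0] at h1 h2
  have hd0 : d ≠ 0 := by
    rintro rfl
    rw [zero_mul] at h2
    exact z''.ne_zero h2
  have hN : (n1 * n0) % p = 1 := pow_eq_one_of_affine hf hN0 hNp he hc'' hd hd0 (by
    rw [← h1, ← h2, hz''])
  rw [← Nat.cast_mul, ← ZMod.natCast_mod, hN, Nat.cast_one]

/-- **Step (5).**  There is a global twist `n` such that `Φ := n • Θ` and `Φ⁻¹` map lines through
`[1]` into lines through `[1]`. -/
theorem twist_main (Θ : KOne K p ≃ₗ[ZMod p] KOne L p) (hS1 : DepTransfer Θ)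
    (hKL_L : KeyProp p L) (hKL_K : KeyProp p K)
    (hpair : ∃ f g : K, f ∉ pth K p ∧ g ∉ adj p f) :
    ∃ n : ℕ, 0 < n ∧ n < p ∧ LinesTo (fun a => (n : ZMod p) • Θ a) ∧
      LinesTo (fun b => Θ.symm ((n : ZMod p)⁻¹ • b)) := by
  obtain ⟨n0, hn0, hn0p, hT0⟩ := exists_twist Θ hS1 hKL_L hpair
  obtain ⟨n1, hn1, hn1p, hT1⟩ := exists_twist Θ.symm (depTransfer_symm Θ hS1) hKL_K
    (pair_transfer Θ hS1 hpair)
  have hL0 := linesTo_of_twist Θ n0 hn0 hn0p hT0
  have hL1 := linesTo_of_twist Θ.symm n1 hn1 hn1p hT1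
  have hN := twist_mul_eq_one Θ hn0 hn0p hn1 hn1p hL0 hL1
    (by obtain ⟨f, _, hf, _⟩ := hpair; exact ⟨f, hf⟩)
  refine ⟨n0, hn0, hn0p, hL0, ?_⟩
  have h1 : (n0 : ZMod p)⁻¹ = (n1 : ZMod p) := (eq_inv_of_mul_eq_one_left hN).symm
  have h2 : (fun b => Θ.symm ((n0 : ZMod p)⁻¹ • b)) = (fun b => (n1 : ZMod p) • Θ.symm b) := by
    funext b
    rw [map_smul, h1]
  rw [h2]
  exact hL1

/-- The additive equivalence `c • Θ` for a nonzero scalar `c`. -/
noncomputable def smulEquiv (Θ : KOne K p ≃ₗ[ZMod p] KOne L p) (c : ZMod p) (hc : c ≠ 0) :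
    KOne K p ≃+ KOne L p where
  toFun a := c • Θ a
  invFun b := Θ.symm (c⁻¹ • b)
  left_inv a := by simp [smul_smul, inv_mul_cancel₀ hc]
  right_inv b := by simp [smul_smul, mul_inv_cancel₀ hc]
  map_add' a b := by
    rw [map_add]
    exact (KOne.instModule L p).smul_add c (Θ a) (Θ b)

theorem smulEquiv_apply (Θ : KOne K p ≃ₗ[ZMod p] KOne L p) (c : ZMod p) (hc : c ≠ 0)
    (a : KOne K p) : smulEquiv Θ c hc a = c • Θ a := rfl

theorem smulEquiv_symm_apply (Θ : KOne K p ≃ₗ[ZMod p] KOne L p) (c : ZMod p) (hc : c ≠ 0)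
    (b : KOne L p) : (smulEquiv Θ c hc).symm b = Θ.symm (c⁻¹ • b) := rfl

/-- **Step (5), packaged.**  An additive equivalence `Φ = n • Θ` (with `n` a nonzero scalar) such
that `Φ` and `Φ.symm` map lines through `[1]` into lines through `[1]`. -/
theorem exists_collineation (Θ : KOne K p ≃ₗ[ZMod p] KOne L p) (hS1 : DepTransfer Θ)
    (hKL_L : KeyProp p L) (hKL_K : KeyProp p K)
    (hpair : ∃ f g : K, f ∉ pth K p ∧ g ∉ adj p f) :
    ∃ (c : ZMod p) (_ : c ≠ 0) (Φ : KOne K p ≃+ KOne L p), (∀ a, Φ a = c • Θ a) ∧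
      LinesTo (fun a => Φ a) ∧ LinesTo (fun b => Φ.symm b) := by
  obtain ⟨n, hn, hnp, h1, h2⟩ := twist_main Θ hS1 hKL_L hKL_K hpair
  exact ⟨(n : ZMod p), natCast_zmod_ne_zero hn hnp,
    smulEquiv Θ (n : ZMod p) (natCast_zmod_ne_zero hn hnp), fun _ => rfl, h1, h2⟩

end Global

end Crest.Agent.S0010.Twist
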