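/-
S0010 (row 9), module TWISTA (PLAN step 4 on the level of `KOne K p`): the rigid
configuration `Rconf` is exactly the union over `n` of (n-twisted line) × (n-twisted line).

Translation to the field: pick representatives (`exists_cl`), use `mem_G_iff`, `cl_mul`,
`cl_div`, `cl_pow`, `cl_eq_cl_iff`.  `a = cl x`, `b = cl y`; `a ≠ 0` means `x ∉ K^p`,
`b ∉ G a` means `y ∉ K^p(x)`.  `u ∉ span {a}` means `u` is not a `K^p`-multiple of a power of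
`x`.  `I - b ∈ G (a - b)` means `I / y ∈ K^p(x / y)`.  `u ∈ tw n a` (with `n = (n : ZMod p)`,
`1 ≤ n < p`) means `u^n = κ (x^n - c)` for representatives.
"=>" is `rigidity`; "<=" is `rigidity_conv` (take `I = n⁻¹ • cl J`) together with
`twist_not_monomial`, `mem_adj_of_pow_mem`.
-/
import Crest.Agent.S0010.Basic
import Crest.Agent.S0010.Rigid
import Crest.Agent.S0010.RigidConv

set_option autoImplicit false
open Crest.NumberTheoryR.MilnorK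

namespace Crest.Agent.S0010lib

variable {K : Type*} [Field K] {p : ℕ} [Fact p.Prime] [CharP K p]

omit [CharP K p] in
/-- Distributivity of the `ZMod p`-action over subtraction on `KOne K p` (stated through the
linear map `lsmul`, since instance search does not find `DistribMulAction` here). -/
private theorem TwistA_smul_sub (n : ZMod p) (a b : KOne K p) : n • (a - b) = n • a - n • b :=
  map_sub (LinearMap.lsmul (ZMod p) (KOne K p) n) a b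

omit [CharP K p] in
private theorem TwistA_smul_zero (n : ZMod p) : n • (0 : KOne K p) = 0 :=
  map_zero (LinearMap.lsmul (ZMod p) (KOne K p) n)

/-- Field-level description of the twisted line. -/
theorem mem_tw_iff {x u : K} (hx : x ∉ K0 K p) (hu : u ≠ 0) {n : ℕ} (hn : 1 ≤ n) (hn' : n < p) :
    cl p u ∈ tw p (n : ZMod p) (cl p x) ↔
      ∃ c ∈ K0 K p, ∃ κ ∈ K0 K p, c ≠ 0 ∧ κ ≠ 0 ∧ u ^ n = κ * (x ^ n - c) := by
  have hx0 : x ≠ 0 := fun h => hx (h ▸ Subfield.zero_mem _)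
  have hxn0 : x ^ n ≠ 0 := pow_ne_zero n hx0
  have hun0 : u ^ n ≠ 0 := pow_ne_zero n hu
  have hxn : x ^ n ∉ K0 K p := pow_not_mem_K0 hx hn hn'
  unfold tw
  rw [Set.mem_ofPred_eq, ← cl_pow, ← cl_pow]
  unfold lineO
  rw [Set.mem_ofPred_eq]
  constructor
  · rintro ⟨x₁, c₁, hx₁, hc₁, hc₁0, h1, h2⟩
    have hx₁0 : x₁ ≠ 0 := fun h => hx₁ (h ▸ Subfield.zero_mem _)
    have he : x₁ / x ^ n ∈ K0 K p := (cl_eq_cl_iff hx₁0 hxn0).1 h1
    have hd0 : x₁ - c₁ ≠ 0 := fun h => hx₁ (by rw [sub_eq_zero.mp h]; exact hc₁)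
    have hκ : u ^ n / (x₁ - c₁) ∈ K0 K p := (cl_eq_cl_iff hun0 hd0).1 h2.symm
    have he0 : x₁ / x ^ n ≠ 0 := div_ne_zero hx₁0 hxn0
    refine ⟨c₁ / (x₁ / x ^ n), div_mem hc₁ he, u ^ n / (x₁ - c₁) * (x₁ / x ^ n), mul_mem hκ he,
      div_ne_zero hc₁0 he0, mul_ne_zero (div_ne_zero hun0 hd0) he0, ?_⟩
    have h3 : x₁ / x ^ n * (x ^ n - c₁ / (x₁ / x ^ n)) = x₁ - c₁ := by
      field_simp
    rw [mul_assoc, h3]
    field_simp
  · rintro ⟨c, hc, κ, hκ, hc0, hκ0, h⟩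
    refine ⟨x ^ n, c, hxn, hc, hc0, rfl, ?_⟩
    rw [h, cl_K0_mul hκ hκ0]

/-- `tw 1 a = ℓ°(a)`. -/
theorem tw_one (a : KOne K p) : tw p 1 a = lineO p a := by
  ext u
  unfold tw
  rw [Set.mem_ofPred_eq, one_smul, one_smul]

theorem mem_Rconf_iff (hfg : FG K p) {a b : KOne K p} (ha : a ≠ 0) (hab : b ∉ G p a)
    (u v : KOne K p) :
    (u, v) ∈ Rconf p a b ↔ ∃ n : ZMod p, n ≠ 0 ∧ u ∈ tw p n a ∧ v ∈ tw p n b := by
  have : NeZero p := ⟨(Fact.out : p.Prime).ne_zero⟩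
  obtain ⟨x, hx0, rfl⟩ := exists_cl (K := K) (p := p) a
  obtain ⟨y, hy0, rfl⟩ := exists_cl (K := K) (p := p) b
  obtain ⟨u₀, hu0, rfl⟩ := exists_cl (K := K) (p := p) u
  obtain ⟨v₀, hv0, rfl⟩ := exists_cl (K := K) (p := p) v
  have hx : x ∉ K0 K p := fun h => ha ((cl_eq_zero_iff hx0).2 h)
  have hy : y ∉ adj p x := fun h => hab ((mem_G_iff hx0 hy0).2 h)
  have hyK : y ∉ K0 K p := fun h => hy (K0_le_adj x h)
  constructor
  · rintro ⟨hu, hus, hv, hvs, I, hI1, hI2⟩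
    simp only at hu hus hv hvs hI2
    obtain ⟨I₀, hI0, rfl⟩ := exists_cl (K := K) (p := p) I
    have hu' : u₀ ∈ adj p x := (mem_G_iff hx0 hu0).1 hu
    have hv' : v₀ ∈ adj p y := (mem_G_iff hy0 hv0).1 hv
    have hux : ∀ j : ℕ, ∀ c ∈ K0 K p, u₀ ≠ c * x ^ j := by
      intro j c hc h
      apply hus
      have hc0 : c ≠ 0 := by
        rintro rfl
        rw [zero_mul] at h
        exact hu0 h
      rw [Submodule.mem_span_singleton]
      refine ⟨(j : ZMod p), ?_⟩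
      rw [h, cl_K0_mul hc hc0, cl_pow]
    have hvy : ∀ j : ℕ, ∀ c ∈ K0 K p, v₀ ≠ c * y ^ j := by
      intro j c hc h
      apply hvs
      have hc0 : c ≠ 0 := by
        rintro rfl
        rw [zero_mul] at h
        exact hv0 h
      rw [Submodule.mem_span_singleton]
      refine ⟨(j : ZMod p), ?_⟩
      rw [h, cl_K0_mul hc hc0, cl_pow]
    have hI1' : I₀ / y ∈ adj p (x / y) := by
      rw [← cl_div hI0 hy0, ← cl_div hx0 hy0] at hI1
      exact (mem_G_iff (div_ne_zero hx0 hy0) (div_ne_zero hI0 hy0)).1 hI1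
    have hI2' : I₀ / v₀ ∈ adj p (u₀ / v₀) := by
      rw [← cl_div hI0 hv0, ← cl_div hu0 hv0] at hI2
      exact (mem_G_iff (div_ne_zero hu0 hv0) (div_ne_zero hI0 hv0)).1 hI2
    obtain ⟨n, hn, hn', c₁, hc₁, c₂, hc₂, κ₁, hκ₁, κ₂, hκ₂, hc₁0, hc₂0, hκ₁0, hκ₂0, e1, e2⟩ :=
      rigidity hfg hx hy hu' hv' hux hvy hI0 hI1' hI2'
    refine ⟨(n : ZMod p), ?_, ?_, ?_⟩
    · rw [Ne, ZMod.natCast_eq_zero_iff]
      intro hdvd
      exact absurd (Nat.le_of_dvd (by omega) hdvd) (by omega)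
    · exact (mem_tw_iff hx hu0 hn hn').2 ⟨c₁, hc₁, κ₁, hκ₁, hc₁0, hκ₁0, e1⟩
    · exact (mem_tw_iff hyK hv0 hn hn').2 ⟨c₂, hc₂, κ₂, hκ₂, hc₂0, hκ₂0, e2⟩
  · rintro ⟨n, hn, hu, hv⟩
    have hnv : ((n.val : ℕ) : ZMod p) = n := ZMod.natCast_zmod_val n
    have hn1 : 1 ≤ n.val := Nat.one_le_iff_ne_zero.2 (by rwa [Ne, ZMod.val_eq_zero])
    have hnp : n.val < p := ZMod.val_lt n
    have hu2 : cl p u₀ ∈ tw p ((n.val : ℕ) : ZMod p) (cl p x) := by rw [hnv]; exact hu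
    have hv2 : cl p v₀ ∈ tw p ((n.val : ℕ) : ZMod p) (cl p y) := by rw [hnv]; exact hv
    obtain ⟨c₁, hc₁, κ₁, hκ₁, hc₁0, hκ₁0, e1⟩ := (mem_tw_iff hx hu0 hn1 hnp).1 hu2
    obtain ⟨c₂, hc₂, κ₂, hκ₂, hc₂0, hκ₂0, e2⟩ := (mem_tw_iff hyK hv0 hn1 hnp).1 hv2
    have hu' : u₀ ∈ adj p x := by
      apply mem_adj_of_pow_mem hn1 hnp
      rw [e1]
      exact mul_mem (K0_le_adj x hκ₁) (sub_mem (pow_mem (self_mem_adj x) _) (K0_le_adj x hc₁))
    have hv' : v₀ ∈ adj p y := by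
      apply mem_adj_of_pow_mem hn1 hnp
      rw [e2]
      exact mul_mem (K0_le_adj y hκ₂) (sub_mem (pow_mem (self_mem_adj y) _) (K0_le_adj y hc₂))
    obtain ⟨J, hJ0, hJ1, hJ2⟩ :=
      rigidity_conv hx hy hn1 hnp hc₁ hc₂ hκ₁ hκ₂ hc₁0 hc₂0 hκ₁0 hκ₂0 e1 e2
    have hsmul : ∀ w : K, n • cl p w = cl p (w ^ n.val) := fun w => by rw [cl_pow, hnv]
    refine ⟨(mem_G_iff hx0 hu0).2 hu', ?_, (mem_G_iff hy0 hv0).2 hv', ?_, n⁻¹ • cl p J, ?_, ?_⟩
    · intro hmem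
      rw [Submodule.mem_span_singleton] at hmem
      obtain ⟨j, hj⟩ := hmem
      rw [← ZMod.natCast_zmod_val j, ← cl_pow] at hj
      have hq : u₀ / x ^ j.val ∈ K0 K p := (cl_eq_cl_iff hu0 (pow_ne_zero _ hx0)).1 hj.symm
      refine twist_not_monomial hx hn1 hnp hc₁ hκ₁ hc₁0 hκ₁0 e1 j.val _ hq ?_
      field_simp
    · intro hmem
      rw [Submodule.mem_span_singleton] at hmem
      obtain ⟨j, hj⟩ := hmem
      rw [← ZMod.natCast_zmod_val j, ← cl_pow] at hj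
      have hq : v₀ / y ^ j.val ∈ K0 K p := (cl_eq_cl_iff hv0 (pow_ne_zero _ hy0)).1 hj.symm
      refine twist_not_monomial hyK hn1 hnp hc₂ hκ₂ hc₂0 hκ₂0 e2 j.val _ hq ?_
      field_simp
    · have h1 : n • (n⁻¹ • cl p J - cl p y) ∈ G p (cl p x - cl p y) := by
        rw [TwistA_smul_sub, smul_smul, mul_inv_cancel₀ hn, one_smul, hsmul y,
          ← cl_div hJ0 (pow_ne_zero _ hy0), ← cl_div hx0 hy0]
        exact (mem_G_iff (div_ne_zero hx0 hy0) (div_ne_zero hJ0 (pow_ne_zero _ hy0))).2 hJ1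
      have h2 := G_smul n⁻¹ h1
      rwa [smul_smul, inv_mul_cancel₀ hn, one_smul] at h2
    · have h1 : n • (n⁻¹ • cl p J - cl p v₀) ∈ G p (cl p u₀ - cl p v₀) := by
        rw [TwistA_smul_sub, smul_smul, mul_inv_cancel₀ hn, one_smul, hsmul v₀,
          ← cl_div hJ0 (pow_ne_zero _ hv0), ← cl_div hu0 hv0]
        exact (mem_G_iff (div_ne_zero hu0 hv0) (div_ne_zero hJ0 (pow_ne_zero _ hv0))).2 hJ2
      have h2 := G_smul n⁻¹ h1
      rwa [smul_smul, inv_mul_cancel₀ hn, one_smul] at h2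

/-- Twisted lines with different twists are disjoint (`twist_unique`). -/
theorem tw_disjoint (hfg : FG K p) {n m : ZMod p} (hn : n ≠ 0) (hm : m ≠ 0) {a u : KOne K p}
    (h1 : u ∈ tw p n a) (h2 : u ∈ tw p m a) : n = m := by
  have : NeZero p := ⟨(Fact.out : p.Prime).ne_zero⟩
  obtain ⟨x, hx0, rfl⟩ := exists_cl (K := K) (p := p) a
  obtain ⟨w, hw0, rfl⟩ := exists_cl (K := K) (p := p) u
  have hx : x ∉ K0 K p := by
    intro hxK
    obtain ⟨x₁, c₁, hx₁, -, -, h, -⟩ := h1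
    have h0 : cl p x = 0 := (cl_eq_zero_iff hx0).2 hxK
    rw [h0, TwistA_smul_zero] at h
    have hx₁0 : x₁ ≠ 0 := fun h' => hx₁ (h' ▸ Subfield.zero_mem _)
    exact hx₁ ((cl_eq_zero_iff hx₁0).1 h)
  have hnv : ((n.val : ℕ) : ZMod p) = n := ZMod.natCast_zmod_val n
  have hmv : ((m.val : ℕ) : ZMod p) = m := ZMod.natCast_zmod_val m
  have hn1 : 1 ≤ n.val := Nat.one_le_iff_ne_zero.2 (by rwa [Ne, ZMod.val_eq_zero])
  have hm1 : 1 ≤ m.val := Nat.one_le_iff_ne_zero.2 (by rwa [Ne, ZMod.val_eq_zero])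
  have h1' : cl p w ∈ tw p ((n.val : ℕ) : ZMod p) (cl p x) := by rw [hnv]; exact h1
  have h2' : cl p w ∈ tw p ((m.val : ℕ) : ZMod p) (cl p x) := by rw [hmv]; exact h2
  obtain ⟨c, hc, κ, hκ, hc0, hκ0, e1⟩ := (mem_tw_iff hx hw0 hn1 (ZMod.val_lt n)).1 h1'
  obtain ⟨c', hc', κ', hκ', hc'0, hκ'0, e2⟩ := (mem_tw_iff hx hw0 hm1 (ZMod.val_lt m)).1 h2'
  have hnm : n.val = m.val :=
    twist_unique hfg hx hn1 (ZMod.val_lt n) hm1 (ZMod.val_lt m) hc hc' hκ hκ' hc0 hc'0 hκ0 hκ'0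
      e1 e2
  rw [← hnv, ← hmv, hnm]

/-- `ℓ°(a)` is nonempty for `a ≠ 0` (the point `[x - 1]`). -/
theorem lineO_nonempty {a : KOne K p} (ha : a ≠ 0) : (lineO p a).Nonempty := by
  obtain ⟨x, hx0, rfl⟩ := exists_cl (K := K) (p := p) a
  have hx : x ∉ K0 K p := fun h => ha ((cl_eq_zero_iff hx0).2 h)
  exact ⟨cl p (x - 1), x, 1, hx, Subfield.one_mem _, one_ne_zero, rfl, rfl⟩

end Crest.Agent.S0010lib
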