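import Mathlib
import Crest.Prelude.Def_MilnorK

/-!
Row 9 (S0010), module UNIQUENESS (helper92).

Two field isomorphisms `α, α' : K ≃+* L` (characteristic `p`) that induce the same map on
`Kˣ/(Kˣ)^p` up to non-zero scalars of `ZMod p` coincide, provided `L ≠ L^p`.
Only Mathlib and the frozen Prelude module `Def_MilnorK` are used.
-/

set_option autoImplicit false
open Polynomial
open Crest.NumberTheoryR.MilnorK

namespace Crest.Agent.S0010.Uniq

variable {p : ℕ}

section Basic
variable {F : Type*} [Field F]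

theorem cls_one : cls F p (1 : Fˣ) = 0 := rfl

theorem cls_mul (u v : Fˣ) : cls F p (u * v) = cls F p u + cls F p v := rfl

theorem cls_pow (u : Fˣ) (n : ℕ) : cls F p (u ^ n) = n • cls F p u := by
  induction n with
  | zero => simp [cls_one]
  | succ n ih => rw [pow_succ, cls_mul, ih, succ_nsmul]

theorem cls_eq_zero_iff (u : Fˣ) : cls F p u = 0 ↔ ∃ w : Fˣ, w ^ p = u := by
  unfold cls
  rw [QuotientAddGroup.eq_zero_iff]
  unfold pMultiples
  rw [AddMonoidHom.mem_range]
  constructor
  · rintro ⟨y, hy⟩
    refine ⟨Additive.toMul y, ?_⟩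
    have := congrArg Additive.toMul hy
    simpa using this
  · rintro ⟨w, hw⟩
    refine ⟨Additive.ofMul w, ?_⟩
    simp [← hw]

end Basic

section Field
variable [Fact p.Prime] {L : Type*} [Field L] [CharP L p]

/-- `w ^ p` as an element of the subfield `L^p`. -/
def pw (w : L) : (frobenius L p).fieldRange := ⟨w ^ p, ⟨w, rfl⟩⟩

@[simp] theorem coe_pw (w : L) : ((pw (p := p) w : (frobenius L p).fieldRange) : L) = w ^ p := rfl

/-- If `v ∉ L^p`, a polynomial over `L^p` of degree `< p` vanishing at `v` is zero. -/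
theorem poly_eq_zero_of_aeval (v : L) (hv : v ∉ (frobenius L p).fieldRange)
    (Q : Polynomial ((frobenius L p).fieldRange)) (hdeg : Q.natDegree < p)
    (hQ : Polynomial.aeval v Q = 0) : Q = 0 := by
  have hp : p.Prime := Fact.out
  set a : (frobenius L p).fieldRange := pw (p := p) v with ha
  have hirr : Irreducible (X ^ p - C a : Polynomial ((frobenius L p).fieldRange)) := by
    refine X_pow_sub_C_irreducible_of_prime hp ?_
    intro b hb
    apply hv
    have h1 : ((b : (frobenius L p).fieldRange) : L) ^ p = v ^ p := by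
      have := congrArg (fun z : (frobenius L p).fieldRange => (z : L)) hb
      simpa [ha] using this
    have h2 : (b : L) = v := frobenius_inj L p h1
    rw [← h2]
    exact b.2
  have hroot : Polynomial.aeval v (X ^ p - C a : Polynomial ((frobenius L p).fieldRange)) = 0 := by
    have h0 : algebraMap ((frobenius L p).fieldRange) L (pw (p := p) v) = v ^ p := rfl
    simp [ha, h0]
  have hmonic : (X ^ p - C a : Polynomial ((frobenius L p).fieldRange)).Monic :=
    monic_X_pow_sub_C a hp.ne_zero
  have hmin := minpoly.eq_of_irreducible_of_monic hirr hroot hmonic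
  by_contra hne
  have hdvd : minpoly ((frobenius L p).fieldRange) v ∣ Q := minpoly.dvd _ v hQ
  have hle := Polynomial.natDegree_le_of_dvd hdvd hne
  rw [← hmin, natDegree_X_pow_sub_C] at hle
  omega

end Field

section Main
variable [Fact p.Prime] {K L : Type*} [Field K] [Field L] [CharP K p] [CharP L p]

omit [CharP K p] [CharP L p] in
/-- Element form of the hypothesis: if `c • [α u] = c' • [α' u]` for all units `u`, then with
`m = (c⁻¹ c').val` every non-zero `v` satisfies `α v = w ^ p * (α' v) ^ m` for some `w ≠ 0`. -/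
theorem exists_pow_mul (α α' : K ≃+* L) (c c' : ZMod p) (hc : c ≠ 0)
    (h : ∀ u : Kˣ, c • cls L p (Units.map α.toRingHom.toMonoidHom u) =
        c' • cls L p (Units.map α'.toRingHom.toMonoidHom u))
    (v : K) (hv : v ≠ 0) :
    ∃ w : L, w ≠ 0 ∧ α v = w ^ p * (α' v) ^ (c⁻¹ * c').val := by
  set e : ZMod p := c⁻¹ * c' with he
  set U : Lˣ := Units.map α.toRingHom.toMonoidHom (Units.mk0 v hv) with hU
  set U' : Lˣ := Units.map α'.toRingHom.toMonoidHom (Units.mk0 v hv) with hU'
  have h1 : cls L p U = e • cls L p U' := by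
    have h0 := congrArg (fun z => c⁻¹ • z) (h (Units.mk0 v hv))
    simp only [smul_smul, inv_mul_cancel₀ hc, one_smul] at h0
    exact h0
  have h2 : e • cls L p U' = e.val • cls L p U' := by
    calc e • cls L p U' = ((e.val : ℕ) : ZMod p) • cls L p U' := by rw [ZMod.natCast_zmod_val]
      _ = e.val • cls L p U' := Nat.cast_smul_eq_nsmul (ZMod p) _ _
  rw [h2, ← cls_pow] at h1
  have h3 : cls L p (U * (U' ^ e.val)⁻¹) = 0 := by
    rw [cls_mul, h1, ← cls_mul, mul_inv_cancel]
    exact cls_one
  obtain ⟨w, hw⟩ := (cls_eq_zero_iff _).1 h3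
  refine ⟨(w : L), w.ne_zero, ?_⟩
  have h4 : U = w ^ p * U' ^ e.val := by
    rw [hw, inv_mul_cancel_right]
  have h5 := congrArg (fun z : Lˣ => (z : L)) h4
  simpa [hU, hU'] using h5

omit [CharP K p] in
/-- **Uniqueness.** Two field isomorphisms inducing the same map on `Kˣ/(Kˣ)^p` up to non-zero
scalars coincide (when `L ≠ L^p`). -/
theorem ringEquiv_unique (hL : ∃ x : L, x ∉ (frobenius L p).fieldRange)
    (α α' : K ≃+* L) (c c' : ZMod p) (hc : c ≠ 0) (hc' : c' ≠ 0)
    (h : ∀ u : Kˣ, c • cls L p (Units.map α.toRingHom.toMonoidHom u) =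
        c' • cls L p (Units.map α'.toRingHom.toMonoidHom u)) : α = α' := by
  have hp : p.Prime := Fact.out
  set m : ℕ := (c⁻¹ * c').val with hm
  have hm0 : m ≠ 0 := by
    rw [hm, Ne, ZMod.val_eq_zero]
    exact mul_ne_zero (inv_ne_zero hc) hc'
  have hmp : m < p := ZMod.val_lt _
  have key : ∀ v : K, v ≠ 0 → ∃ w : L, w ≠ 0 ∧ α v = w ^ p * (α' v) ^ m :=
    exists_pow_mul α α' c c' hc h
  -- the subfield `L^p` contains `0` and `-1`
  have h0mem : (0 : L) ∈ (frobenius L p).fieldRange := Subfield.zero_mem _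
  have h1mem : (-1 : L) ∈ (frobenius L p).fieldRange := Subfield.neg_mem _ (Subfield.one_mem _)
  have hmL : (m : L) ≠ 0 := by
    rw [Ne, CharP.cast_eq_zero_iff L p m]
    intro hdvd
    exact absurd (Nat.le_of_dvd (Nat.pos_of_ne_zero hm0) hdvd) (by omega)
  -- Step B: agreement off `L^p`
  have hB : ∀ v : K, α' v ∉ (frobenius L p).fieldRange → α v = α' v := by
    intro v hv
    have hv0 : v ≠ 0 := by
      intro h'
      apply hv
      rw [h', map_zero]
      exact h0mem
    have hv1 : v + 1 ≠ 0 := by
      intro h'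
      apply hv
      have h'' : v = -1 := eq_neg_of_add_eq_zero_left h'
      rw [h'', map_neg, map_one]
      exact h1mem
    obtain ⟨w, hw0, hw⟩ := key v hv0
    obtain ⟨w', hw'0, hw'⟩ := key (v + 1) hv1
    rw [map_add, map_one, map_add, map_one, hw] at hw'
    -- hw' : w ^ p * α' v ^ m + 1 = w' ^ p * (α' v + 1) ^ m
    set x : L := α' v with hx
    set P : Polynomial ((frobenius L p).fieldRange) :=
      C (pw (p := p) w') * (X + 1) ^ m - C (pw (p := p) w) * X ^ m - 1 with hP
    have hPdeg : P.natDegree < p := by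
      have : P.natDegree ≤ m := by
        rw [hP]
        compute_degree
      omega
    have hPv : Polynomial.aeval x P = 0 := by
      have e1 : algebraMap ((frobenius L p).fieldRange) L (pw (p := p) w') = w' ^ p := rfl
      have e2 : algebraMap ((frobenius L p).fieldRange) L (pw (p := p) w) = w ^ p := rfl
      simp only [hP, map_sub, map_mul, map_pow, map_add, map_one, aeval_C, aeval_X, e1, e2]
      rw [← hw']
      ring
    have hPz := poly_eq_zero_of_aeval x hv P hPdeg hPv
    have hcoeff : ∀ k : ℕ, P.coeff k = pw (p := p) w' * (m.choose k : (frobenius L p).fieldRange)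
        - pw (p := p) w * (if k = m then 1 else 0) - (if k = 0 then 1 else 0) := by
      intro k
      rw [hP]
      simp only [coeff_sub, coeff_C_mul, coeff_X_add_one_pow, coeff_X_pow, coeff_one]
    have e0 := hcoeff 0
    rw [hPz, coeff_zero, if_neg (fun h' : 0 = m => hm0 h'.symm), Nat.choose_zero_right,
      Nat.cast_one, mul_one, mul_zero, sub_zero, if_pos rfl] at e0
    -- e0 : 0 = pw w' - 1
    have hpw' : pw (p := p) w' = 1 := (sub_eq_zero.mp e0.symm)
    have e1 := hcoeff 1
    rw [hPz, coeff_zero, Nat.choose_one_right, if_neg one_ne_zero, sub_zero, hpw', one_mul] at e1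
    -- e1 : 0 = (m : L^p) - pw w * (if 1 = m then 1 else 0)
    by_cases hm1 : 1 = m
    · rw [if_pos hm1, mul_one, ← hm1, Nat.cast_one] at e1
      have hpw : pw (p := p) w = 1 := (sub_eq_zero.mp e1.symm).symm
      have hw1 : w ^ p = 1 := by
        have := congrArg (fun z : (frobenius L p).fieldRange => (z : L)) hpw
        simpa using this
      rw [hw, hw1, ← hm1, one_mul, pow_one]
    · exfalso
      rw [if_neg hm1, mul_zero, sub_zero] at e1
      apply hmL
      have := congrArg (algebraMap ((frobenius L p).fieldRange) L) e1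
      rw [map_zero, map_natCast] at this
      exact this.symm
  -- Step C: agreement on `L^p`
  obtain ⟨x0, hx0⟩ := hL
  have hv0 : α (α'.symm x0) = x0 := by
    have := hB (α'.symm x0) (by simpa using hx0)
    simpa using this
  ext v
  by_cases hv : α' v ∈ (frobenius L p).fieldRange
  · have hsum : α' (v + α'.symm x0) ∉ (frobenius L p).fieldRange := by
      intro hmem
      apply hx0
      have : x0 = α' (v + α'.symm x0) - α' v := by simp
      rw [this]
      exact Subfield.sub_mem _ hmem hv
    have h2 := hB (v + α'.symm x0) hsum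
    rw [map_add, map_add, hv0] at h2
    simpa using h2
  · exact hB v hv

omit [CharP K p] in
/-- The `∃!` of the final statement of S0010 from bare existence (plus `L ≠ L^p`). -/
theorem existsUnique_of_exists (k : Subfield K) (l : Subfield L)
    (Θ : KOne K p ≃ₗ[ZMod p] KOne L p)
    (hL : ∃ x : L, x ∉ (frobenius L p).fieldRange)
    (h : ∃ α : K ≃+* L, k.map α.toRingHom = l ∧
      ∃ c : ZMod p, c ≠ 0 ∧ ∀ u : Kˣ, Θ (cls K p u) =
        c • cls L p (Units.map α.toRingHom.toMonoidHom u)) :
    ∃! α : K ≃+* L, k.map α.toRingHom = l ∧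
      ∃ c : ZMod p, c ≠ 0 ∧ ∀ u : Kˣ, Θ (cls K p u) =
        c • cls L p (Units.map α.toRingHom.toMonoidHom u) := by
  obtain ⟨α, hα1, c, hc, hα2⟩ := h
  refine ⟨α, ⟨hα1, c, hc, hα2⟩, ?_⟩
  rintro α' ⟨-, c', hc', hα'2⟩
  exact ringEquiv_unique hL α' α c' c hc' hc (fun u => by rw [← hα'2 u, ← hα2 u])

end Main

end Crest.Agent.S0010.Uniq
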